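import Mathlib

/-!
# P045R: numerical constants
-/

namespace P045

/-- richness / number of rich steps / uncontrolled last steps, all with the same constant -/
noncomputable def kap : ℝ := Real.exp (-20) / 200

/-- proportion of the uncovered set that must be covered by large lines -/
noncomputable def c3 : ℝ := Real.exp (-21)

/-- seed density for counting families with small uncovered set -/
noncomputable def epsL : ℝ := kap / 100

/-- seed density (relative to `|unc L| / q²`) for detecting large lines -/
noncomputable def c1 : ℝ := c3 / 10 ^ 6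

/-- upper end of the middle range -/
noncomputable def del0 : ℝ := epsL ^ 2 / 1000

theorem kap_pos : 0 < kap := by unfold kap; positivity
theorem c3_pos : 0 < c3 := by unfold c3; positivity
theorem epsL_pos : 0 < epsL := by unfold epsL; have := kap_pos; positivity
theorem c1_pos : 0 < c1 := by unfold c1; have := c3_pos; positivity
theorem del0_pos : 0 < del0 := by unfold del0; have := epsL_pos; positivity

theorem exp_m20_le : Real.exp (-20) ≤ 1 / 1000 := by
  have h : Real.exp (-20) = 1 / Real.exp 20 := by rw [Real.exp_neg, one_div]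
  rw [h]
  apply one_div_le_one_div_of_le (by norm_num)
  have h2 : (2 : ℝ) ≤ Real.exp 1 := by
    have := Real.add_one_le_exp (1 : ℝ)
    linarith
  have h3 : Real.exp 20 = Real.exp 1 ^ 20 := by rw [← Real.exp_nat_mul]; norm_num
  rw [h3]
  calc (1000 : ℝ) ≤ 2 ^ 20 := by norm_num
    _ ≤ Real.exp 1 ^ 20 := pow_le_pow_left₀ (by norm_num) h2 20

theorem kap_le : kap ≤ 1 / 200000 := by
  unfold kap
  have := exp_m20_le
  linarith

theorem c3_le : c3 ≤ Real.exp (-20) / 2 := by
  unfold c3
  have h : Real.exp (-21) = Real.exp (-20) * Real.exp (-1) := by rw [← Real.exp_add]; norm_num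
  rw [h]
  have h2 : Real.exp (-1) ≤ 1 / 2 := by
    rw [Real.exp_neg, ← one_div]
    apply one_div_le_one_div_of_le (by norm_num)
    have := Real.add_one_le_exp (1 : ℝ)
    linarith
  have h3 := Real.exp_pos (-20)
  nlinarith

theorem c3_le' : c3 ≤ 1 / 2000 := by
  have := c3_le
  have := exp_m20_le
  linarith

theorem c1_le : c1 ≤ 1 / 10 ^ 9 := by
  unfold c1
  have := c3_le'
  rw [div_le_iff₀ (by norm_num)]
  norm_num
  linarith

/-- `del0 ≤ c1 / 100`. -/
theorem del0_le_c1 : del0 ≤ c1 / 100 := by
  have hk := kap_le
  have hk0 := kap_pos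
  have h1 : kap ≤ c3 := by
    unfold kap c3
    have h : Real.exp (-21) = Real.exp (-20) * Real.exp (-1) := by rw [← Real.exp_add]; norm_num
    rw [h]
    have h2 : (1 : ℝ) / 3 ≤ Real.exp (-1) := by
      rw [Real.exp_neg, ← one_div]
      apply one_div_le_one_div_of_le (Real.exp_pos 1)
      have := Real.exp_one_lt_d9
      linarith
    have h3 := Real.exp_pos (-20)
    nlinarith
  unfold del0 c1 epsL
  have h2 : (kap / 100) ^ 2 / 1000 ≤ kap * (1 / 200000) / 10 ^ 7 := by
    have : kap ^ 2 ≤ kap * (1 / 200000) := by nlinarith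
    calc (kap / 100) ^ 2 / 1000 = kap ^ 2 / 10 ^ 7 := by ring
      _ ≤ kap * (1 / 200000) / 10 ^ 7 := by
        apply div_le_div_of_nonneg_right this (by norm_num)
  have h3 : kap * (1 / 200000) / 10 ^ 7 ≤ c3 / 10 ^ 6 / 100 := by
    rw [div_div, div_le_div_iff₀ (by norm_num) (by norm_num)]
    nlinarith [c3_pos]
  linarith

theorem del0_le_epsL : del0 ≤ epsL / 4 := by
  unfold del0
  have h1 : epsL ≤ 1 := by
    unfold epsL
    have := kap_le
    linarith
  have := epsL_pos
  nlinarith

theorem del0_lt : del0 ≤ 1 / 1000 := by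
  have := del0_le_c1
  have := c1_le
  linarith

end P045
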