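import Vale.Agent.P045R.Plane
import Vale.Agent.P045.GFam

/-!
# P045R, module STRUCTG: the structure lemma G

Instance of `Vale.Agent.P045.lemmaG_abs` (Lemma G for abstract affine planes).
-/

namespace P045

open Finset
open scoped Classical

theorem affPlane (q : ℕ) [Fact q.Prime] :
    Vale.Agent.P045.AffPlane (Pt q) (Ln q) q (pts (q := q)) where
  card_V := card_Pt
  card_L := by rw [card_Ln]; ring
  card_pts := card_pts
  deg := fun v => by
    have := card_lines_through v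
    convert this
  meet := fun v w hvw => by
    have := card_lines_through_two hvw
    convert this

/-- LEMMA G. -/
theorem structG (C ζ γ : ℝ) (hC : 1 ≤ C) (hζ : 0 < ζ) (hγ : 0 < γ) :
    ∃ B : ℝ, 0 < B ∧ ∃ q₀ : ℕ, ∀ q ≥ q₀, ∀ [Fact q.Prime], ∃ 𝓕 : Finset (Finset (Ln q)),
      (𝓕.card : ℝ) ≤ (q : ℝ) ^ (γ * q) ∧ (∀ D ∈ 𝓕, (D.card : ℝ) ≤ B * q) ∧
      ∀ T : Finset (Ln q), (T.card : ℝ) ≤ C * q → cov T = univ →
        ∃ D ∈ 𝓕, D ⊆ T ∧ ((unc D).card : ℝ) ≤ ζ * (q : ℝ) ^ 2 := by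
  obtain ⟨B, hB, q₀, h⟩ := Vale.Agent.P045.lemmaG_abs C ζ γ hC hζ hγ
  refine ⟨B, hB, q₀, ?_⟩
  intro q hq _
  obtain ⟨𝓕, h1, h2, h3⟩ := h q hq (Pt q) (Ln q) pts (affPlane q)
  refine ⟨𝓕, h1, h2, ?_⟩
  intro T hT hcov
  obtain ⟨D, hD, hDT, hu⟩ := h3 T hT (fun v => by
    have : v ∈ cov T := by rw [hcov]; exact mem_univ v
    rwa [mem_cov] at this)
  refine ⟨D, hD, hDT, ?_⟩
  have : unc D = Vale.Agent.P045.unc pts D := by
    ext v
    rw [mem_unc]
    unfold Vale.Agent.P045.unc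
    rw [mem_filter]
    simp only [mem_univ, true_and]
  rw [this]
  convert hu

end P045
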