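import Vale.Agent.P045R.Var
import Vale.Agent.P045R.StructG
import Vale.Agent.P045R.Consts

/-!
# P045R, module LCOUNT: few sets of `q` lines have a small uncovered set
-/

namespace P045

open Finset
open scoped Classical

/-- The families of `q` lines that leave at most `del0 q²` points uncovered. -/
noncomputable def Lset (q : ℕ) [Fact q.Prime] : Finset (Finset (Ln q)) :=
  univ.filter fun L => L.card = q ∧ ((unc L).card : ℝ) ≤ del0 * (q : ℝ) ^ 2

theorem lc_small {α : Type*} [Fintype α] [DecidableEq α] (k : ℕ) :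
    (univ.filter fun S : Finset α => S.card ≤ k).card ≤ (Fintype.card α + 1) ^ k := by
  induction k with
  | zero =>
    rw [pow_zero, Finset.card_le_one]
    intro a ha b hb
    rw [mem_filter] at ha hb
    rw [Finset.card_eq_zero.1 (Nat.le_zero.1 ha.2), Finset.card_eq_zero.1 (Nat.le_zero.1 hb.2)]
  | succ k ih =>
    have h1 : (univ.filter fun S : Finset α => S.card ≤ k + 1) ⊆
        ((univ.filter fun S : Finset α => S.card ≤ k) ×ˢ (univ : Finset (Option α))).image
          (fun x => x.2.elim x.1 (fun a => insert a x.1)) := by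
      intro S hS
      rw [mem_filter] at hS
      rw [mem_image]
      by_cases h0 : S.card ≤ k
      · exact ⟨(S, none), by simp [h0], rfl⟩
      · have hne : S.Nonempty := by
          rw [← Finset.card_pos]
          omega
        obtain ⟨a, ha⟩ := hne
        refine ⟨(S.erase a, some a), ?_, insert_erase ha⟩
        rw [mem_product, mem_filter]
        refine ⟨⟨mem_univ _, ?_⟩, mem_univ _⟩
        rw [card_erase_of_mem ha]
        omega
    refine (card_le_card h1).trans (card_image_le.trans ?_)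
    rw [card_product, card_univ, Fintype.card_option, pow_succ]
    exact Nat.mul_le_mul_right _ ih

variable {q : ℕ} [Fact q.Prime]

theorem lc_small_Ln (k : ℕ) :
    ((univ.filter fun S : Finset (Ln q) => S.card ≤ k).card : ℝ) ≤ (q : ℝ) ^ (3 * (k : ℝ)) := by
  have h1 := lc_small (α := Ln q) k
  rw [card_Ln] at h1
  have hq : 2 ≤ q := (Fact.out : q.Prime).two_le
  have h2 : (q + 1) * q + 1 ≤ q ^ 3 := by nlinarith [sq_nonneg (q : ℤ), Nat.mul_le_mul hq hq]
  have h3 : (univ.filter fun S : Finset (Ln q) => S.card ≤ k).card ≤ q ^ (3 * k) := by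
    rw [pow_mul]
    refine le_trans ?_ (Nat.pow_le_pow_left h2 k)
    convert h1
  calc ((univ.filter fun S : Finset (Ln q) => S.card ≤ k).card : ℝ) ≤ ((q ^ (3 * k) : ℕ) : ℝ) := by
        exact_mod_cast h3
    _ = (q : ℝ) ^ (3 * (k : ℝ)) := by
        have : (3 * (k : ℝ)) = ((3 * k : ℕ) : ℝ) := by push_cast; ring
        rw [this, Real.rpow_natCast]
        push_cast
        rfl

/-- excess multiplicity -/
theorem lc_excess {L : Finset (Ln q)} (hL : L.card = q) :
    ∑ v ∈ cov L, ((mlt L v : ℝ) - 1) = (unc L).card := by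
  have h1 : ∑ v ∈ cov L, (mlt L v : ℝ) = (q : ℝ) ^ 2 := by
    have h2 : ∑ v ∈ cov L, mlt L v = L.card * q := by
      rw [← sum_mlt]
      refine sum_subset (subset_univ _) fun v _ hv => ?_
      rw [← mlt_pos] at hv
      omega
    rw [hL] at h2
    have : ((∑ v ∈ cov L, mlt L v : ℕ) : ℝ) = ((q * q : ℕ) : ℝ) := by rw [h2]
    push_cast at this
    rw [this]; ring
  have h3 : ((unc L).card : ℝ) + (cov L).card = (q : ℝ) ^ 2 := by
    exact_mod_cast card_unc_add_card_cov L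
  rw [sum_sub_distrib, h1, sum_const, nsmul_eq_mul, mul_one]
  linarith

theorem lc_mlt_mono {S L : Finset (Ln q)} (h : S ⊆ L) (v : Pt q) : mlt S v ≤ mlt L v := by
  unfold mlt
  exact card_le_card (filter_subset_filter _ h)

theorem lc_mlt_sdiff {S L : Finset (Ln q)} (h : S ⊆ L) (v : Pt q) :
    mlt (L \ S) v + mlt S v = mlt L v := by
  unfold mlt
  rw [← card_union_of_disjoint]
  · congr 1
    ext l
    simp only [mem_union, mem_filter, mem_sdiff]
    constructor
    · rintro (⟨⟨h1, h2⟩, h3⟩ | ⟨h1, h2⟩)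
      · exact ⟨h1, h3⟩
      · exact ⟨h h1, h2⟩
    · rintro ⟨h1, h2⟩
      by_cases h3 : l ∈ S
      · exact Or.inr ⟨h3, h2⟩
      · exact Or.inl ⟨⟨h1, h3⟩, h2⟩
  · rw [disjoint_left]
    intro l h1 h2
    rw [mem_filter, mem_sdiff] at h1
    rw [mem_filter] at h2
    exact h1.1.2 h2.1

/-- the covered set of a subfamily -/
theorem lc_cov {S L : Finset (Ln q)} (h : S ⊆ L) (hL : L.card = q) :
    (S.card : ℝ) * q - (unc L).card ≤ (cov S).card := by
  have h1 : ∑ v ∈ cov S, (mlt S v : ℝ) = (S.card : ℝ) * q := by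
    have h2 : ∑ v ∈ cov S, mlt S v = S.card * q := by
      rw [← sum_mlt]
      refine sum_subset (subset_univ _) fun v _ hv => ?_
      rw [← mlt_pos] at hv
      omega
    exact_mod_cast h2
  have h3 : ∑ v ∈ cov S, ((mlt S v : ℝ) - 1) ≤ ∑ v ∈ cov L, ((mlt L v : ℝ) - 1) := by
    calc ∑ v ∈ cov S, ((mlt S v : ℝ) - 1) ≤ ∑ v ∈ cov S, ((mlt L v : ℝ) - 1) := by
          refine sum_le_sum fun v _ => ?_
          have := lc_mlt_mono h v
          have : (mlt S v : ℝ) ≤ mlt L v := by exact_mod_cast this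
          linarith
      _ ≤ ∑ v ∈ cov L, ((mlt L v : ℝ) - 1) := by
          refine sum_le_sum_of_subset_of_nonneg (cov_mono h) fun v hv _ => ?_
          have h4 : 1 ≤ mlt L v := mlt_pos.2 hv
          have : (1 : ℝ) ≤ mlt L v := by exact_mod_cast h4
          linarith
  rw [lc_excess hL, sum_sub_distrib, h1, sum_const, nsmul_eq_mul, mul_one] at h3
  linarith

theorem lc_inter_sum {S L : Finset (Ln q)} (h : S ⊆ L) (hL : L.card = q) :
    ∑ l ∈ L \ S, ((pts l ∩ cov S).card : ℝ) ≤ (unc L).card := by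
  have h1 : ∑ l ∈ L \ S, (pts l ∩ cov S).card = ∑ v ∈ cov S, mlt (L \ S) v := by
    unfold mlt
    simp only [card_filter]
    rw [sum_comm]
    refine sum_congr rfl fun l _ => ?_
    rw [← card_filter, inter_comm, filter_mem_eq_inter]
  have h2 : ∑ l ∈ L \ S, ((pts l ∩ cov S).card : ℝ) = ∑ v ∈ cov S, (mlt (L \ S) v : ℝ) := by
    exact_mod_cast h1
  rw [h2, ← lc_excess hL]
  calc ∑ v ∈ cov S, (mlt (L \ S) v : ℝ) ≤ ∑ v ∈ cov S, ((mlt L v : ℝ) - 1) := by
        refine sum_le_sum fun v hv => ?_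
        have h3 := lc_mlt_sdiff h v
        have h4 : 1 ≤ mlt S v := mlt_pos.2 hv
        have h5 : (mlt (L \ S) v : ℝ) + mlt S v = mlt L v := by exact_mod_cast h3
        have h6 : (1 : ℝ) ≤ mlt S v := by exact_mod_cast h4
        linarith
    _ ≤ ∑ v ∈ cov L, ((mlt L v : ℝ) - 1) := by
        refine sum_le_sum_of_subset_of_nonneg (cov_mono h) fun v hv _ => ?_
        have h4 : 1 ≤ mlt L v := mlt_pos.2 hv
        have : (1 : ℝ) ≤ mlt L v := by exact_mod_cast h4
        linarith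

/-- the decomposition -/
theorem lc_decomp {L : Finset (Ln q)} (hL : L ∈ Lset q) (hq : 8 / epsL < q) :
    ∃ S B A : Finset (Ln q), S.card ≤ ⌊epsL * q⌋₊ ∧ (B.card : ℝ) ≤ epsL / 125 * q ∧
      A ⊆ Atyp (epsL / 2) (unc S) ∧ L = S ∪ B ∪ A := by
  unfold Lset at hL
  rw [mem_filter] at hL
  obtain ⟨-, hL1, hL2⟩ := hL
  have hε := epsL_pos
  have hε1 : epsL ≤ 1 / 1000 := by
    unfold epsL
    have := kap_le
    linarith
  have hq0 : (0 : ℝ) < q := lt_trans (by positivity) hq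
  have hd : del0 = epsL ^ 2 / 1000 := rfl
  obtain ⟨S, hSL, hSc⟩ := exists_subset_card_eq (s := L) (n := ⌊epsL * q⌋₊) (by
    rw [hL1]
    have h1 : (⌊epsL * q⌋₊ : ℝ) ≤ epsL * q := Nat.floor_le (by positivity)
    have h2 : (⌊epsL * q⌋₊ : ℝ) ≤ q := h1.trans (by nlinarith)
    exact_mod_cast h2)
  have hSr : epsL * q - 1 < (S.card : ℝ) := by
    rw [hSc]
    exact Nat.sub_one_lt_floor _
  have hcov := lc_cov hSL hL1
  have hsum := lc_inter_sum hSL hL1
  let B := (L \ S).filter fun l => epsL / 8 * q < ((pts l ∩ cov S).card : ℝ)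
  have hB : (B.card : ℝ) ≤ epsL / 125 * q := by
    have h1 : (B.card : ℝ) * (epsL / 8 * q) ≤ (unc L).card := by
      calc (B.card : ℝ) * (epsL / 8 * q) = ∑ l ∈ B, (epsL / 8 * q) := by
            rw [sum_const, nsmul_eq_mul]
        _ ≤ ∑ l ∈ B, ((pts l ∩ cov S).card : ℝ) :=
            sum_le_sum fun l hl => (mem_filter.1 hl).2.le
        _ ≤ ∑ l ∈ L \ S, ((pts l ∩ cov S).card : ℝ) :=
            sum_le_sum_of_subset_of_nonneg (filter_subset _ _) fun _ _ _ => Nat.cast_nonneg _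
        _ ≤ _ := hsum
    have h2 : (B.card : ℝ) * (epsL / 8 * q) ≤ (epsL / 125 * q) * (epsL / 8 * q) := by
      refine h1.trans (hL2.trans (le_of_eq ?_))
      rw [hd]; ring
    exact le_of_mul_le_mul_right h2 (by positivity)
  refine ⟨S, B, (L \ S) \ B, hSc.le, hB, ?_, ?_⟩
  · intro l hl
    rw [mem_sdiff] at hl
    have h3 : ((pts l ∩ cov S).card : ℝ) ≤ epsL / 8 * q := by
      by_contra h4
      push Not at h4
      exact hl.2 (mem_filter.2 ⟨hl.1, h4⟩)
    rw [mem_Atyp]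
    have h5 : ((pts l ∩ unc S).card : ℝ) + ((pts l ∩ cov S).card : ℝ) = q := by
      have : (pts l ∩ unc S).card + (pts l ∩ cov S).card = q := by
        rw [unc_eq_compl, ← sdiff_eq_inter_compl, card_sdiff_add_card_inter, card_pts]
      exact_mod_cast this
    have h6 : ((unc S).card : ℝ) + (cov S).card = (q : ℝ) ^ 2 := by
      exact_mod_cast card_unc_add_card_cov S
    have h7 : ((unc S).card : ℝ) / q ≤ q - epsL * q + 1 + del0 * q := by
      rw [div_le_iff₀ hq0]
      nlinarith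
    refine lt_of_lt_of_le ?_ (le_abs_self _)
    have h8 : 8 < epsL * q := by
      rw [div_lt_iff₀ hε] at hq
      linarith
    have h9 : del0 * q ≤ epsL * q / 1000000 := by
      rw [hd]
      have : epsL ^ 2 / 1000 * q = (epsL * q / 1000) * epsL := by ring
      rw [this]
      calc (epsL * q / 1000) * epsL ≤ (epsL * q / 1000) * (1 / 1000) :=
            mul_le_mul_of_nonneg_left hε1 (by positivity)
        _ = _ := by ring
    linarith
  · ext l
    simp only [mem_union, mem_sdiff]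
    constructor
    · intro hl
      by_cases h1 : l ∈ S
      · exact Or.inl (Or.inl h1)
      · by_cases h2 : l ∈ B
        · exact Or.inl (Or.inr h2)
        · exact Or.inr ⟨⟨hl, h1⟩, h2⟩
    · rintro ((h1 | h1) | h1)
      · exact hSL h1
      · exact (mem_sdiff.1 (mem_filter.1 h1).1).1
      · exact h1.1.1

theorem lc_count (hq : 8 / epsL < q) :
    ((Lset q).card : ℝ) ≤ (q : ℝ) ^ (3 * (epsL * q)) * ((q : ℝ) ^ (3 * (epsL / 125 * q)) *
      2 ^ (4 * q / epsL ^ 2)) := by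
  have hε := epsL_pos
  have hq0 : (0 : ℝ) < q := lt_trans (by positivity) hq
  have hq1 : (1 : ℝ) ≤ q := by exact_mod_cast (Fact.out : q.Prime).one_le
  let 𝓢 : Finset (Finset (Ln q)) := univ.filter fun S => S.card ≤ ⌊epsL * q⌋₊
  let 𝓑 : Finset (Finset (Ln q)) := univ.filter fun S => S.card ≤ ⌊epsL / 125 * q⌋₊
  have h1 : Lset q ⊆ 𝓢.biUnion fun S =>
      (𝓑 ×ˢ (Atyp (epsL / 2) (unc S)).powerset).image fun x => S ∪ x.1 ∪ x.2 := by
    intro L hL
    obtain ⟨S, B, A, hS, hB, hA, hLe⟩ := lc_decomp hL hq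
    rw [mem_biUnion]
    refine ⟨S, mem_filter.2 ⟨mem_univ _, hS⟩, ?_⟩
    rw [mem_image]
    refine ⟨(B, A), ?_, hLe.symm⟩
    rw [mem_product, mem_powerset]
    exact ⟨mem_filter.2 ⟨mem_univ _, Nat.le_floor hB⟩, hA⟩
  have h2 : ∀ S ∈ 𝓢, ((((𝓑 ×ˢ (Atyp (epsL / 2) (unc S)).powerset).image
      fun x => S ∪ x.1 ∪ x.2).card : ℕ) : ℝ) ≤ (𝓑.card : ℝ) * 2 ^ (4 * q / epsL ^ 2) := by
    intro S _
    have h3 : (((𝓑 ×ˢ (Atyp (epsL / 2) (unc S)).powerset).image
      fun x => S ∪ x.1 ∪ x.2).card) ≤ 𝓑.card * 2 ^ (Atyp (epsL / 2) (unc S)).card := by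
      refine card_image_le.trans ?_
      rw [card_product, card_powerset]
    have h4 : ((2 ^ (Atyp (epsL / 2) (unc S)).card : ℕ) : ℝ) ≤ 2 ^ (4 * q / epsL ^ 2) := by
      push_cast
      rw [← Real.rpow_natCast]
      refine Real.rpow_le_rpow_of_exponent_le one_le_two ?_
      have h5 := card_Atyp_le' (q := q) (η := epsL / 2) (by positivity) (unc S)
      refine h5.trans (le_of_eq ?_)
      field_simp
      norm_num
    calc _ ≤ ((𝓑.card * 2 ^ (Atyp (epsL / 2) (unc S)).card : ℕ) : ℝ) := by exact_mod_cast h3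
      _ = (𝓑.card : ℝ) * ((2 ^ (Atyp (epsL / 2) (unc S)).card : ℕ) : ℝ) := by push_cast; ring
      _ ≤ _ := mul_le_mul_of_nonneg_left h4 (Nat.cast_nonneg _)
  have h𝓢 : (𝓢.card : ℝ) ≤ (q : ℝ) ^ (3 * (epsL * q)) := by
    refine (lc_small_Ln _).trans (Real.rpow_le_rpow_of_exponent_le hq1 ?_)
    have := Nat.floor_le (show 0 ≤ epsL * q by positivity)
    linarith
  have h𝓑 : (𝓑.card : ℝ) ≤ (q : ℝ) ^ (3 * (epsL / 125 * q)) := by
    refine (lc_small_Ln _).trans (Real.rpow_le_rpow_of_exponent_le hq1 ?_)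
    have := Nat.floor_le (show 0 ≤ epsL / 125 * q by positivity)
    linarith
  calc ((Lset q).card : ℝ) ≤ ((𝓢.biUnion fun S =>
      (𝓑 ×ˢ (Atyp (epsL / 2) (unc S)).powerset).image fun x => S ∪ x.1 ∪ x.2).card : ℝ) := by
        exact_mod_cast card_le_card h1
    _ ≤ ((∑ S ∈ 𝓢, ((𝓑 ×ˢ (Atyp (epsL / 2) (unc S)).powerset).image
          fun x => S ∪ x.1 ∪ x.2).card : ℕ) : ℝ) := by exact_mod_cast card_biUnion_le
    _ ≤ ∑ S ∈ 𝓢, ((𝓑.card : ℝ) * 2 ^ (4 * q / epsL ^ 2)) := by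
        push_cast
        exact sum_le_sum h2
    _ = (𝓢.card : ℝ) * ((𝓑.card : ℝ) * 2 ^ (4 * q / epsL ^ 2)) := by
        rw [sum_const, nsmul_eq_mul]
    _ ≤ _ := by
        refine mul_le_mul h𝓢 ?_ (by positivity) (by positivity)
        exact mul_le_mul_of_nonneg_right h𝓑 (by positivity)

/-- Let `N = |unc L|`; `∑_v (mlt L v - 1)⁺ = N`.  Take any `S ⊆ L` with `|S| = ⌊epsL q⌋`:
`|cov S| ≥ |S| q - N`, and `∑_{l ∈ L \ S} |l ∩ cov S| ≤ ∑_v (mlt L v - 1)⁺ = N`, so at most
`8 del0 q / epsL` lines of `L \ S` have more than `(epsL/8) q` points in `cov S`; all other lines of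
`L \ S` are in `Atyp (epsL/2) (unc S)`, which has at most `4 q / epsL²` elements (`card_Atyp_le'`).
So `L = S ∪ Bad ∪ A`, `A ⊆ Atyp (epsL/2) (unc S)`: the number is at most
`q^(3 epsL q) · q^(3 · 8 del0 q / epsL) · 2^(4 q / epsL²)` (`card_small_subsets`), and
`8 del0 / epsL ≤ epsL = kap / 100`. -/
theorem lcount : ∃ q₀ : ℕ, ∀ q ≥ q₀, ∀ [Fact q.Prime],
    ((Lset q).card : ℝ) ≤ (q : ℝ) ^ (kap * q / 10) := by
  have hε := epsL_pos
  have hk := kap_pos
  have hke : epsL = kap / 100 := rfl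
  obtain ⟨q₁, hq₁⟩ := exists_nat_gt (8 / epsL)
  obtain ⟨q₂, hq₂⟩ := exists_nat_gt (Real.exp (4 / epsL ^ 2 / (kap / 20)))
  refine ⟨max q₁ q₂, ?_⟩
  intro q hq _
  have h1 : 8 / epsL < q := hq₁.trans_le (by exact_mod_cast (le_max_left _ _).trans hq)
  have h2 : Real.exp (4 / epsL ^ 2 / (kap / 20)) < q :=
    hq₂.trans_le (by exact_mod_cast (le_max_right _ _).trans hq)
  have hq0 : (0 : ℝ) < q := lt_trans (by positivity) h1
  have h3 : 4 / epsL ^ 2 / (kap / 20) < Real.log q := by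
    rw [Real.lt_log_iff_exp_lt hq0]
    exact h2
  refine (lc_count h1).trans ?_
  have h4 : (2 : ℝ) ^ (4 * q / epsL ^ 2) ≤ (q : ℝ) ^ (kap / 20 * q) := by
    rw [Real.rpow_def_of_pos two_pos, Real.rpow_def_of_pos hq0]
    apply Real.exp_le_exp.2
    have h5 : Real.log 2 ≤ 1 := by
      have := Real.log_two_lt_d9
      linarith
    have h6 : 4 / epsL ^ 2 ≤ Real.log q * (kap / 20) := by
      rw [div_lt_iff₀ (by positivity)] at h3
      exact h3.le
    calc Real.log 2 * (4 * q / epsL ^ 2) ≤ 1 * (4 * q / epsL ^ 2) :=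
          mul_le_mul_of_nonneg_right h5 (by positivity)
      _ = 4 / epsL ^ 2 * q := by ring
      _ ≤ Real.log q * (kap / 20) * q := mul_le_mul_of_nonneg_right h6 hq0.le
      _ = _ := by ring
  calc (q : ℝ) ^ (3 * (epsL * q)) * ((q : ℝ) ^ (3 * (epsL / 125 * q)) * 2 ^ (4 * q / epsL ^ 2))
      ≤ (q : ℝ) ^ (3 * (epsL * q)) * ((q : ℝ) ^ (3 * (epsL / 125 * q)) *
          (q : ℝ) ^ (kap / 20 * q)) := by gcongr
    _ = (q : ℝ) ^ (3 * (epsL * q) + (3 * (epsL / 125 * q) + kap / 20 * q)) := by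
        rw [Real.rpow_add hq0, Real.rpow_add hq0]
    _ ≤ (q : ℝ) ^ (kap * q / 10) := by
        refine Real.rpow_le_rpow_of_exponent_le
          (by exact_mod_cast (Fact.out : q.Prime).one_le) ?_
        rw [hke]
        have : 0 < kap * q := by positivity
        nlinarith

end P045
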