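import Vale.Agent.P045R.P1Defs

/-!
# P045R, module P1RCH: the total number of rich gadgets
-/

namespace P045

open Finset
open scoped Classical

theorem p1rch_rpow {q : ℕ} (hq : 0 < q) : (q : ℝ) ^ (3 / 2 : ℝ) = q * Real.sqrt q := by
  have h : (0 : ℝ) < q := by exact_mod_cast hq
  rw [Real.sqrt_eq_rpow, show (3 / 2 : ℝ) = 1 + 1 / 2 by norm_num, Real.rpow_add h,
    Real.rpow_one]

/-- By `var_le` at most `q³ / (kap² N) ≤ 4 q^{3/2} / kap²` lines are rich (`N = |unc L|`); then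
`sum_card_GadSet_meet`. -/
theorem sum_Rset_le : ∃ q₀ : ℕ, ∀ q ≥ q₀, ∀ [Fact q.Prime], ∀ (L : Finset (Ln q))
    (J : Finset (Dir q)) (c : Dir q → Gd q), Mid q (unc L).card →
    ∑ f ∈ Jᶜ, (((GadSet q f) ∩ (Rset L J c f)).card : ℝ) ≤
      80 / kap ^ 2 * Real.sqrt q * gadN q := by
  refine ⟨18, ?_⟩
  intro q hq18 hqp L J c hmid
  have hqpos : 0 < q := by omega
  have hq : (0 : ℝ) < q := by exact_mod_cast hqpos
  have hsq : 0 < Real.sqrt q := Real.sqrt_pos.2 hq
  have hss : Real.sqrt q * Real.sqrt q = q := Real.mul_self_sqrt hq.le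
  have hk := kap_pos
  set N : ℝ := ((unc L).card : ℝ) with hN
  have hN1 : q * Real.sqrt q / 4 < N := by
    have := hmid.1
    rwa [p1rch_rpow hqpos] at this
  have hNpos : 0 < N := lt_trans (by positivity) hN1
  set U := UJ L J c with hU
  set Λ : Finset (Ln q) := univ.filter fun k =>
    (U.card : ℝ) / q + kap * N / q < ((pts k ∩ U).card : ℝ) with hΛ
  have hUN : (U.card : ℝ) ≤ N := by
    rw [hU, hN]
    exact_mod_cast card_le_card sdiff_subset
  have hΛcard : (Λ.card : ℝ) ≤ 4 * (q * Real.sqrt q) / kap ^ 2 := by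
    have h1 : (Λ.card : ℝ) * (kap * N / q) ^ 2 ≤ q * U.card := by
      calc (Λ.card : ℝ) * (kap * N / q) ^ 2 = ∑ l ∈ Λ, (kap * N / q) ^ 2 := by
            rw [sum_const, nsmul_eq_mul]
        _ ≤ ∑ l ∈ Λ, (((pts l ∩ U).card : ℝ) - (U.card : ℝ) / q) ^ 2 := by
            refine sum_le_sum fun l hl => ?_
            rw [hΛ, mem_filter] at hl
            refine pow_le_pow_left₀ (by positivity) ?_ 2
            linarith [hl.2]
        _ ≤ ∑ l : Ln q, (((pts l ∩ U).card : ℝ) - (U.card : ℝ) / q) ^ 2 :=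
            sum_le_sum_of_subset_of_nonneg (subset_univ _) fun _ _ _ => sq_nonneg _
        _ ≤ q * U.card := var_le U
    have h2 : (Λ.card : ℝ) * (kap * N / q) ^ 2 ≤ q * N :=
      h1.trans (mul_le_mul_of_nonneg_left hUN hq.le)
    have h3 : (Λ.card : ℝ) * (kap ^ 2 * N) ≤ (q : ℝ) ^ 3 := by
      have h4 : (Λ.card : ℝ) * (kap * N / q) ^ 2 = (Λ.card : ℝ) * (kap ^ 2 * N) * N / q ^ 2 := by
        field_simp
      rw [h4, div_le_iff₀ (by positivity)] at h2
      have h5 : (Λ.card : ℝ) * (kap ^ 2 * N) * N ≤ (q : ℝ) ^ 3 * N := by nlinarith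
      exact le_of_mul_le_mul_right h5 hNpos
    rw [le_div_iff₀ (by positivity)]
    have h6 : (Λ.card : ℝ) * kap ^ 2 * (q * Real.sqrt q / 4) ≤ (q : ℝ) ^ 3 := by
      calc (Λ.card : ℝ) * kap ^ 2 * (q * Real.sqrt q / 4) ≤ (Λ.card : ℝ) * kap ^ 2 * N :=
            mul_le_mul_of_nonneg_left hN1.le (by positivity)
        _ = (Λ.card : ℝ) * (kap ^ 2 * N) := by ring
        _ ≤ _ := h3
    have h7 : (q : ℝ) ^ 3 = (4 * (q * Real.sqrt q)) * (q * Real.sqrt q / 4) := by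
      have : (4 * (q * Real.sqrt q)) * (q * Real.sqrt q / 4) =
          (q : ℝ) ^ 2 * (Real.sqrt q * Real.sqrt q) := by ring
      rw [this, hss]
      ring
    rw [h7] at h6
    exact le_of_mul_le_mul_right h6 (by positivity)
  have hsub : ∀ f : Dir q, (GadSet q f) ∩ (Rset L J c f) ⊆
      (GadSet q f).filter fun g => ∃ k ∈ gl f g, k ∈ Λ := by
    intro f g hg
    rw [mem_inter] at hg
    rw [mem_filter]
    refine ⟨hg.1, ?_⟩
    have h2 := hg.2
    unfold Rset at h2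
    rw [mem_filter] at h2
    obtain ⟨k, hk1, hk2⟩ := h2.2
    refine ⟨k, hk1, ?_⟩
    rw [hΛ, mem_filter]
    exact ⟨mem_univ _, hk2⟩
  calc ∑ f ∈ Jᶜ, (((GadSet q f) ∩ (Rset L J c f)).card : ℝ)
      ≤ ∑ f : Dir q, (((GadSet q f) ∩ (Rset L J c f)).card : ℝ) :=
        sum_le_sum_of_subset_of_nonneg (subset_univ _) fun _ _ _ => Nat.cast_nonneg _
    _ ≤ ∑ f : Dir q, (((GadSet q f).filter fun g => ∃ k ∈ gl f g, k ∈ Λ).card : ℝ) :=
        sum_le_sum fun f _ => by exact_mod_cast card_le_card (hsub f)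
    _ ≤ 20 * Λ.card / q * gadN q := sum_card_GadSet_meet hq18 Λ
    _ ≤ 80 / kap ^ 2 * Real.sqrt q * gadN q := by
        refine mul_le_mul_of_nonneg_right ?_ (Nat.cast_nonneg _)
        rw [div_le_iff₀ hq]
        calc 20 * (Λ.card : ℝ) ≤ 20 * (4 * (q * Real.sqrt q) / kap ^ 2) :=
              mul_le_mul_of_nonneg_left hΛcard (by norm_num)
          _ = 80 / kap ^ 2 * Real.sqrt q * q := by ring

end P045
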