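import Vale.Agent.P045R.P1Det
import Vale.Agent.P045R.P1Rch
import Vale.Agent.P045R.LCount

/-!
# P045R, module BAD1: few configurations of the uniform model violate P1
-/

namespace P045

open Finset
open scoped Classical

/-- numerical comparison for the union bound -/
theorem bad1_num (C : ℝ) (hC : 0 ≤ C) (κ : ℝ) (hκ : 0 < κ) : ∃ q₀ : ℕ, ∀ q ≥ q₀,
    (1 + C) ^ (q + 1) * (q : ℝ) ^ (1 / 2 : ℝ) ≤ (q : ℝ) ^ (3 / 20 * κ * q) := by
  have hK : 0 < ((1 + C) ^ 2) ^ (20 / κ) := by positivity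
  refine ⟨⌈((1 + C) ^ 2) ^ (20 / κ)⌉₊ + ⌈5 / κ⌉₊ + 1, fun q hq => ?_⟩
  have hq1 : 1 ≤ q := by omega
  have hqR1 : (1:ℝ) ≤ q := by exact_mod_cast hq1
  have hqR : (0:ℝ) < q := by linarith
  have h1 : ((1 + C) ^ 2) ^ (20 / κ) ≤ (q:ℝ) := by
    refine (Nat.le_ceil _).trans ?_
    exact_mod_cast (by omega : ⌈((1 + C) ^ 2) ^ (20 / κ)⌉₊ ≤ q)
  have h2 : 5 / κ ≤ (q:ℝ) := by
    refine (Nat.le_ceil _).trans ?_
    exact_mod_cast (by omega : ⌈5 / κ⌉₊ ≤ q)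
  have h3 : (1 + C) ^ 2 ≤ (q:ℝ) ^ (κ / 20) := by
    calc (1 + C) ^ 2 = (((1 + C) ^ 2) ^ (20 / κ)) ^ (κ / 20) := by
          rw [← Real.rpow_mul (by positivity)]
          have : 20 / κ * (κ / 20) = 1 := by field_simp
          rw [this, Real.rpow_one]
      _ ≤ (q:ℝ) ^ (κ / 20) := Real.rpow_le_rpow hK.le h1 (by positivity)
  have h4 : (1 + C) ^ (q + 1) ≤ (q:ℝ) ^ (κ / 20 * q) := by
    calc (1 + C) ^ (q + 1) ≤ (1 + C) ^ (2 * q) :=
          pow_le_pow_right₀ (by linarith) (by omega)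
      _ = ((1 + C) ^ 2) ^ q := by rw [pow_mul]
      _ ≤ ((q:ℝ) ^ (κ / 20)) ^ q := pow_le_pow_left₀ (by positivity) h3 q
      _ = (q:ℝ) ^ (κ / 20 * q) := by
          rw [← Real.rpow_natCast, ← Real.rpow_mul hqR.le]
  have h5 : 5 ≤ κ * q := by
    rw [div_le_iff₀ hκ] at h2
    linarith
  calc (1 + C) ^ (q + 1) * (q : ℝ) ^ (1 / 2 : ℝ) ≤ (q:ℝ) ^ (κ / 20 * q) * (q:ℝ) ^ (1 / 2 : ℝ) :=
        mul_le_mul_of_nonneg_right h4 (by positivity)
    _ = (q:ℝ) ^ (κ / 20 * q + 1 / 2) := by rw [← Real.rpow_add hqR]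
    _ ≤ _ := by
        apply Real.rpow_le_rpow_of_exponent_le hqR1
        linarith

/-- the real computation -/
theorem bad1_real {q m N : ℕ} {κ X A : ℝ} (hκ : 0 < κ) (hq : 1 ≤ q) (hA : 0 ≤ A) (hX : 0 ≤ X)
    (hN : N ≤ q + 1) (hm : κ * q ≤ m + 1)
    (key : X * Real.sqrt q ^ m ≤
      (1 + (Real.sqrt q - 1) * (80 / κ ^ 2 * Real.sqrt q) / (κ * q)) ^ N * A) :
    X ≤ (1 + 80 / κ ^ 3) ^ (q + 1) * (q : ℝ) ^ (1 / 2 : ℝ) * (q : ℝ) ^ (-(κ * q / 2)) * A := by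
  have hqR1 : (1:ℝ) ≤ q := by exact_mod_cast hq
  have hqR : (0:ℝ) < q := by linarith
  have hs1 : 1 ≤ Real.sqrt q := by
    rw [show (1:ℝ) = Real.sqrt 1 by simp]
    exact Real.sqrt_le_sqrt hqR1
  have hsq : Real.sqrt q * Real.sqrt q = q := Real.mul_self_sqrt hqR.le
  have h2 : (Real.sqrt q - 1) * (80 / κ ^ 2 * Real.sqrt q) / (κ * q) ≤ 80 / κ ^ 3 := by
    calc (Real.sqrt q - 1) * (80 / κ ^ 2 * Real.sqrt q) / (κ * q)
        ≤ Real.sqrt q * (80 / κ ^ 2 * Real.sqrt q) / (κ * q) := by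
          gcongr
          linarith
      _ = (Real.sqrt q * Real.sqrt q) * (80 / κ ^ 2) / (κ * q) := by ring
      _ = 80 / κ ^ 3 := by
          rw [hsq]
          field_simp
  have h3 : 0 ≤ (Real.sqrt q - 1) * (80 / κ ^ 2 * Real.sqrt q) / (κ * q) := by
    have : 0 ≤ Real.sqrt q - 1 := by linarith
    positivity
  have h1 : (1 + (Real.sqrt q - 1) * (80 / κ ^ 2 * Real.sqrt q) / (κ * q)) ^ N ≤
      (1 + 80 / κ ^ 3) ^ (q + 1) := by
    calc (1 + (Real.sqrt q - 1) * (80 / κ ^ 2 * Real.sqrt q) / (κ * q)) ^ N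
        ≤ (1 + 80 / κ ^ 3) ^ N := pow_le_pow_left₀ (by linarith) (by linarith) _
      _ ≤ (1 + 80 / κ ^ 3) ^ (q + 1) := by
        apply pow_le_pow_right₀ _ hN
        have : 0 < 80 / κ ^ 3 := by positivity
        linarith
  have hz : (q:ℝ) ^ (κ * q / 2) ≤ (q:ℝ) ^ (1 / 2 : ℝ) * Real.sqrt q ^ m := by
    have h5 : Real.sqrt q ^ m = (q:ℝ) ^ ((m : ℝ) / 2) := by
      rw [Real.sqrt_eq_rpow, ← Real.rpow_natCast, ← Real.rpow_mul hqR.le]
      congr 1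
      ring
    rw [h5, ← Real.rpow_add hqR]
    apply Real.rpow_le_rpow_of_exponent_le hqR1
    linarith
  have hX1 : X * Real.sqrt q ^ m ≤ (1 + 80 / κ ^ 3) ^ (q + 1) * A :=
    key.trans (mul_le_mul_of_nonneg_right h1 hA)
  have hneg : (q:ℝ) ^ (κ * q / 2) * (q : ℝ) ^ (-(κ * q / 2)) = 1 := by
    rw [← Real.rpow_add hqR]
    simp
  have hn0 : 0 ≤ (q : ℝ) ^ (-(κ * q / 2)) := by positivity
  have hh0 : 0 ≤ (q : ℝ) ^ (1 / 2 : ℝ) := by positivity
  calc X = X * ((q:ℝ) ^ (κ * q / 2) * (q : ℝ) ^ (-(κ * q / 2))) := by rw [hneg, mul_one]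
    _ = X * ((q:ℝ) ^ (κ * q / 2)) * (q : ℝ) ^ (-(κ * q / 2)) := by ring
    _ ≤ X * ((q:ℝ) ^ (1 / 2 : ℝ) * Real.sqrt q ^ m) * (q : ℝ) ^ (-(κ * q / 2)) :=
        mul_le_mul_of_nonneg_right (mul_le_mul_of_nonneg_left hz hX) hn0
    _ = (X * Real.sqrt q ^ m) * ((q:ℝ) ^ (1 / 2 : ℝ) * (q : ℝ) ^ (-(κ * q / 2))) := by ring
    _ ≤ ((1 + 80 / κ ^ 3) ^ (q + 1) * A) * ((q:ℝ) ^ (1 / 2 : ℝ) * (q : ℝ) ^ (-(κ * q / 2))) :=
        mul_le_mul_of_nonneg_right hX1 (mul_nonneg hh0 hn0)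
    _ = _ := by ring

theorem card_All_pow (q : ℕ) [Fact q.Prime] : ((All q).card : ℝ) = (gadN q : ℝ) ^ (q + 1) := by
  unfold All
  rw [Fintype.card_piFinset, prod_congr rfl (fun f _ => card_GadSet f), prod_const, card_univ,
    card_Dir]
  push_cast
  rfl

/-- `rich_count` for arbitrary decidability instances -/
theorem rich_count' {ι α : Type*} [Fintype ι] [hdi : DecidableEq ι] [hda : DecidableEq α]
    (A : ι → Finset α) (G : ℕ)
    (hA : ∀ i, (A i).card = G) (Rch : Finset ι → (ι → α) → ι → Finset α)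
    (hdep : ∀ J g g', (∀ j ∈ J, g j = g' j) → Rch J g = Rch J g')
    (ρ r z : ℝ) (hρ0 : 0 ≤ ρ)
    (hρ : ∀ J, ∀ g ∈ Fintype.piFinset A, ∑ i ∈ Jᶜ, (((A i) ∩ (Rch J g i)).card : ℝ) ≤ ρ * G)
    (hr : 0 < r) (hz : 1 ≤ z) (N m : ℕ) (hN : (N : ℝ) + r ≤ Fintype.card ι) :
    (((Fintype.piFinset A).filter fun g => ¬ Path Rch g N m ∅).card : ℝ) * z ^ m ≤
      (1 + (z - 1) * ρ / r) ^ N * (G : ℝ) ^ (Fintype.card ι) := by
  have h1 : hdi = fun a b => Classical.propDecidable (a = b) := Subsingleton.elim _ _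
  have h2 : hda = fun a b => Classical.propDecidable (a = b) := Subsingleton.elim _ _
  subst h1
  subst h2
  exact rich_count A G hA Rch hdep ρ r z hρ0 hρ hr hz N m hN

/-- the bound for one family of lines -/
theorem bad1_one {q : ℕ} [Fact q.Prime] (L : Finset (Ln q)) (hq : 1 ≤ q)
    (hR : ∀ (J : Finset (Dir q)) (c : Dir q → Gd q),
      ∑ f ∈ Jᶜ, (((GadSet q f) ∩ (Rset L J c f)).card : ℝ) ≤
      80 / kap ^ 2 * Real.sqrt q * gadN q) :
    ((((All q).filter fun c => ¬ Path (Rset L) c (nSt q) (mSt q) ∅).card : ℕ) : ℝ) ≤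
      (1 + 80 / kap ^ 3) ^ (q + 1) * (q : ℝ) ^ (1 / 2 : ℝ) * (q : ℝ) ^ (-(kap * q / 2)) *
        ((All q).card : ℝ) := by
  have hκ := kap_pos
  have hκ1 := kap_le
  have hqR1 : (1:ℝ) ≤ q := by exact_mod_cast hq
  have hqR : (0:ℝ) < q := by linarith
  have hs1 : 1 ≤ Real.sqrt q := by
    rw [show (1:ℝ) = Real.sqrt 1 by simp]
    exact Real.sqrt_le_sqrt hqR1
  have hceil : ⌈kap * q⌉₊ ≤ q + 1 := by
    rw [Nat.ceil_le]
    push_cast
    nlinarith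
  have hN : ((nSt q : ℕ) : ℝ) + kap * q ≤ Fintype.card (Dir q) := by
    rw [card_Dir]
    unfold nSt
    rw [Nat.cast_sub hceil]
    have := Nat.le_ceil (kap * q)
    push_cast
    linarith
  have key := rich_count' (GadSet q) (gadN q) (fun f => card_GadSet f) (Rset L)
    (Rset_dep L) (80 / kap ^ 2 * Real.sqrt q) (kap * q) (Real.sqrt q) (by positivity)
    (fun J g _ => hR J g) (by positivity) hs1 (nSt q) (mSt q) hN
  rw [card_Dir, ← card_All_pow] at key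
  refine bad1_real hκ hq (Nat.cast_nonneg _) (Nat.cast_nonneg _) ?_ ?_ key
  · unfold nSt; omega
  · unfold mSt
    exact (Nat.lt_floor_add_one _).le

/-- Union bound over `L ∈ Lset q` (`lcount`), `p1det` and `rich_count` with `A = GadSet q`,
`G = gadN q`, `ρ = 80 √q / kap²`, `r = kap q`, `z = √q`, `N = nSt q`, `m = mSt q`:
`q^(kap q / 10) · (1 + C)^(q+1) / z^(kap q - 1) ≤ q^(-kap q / 4)`. -/
theorem card_bad1_le : ∃ q₀ : ℕ, ∀ q ≥ q₀, ∀ [Fact q.Prime],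
    ((((All q).filter fun c => ¬ P1p c).card : ℕ) : ℝ) ≤
      (q : ℝ) ^ (-(kap * q / 4)) * ((All q).card : ℝ) := by
  obtain ⟨q₁, h1⟩ := p1det
  obtain ⟨q₂, h2⟩ := sum_Rset_le
  obtain ⟨q₃, h3⟩ := lcount
  obtain ⟨q₄, h4⟩ := bad1_num (80 / kap ^ 3) (by have := kap_pos; positivity) kap kap_pos
  refine ⟨q₁ + q₂ + q₃ + q₄ + 1, fun q hq _ => ?_⟩
  have hq1 : 1 ≤ q := by omega
  have hqR1 : (1:ℝ) ≤ q := by exact_mod_cast hq1
  have hqR : (0:ℝ) < q := by linarith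
  have hsub : ((All q).filter fun c => ¬ P1p c) ⊆
      ((Lset q).filter fun L => Mid q (unc L).card).biUnion fun L =>
        (All q).filter fun c => ¬ Path (Rset L) c (nSt q) (mSt q) ∅ := by
    intro c hc
    rw [mem_filter] at hc
    obtain ⟨hcA, hcP⟩ := hc
    unfold P1p at hcP
    push Not at hcP
    obtain ⟨L, hLc, hM, hU, hlt⟩ := hcP
    rw [mem_biUnion]
    refine ⟨L, ?_, ?_⟩
    · rw [mem_filter]
      refine ⟨?_, hM⟩
      unfold Lset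
      rw [mem_filter]
      exact ⟨mem_univ _, hLc, hM.2⟩
    · rw [mem_filter]
      refine ⟨hcA, fun hp => ?_⟩
      exact absurd (h1 q (by omega) L c hcA hLc hM hU hp) (not_le.2 hlt)
  have hcard : ((((All q).filter fun c => ¬ P1p c).card : ℕ) : ℝ) ≤
      ∑ L ∈ (Lset q).filter (fun L => Mid q (unc L).card),
        ((1 + 80 / kap ^ 3) ^ (q + 1) * (q : ℝ) ^ (1 / 2 : ℝ) * (q : ℝ) ^ (-(kap * q / 2)) *
        ((All q).card : ℝ)) := by
    calc ((((All q).filter fun c => ¬ P1p c).card : ℕ) : ℝ) ≤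
        ((∑ L ∈ (Lset q).filter (fun L => Mid q (unc L).card),
          ((All q).filter fun c => ¬ Path (Rset L) c (nSt q) (mSt q) ∅).card : ℕ) : ℝ) := by
          exact_mod_cast (card_le_card hsub).trans card_biUnion_le
      _ = ∑ L ∈ (Lset q).filter (fun L => Mid q (unc L).card),
          ((((All q).filter fun c => ¬ Path (Rset L) c (nSt q) (mSt q) ∅).card : ℕ) : ℝ) := by
          push_cast; rfl
      _ ≤ _ := by
          refine sum_le_sum fun L hL => ?_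
          rw [mem_filter] at hL
          exact bad1_one L hq1 (fun J c => h2 q (by omega) L J c hL.2)
  rw [sum_const, nsmul_eq_mul] at hcard
  have hl : ((((Lset q).filter (fun L => Mid q (unc L).card)).card : ℕ) : ℝ) ≤
      (q : ℝ) ^ (kap * q / 10) :=
    (Nat.cast_le.2 (card_le_card (filter_subset _ _))).trans (h3 q (by omega))
  have h4' := h4 q (by omega)
  refine hcard.trans ?_
  have hA0 : (0:ℝ) ≤ ((All q).card : ℝ) := by positivity
  calc ((((Lset q).filter (fun L => Mid q (unc L).card)).card : ℕ) : ℝ) *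
      ((1 + 80 / kap ^ 3) ^ (q + 1) * (q : ℝ) ^ (1 / 2 : ℝ) * (q : ℝ) ^ (-(kap * q / 2)) *
        ((All q).card : ℝ))
      ≤ (q : ℝ) ^ (kap * q / 10) * ((q : ℝ) ^ (3 / 20 * kap * q) * (q : ℝ) ^ (-(kap * q / 2)) *
        ((All q).card : ℝ)) := by
        have := kap_pos
        gcongr
    _ = (q : ℝ) ^ (-(kap * q / 4)) * ((All q).card : ℝ) := by
        rw [← mul_assoc, ← mul_assoc, ← Real.rpow_add hqR, ← Real.rpow_add hqR]
        congr 2
        ring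

end P045
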