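import Vale.Agent.P045R.Dens
import Vale.Agent.P045R.Bad1

/-!
# P045R, module B1: probability that P1 fails
-/

namespace P045

open Finset
open scoped Classical

private theorem b1_num {K κ : ℝ} (hK : 0 < K) (hκ : 0 < κ) : ∃ q₀ : ℕ, ∀ q : ℕ, q ≥ q₀ → 1 ≤ q →
    K ^ (q + 1) * (q : ℝ) ^ (-(κ * q / 4)) ≤ 1 / 20 := by
  refine ⟨⌈(20 * (1 + K) ^ 2) ^ (4 / κ)⌉₊ + 1, fun q hq hq1 => ?_⟩
  have hqR1 : (1 : ℝ) ≤ q := by exact_mod_cast hq1
  have hqR : (0 : ℝ) < q := by linarith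
  have hb : 0 < 20 * (1 + K) ^ 2 := by positivity
  have h1 : (20 * (1 + K) ^ 2) ^ (4 / κ) ≤ (q : ℝ) := by
    refine (Nat.le_ceil _).trans ?_
    exact_mod_cast (by omega : ⌈(20 * (1 + K) ^ 2) ^ (4 / κ)⌉₊ ≤ q)
  have h2 : 20 * (1 + K) ^ 2 ≤ (q : ℝ) ^ (κ / 4) := by
    calc 20 * (1 + K) ^ 2 = ((20 * (1 + K) ^ 2) ^ (4 / κ)) ^ (κ / 4) := by
          rw [← Real.rpow_mul hb.le]
          have : 4 / κ * (κ / 4) = 1 := by field_simp
          rw [this, Real.rpow_one]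
      _ ≤ (q : ℝ) ^ (κ / 4) := Real.rpow_le_rpow (by positivity) h1 (by positivity)
  have h3 : K ^ (q + 1) ≤ ((1 + K) ^ 2) ^ q := by
    calc K ^ (q + 1) ≤ (1 + K) ^ (q + 1) := pow_le_pow_left₀ hK.le (by linarith) _
      _ ≤ (1 + K) ^ (2 * q) := pow_le_pow_right₀ (by linarith) (by omega)
      _ = ((1 + K) ^ 2) ^ q := by rw [pow_mul]
  have h4 : (20 * (1 + K) ^ 2) ^ q ≤ (q : ℝ) ^ (κ * q / 4) := by
    calc (20 * (1 + K) ^ 2) ^ q ≤ ((q : ℝ) ^ (κ / 4)) ^ q := pow_le_pow_left₀ hb.le h2 q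
      _ = (q : ℝ) ^ (κ * q / 4) := by
          rw [← Real.rpow_natCast, ← Real.rpow_mul hqR.le]
          congr 1
          ring
  have h5 : (20 : ℝ) * ((1 + K) ^ 2) ^ q ≤ (20 * (1 + K) ^ 2) ^ q := by
    rw [mul_pow]
    refine mul_le_mul_of_nonneg_right ?_ (by positivity)
    calc (20 : ℝ) = 20 ^ 1 := (pow_one _).symm
      _ ≤ 20 ^ q := pow_le_pow_right₀ (by norm_num) hq1
  have hz : (q : ℝ) ^ (κ * q / 4) * (q : ℝ) ^ (-(κ * q / 4)) = 1 := by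
    rw [← Real.rpow_add hqR]
    simp
  have hn0 : 0 ≤ (q : ℝ) ^ (-(κ * q / 4)) := by positivity
  have h6 : 20 * (K ^ (q + 1) * (q : ℝ) ^ (-(κ * q / 4))) ≤ 1 := by
    calc 20 * (K ^ (q + 1) * (q : ℝ) ^ (-(κ * q / 4)))
        = (20 * K ^ (q + 1)) * (q : ℝ) ^ (-(κ * q / 4)) := by ring
      _ ≤ (q : ℝ) ^ (κ * q / 4) * (q : ℝ) ^ (-(κ * q / 4)) := by
          refine mul_le_mul_of_nonneg_right ?_ hn0
          exact ((mul_le_mul_of_nonneg_left h3 (by norm_num)).trans h5).trans h4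
      _ = 1 := hz
  linarith

/-- Module B1.  From `card_bad1_le` and `dens`. -/
theorem bad1 : ∃ q₀ : ℕ, ∀ q ≥ q₀, ∀ [Fact q.Prime],
    Enu (q := q) (fun c => ind (¬ P1p c)) ≤ 1 / 20 := by
  obtain ⟨K, hK, q₁, h1⟩ := dens
  obtain ⟨q₂, h2⟩ := card_bad1_le
  obtain ⟨q₃, h3⟩ := b1_num hK kap_pos
  refine ⟨q₁ + q₂ + q₃ + 1, fun q hq _ => ?_⟩
  have e1 := h1 q (by omega) (fun c => ind (¬ P1p c)) (fun c => ind_nonneg _)
  have e2 := h2 q (by omega)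
  have e3 := h3 q (by omega) (by omega)
  have e4 : ∑ c ∈ All q, ind (¬ P1p c) = ((((All q).filter fun c => ¬ P1p c).card : ℕ) : ℝ) := by
    rw [Finset.natCast_card_filter]
    refine sum_congr rfl fun c _ => ?_
    unfold ind
    split_ifs <;> rfl
  rw [e4] at e1
  rcases (Nat.eq_zero_or_pos (All q).card) with h0 | h0
  · rw [h0] at e1
    simp only [Nat.cast_zero, div_zero, zero_mul] at e1
    linarith
  · have hA : (0 : ℝ) < ((All q).card : ℝ) := by exact_mod_cast h0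
    calc Enu (q := q) (fun c => ind (¬ P1p c)) ≤ _ := e1
      _ ≤ K ^ (q + 1) / ((All q).card : ℝ) *
          ((q : ℝ) ^ (-(kap * q / 4)) * ((All q).card : ℝ)) :=
          mul_le_mul_of_nonneg_left e2 (by positivity)
      _ = K ^ (q + 1) * (q : ℝ) ^ (-(kap * q / 4)) := by field_simp
      _ ≤ 1 / 20 := e3

end P045
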