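import Vale.Agent.P045R.Events

/-!
# P045R, module BCARD: many admissible 9-tuples
-/

namespace P045

open Finset
open scoped Classical

section
variable {q : ℕ} [Fact q.Prime]

/-- The possible accidents of a 9-tuple. -/
def BBad (c : Dir q → Gd q) (f : Dir q) (k k' : Fin 9) (x : Option (Bool × Fin 9))
    (β : Fin 9 → Pt q) : Prop :=
  k ≠ k' ∧ ((x = none ∧ β k = β k') ∨ ∃ s i, x = some (s, i) ∧ i ≠ k ∧ i ≠ k' ∧
    meet (thr ((c f).2 (s, k)) (β k)) (ml (c f) (s, i)) =
        meet (thr ((c f).2 (s, k')) (β k')) (ml (c f) (s, i)))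

theorem bcard_determined (c : Dir q → Gd q) (hc : Sep c) (f : Dir q) (s : Bool) (k' i : Fin 9)
    (hi : i ≠ k') (y y' : Pt q) (hy : y ∈ pts (lf f (c f))) (hy' : y' ∈ pts (lf f (c f)))
    (h : meet (thr ((c f).2 (s, k')) y) (ml (c f) (s, i)) =
      meet (thr ((c f).2 (s, k')) y') (ml (c f) (s, i))) : y = y' := by
  have hG := mem_GadSet.1 (mem_All.1 hc.mem f)
  obtain ⟨-, -, hinj, hne⟩ := hG
  have hdir : (c f).2 (s, k') ≠ (c f).2 (s, i) := by
    intro hh
    have := hinj hh
    simp only [Prod.mk.injEq, true_and] at this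
    exact hi this.symm
  have h1 := (meet_spec (l := thr ((c f).2 (s, k')) y) (k := ml (c f) (s, i)) hdir).1
  have h2 := (meet_spec (l := thr ((c f).2 (s, k')) y') (k := ml (c f) (s, i)) hdir).1
  rw [← h] at h2
  have e1 := mem_pts_iff_thr.1 h1
  have e2 := mem_pts_iff_thr.1 h2
  have e3 : thr ((c f).2 (s, k')) y = thr ((c f).2 (s, k')) y' := by
    rw [e1, e2]
    rfl
  have hl : thr ((c f).2 (s, k')) y ≠ lf f (c f) := by
    intro hh
    exact hne (s, k') (congrArg Prod.fst hh)
  refine eq_of_mem_pts hl (mem_pts_thr _ _) hy ?_ hy'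
  rw [e3]
  exact mem_pts_thr _ _

theorem bcard_bad (c : Dir q → Gd q) (hc : Sep c) (f : Dir q) (k k' : Fin 9)
    (x : Option (Bool × Fin 9)) :
    ((Fintype.piFinset fun k => Valid c f k).filter (BBad c f k k' x)).card ≤ q ^ 8 := by
  have hcard : (Fintype.piFinset fun _ : {j : Fin 9 // j ≠ k'} => pts (lf f (c f))).card
      = q ^ 8 := by
    rw [Fintype.card_piFinset, prod_const, card_univ, card_pts]
    congr 1
    rw [Fintype.card_subtype_compl]
    simp
  rw [← hcard]
  refine card_le_card_of_injOn (fun β => fun j : {j : Fin 9 // j ≠ k'} => β j) ?_ ?_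
  · intro β hβ
    rw [mem_coe, mem_filter, Fintype.mem_piFinset] at hβ
    rw [mem_coe, Fintype.mem_piFinset]
    intro j
    exact (mem_filter.1 (hβ.1 j)).1
  · intro β hβ β' hβ' hh
    rw [mem_coe, mem_filter, Fintype.mem_piFinset] at hβ hβ'
    have hoff : ∀ j, j ≠ k' → β j = β' j := fun j hj => congrFun hh ⟨j, hj⟩
    have hv : ∀ j, β j ∈ pts (lf f (c f)) := fun j => (mem_filter.1 (hβ.1 j)).1
    have hv' : ∀ j, β' j ∈ pts (lf f (c f)) := fun j => (mem_filter.1 (hβ'.1 j)).1
    obtain ⟨hkk, hb⟩ := hβ.2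
    obtain ⟨-, hb'⟩ := hβ'.2
    have hk : β k = β' k := hoff k hkk
    have hlast : β k' = β' k' := by
      rcases hb with ⟨hx, hb⟩ | ⟨s, i, hx, hik, hik', hb⟩
      · rcases hb' with ⟨-, hb'⟩ | ⟨s', i', hx', -⟩
        · rw [← hb, hk, hb']
        · rw [hx] at hx'
          exact absurd hx' (by simp)
      · rcases hb' with ⟨hx', -⟩ | ⟨s', i', hx', -, -, hb'⟩
        · rw [hx] at hx'
          exact absurd hx' (by simp)
        · rw [hx] at hx'
          simp only [Option.some.injEq, Prod.mk.injEq] at hx'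
          obtain ⟨rfl, rfl⟩ := hx'
          refine bcard_determined c hc f s k' i hik' _ _ (hv k') (hv' k') ?_
          rw [← hb, hk, hb']
    funext j
    by_cases hj : j = k'
    · rw [hj, hlast]
    · exact hoff j hj

theorem bcard_main (c : Dir q → Gd q) (hc : Sep c) (f : Dir q) :
    ∏ k, (Valid c f k).card ≤ (Bset c f).card + 1539 * q ^ 8 := by
  have hcov : (Fintype.piFinset fun k => Valid c f k) ⊆ Bset c f ∪
      (univ : Finset ((Fin 9 × Fin 9) × Option (Bool × Fin 9))).biUnion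
        (fun x => (Fintype.piFinset fun k => Valid c f k).filter (BBad c f x.1.1 x.1.2 x.2)) := by
    intro β hβ
    rw [mem_union]
    by_cases hB : β ∈ Bset c f
    · exact Or.inl hB
    · right
      by_contra hcon
      apply hB
      have hno : ∀ k k' x, ¬ BBad c f k k' x β := by
        intro k k' x hbad
        apply hcon
        rw [mem_biUnion]
        refine ⟨((k, k'), x), by simp only [mem_univ], ?_⟩
        rw [mem_filter]
        exact ⟨hβ, hbad⟩
      unfold Bset
      rw [mem_filter]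
      refine ⟨mem_univ _, fun k => (Fintype.mem_piFinset.1 hβ) k, ?_, ?_⟩
      · intro k k' hkk
        by_contra hne
        exact hno k k' none ⟨hne, Or.inl ⟨rfl, hkk⟩⟩
      · intro s k k' i hkk hik hik' hm
        exact hno k k' (some (s, i)) ⟨hkk, Or.inr ⟨s, i, rfl, hik, hik', hm⟩⟩
  have h1 := card_le_card hcov
  rw [Fintype.card_piFinset] at h1
  have h2 : ((univ : Finset ((Fin 9 × Fin 9) × Option (Bool × Fin 9))).biUnion
        (fun x => (Fintype.piFinset fun k => Valid c f k).filter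
          (BBad c f x.1.1 x.1.2 x.2))).card ≤ 1539 * q ^ 8 := by
    refine (card_biUnion_le).trans ?_
    refine (sum_le_sum (fun x _ => bcard_bad c hc f x.1.1 x.1.2 x.2)).trans ?_
    rw [sum_const, card_univ, smul_eq_mul]
    refine Nat.mul_le_mul_right _ ?_
    simp [Fintype.card_prod, Fintype.card_option]
  have h3 := card_union_le (Bset c f) ((univ : Finset ((Fin 9 × Fin 9) ×
      Option (Bool × Fin 9))).biUnion (fun x => (Fintype.piFinset fun k => Valid c f k).filter
          (BBad c f x.1.1 x.1.2 x.2)))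
  linarith

end

/-- Module BCARD.  Greedy choice of 9 different points, each new one avoids the previous ones and, for
every `s, i` and previous `k`, the only point for which the two planted points on `m_{f,s,i}` coincide
(`q` large). -/
theorem card_Bset_ge (a : ℝ) (ha : 0 < a) : ∃ a' > 0, ∃ q₀ : ℕ, ∀ q ≥ q₀, ∀ [Fact q.Prime],
    ∀ c : Dir q → Gd q, Sep c → (∀ f k, a * q ≤ ((Valid c f k).card : ℝ)) →
      ∀ f, a' * (q : ℝ) ^ 9 ≤ ((Bset c f).card : ℝ) := by
  refine ⟨a ^ 9 / 2, by positivity, ⌈3078 / a ^ 9⌉₊, ?_⟩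
  intro q hq _ c hc hv f
  have h1 : (3078 : ℝ) / a ^ 9 ≤ q := (Nat.le_ceil _).trans (by exact_mod_cast hq)
  have ha9 : (0 : ℝ) < a ^ 9 := by positivity
  rw [div_le_iff₀ ha9] at h1
  have h2 := bcard_main c hc f
  have h3 : ((∏ k, (Valid c f k).card : ℕ) : ℝ) ≤ (Bset c f).card + 1539 * (q : ℝ) ^ 8 := by
    exact_mod_cast h2
  have h4 : (a * q) ^ 9 ≤ ((∏ k, (Valid c f k).card : ℕ) : ℝ) := by
    push_cast
    have : ∏ _k : Fin 9, (a * (q : ℝ)) ≤ ∏ k : Fin 9, ((Valid c f k).card : ℝ) :=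
      prod_le_prod (fun _ _ => by positivity) (fun k _ => hv f k)
    simpa using this
  have h5 : (a * (q : ℝ)) ^ 9 = a ^ 9 * q * q ^ 8 := by ring
  have hq8 : (0 : ℝ) ≤ (q : ℝ) ^ 8 := by positivity
  have h6 : 3078 * (q : ℝ) ^ 8 ≤ (q * a ^ 9) * q ^ 8 := mul_le_mul_of_nonneg_right h1 hq8
  nlinarith

end P045
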