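import Vale.Agent.P045R.Hit
import Vale.Agent.P045R.LCount

/-!
# P045R, module BAD2: probability that P2 fails
-/

namespace P045

open Finset
open scoped Classical

section
variable {q : ℕ} [Fact q.Prime]

theorem bad2_card_gl (f : Dir q) (g : Gd q) : (gl f g).card ≤ 19 := by
  unfold gl
  refine (card_insert_le _ _).trans ?_
  have h : (univ.image (ml g)).card ≤ 18 := by
    refine card_image_le.trans ?_
    simp
  omega

/-- the number of special lines in `Λ` is at most 19 times the number of gadgets meeting `Λ` -/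
theorem bad2_card_Rl_inter (c : Dir q → Gd q) (Λ : Finset (Ln q)) :
    (Rl c ∩ Λ).card ≤ 19 * hits c Λ := by
  have h1 : Rl c ∩ Λ ⊆
      (univ.filter fun f => ∃ k ∈ gl f (c f), k ∈ Λ).biUnion fun f => gl f (c f) := by
    intro k hk
    rw [mem_inter, Rl, mem_biUnion] at hk
    obtain ⟨⟨f, -, hf⟩, hk2⟩ := hk
    rw [mem_biUnion]
    exact ⟨f, by rw [mem_filter]; exact ⟨mem_univ _, k, hf, hk2⟩, hf⟩
  calc (Rl c ∩ Λ).card ≤ _ := card_le_card h1
    _ ≤ ∑ f ∈ univ.filter fun f => ∃ k ∈ gl f (c f), k ∈ Λ, (gl f (c f)).card := card_biUnion_le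
    _ ≤ ∑ f ∈ univ.filter fun f => ∃ k ∈ gl f (c f), k ∈ Λ, 19 :=
        sum_le_sum fun f _ => bad2_card_gl f (c f)
    _ = 19 * hits c Λ := by
        rw [sum_const, smul_eq_mul, mul_comm]
        rfl

end

/-- numerical comparison for the union bound -/
theorem bad2_num (C : ℝ) (hC : 0 < C) : ∃ q₀ : ℕ, ∀ q ≥ q₀, ∀ N : ℕ,
    (q : ℝ) ^ (3 / 2 : ℝ) / 4 < N →
    (q : ℝ) ^ (3 * ((⌊2 * c1 * N / q⌋₊ : ℕ) : ℝ)) *
      (C ^ ⌈c3 * N / (76 * q)⌉₊ / (⌈c3 * N / (76 * q)⌉₊).factorial) ≤ (q : ℝ) ^ (-4 : ℝ) := by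
  have hc3 := c3_pos
  have hc1 := c1_pos
  have he := Real.exp_pos 1
  have hK1 : 0 < 304 * Real.exp 1 * C / c3 := by positivity
  have hK2 : 0 < 4800 / c3 := by positivity
  refine ⟨⌈(304 * Real.exp 1 * C / c3) ^ (6 : ℕ)⌉₊ + ⌈(4800 / c3) ^ 2⌉₊ + 1, fun q hq N hN => ?_⟩
  have hq1 : 1 ≤ q := by omega
  have hqR1 : (1 : ℝ) ≤ q := by exact_mod_cast hq1
  have hqR : (0 : ℝ) < q := by linarith
  have ha : (304 * Real.exp 1 * C / c3) ^ (6 : ℕ) ≤ (q : ℝ) := by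
    refine (Nat.le_ceil _).trans ?_
    exact_mod_cast (by omega : ⌈(304 * Real.exp 1 * C / c3) ^ (6 : ℕ)⌉₊ ≤ q)
  have hb : (4800 / c3) ^ 2 ≤ (q : ℝ) := by
    refine (Nat.le_ceil _).trans ?_
    exact_mod_cast (by omega : ⌈(4800 / c3) ^ 2⌉₊ ≤ q)
  have hsq : (q : ℝ) ^ (3 / 2 : ℝ) = q * (q : ℝ) ^ (1 / 2 : ℝ) := by
    rw [show (3 / 2 : ℝ) = 1 + 1 / 2 by norm_num, Real.rpow_add hqR, Real.rpow_one]
  set r : ℝ := (q : ℝ) ^ (1 / 2 : ℝ) with hr
  have hr0 : 0 < r := by positivity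
  set t : ℝ := c3 * N / q with ht
  have htr : c3 * r / 4 ≤ t := by
    rw [ht, le_div_iff₀ hqR]
    rw [hsq] at hN
    have : c3 * (q * r / 4) ≤ c3 * N := mul_le_mul_of_nonneg_left hN.le hc3.le
    linarith
  have ht0 : 0 < t := lt_of_lt_of_le (by positivity) htr
  set m : ℕ := ⌈c3 * N / (76 * q)⌉₊ with hm
  have hmt : t / 76 ≤ (m : ℝ) := by
    refine le_trans (le_of_eq ?_) (Nat.le_ceil _)
    rw [ht]
    field_simp
  have hm0 : (0 : ℝ) < m := lt_of_lt_of_le (by positivity) hmt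
  have hst : ((⌊2 * c1 * N / q⌋₊ : ℕ) : ℝ) ≤ 2 / 10 ^ 6 * t := by
    refine (Nat.floor_le (by positivity)).trans (le_of_eq ?_)
    rw [ht]
    unfold c1
    ring
  have hfac : C ^ m / (m.factorial : ℝ) ≤ (Real.exp 1 * C / m) ^ m := by
    have h1 := Real.pow_div_factorial_le_exp (m : ℝ) hm0.le m
    have h2 : Real.exp (m : ℝ) = Real.exp 1 ^ m := by
      rw [← Real.exp_nat_mul, mul_one]
    rw [h2] at h1
    have hmf : (0 : ℝ) < m.factorial := by exact_mod_cast m.factorial_pos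
    rw [div_pow, mul_pow]
    rw [div_le_div_iff₀ hmf (by positivity)]
    rw [div_le_iff₀ hmf] at h1
    calc C ^ m * (m : ℝ) ^ m ≤ C ^ m * (Real.exp 1 ^ m * m.factorial) :=
          mul_le_mul_of_nonneg_left h1 (by positivity)
      _ = _ := by ring
  have hbase : Real.exp 1 * C / m ≤ (q : ℝ) ^ (-(1 / 3) : ℝ) := by
    have h6 : 304 * Real.exp 1 * C / c3 ≤ (q : ℝ) ^ (1 / 6 : ℝ) := by
      calc 304 * Real.exp 1 * C / c3
          = ((304 * Real.exp 1 * C / c3) ^ (6 : ℕ)) ^ (1 / 6 : ℝ) := by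
            rw [← Real.rpow_natCast, ← Real.rpow_mul hK1.le]
            norm_num
        _ ≤ (q : ℝ) ^ (1 / 6 : ℝ) := Real.rpow_le_rpow (by positivity) ha (by norm_num)
    have h7 : c3 * r / 304 ≤ m := by
      refine le_trans ?_ hmt
      linarith
    have h8 : r = (q : ℝ) ^ (1 / 6 : ℝ) * (q : ℝ) ^ (1 / 3 : ℝ) := by
      rw [hr, ← Real.rpow_add hqR]
      norm_num
    have h9 : (q : ℝ) ^ (-(1 / 3) : ℝ) * (q : ℝ) ^ (1 / 3 : ℝ) = 1 := by
      rw [← Real.rpow_add hqR]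
      norm_num
    rw [div_le_iff₀ hm0]
    have h10 : (0 : ℝ) < (q : ℝ) ^ (-(1 / 3) : ℝ) := by positivity
    have h11 : 304 * Real.exp 1 * C ≤ (q : ℝ) ^ (1 / 6 : ℝ) * c3 := by
      rwa [div_le_iff₀ hc3] at h6
    calc Real.exp 1 * C = (304 * Real.exp 1 * C) / 304 := by ring
      _ ≤ (q : ℝ) ^ (1 / 6 : ℝ) * c3 / 304 := by linarith
      _ = (q : ℝ) ^ (-(1 / 3) : ℝ) * (c3 * r / 304) := by
        rw [h8]
        calc (q : ℝ) ^ (1 / 6 : ℝ) * c3 / 304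
            = ((q : ℝ) ^ (-(1 / 3) : ℝ) * (q : ℝ) ^ (1 / 3 : ℝ)) *
              ((q : ℝ) ^ (1 / 6 : ℝ) * c3 / 304) := by rw [h9, one_mul]
          _ = _ := by ring
      _ ≤ (q : ℝ) ^ (-(1 / 3) : ℝ) * m := mul_le_mul_of_nonneg_left h7 h10.le
  have hpow : (Real.exp 1 * C / m) ^ m ≤ (q : ℝ) ^ (-(t / 228)) := by
    calc (Real.exp 1 * C / m) ^ m ≤ ((q : ℝ) ^ (-(1 / 3) : ℝ)) ^ m :=
          pow_le_pow_left₀ (by positivity) hbase m
      _ = (q : ℝ) ^ (-(1 / 3) * (m : ℝ)) := by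
          rw [← Real.rpow_natCast, ← Real.rpow_mul hqR.le]
      _ ≤ (q : ℝ) ^ (-(t / 228)) := by
          apply Real.rpow_le_rpow_of_exponent_le hqR1
          linarith
  have hr4 : 4800 / c3 ≤ r := by
    calc 4800 / c3 = ((4800 / c3) ^ 2) ^ (1 / 2 : ℝ) := by
          rw [← Real.rpow_natCast, ← Real.rpow_mul hK2.le]
          norm_num
      _ ≤ r := Real.rpow_le_rpow (by positivity) hb (by norm_num)
  have ht4 : 1200 ≤ t := by
    rw [div_le_iff₀ hc3] at hr4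
    linarith
  calc (q : ℝ) ^ (3 * ((⌊2 * c1 * N / q⌋₊ : ℕ) : ℝ)) * (C ^ m / (m.factorial : ℝ))
      ≤ (q : ℝ) ^ (3 * (2 / 10 ^ 6 * t)) * (q : ℝ) ^ (-(t / 228)) := by
        apply mul_le_mul _ (hfac.trans hpow) (by positivity) (by positivity)
        apply Real.rpow_le_rpow_of_exponent_le hqR1
        linarith
    _ = (q : ℝ) ^ (3 * (2 / 10 ^ 6 * t) + -(t / 228)) := by rw [← Real.rpow_add hqR]
    _ ≤ (q : ℝ) ^ (-4 : ℝ) := by
        apply Real.rpow_le_rpow_of_exponent_le hqR1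
        norm_num
        linarith

/-- Module BAD2.  Union bound over `N` and `S`: at most `(q²+q+1)^{2 c1 N/q}` sets `S`, and if
`|Ronce N S| ≤ 4q` then `|Rl c ∩ Ronce N S| > c3 N/(4q)` implies `hits c (Ronce N S) ≥ m`,
`m = ⌈c3 N / (76 q)⌉`, probability `≤ (e C / m)^m ≤ q^{-m/3}` (`N / q ≥ √q / 4`), and
`c1 = c3 / 10^6`. -/
theorem bad2 : ∃ q₀ : ℕ, ∀ q ≥ q₀, ∀ [Fact q.Prime],
    Enu (q := q) (fun c => ind (¬ P2p c)) ≤ 1 / 20 := by
  obtain ⟨C, hC, q₁, h1⟩ := hit 4 (by norm_num)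
  obtain ⟨q₂, h2⟩ := bad2_num C hC
  refine ⟨q₁ + q₂ + 7, fun q hq _ => ?_⟩
  have hq7 : 7 ≤ q := by omega
  have hqR7 : (7 : ℝ) ≤ q := by exact_mod_cast hq7
  have hqR : (0 : ℝ) < q := by linarith
  set F : ℕ → Finset (Finset (Ln q)) := fun N => univ.filter fun S =>
    (S.card : ℝ) ≤ 2 * c1 * N / q ∧ ((Ronce N S).card : ℝ) ≤ 4 * q with hF
  set NN : Finset ℕ := (range (q ^ 2 + 1)).filter (Mid q) with hNN
  have hpt : ∀ c : Dir q → Gd q, ind (¬ P2p c) ≤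
      ∑ N ∈ NN, ∑ S ∈ F N, ((hits c (Ronce N S)).choose ⌈c3 * N / (76 * q)⌉₊ : ℝ) := by
    intro c
    have h0 : ∀ N ∈ NN, (0 : ℝ) ≤
        ∑ S ∈ F N, ((hits c (Ronce N S)).choose ⌈c3 * N / (76 * q)⌉₊ : ℝ) :=
      fun N _ => sum_nonneg fun S _ => Nat.cast_nonneg _
    by_cases hP : P2p c
    · unfold ind
      rw [if_neg (not_not.2 hP)]
      exact sum_nonneg h0
    · unfold ind
      rw [if_pos hP]
      unfold P2p at hP
      push Not at hP
      obtain ⟨N, hMid, S, hS, hR, hbig⟩ := hP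
      have hN : N ∈ NN := by
        rw [hNN, mem_filter, mem_range]
        refine ⟨?_, hMid⟩
        have h3 := hMid.2
        have h4 := del0_lt
        have h5 : (N : ℝ) ≤ (q : ℝ) ^ 2 := by nlinarith [sq_nonneg (q : ℝ)]
        have h6 : N ≤ q ^ 2 := by exact_mod_cast h5
        omega
      have hSF : S ∈ F N := by
        rw [hF]
        simp only [mem_filter, mem_univ, true_and]
        exact ⟨hS, hR⟩
      have hhits : ⌈c3 * N / (76 * q)⌉₊ ≤ hits c (Ronce N S) := by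
        rw [Nat.ceil_le]
        have h3 : ((Rl c ∩ Ronce N S).card : ℝ) ≤ 19 * hits c (Ronce N S) := by
          exact_mod_cast bad2_card_Rl_inter c (Ronce N S)
        have h4 : c3 * N / (76 * q) = (c3 * N / (4 * q)) / 19 := by
          field_simp
          ring
        rw [h4]
        linarith
      have h3 : (1 : ℝ) ≤ ((hits c (Ronce N S)).choose ⌈c3 * N / (76 * q)⌉₊ : ℝ) := by
        exact_mod_cast Nat.choose_pos hhits
      calc (1 : ℝ) ≤ ((hits c (Ronce N S)).choose ⌈c3 * N / (76 * q)⌉₊ : ℝ) := h3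
        _ ≤ ∑ S ∈ F N, ((hits c (Ronce N S)).choose ⌈c3 * N / (76 * q)⌉₊ : ℝ) :=
            single_le_sum (f := fun S => ((hits c (Ronce N S)).choose ⌈c3 * N / (76 * q)⌉₊ : ℝ))
              (fun _ _ => Nat.cast_nonneg _) hSF
        _ ≤ _ := single_le_sum (f := fun N : ℕ =>
              ∑ S ∈ F N, ((hits c (Ronce N S)).choose ⌈c3 * N / (76 * q)⌉₊ : ℝ)) h0 hN
  have hsum : ∀ N ∈ NN, ∑ S ∈ F N,
      Enu (fun c : Dir q → Gd q => ((hits c (Ronce N S)).choose ⌈c3 * N / (76 * q)⌉₊ : ℝ)) ≤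
        (q : ℝ) ^ (-4 : ℝ) := by
    intro N hN
    rw [hNN, mem_filter] at hN
    refine le_trans ?_ (h2 q (by omega) N hN.2.1)
    have h3 : ∀ S ∈ F N,
        Enu (fun c : Dir q → Gd q => ((hits c (Ronce N S)).choose ⌈c3 * N / (76 * q)⌉₊ : ℝ)) ≤
        C ^ ⌈c3 * N / (76 * q)⌉₊ / (⌈c3 * N / (76 * q)⌉₊).factorial := by
      intro S hS
      rw [hF] at hS
      simp only [mem_filter, mem_univ, true_and] at hS
      exact h1 q (by omega) (Ronce N S) hS.2 _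
    refine (sum_le_sum h3).trans ?_
    rw [sum_const, nsmul_eq_mul]
    apply mul_le_mul_of_nonneg_right _ (by positivity)
    refine le_trans ?_ (lc_small_Ln (q := q) ⌊2 * c1 * N / q⌋₊)
    have h4 : F N ⊆ univ.filter fun S : Finset (Ln q) => S.card ≤ ⌊2 * c1 * N / q⌋₊ := by
      intro S hS
      rw [hF] at hS
      simp only [mem_filter, mem_univ, true_and] at hS ⊢
      exact Nat.le_floor hS.1
    exact_mod_cast card_le_card h4
  have hcard : (NN.card : ℝ) ≤ (q : ℝ) ^ 2 + 1 := by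
    have : NN.card ≤ q ^ 2 + 1 := (card_filter_le _ _).trans (card_range _).le
    exact_mod_cast this
  calc Enu (q := q) (fun c => ind (¬ P2p c))
      ≤ Enu (fun c : Dir q → Gd q => ∑ N ∈ NN, ∑ S ∈ F N,
          ((hits c (Ronce N S)).choose ⌈c3 * N / (76 * q)⌉₊ : ℝ)) := Enu_mono hpt
    _ = ∑ N ∈ NN, ∑ S ∈ F N,
          Enu (fun c : Dir q → Gd q =>
            ((hits c (Ronce N S)).choose ⌈c3 * N / (76 * q)⌉₊ : ℝ)) := by
        rw [Enu_sum]
        refine sum_congr rfl fun N _ => ?_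
        rw [Enu_sum]
    _ ≤ ∑ N ∈ NN, (q : ℝ) ^ (-4 : ℝ) := sum_le_sum hsum
    _ = NN.card * (q : ℝ) ^ (-4 : ℝ) := by rw [sum_const, nsmul_eq_mul]
    _ ≤ ((q : ℝ) ^ 2 + 1) * (q : ℝ) ^ (-4 : ℝ) :=
        mul_le_mul_of_nonneg_right hcard (by positivity)
    _ ≤ 1 / 20 := by
        have h4 : (q : ℝ) ^ (-4 : ℝ) = 1 / (q : ℝ) ^ 4 := by
          rw [Real.rpow_neg hqR.le, one_div]
          norm_cast
        rw [h4, mul_one_div, div_le_div_iff₀ (by positivity) (by norm_num)]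
        nlinarith [sq_nonneg ((q : ℝ) ^ 2), mul_le_mul hqR7 hqR7 (by norm_num) hqR.le,
          sq_nonneg ((q : ℝ) ^ 2 - 49)]

end P045
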