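import Vale.Agent.P045R.DTG

/-!
# P045R, module DTA, DTB: pencils at non hubs and parallel classes
-/

namespace P045

open Finset
open scoped Classical

variable {q : ℕ} [Fact q.Prime]

/-- Double counting of the pairs (line of `O`, planted point). -/
theorem dta_count (O T : Finset (Ln q)) (P : Ln q → Finset (Pt q)) (N : ℕ)
    (h1 : ∀ l ∈ O, 8 ≤ (P l).card) (h2 : ∀ l ∈ O, ∀ x ∈ P l, ∃ t ∈ T, x ∈ pts t)
    (h3 : ∀ t ∈ T, (O.filter fun l => ∃ x ∈ P l, x ∈ pts t).card ≤ N)
    (h4 : ∀ l ∈ O, ∀ t ∈ T, ((P l).filter fun x => x ∈ pts t).card ≤ 1) :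
    8 * O.card ≤ N * T.card := by
  calc 8 * O.card = ∑ l ∈ O, 8 := by rw [sum_const, smul_eq_mul, mul_comm]
    _ ≤ ∑ l ∈ O, (P l).card := sum_le_sum h1
    _ ≤ ∑ l ∈ O, ∑ t ∈ T, ((P l).filter fun x => x ∈ pts t).card := by
        refine sum_le_sum fun l hl => ?_
        have : P l ⊆ T.biUnion fun t => (P l).filter fun x => x ∈ pts t := by
          intro x hx
          obtain ⟨t, ht, hxt⟩ := h2 l hl x hx
          rw [mem_biUnion]
          exact ⟨t, ht, mem_filter.2 ⟨hx, hxt⟩⟩
        exact (card_le_card this).trans card_biUnion_le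
    _ = ∑ t ∈ T, ∑ l ∈ O, ((P l).filter fun x => x ∈ pts t).card := sum_comm
    _ ≤ ∑ t ∈ T, N := by
        refine sum_le_sum fun t ht => ?_
        refine le_trans ?_ (h3 t ht)
        rw [card_filter]
        refine sum_le_sum fun l hl => ?_
        split_ifs with h
        · exact h4 l hl t ht
        · rw [Nat.le_zero, card_eq_zero, filter_eq_empty_iff]
          intro x hx hxt
          exact h ⟨x, hx, hxt⟩
    _ = N * T.card := by rw [sum_const, smul_eq_mul, mul_comm]

theorem dta_inter_le {l t : Ln q} (h : l ≠ t) (P : Finset (Pt q)) (hP : ∀ x ∈ P, x ∈ pts l) :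
    (P.filter fun x => x ∈ pts t).card ≤ 1 := by
  rw [card_le_one]
  intro x hx y hy
  rw [mem_filter] at hx hy
  exact eq_of_mem_pts h (hP x hx.1) hx.2 (hP y hy.1) hy.2

/-- Module DTA.  `O = pencil(v) \ L ⊆ Rl c`, `T = L \ pencil(v)`, `|T| ≤ |O| - 1`.  The planted points
`≠ v` of the lines of `O` are covered by `T`, every `t ∈ T` covers at most one on every line and meets at
most 8 lines of `O` in planted points (`hit_aff`).  If `v` is planted it is on only one special line
(`PlL_unique`), so `|O| = 1`, `T = ∅`. -/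
theorem case_aff {c : Dir q → Gd q} {b : Dir q → Fin 9 → Pt q} (hc : Sep c)
    (hb : ∀ f, b f ∈ Bset c f) (hf : Few c b) {v : Pt q} (hv : ∀ f s, (c f).1 s ≠ v)
    {L : Finset (Ln q)} (hL : L.card ≤ q) (hcov : ∀ x, Nrm c b x → x ∈ cov L)
    (hpen : ∀ l, v ∈ pts l → l ∉ Rl c → l ∈ L) : False := by
  let pn : Finset (Ln q) := univ.filter fun l => v ∈ pts l
  have hpn : pn.card = q + 1 := card_lines_through v
  let O : Finset (Ln q) := pn \ L
  let T : Finset (Ln q) := L \ pn
  have hO : ∀ l ∈ O, l ∈ Rl c ∧ v ∈ pts l ∧ l ∉ L := by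
    intro l hl
    rw [mem_sdiff, mem_filter] at hl
    refine ⟨?_, hl.1.2, hl.2⟩
    by_contra h
    exact hl.2 (hpen l hl.1.2 h)
  have hT : ∀ t ∈ T, t ∈ L ∧ v ∉ pts t := by
    intro t ht
    rw [mem_sdiff, mem_filter] at ht
    exact ⟨ht.1, fun h => ht.2 ⟨mem_univ _, h⟩⟩
  have hTO : T.card + 1 ≤ O.card := by
    have h1 := card_sdiff_add_card_inter pn L
    have h2 := card_sdiff_add_card_inter L pn
    rw [inter_comm L pn] at h2
    change O.card + _ = _ at h1
    change T.card + _ = _ at h2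
    omega
  have hx : ∀ l ∈ O, ∀ x ∈ PlL c b l, x ≠ v → ∃ t ∈ T, x ∈ pts t := by
    intro l hl x hxl hxv
    obtain ⟨h1, h2, h3⟩ := hO l hl
    have h4 := hcov x (PlL_nrm hxl)
    rw [mem_cov] at h4
    obtain ⟨t, ht, hxt⟩ := h4
    refine ⟨t, ?_, hxt⟩
    rw [mem_sdiff]
    refine ⟨ht, fun h => ?_⟩
    have hvt : v ∈ pts t := (mem_filter.1 h).2
    have hne : l ≠ t := fun h => h3 (h ▸ ht)
    exact hxv (eq_of_mem_pts hne (PlL_subset hc hb hxl) hxt h2 hvt)
  by_cases hpl : ∃ l ∈ O, v ∈ PlL c b l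
  · obtain ⟨l, hl, hvl⟩ := hpl
    have h1 : O ⊆ {l} := by
      intro l' hl'
      rw [mem_singleton]
      exact PlL_unique hc hb hvl (hO l' hl').1 (hO l' hl').2.1
    have h2 := card_le_card h1
    rw [card_singleton] at h2
    have h3 : T = ∅ := by
      rw [← card_eq_zero]
      omega
    have h4 := card_PlL hc hb (hO l hl).1
    have h5 : ((PlL c b l).erase v).Nonempty := by
      rw [← card_pos, card_erase_of_mem hvl]
      omega
    obtain ⟨x, hx1⟩ := h5
    rw [mem_erase] at hx1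
    obtain ⟨t, ht, -⟩ := hx l hl x hx1.2 hx1.1
    rw [h3] at ht
    exact absurd ht (notMem_empty t)
  · push Not at hpl
    have h1 := dta_count O T (PlL c b) 8 (fun l hl => card_PlL hc hb (hO l hl).1)
      (fun l hl x hxl => hx l hl x hxl (fun h => hpl l hl (h ▸ hxl)))
      (fun t ht => by
        refine le_trans (card_le_card ?_) (hit_aff hc hb hf hv (hT t ht).2)
        intro l hl
        rw [mem_filter] at hl ⊢
        exact ⟨(hO l hl.1).1, (hO l hl.1).2.1, hl.2⟩)
      (fun l hl t ht => dta_inter_le (fun h => (hT t ht).2 (by rw [← h]; exact (hO l hl).2.1)) _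
        fun x hx => PlL_subset hc hb hx)
    omega

/-- Module DTB.  `|T| + a ≤ |O|` and `8 |O| ≤ 3 |T|` (`hit_inf`), so `O = T = ∅`, `a = 0`. -/
theorem case_inf {c : Dir q → Gd q} {b : Dir q → Fin 9 → Pt q} (hc : Sep c)
    (hb : ∀ f, b f ∈ Bset c f) (hf : Few c b) {d : Dir q}
    {L : Finset (Ln q)} {a : ℕ} (hL : L.card + a ≤ q) (hcov : ∀ x, Nrm c b x → x ∈ cov L)
    (hpen : ∀ l : Ln q, l.1 = d → l ∉ Rl c → l ∈ L) : a = 0 ∧ ∀ l ∈ L, l.1 = d := by
  let pn : Finset (Ln q) := univ.filter fun l => l.1 = d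
  have hpn : pn.card = q := by
    have h1 : pn = univ.image fun x : ZMod q => ((d, x) : Ln q) := by
      ext l
      simp only [pn, mem_filter, mem_univ, true_and, mem_image]
      constructor
      · intro h
        exact ⟨l.2, Prod.ext h.symm rfl⟩
      · rintro ⟨x, rfl⟩
        rfl
    rw [h1, card_image_of_injective, card_univ, ZMod.card]
    intro x y hxy
    exact congrArg Prod.snd hxy
  let O : Finset (Ln q) := pn \ L
  let T : Finset (Ln q) := L \ pn
  have hO : ∀ l ∈ O, l ∈ Rl c ∧ l.1 = d ∧ l ∉ L := by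
    intro l hl
    rw [mem_sdiff, mem_filter] at hl
    refine ⟨?_, hl.1.2, hl.2⟩
    by_contra h
    exact hl.2 (hpen l hl.1.2 h)
  have hT : ∀ t ∈ T, t ∈ L ∧ t.1 ≠ d := by
    intro t ht
    rw [mem_sdiff, mem_filter] at ht
    exact ⟨ht.1, fun h => ht.2 ⟨mem_univ _, h⟩⟩
  have hTO : T.card + a ≤ O.card := by
    have h1 := card_sdiff_add_card_inter pn L
    have h2 := card_sdiff_add_card_inter L pn
    rw [inter_comm L pn] at h2
    change O.card + _ = _ at h1
    change T.card + _ = _ at h2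
    omega
  have h1 := dta_count O T (PlL c b) 3 (fun l hl => card_PlL hc hb (hO l hl).1)
    (fun l hl x hxl => by
      obtain ⟨h1, h2, h3⟩ := hO l hl
      have h4 := hcov x (PlL_nrm hxl)
      rw [mem_cov] at h4
      obtain ⟨t, ht, hxt⟩ := h4
      refine ⟨t, ?_, hxt⟩
      rw [mem_sdiff]
      refine ⟨ht, fun h => ?_⟩
      have htd : t.1 = d := (mem_filter.1 h).2
      have hne : l ≠ t := fun h => h3 (h ▸ ht)
      exact not_mem_of_parallel hne (h2.trans htd.symm) (PlL_subset hc hb hxl) hxt)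
    (fun t ht => by
      refine le_trans (card_le_card ?_) (hit_inf hc hb hf (hT t ht).2)
      intro l hl
      rw [mem_filter] at hl ⊢
      exact ⟨(hO l hl.1).1, (hO l hl.1).2.1, hl.2⟩)
    (fun l hl t ht => dta_inter_le (fun h => (hT t ht).2 (by rw [← h]; exact (hO l hl).2.1)) _
      fun x hx => PlL_subset hc hb hx)
  have hT0 : T = ∅ := by
    rw [← card_eq_zero]
    omega
  refine ⟨by omega, fun l hl => ?_⟩
  by_contra hne
  have : l ∈ T := mem_sdiff.2 ⟨hl, fun h => hne (mem_filter.1 h).2⟩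
  rw [hT0] at this
  exact absurd this (notMem_empty l)

end P045
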