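import Vale.Agent.P045R.DTG

/-!
# P045R, module DTH: pencils at hubs
-/

namespace P045

open Finset
open scoped Classical

variable {q : ℕ} [Fact q.Prime]

/-- the special lines through the hub `(f, s)` -/
noncomputable def dthl (c : Dir q → Gd q) (f : Dir q) (s : Bool) : Option (Fin 9) → Ln q
  | none => lf f (c f)
  | some i => ml (c f) (s, i)

/-- the points planted by `b_{f,k}` -/
noncomputable def dthq (c : Dir q → Gd q) (b : Dir q → Fin 9 → Pt q) (f : Dir q) (s : Bool)
    (k : Fin 9) : Option (Fin 9) → Pt q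
  | none => b f k
  | some i => Pp c b f s k i

theorem dth_gad {c : Dir q → Gd q} (hc : Sep c) (f : Dir q) : c f ∈ GadSet q f :=
  mem_All.1 hc.mem f

omit [Fact q.Prime] in
theorem dth_dir {c : Dir q → Gd q} (f : Dir q) (s : Bool) (o : Option (Fin 9)) :
    (dthl c f s o).1 = o.elim f (fun i => (c f).2 (s, i)) := by
  cases o <;> rfl

theorem dth_dir_inj {c : Dir q → Gd q} (hc : Sep c) (f : Dir q) (s : Bool)
    {o o' : Option (Fin 9)} (h : (dthl c f s o).1 = (dthl c f s o').1) : o = o' := by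
  obtain ⟨-, -, h3, h4⟩ := mem_GadSet.1 (dth_gad hc f)
  rw [dth_dir, dth_dir] at h
  cases o with
  | none =>
    cases o' with
    | none => rfl
    | some i => exact absurd h.symm (h4 _)
  | some i =>
    cases o' with
    | none => exact absurd h (h4 _)
    | some j =>
      have := h3 h
      simp only [Prod.mk.injEq, true_and] at this
      rw [this]

theorem dth_hub_mem {c : Dir q → Gd q} (hc : Sep c) (f : Dir q) (s : Bool)
    (o : Option (Fin 9)) : (c f).1 s ∈ pts (dthl c f s o) := by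
  obtain ⟨h1, -, -, -⟩ := mem_GadSet.1 (dth_gad hc f)
  cases o with
  | none =>
    cases s with
    | true => exact mem_pts_thr _ _
    | false => exact h1
  | some i => exact mem_pts_thr _ _

theorem dth_b {c : Dir q → Gd q} {b : Dir q → Fin 9 → Pt q} (hb : ∀ f, b f ∈ Bset c f)
    (f : Dir q) (k : Fin 9) : b f k ∈ pts (lf f (c f)) ∧ ∀ s, b f k ≠ (c f).1 s := by
  have h := hb f
  unfold Bset at h
  rw [mem_filter] at h
  have h1 := h.2.1 k
  unfold Valid at h1
  rw [mem_filter] at h1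
  exact ⟨h1.1, h1.2.1⟩

theorem dth_bi {c : Dir q → Gd q} {b : Dir q → Fin 9 → Pt q} (hb : ∀ f, b f ∈ Bset c f)
    (f : Dir q) : Function.Injective (b f) ∧ ∀ s k k' i, k ≠ k' → i ≠ k → i ≠ k' →
      Pp c b f s k i ≠ Pp c b f s k' i := by
  have h := hb f
  unfold Bset at h
  rw [mem_filter] at h
  exact h.2.2

/-- The hub is not on `L_{f,s,k}`. -/
theorem dth_hub_L {c : Dir q → Gd q} {b : Dir q → Fin 9 → Pt q} (hc : Sep c)
    (hb : ∀ f, b f ∈ Bset c f) (f : Dir q) (s : Bool) (k : Fin 9) :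
    (c f).1 s ∉ pts (Ll c b f s k) := by
  intro h
  obtain ⟨h1, h2⟩ := dth_b hb f k
  have h3 : lf f (c f) ≠ Ll c b f s k := by
    intro h4
    obtain ⟨-, -, -, h5⟩ := mem_GadSet.1 (dth_gad hc f)
    exact h5 (s, k) (congrArg Prod.fst h4).symm
  exact h2 s (eq_of_mem_pts h3 h1 (mem_pts_thr _ _) (dth_hub_mem hc f s none) h)

theorem dth_q_mem {c : Dir q → Gd q} {b : Dir q → Fin 9 → Pt q} (hc : Sep c)
    (hb : ∀ f, b f ∈ Bset c f) (f : Dir q) (s : Bool) {k : Fin 9} {o : Option (Fin 9)}
    (ho : o ≠ some k) :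
    dthq c b f s k o ∈ pts (Ll c b f s k) ∧ dthq c b f s k o ∈ pts (dthl c f s o) := by
  cases o with
  | none => exact ⟨mem_pts_thr _ _, (dth_b hb f k).1⟩
  | some i =>
    have hik : i ≠ k := fun h => ho (by rw [h])
    have h : (Ll c b f s k).1 ≠ (ml (c f) (s, i)).1 := by
      intro h
      obtain ⟨-, -, h3, -⟩ := mem_GadSet.1 (dth_gad hc f)
      have h4 : (c f).2 (s, k) = (c f).2 (s, i) := h
      have := h3 h4
      simp only [Prod.mk.injEq, true_and] at this
      exact hik this.symm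
    exact meet_spec h

theorem dth_q_not {c : Dir q → Gd q} {b : Dir q → Fin 9 → Pt q} (hc : Sep c)
    (hb : ∀ f, b f ∈ Bset c f) (f : Dir q) (s : Bool) {k k' : Fin 9} {o : Option (Fin 9)}
    (ho : o ≠ some k) (hk : k ≠ k') : dthq c b f s k o ∉ pts (Ll c b f s k') := by
  intro h
  obtain ⟨-, h2⟩ := dth_q_mem hc hb f s ho
  by_cases hok : o = some k'
  · -- parallel lines
    subst hok
    have h3 : Ll c b f s k' ≠ ml (c f) (s, k') := by
      intro h4
      apply dth_hub_L hc hb f s k'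
      rw [h4]
      exact mem_pts_thr _ _
    exact not_mem_of_parallel h3 rfl h h2
  · obtain ⟨h4, h5⟩ := dth_q_mem hc hb f s hok
    have h6 : Ll c b f s k' ≠ dthl c f s o := by
      intro h7
      apply dth_hub_L hc hb f s k'
      rw [h7]
      exact dth_hub_mem hc f s o
    have h8 := eq_of_mem_pts h6 h h2 h4 h5
    cases o with
    | none => exact hk ((dth_bi hb f).1 h8)
    | some i =>
      exact (dth_bi hb f).2 s k k' i hk (fun h => ho (by rw [h])) (fun h => hok (by rw [h])) h8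

theorem dth_q_nrm {c : Dir q → Gd q} {b : Dir q → Fin 9 → Pt q} (f : Dir q) (s : Bool)
    {k : Fin 9} {o : Option (Fin 9)} (ho : o ≠ some k) : Nrm c b (dthq c b f s k o) := by
  cases o with
  | none => exact Or.inr (Or.inl ⟨f, k, rfl⟩)
  | some i => exact Or.inr (Or.inr ⟨f, s, k, i, fun h => ho (by rw [h]), rfl⟩)

theorem dth_arith {κ n y a : ℕ} (hκ : κ ≤ 9) (hn : n ≤ 10) (h1 : 10 + y + a ≤ n + κ)
    (h2 : κ * n ≤ 3 * y + κ) (h3 : κ * n ≤ 3 * y + n) : κ = 0 ∧ n = 10 ∧ y = 0 ∧ a = 0 := by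
  interval_cases κ <;> omega

/-- Module DTH.  `p` the hub `(f,s)`; the special lines through `p` are `l_f` and the nine `m_i`
(`Rl_hub`).  `O = pencil(p) \ L`, `T = L \ pencil(p)`, `|T| + a ≤ |O| - 1 ≤ 9`; `x` = number of `k` with
`L_{f,s,k} ∈ T`, `y` = number of other lines of `T`.  The points `b_{f,k}` (if `l_f ∈ O`) and
`P_{f,s,k,i}` (if `m_i ∈ O`, `i ≠ k`) with `L_{f,s,k} ∉ T` are covered by the `y` other lines, at most 3
each (`Few.h3`), so `3 y ≥ ∑_{k : L_k ∉ T} (|O| - [m_k ∈ O]) ≥ (9 - x)(|O| - 1)`, and `|O| ≥ x + y + a + 1`.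
This forces `x = 9`, `y = 0`, `a = 0`, `|O| = 10`. -/
theorem case_hub {c : Dir q → Gd q} {b : Dir q → Fin 9 → Pt q} (hc : Sep c)
    (hb : ∀ f, b f ∈ Bset c f) (hf : Few c b) {f : Dir q} {s : Bool}
    {L : Finset (Ln q)} {a : ℕ} (hL : L.card + a ≤ q) (hcov : ∀ x, Nrm c b x → x ∈ cov L)
    (hpen : ∀ l : Ln q, (c f).1 s ∈ pts l → l ∉ Rl c → l ∈ L) :
    a = 0 ∧ ∀ l ∈ L, ((c f).1 s ∈ pts l ∧ l ≠ lf f (c f)) ∨ ∃ k, l = Ll c b f s k := by
  set O : Finset (Option (Fin 9)) := univ.filter fun o => dthl c f s o ∉ L with hO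
  set K : Finset (Fin 9) := univ.filter fun k => Ll c b f s k ∉ L with hK
  set P : Finset (Ln q) := univ.filter fun l => (c f).1 s ∈ pts l with hP
  set T₁ : Finset (Ln q) := (univ \ K).image fun k => Ll c b f s k with hT₁
  set T₂ : Finset (Ln q) := L.filter fun t => (c f).1 s ∉ pts t ∧ ∀ k, t ≠ Ll c b f s k with hT₂
  have hPc : P.card = q + 1 := card_lines_through _
  have hOc : O.card ≤ 10 := by
    have := card_le_univ O
    simpa using this
  have hKc : K.card ≤ 9 := by
    have := card_le_univ K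
    simpa using this
  have hlinj : Function.Injective (dthl c f s) := fun o o' h =>
    dth_dir_inj hc f s (congrArg Prod.fst h)
  have hLinj : Function.Injective fun k => Ll c b f s k := by
    intro k k' h
    by_contra hk
    have h1 : dthq c b f s k none ∉ pts (Ll c b f s k') :=
      dth_q_not hc hb f s (by simp) hk
    apply h1
    have h2 : Ll c b f s k = Ll c b f s k' := h
    rw [← h2]
    exact mem_pts_thr _ _
  have hT₁c : T₁.card + K.card = 9 := by
    rw [hT₁, card_image_of_injective _ hLinj, card_sdiff_of_subset (subset_univ _)]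
    simp only [card_univ, Fintype.card_fin]
    omega
  -- lines of the pencil that are not in `L`
  have hsub1 : P \ O.image (dthl c f s) ⊆ L := by
    intro l hl
    rw [mem_sdiff, hP, mem_filter, mem_image] at hl
    obtain ⟨⟨-, hl1⟩, hl2⟩ := hl
    by_contra hlL
    have h1 : l ∈ Rl c := by
      by_contra h2
      exact hlL (hpen l hl1 h2)
    rcases (Rl_hub hc).1 ⟨h1, hl1⟩ with h2 | ⟨i, h2⟩
    · exact hl2 ⟨none, by rw [hO, mem_filter]; exact ⟨mem_univ _, by rw [h2] at hlL; exact hlL⟩,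
        h2.symm⟩
    · exact hl2 ⟨some i, by rw [hO, mem_filter]; exact ⟨mem_univ _, by rw [h2] at hlL; exact hlL⟩,
        h2.symm⟩
  have hsub2 : T₁ ⊆ L := by
    intro l hl
    rw [hT₁, mem_image] at hl
    obtain ⟨k, hk, rfl⟩ := hl
    rw [mem_sdiff, hK, mem_filter] at hk
    by_contra h
    exact hk.2 ⟨mem_univ _, h⟩
  have hsub3 : T₂ ⊆ L := filter_subset _ _
  have hd1 : Disjoint (P \ O.image (dthl c f s)) (T₁ ∪ T₂) := by
    rw [disjoint_left]
    intro l hl hl'
    rw [mem_sdiff, hP, mem_filter] at hl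
    rw [mem_union, hT₁, mem_image, hT₂, mem_filter] at hl'
    rcases hl' with ⟨k, -, rfl⟩ | h
    · exact dth_hub_L hc hb f s k hl.1.2
    · exact h.2.1 hl.1.2
  have hd2 : Disjoint T₁ T₂ := by
    rw [disjoint_left]
    intro l hl hl'
    rw [hT₁, mem_image] at hl
    rw [hT₂, mem_filter] at hl'
    obtain ⟨k, -, rfl⟩ := hl
    exact hl'.2.2 k rfl
  have hcard1 : q + 1 ≤ (P \ O.image (dthl c f s)).card + O.card := by
    have h1 : O.image (dthl c f s) ⊆ P := by
      intro l hl
      rw [mem_image] at hl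
      obtain ⟨o, -, rfl⟩ := hl
      rw [hP, mem_filter]
      exact ⟨mem_univ _, dth_hub_mem hc f s o⟩
    rw [card_sdiff_of_subset h1, card_image_of_injective _ hlinj, hPc]
    omega
  have hcard2 : (P \ O.image (dthl c f s)).card + (T₁.card + T₂.card) ≤ L.card := by
    rw [← card_union_of_disjoint hd2, ← card_union_of_disjoint hd1]
    exact card_le_card (union_subset hsub1 (union_subset hsub2 hsub3))
  -- the pairs
  set Q : Finset (Fin 9 × Option (Fin 9)) := (K ×ˢ O).filter fun x => x.2 ≠ some x.1 with hQ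
  have hex : ∀ x ∈ Q, ∃ t ∈ T₂, dthq c b f s x.1 x.2 ∈ pts t := by
    rintro ⟨k, o⟩ hx
    rw [hQ, mem_filter, mem_product, hK, hO, mem_filter, mem_filter] at hx
    obtain ⟨⟨⟨-, hk⟩, -, ho⟩, hne⟩ := hx
    simp only at hk ho hne
    obtain ⟨t, htL, ht⟩ := mem_cov.1 (hcov _ (dth_q_nrm f s hne))
    obtain ⟨h1, h2⟩ := dth_q_mem hc hb f s hne
    refine ⟨t, ?_, ht⟩
    rw [hT₂, mem_filter]
    refine ⟨htL, fun hp => ?_, fun k' hk' => ?_⟩
    · have h3 : t ≠ dthl c f s o := fun h => ho (h ▸ htL)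
      have h4 := eq_of_mem_pts h3 ht h2 hp (dth_hub_mem hc f s o)
      exact dth_hub_L hc hb f s k (h4 ▸ h1)
    · by_cases hkk : k = k'
      · subst hkk
        exact hk (hk' ▸ htL)
      · exact dth_q_not hc hb f s hne hkk (hk' ▸ ht)
  have hexc : ∀ x : Fin 9 × Option (Fin 9), ∃ t : Ln q, x ∈ Q →
      t ∈ T₂ ∧ dthq c b f s x.1 x.2 ∈ pts t := by
    intro x
    by_cases hx : x ∈ Q
    · obtain ⟨t, ht⟩ := hex x hx
      exact ⟨t, fun _ => ht⟩
    · exact ⟨(none, 0), fun h => absurd h hx⟩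
  choose τ hτ using hexc
  have hQ3 : Q.card ≤ 3 * T₂.card := by
    have h1 : Q.card ≤ (T₂.sigma fun t => univ.filter fun x => HitH c b f s t x).card := by
      refine card_le_card_of_injOn (fun x => ⟨τ x, x.2⟩) ?_ ?_
      · intro x hx
        have hx' : x ∈ Q := hx
        obtain ⟨h1, h2⟩ := hτ x hx'
        rw [hQ, mem_filter] at hx'
        simp only [coe_sigma, Set.mem_sigma_iff, mem_coe, mem_filter, mem_univ, true_and]
        refine ⟨h1, ?_⟩
        obtain ⟨k, o⟩ := x
        cases o with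
        | none => exact ⟨k, h2⟩
        | some i => exact ⟨k, fun h => hx'.2 (by rw [h]), h2⟩
      · intro x hx y hy hxy
        have hx' : x ∈ Q := hx
        have hy' : y ∈ Q := hy
        obtain ⟨h1, h2⟩ := hτ x hx'
        obtain ⟨h3, h4⟩ := hτ y hy'
        simp only [Sigma.mk.injEq, heq_eq_eq] at hxy
        obtain ⟨e1, e2⟩ := hxy
        obtain ⟨k, o⟩ := x
        obtain ⟨k', o'⟩ := y
        simp only at e2
        subst e2
        rw [hQ, mem_filter] at hx' hy'
        rw [e1] at h2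
        have h5 := (dth_q_mem hc hb f s hx'.2).2
        have h6 := (dth_q_mem hc hb f s hy'.2).2
        have h7 : τ (k', o) ≠ dthl c f s o := by
          intro h
          rw [hT₂, mem_filter] at h3
          exact h3.2.1 (h ▸ dth_hub_mem hc f s o)
        have h8 := eq_of_mem_pts h7 h2 h5 h4 h6
        by_contra hne
        have hkk : k ≠ k' := fun h => hne (by rw [h])
        have h9 := dth_q_not hc hb f s hx'.2 hkk
        simp only at h8 h9
        rw [h8] at h9
        exact h9 (dth_q_mem hc hb f s hy'.2).1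
    rw [card_sigma] at h1
    have h2 : ∑ t ∈ T₂, (univ.filter fun x => HitH c b f s t x).card ≤ ∑ _t ∈ T₂, 3 := by
      refine sum_le_sum fun t ht => ?_
      rw [hT₂, mem_filter] at ht
      exact hf.h3 f s t ht.2.1 ht.2.2
    rw [sum_const, smul_eq_mul] at h2
    omega
  have hQ1 : K.card * O.card ≤ Q.card + ((K ×ˢ O).filter fun x => x.2 = some x.1).card := by
    rw [← card_product, ← card_filter_add_card_filter_not (s := K ×ˢ O) (fun x => x.2 = some x.1)]
    rw [add_comm]
  have hQK : ((K ×ˢ O).filter fun x => x.2 = some x.1).card ≤ K.card := by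
    refine card_le_card_of_injOn Prod.fst ?_ ?_
    · intro x hx
      have hx' := mem_filter.1 (mem_coe.1 hx)
      exact (mem_product.1 hx'.1).1
    · intro x hx y hy hxy
      have hx' := (mem_filter.1 (mem_coe.1 hx)).2
      have hy' := (mem_filter.1 (mem_coe.1 hy)).2
      exact Prod.ext hxy (by rw [hx', hy', hxy])
  have hQO : ((K ×ˢ O).filter fun x => x.2 = some x.1).card ≤ O.card := by
    refine card_le_card_of_injOn Prod.snd ?_ ?_
    · intro x hx
      have hx' := mem_filter.1 (mem_coe.1 hx)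
      exact (mem_product.1 hx'.1).2
    · intro x hx y hy hxy
      have hx' := (mem_filter.1 (mem_coe.1 hx)).2
      have hy' := (mem_filter.1 (mem_coe.1 hy)).2
      refine Prod.ext ?_ hxy
      rw [hx', hy'] at hxy
      exact Option.some_injective _ hxy
  obtain ⟨e1, e2, e3, e4⟩ := dth_arith (κ := K.card) (n := O.card) (y := T₂.card) (a := a) hKc hOc
    (by omega) (by omega) (by omega)
  refine ⟨e4, fun l hl => ?_⟩
  by_cases hp : (c f).1 s ∈ pts l
  · left
    refine ⟨hp, fun h => ?_⟩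
    have h1 : O = univ := by
      rw [← card_eq_iff_eq_univ, e2]
      simp
    have h2 : (none : Option (Fin 9)) ∈ O := by
      rw [h1]
      exact mem_univ _
    rw [hO, mem_filter] at h2
    exact h2.2 (by rw [h] at hl; exact hl)
  · right
    by_contra hne
    push Not at hne
    have h1 : l ∈ T₂ := by
      rw [hT₂, mem_filter]
      exact ⟨hl, hp, hne⟩
    rw [card_eq_zero] at e3
    rw [e3] at h1
    exact absurd h1 (notMem_empty _)

end P045
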