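import Vale.Agent.P045R.DTDefs

/-!
# P045R, module DTM: the special covers miss a hub; sets of vertices
-/

namespace P045

open Finset
open scoped Classical

variable {q : ℕ} [Fact q.Prime]

theorem card_LX_add_card_AX (X : Finset (Vx q)) : (LX X).card + (AX X).card = X.card := by
  have h1 : X = (LX X).image (fun l : Ln q => ((l.1, some l.2) : Vx q)) ∪
      (AX X).image (fun g : Dir q => ((g, none) : Vx q)) := by
    ext ⟨g, o⟩
    simp only [mem_union, mem_image, LX, AX, mem_filter, mem_univ, true_and]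
    constructor
    · intro h
      cases o with
      | none => exact Or.inr ⟨g, h, rfl⟩
      | some x => exact Or.inl ⟨(g, x), h, rfl⟩
    · rintro (⟨l, hl, h⟩ | ⟨g', hg, h⟩)
      · rw [← h]
        exact hl
      · rw [← h]
        exact hg
  have h2 : Disjoint ((LX X).image (fun l : Ln q => ((l.1, some l.2) : Vx q)))
      ((AX X).image (fun g : Dir q => ((g, none) : Vx q))) := by
    rw [disjoint_left]
    intro x hx hx'
    rw [mem_image] at hx hx'
    obtain ⟨l, -, rfl⟩ := hx
    obtain ⟨g, -, h⟩ := hx'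
    have := congrArg Prod.snd h
    simp at this
  conv_rhs => rw [h1]
  rw [card_union_of_disjoint h2, card_image_of_injective, card_image_of_injective]
  · intro g g' h
    exact congrArg Prod.fst h
  · intro l l' h
    simp only [Prod.mk.injEq, Option.some.injEq] at h
    exact Prod.ext h.1 h.2

theorem cov_of_cover {c : Dir q → Gd q} {b : Dir q → Fin 9 → Pt q} {X : Finset (Vx q)}
    (hX : ∀ e ∈ Edges c b, (e ∩ X).Nonempty) : ∀ v, Nrm c b v → v ∈ cov (LX X) := by
  intro v hv
  have h1 : eN v ∈ Edges c b := by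
    unfold Edges
    rw [mem_union, mem_image]
    exact Or.inl ⟨v, by rw [mem_filter]; exact ⟨mem_univ _, hv⟩, rfl⟩
  obtain ⟨x, hx⟩ := hX _ h1
  rw [mem_inter] at hx
  obtain ⟨hx1, hx2⟩ := hx
  unfold eN at hx1
  rw [mem_image] at hx1
  obtain ⟨g, -, rfl⟩ := hx1
  rw [mem_cov]
  refine ⟨thr g v, ?_, mem_pts_thr g v⟩
  unfold LX
  rw [mem_filter]
  exact ⟨mem_univ _, hx2⟩

theorem hub_of_cover {c : Dir q → Gd q} {b : Dir q → Fin 9 → Pt q} {X : Finset (Vx q)}
    (hX : ∀ e ∈ Edges c b, (e ∩ X).Nonempty) (f : Dir q) (s : Bool) :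
    ∃ g, (g, hv c b f s g) ∈ X := by
  have h1 : eH c b f s ∈ Edges c b := by
    unfold Edges
    rw [mem_union, mem_image, mem_image]
    exact Or.inr ⟨(f, s), mem_univ _, rfl⟩
  obtain ⟨x, hx⟩ := hX _ h1
  rw [mem_inter] at hx
  obtain ⟨hx1, hx2⟩ := hx
  unfold eH at hx1
  rw [mem_image] at hx1
  obtain ⟨g, -, rfl⟩ := hx1
  exact ⟨g, hx2⟩

/-- The hub `(d, true)` is not covered by lines of direction `d`. -/
theorem miss_inf {c : Dir q → Gd q} {b : Dir q → Fin 9 → Pt q} {X : Finset (Vx q)} {d : Dir q}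
    (hA : AX X = ∅) (hL : ∀ l ∈ LX X, l.1 = d) (g : Dir q) : (g, hv c b d true g) ∉ X := by
  intro h
  have hno : ∀ g : Dir q, (g, none) ∉ X := by
    intro g hg
    have : g ∈ AX X := by
      unfold AX
      rw [mem_filter]
      exact ⟨mem_univ _, hg⟩
    rw [hA] at this
    exact absurd this (notMem_empty _)
  have hso : ∀ (g : Dir q) (x : ZMod q), (g, some x) ∈ X → g = d := by
    intro g x hg
    have : ((g, x) : Ln q) ∈ LX X := by
      unfold LX
      rw [mem_filter]
      exact ⟨mem_univ _, hg⟩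
    exact hL _ this
  by_cases hgd : g = d
  · unfold hv at h
    rw [if_pos hgd] at h
    exact hno g h
  · unfold hv at h
    rw [if_neg hgd] at h
    split_ifs at h with h1
    · exact hgd (hso _ _ h)
    · exact hgd (hso _ _ h)

/-- The hub `(f, !s)` is not covered by lines `≠ l_f` through the hub `(f, s)` and lines
`L_{f,s,k}`. -/
theorem miss_hub {c : Dir q → Gd q} {b : Dir q → Fin 9 → Pt q} (hc : Sep c)
    (hb : ∀ f, b f ∈ Bset c f) {X : Finset (Vx q)} {f : Dir q} {s : Bool} (hA : AX X = ∅)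
    (hL : ∀ l ∈ LX X, ((c f).1 s ∈ pts l ∧ l ≠ lf f (c f)) ∨ ∃ k, l = Ll c b f s k) (g : Dir q) :
    (g, hv c b f (!s) g) ∉ X := by
  intro h
  obtain ⟨g1, g2, g3, g4⟩ := mem_GadSet.1 (mem_All.1 hc.mem f)
  have hub : ∀ s, (c f).1 s ∈ pts (lf f (c f)) := by
    intro s
    cases s with
    | true => exact mem_pts_thr _ _
    | false => exact g1
  have hne : (c f).1 s ≠ (c f).1 (!s) := by
    cases s with
    | true => exact g2.symm
    | false => exact g2
  have hbm : ∀ k, b f k ∈ pts (lf f (c f)) ∧ ∀ s, b f k ≠ (c f).1 s := by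
    intro k
    have h := hb f
    unfold Bset at h
    rw [mem_filter] at h
    have h1 := h.2.1 k
    unfold Valid at h1
    rw [mem_filter] at h1
    exact ⟨h1.1, h1.2.1⟩
  -- no hub of `f` on a line of another direction through `b f k`
  have hnot : ∀ (e : Dir q) k s, e ≠ f → (c f).1 s ∉ pts (thr e (b f k)) := by
    intro e k s he h1
    have h2 : thr e (b f k) ≠ lf f (c f) := fun h3 => he (congrArg Prod.fst h3)
    exact (hbm k).2 s (eq_of_mem_pts h2 (mem_pts_thr _ _) (hbm k).1 h1 (hub s))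
  have hno : ∀ g : Dir q, (g, none) ∉ X := by
    intro g hg
    have : g ∈ AX X := by
      unfold AX
      rw [mem_filter]
      exact ⟨mem_univ _, hg⟩
    rw [hA] at this
    exact absurd this (notMem_empty _)
  have hso : ∀ v : Pt q, (g, some (ic g v)) ∈ X →
      ((c f).1 s ∈ pts (thr g v) ∧ thr g v ≠ lf f (c f)) ∨ ∃ k, thr g v = Ll c b f s k := by
    intro v hg
    refine hL (thr g v) ?_
    unfold LX
    rw [mem_filter]
    exact ⟨mem_univ _, hg⟩
  unfold hv at h
  by_cases hgf : g = f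
  · rw [if_pos hgf] at h
    exact hno g h
  rw [if_neg hgf] at h
  split_ifs at h with h1
  · have hi := h1.choose_spec
    rcases hso _ h with h2 | ⟨k, h2⟩
    · exact hnot g _ s hgf h2.1
    · have h3 : g = (c f).2 (s, k) := congrArg Prod.fst h2
      have h4 := congrArg Prod.fst (g3 (hi.trans h3))
      simp at h4
  · rcases hso _ h with h2 | ⟨k, h2⟩
    · have h3 : thr g ((c f).1 !s) ≠ lf f (c f) := h2.2
      exact hne (eq_of_mem_pts h3 h2.1 (hub s) (mem_pts_thr _ _) (hub (!s)))
    · have h3 : (c f).1 (!s) ∈ pts (Ll c b f s k) := by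
        rw [← h2]
        exact mem_pts_thr _ _
      exact hnot _ k (!s) (g4 (s, k)) h3

/-- `Pencil` for at most `q` lines: pad with special lines (there are at least `q + 1`, the `l_f`). -/
theorem pencil_le {c : Dir q → Gd q} (hp : Pencil c) {L : Finset (Ln q)} (hL : L.card ≤ q)
    (hcov : Wp c ⊆ cov L) :
    (∃ v : Pt q, ∀ l, v ∈ pts l → l ∉ Rl c → l ∈ L) ∨
      ∃ d : Dir q, ∀ l : Ln q, l.1 = d → l ∉ Rl c → l ∈ L := by
  have hR : q + 1 ≤ (Rl c).card := by
    have h1 : (univ : Finset (Dir q)).card ≤ (Rl c).card := by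
      refine card_le_card_of_injOn (fun f => lf f (c f)) ?_ ?_
      · intro f _
        rw [mem_coe]
        unfold Rl gl
        rw [mem_biUnion]
        exact ⟨f, mem_univ _, mem_insert_self _ _⟩
      · intro f _ f' _ h
        exact congrArg Prod.fst h
    rwa [card_univ, card_Dir] at h1
  -- pad with special lines
  obtain ⟨L', hL1, hL2, hL3⟩ : ∃ L' : Finset (Ln q), L ⊆ L' ∧ L' ⊆ L ∪ Rl c ∧ L'.card = q := by
    have h1 : q ≤ (L ∪ Rl c).card := by
      have := card_le_card (subset_union_right (s₁ := L) (s₂ := Rl c))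
      omega
    exact exists_subsuperset_card_eq subset_union_left hL h1
  rcases hp L' hL3 (hcov.trans (cov_mono hL1)) with ⟨v, hv⟩ | ⟨d, hd⟩
  · left
    refine ⟨v, fun l h1 h2 => ?_⟩
    rcases mem_union.1 (hL2 (hv l h1 h2)) with h3 | h3
    · exact h3
    · exact absurd h3 h2
  · right
    refine ⟨d, fun l h1 h2 => ?_⟩
    rcases mem_union.1 (hL2 (hd l h1 h2)) with h3 | h3
    · exact h3
    · exact absurd h3 h2

end P045
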