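import Vale.Agent.P045R.DTI
import Vale.Agent.P045R.DTA
import Vale.Agent.P045R.DTH
import Vale.Agent.P045R.DTM

/-!
# P045R, module DTC: no cover by `q` vertices
-/

namespace P045

open Finset
open scoped Classical

variable {q : ℕ} [Fact q.Prime]

/-- Module DTC.  No cover by `q` vertices. -/
theorem edges_cover {c : Dir q → Gd q} {b : Dir q → Fin 9 → Pt q} (hc : Sep c)
    (hb : ∀ f, b f ∈ Bset c f) (hf : Few c b) (hp : Pencil c) :
    ∀ X : Finset (Vx q), (∀ e ∈ Edges c b, (e ∩ X).Nonempty) → q + 1 ≤ X.card := by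
  intro X hX
  by_contra hlt
  have hq : X.card ≤ q := by omega
  have hcard := card_LX_add_card_AX X
  have hcov := cov_of_cover hX
  have hW : Wp c ⊆ cov (LX X) := fun v hv => hcov v (Or.inl hv)
  have hLA : (LX X).card + (AX X).card ≤ q := by omega
  rcases pencil_le hp (by omega : (LX X).card ≤ q) hW with ⟨v, hv⟩ | ⟨d, hd⟩
  · by_cases hh : ∀ f s, (c f).1 s ≠ v
    · exact case_aff hc hb hf hh (by omega : (LX X).card ≤ q) hcov hv
    · push Not at hh
      obtain ⟨f, s, rfl⟩ := hh
      obtain ⟨hA, hL⟩ := case_hub hc hb hf hLA hcov hv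
      have hA' : AX X = ∅ := card_eq_zero.mp hA
      obtain ⟨g, hg⟩ := hub_of_cover hX f (!s)
      exact miss_hub hc hb hA' hL g hg
  · obtain ⟨hA, hL⟩ := case_inf hc hb hf hLA hcov hd
    have hA' : AX X = ∅ := card_eq_zero.mp hA
    obtain ⟨g, hg⟩ := hub_of_cover hX d true
    exact miss_inf hA' hL g hg

end P045
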