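import Vale.Agent.P045R.DTDefs

/-!
# P045R: basic facts on gadgets and planted points (for DTI and DTC)
-/

namespace P045

namespace DTB

open Finset
open scoped Classical

section
variable {q : ℕ} [Fact q.Prime]

/-! ### basic facts on a gadget -/

theorem hub_mem_lf {c : Dir q → Gd q} (hc : Sep c) (f : Dir q) (s : Bool) :
    (c f).1 s ∈ pts (lf f (c f)) := by
  cases s with
  | true => exact mem_pts_thr _ _
  | false => exact (mem_GadSet.mp (mem_All.mp hc.mem f)).1

theorem hub_ne {c : Dir q → Gd q} (hc : Sep c) (f : Dir q) (s : Bool) :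
    (c f).1 s ≠ (c f).1 (!s) := by
  have h := (mem_GadSet.mp (mem_All.mp hc.mem f)).2.1
  cases s with
  | true => exact h.symm
  | false => exact h

theorem dir_inj {c : Dir q → Gd q} (hc : Sep c) (f : Dir q) :
    Function.Injective (c f).2 :=
  (mem_GadSet.mp (mem_All.mp hc.mem f)).2.2.1

theorem dir_ne {c : Dir q → Gd q} (hc : Sep c) (f : Dir q) (x : Bool × Fin 9) :
    (c f).2 x ≠ f :=
  (mem_GadSet.mp (mem_All.mp hc.mem f)).2.2.2 x

theorem hub_mem_ml (c : Dir q → Gd q) (f : Dir q) (x : Bool × Fin 9) :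
    (c f).1 x.1 ∈ pts (ml (c f) x) := mem_pts_thr _ _

omit [Fact q.Prime] in
theorem lf_dir (c : Dir q → Gd q) (f : Dir q) : (lf f (c f)).1 = f := rfl

omit [Fact q.Prime] in
theorem ml_dir (c : Dir q → Gd q) (f : Dir q) (x : Bool × Fin 9) :
    (ml (c f) x).1 = (c f).2 x := rfl

omit [Fact q.Prime] in
theorem Ll_dir (c : Dir q → Gd q) (b : Dir q → Fin 9 → Pt q) (f : Dir q) (s : Bool)
    (k : Fin 9) : (Ll c b f s k).1 = (c f).2 (s, k) := rfl

theorem b_mem_Ll (c : Dir q → Gd q) (b : Dir q → Fin 9 → Pt q) (f : Dir q) (s : Bool)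
    (k : Fin 9) : b f k ∈ pts (Ll c b f s k) := mem_pts_thr _ _

theorem mem_gl {c : Dir q → Gd q} {f : Dir q} {l : Ln q} :
    l ∈ gl f (c f) ↔ l = lf f (c f) ∨ ∃ x, ml (c f) x = l := by
  simp only [gl, mem_insert, mem_image, mem_univ, true_and]

theorem mem_Rl {c : Dir q → Gd q} {l : Ln q} :
    l ∈ Rl c ↔ ∃ f, l ∈ gl f (c f) := by
  simp only [Rl, mem_biUnion, mem_univ, true_and]

/-- A point of `l_f` other than a hub is on no line through a hub except `l_f`. -/
theorem dir_of_two {c : Dir q → Gd q} {f : Dir q} {x y : Pt q} {l : Ln q}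
    (hx : x ∈ pts (lf f (c f))) (hy : y ∈ pts (lf f (c f))) (hne : x ≠ y)
    (hxl : x ∈ pts l) (hyl : y ∈ pts l) : l.1 = f := by
  by_contra h
  have hl : l ≠ lf f (c f) := by
    intro h'
    exact h (by rw [h']; rfl)
  exact hne (eq_of_mem_pts hl hxl hx hyl hy)

theorem b_valid {c : Dir q → Gd q} {b : Dir q → Fin 9 → Pt q}
    (hb : ∀ f, b f ∈ Bset c f) (f : Dir q) (k : Fin 9) : b f k ∈ Valid c f k := by
  have h := hb f
  simp only [Bset, mem_filter, mem_univ, true_and] at h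
  exact h.1 k

theorem b_inj {c : Dir q → Gd q} {b : Dir q → Fin 9 → Pt q}
    (hb : ∀ f, b f ∈ Bset c f) (f : Dir q) : Function.Injective (b f) := by
  have h := hb f
  simp only [Bset, mem_filter, mem_univ, true_and] at h
  exact h.2.1

theorem P_ne {c : Dir q → Gd q} {b : Dir q → Fin 9 → Pt q}
    (hb : ∀ f, b f ∈ Bset c f) (f : Dir q) (s : Bool) {k k' i : Fin 9} (h1 : k ≠ k')
    (h2 : i ≠ k) (h3 : i ≠ k') : Pp c b f s k i ≠ Pp c b f s k' i := by
  have h := hb f
  simp only [Bset, mem_filter, mem_univ, true_and] at h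
  exact h.2.2 s k k' i h1 h2 h3

theorem b_mem_lf {c : Dir q → Gd q} {b : Dir q → Fin 9 → Pt q}
    (hb : ∀ f, b f ∈ Bset c f) (f : Dir q) (k : Fin 9) : b f k ∈ pts (lf f (c f)) := by
  have h := b_valid hb f k
  simp only [Valid, mem_filter] at h
  exact h.1

theorem b_ne_hub {c : Dir q → Gd q} {b : Dir q → Fin 9 → Pt q}
    (hb : ∀ f, b f ∈ Bset c f) (f : Dir q) (k : Fin 9) (s : Bool) : b f k ≠ (c f).1 s := by
  have h := b_valid hb f k
  simp only [Valid, mem_filter] at h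
  exact h.2.1 s

theorem b_not_cov {c : Dir q → Gd q} {b : Dir q → Fin 9 → Pt q}
    (hb : ∀ f, b f ∈ Bset c f) (f : Dir q) (k : Fin 9) : b f k ∉ cov (Rx c f) := by
  have h := b_valid hb f k
  simp only [Valid, mem_filter] at h
  exact h.2.2.1

theorem P_not_cov {c : Dir q → Gd q} {b : Dir q → Fin 9 → Pt q}
    (hb : ∀ f, b f ∈ Bset c f) (f : Dir q) (s : Bool) {k i : Fin 9} (h1 : i ≠ k) :
    Pp c b f s k i ∉ cov (Rx c f) := by
  have h := b_valid hb f k
  simp only [Valid, mem_filter] at h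
  exact (h.2.2.2 s i h1).1

theorem P_not_ml {c : Dir q → Gd q} {b : Dir q → Fin 9 → Pt q}
    (hb : ∀ f, b f ∈ Bset c f) (f : Dir q) (s : Bool) {k i : Fin 9} (h1 : i ≠ k) (i' : Fin 9) :
    Pp c b f s k i ∉ pts (ml (c f) (!s, i')) := by
  have h := b_valid hb f k
  simp only [Valid, mem_filter] at h
  exact (h.2.2.2 s i h1).2 i'

theorem P_mem {c : Dir q → Gd q} {b : Dir q → Fin 9 → Pt q} (hc : Sep c)
    (f : Dir q) (s : Bool) {k i : Fin 9} (h1 : i ≠ k) :
    Pp c b f s k i ∈ pts (Ll c b f s k) ∧ Pp c b f s k i ∈ pts (ml (c f) (s, i)) := by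
  apply meet_spec
  rw [Ll_dir, ml_dir]
  intro h
  have h2 := dir_inj hc f h
  simp only [Prod.mk.injEq, true_and] at h2
  exact h1 h2.symm

theorem hub_not_Ll {c : Dir q → Gd q} {b : Dir q → Fin 9 → Pt q} (hc : Sep c)
    (hb : ∀ f, b f ∈ Bset c f) (f : Dir q) (s s' : Bool) (k : Fin 9) :
    (c f).1 s' ∉ pts (Ll c b f s k) := by
  intro h
  have h1 := dir_of_two (b_mem_lf hb f k) (hub_mem_lf hc f s') (b_ne_hub hb f k s')
    (b_mem_Ll c b f s k) h
  exact dir_ne hc f _ h1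

theorem P_ne_hub {c : Dir q → Gd q} {b : Dir q → Fin 9 → Pt q} (hc : Sep c)
    (hb : ∀ f, b f ∈ Bset c f) (f : Dir q) (s : Bool) {k i : Fin 9} (h1 : i ≠ k) (s' : Bool) :
    Pp c b f s k i ≠ (c f).1 s' := by
  intro h
  exact hub_not_Ll hc hb f s s' k (h ▸ (P_mem hc f s h1).1)

theorem lf_ne_ml {c : Dir q → Gd q} (hc : Sep c) (f : Dir q) (x : Bool × Fin 9) :
    lf f (c f) ≠ ml (c f) x := by
  intro h
  exact dir_ne hc f x (congrArg Prod.fst h).symm

theorem ml_inj {c : Dir q → Gd q} (hc : Sep c) (f : Dir q) {x y : Bool × Fin 9}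
    (h : ml (c f) x = ml (c f) y) : x = y :=
  dir_inj hc f (congrArg Prod.fst h)

/-- The only special line through `b_{f,k}` is `l_f`. -/
theorem b_uniq {c : Dir q → Gd q} {b : Dir q → Fin 9 → Pt q} (hc : Sep c)
    (hb : ∀ f, b f ∈ Bset c f) (f : Dir q) (k : Fin 9) {l : Ln q} (hl : l ∈ Rl c)
    (h : b f k ∈ pts l) : l = lf f (c f) := by
  obtain ⟨f', hf'⟩ := mem_Rl.mp hl
  by_cases hff : f' = f
  · subst hff
    rcases mem_gl.mp hf' with h1 | ⟨x, rfl⟩
    · exact h1
    · exfalso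
      have h2 := dir_of_two (b_mem_lf hb f' k) (hub_mem_lf hc f' x.1) (b_ne_hub hb f' k x.1)
        h (hub_mem_ml c f' x)
      exact dir_ne hc f' x h2
  · exfalso
    apply b_not_cov hb f k
    rw [mem_cov]
    refine ⟨l, ?_, h⟩
    simp only [Rx, mem_biUnion, mem_erase, mem_univ, and_true]
    exact ⟨f', hff, hf'⟩

/-- The only special line through `P_{f,s,k,i}` is `m_{f,s,i}`. -/
theorem P_uniq {c : Dir q → Gd q} {b : Dir q → Fin 9 → Pt q} (hc : Sep c)
    (hb : ∀ f, b f ∈ Bset c f) (f : Dir q) (s : Bool) {k i : Fin 9} (hik : i ≠ k) {l : Ln q}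
    (hl : l ∈ Rl c) (h : Pp c b f s k i ∈ pts l) : l = ml (c f) (s, i) := by
  obtain ⟨f', hf'⟩ := mem_Rl.mp hl
  by_cases hff : f' = f
  · subst hff
    rcases mem_gl.mp hf' with rfl | ⟨⟨s', i'⟩, rfl⟩
    · exfalso
      exact P_ne_hub hc hb f' s hik s (eq_of_mem_pts (lf_ne_ml hc f' (s, i)) h
        (P_mem hc f' s hik).2 (hub_mem_lf hc f' s) (hub_mem_ml c f' (s, i)))
    · by_cases hs : s' = s
      · subst hs
        by_contra hne
        exact P_ne_hub hc hb f' s' hik s' (eq_of_mem_pts hne h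
          (P_mem hc f' s' hik).2 (hub_mem_ml c f' (s', i')) (hub_mem_ml c f' (s', i)))
      · exfalso
        have hs' : s' = !s := by
          cases s <;> cases s' <;> simp_all
        subst hs'
        exact P_not_ml hb f' s hik i' h
  · exfalso
    apply P_not_cov hb f s hik
    rw [mem_cov]
    refine ⟨l, ?_, h⟩
    simp only [Rx, mem_biUnion, mem_erase, mem_univ, and_true]
    exact ⟨f', hff, hf'⟩

/-- Every special line has at least eight planted points. -/
theorem planted {c : Dir q → Gd q} {b : Dir q → Fin 9 → Pt q} (hc : Sep c)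
    (hb : ∀ f, b f ∈ Bset c f) {f : Dir q} {l : Ln q} (hl : l ∈ gl f (c f)) :
    ∃ P : Finset (Pt q), 8 ≤ P.card ∧ ∀ x ∈ P, x ∈ pts l ∧ Nrm c b x ∧
      (∀ l' ∈ Rl c, x ∈ pts l' → l' = l) ∧
      ∀ t, x ∈ pts t → (∀ v ∈ pts l, HitA c b f v t) ∧ HitI c b f l.1 t := by
  rcases mem_gl.mp hl with rfl | ⟨⟨s, i⟩, rfl⟩
  · refine ⟨univ.image (b f), ?_, ?_⟩
    · rw [card_image_of_injective _ (b_inj hb f)]
      simp
    · intro x hx
      obtain ⟨k, -, rfl⟩ := mem_image.mp hx
      refine ⟨b_mem_lf hb f k, Or.inr (Or.inl ⟨f, k, rfl⟩), fun l' h1 h2 => b_uniq hc hb f k h1 h2,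
        ?_⟩
      intro t ht
      exact ⟨fun v hv => Or.inl ⟨hv, k, ht⟩, Or.inl ⟨rfl, k, ht⟩⟩
  · refine ⟨(univ.erase i).image fun k => Pp c b f s k i, ?_, ?_⟩
    · rw [card_image_of_injOn, card_erase_of_mem (mem_univ _)]
      · simp
      · intro k hk k' hk' hkk
        by_contra hne
        have h1 : i ≠ k := fun h => by simp [h] at hk
        have h2 : i ≠ k' := fun h => by simp [h] at hk'
        exact P_ne hb f s hne h1 h2 hkk
    · intro x hx
      obtain ⟨k, hk, rfl⟩ := mem_image.mp hx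
      have h1 : i ≠ k := fun h => by simp [h] at hk
      refine ⟨(P_mem hc f s h1).2, Or.inr (Or.inr ⟨f, s, k, i, h1, rfl⟩),
        fun l' h2 h3 => P_uniq hc hb f s h1 h2 h3, ?_⟩
      intro t ht
      exact ⟨fun v hv => Or.inr ⟨s, i, k, h1, hv, ht⟩, Or.inr ⟨s, i, k, h1, rfl, ht⟩⟩

/-- A gadget has at most two lines through a non hub. -/
theorem fib2 {c : Dir q → Gd q} (hc : Sep c) (f : Dir q) {v : Pt q}
    (hv : ∀ s, (c f).1 s ≠ v) : ((gl f (c f)).filter fun l => v ∈ pts l).card ≤ 2 := by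
  by_cases hvl : v ∈ pts (lf f (c f))
  · have : ((gl f (c f)).filter fun l => v ∈ pts l) ⊆ {lf f (c f)} := by
      intro l hl
      rw [mem_filter] at hl
      rw [mem_singleton]
      rcases mem_gl.mp hl.1 with h | ⟨x, rfl⟩
      · exact h
      · exfalso
        exact hv x.1 (eq_of_mem_pts (lf_ne_ml hc f x) (hub_mem_lf hc f x.1) (hub_mem_ml c f x)
          hvl hl.2)
    exact (card_le_card this).trans (by simp)
  · have hone : ∀ s : Bool, (univ.filter fun l : Ln q => v ∈ pts l ∧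
        ∃ i, ml (c f) (s, i) = l).card ≤ 1 := by
      intro s
      rw [card_le_one]
      intro l hl l' hl'
      simp only [mem_filter, mem_univ, true_and] at hl hl'
      obtain ⟨h1, i, rfl⟩ := hl
      obtain ⟨h2, i', rfl⟩ := hl'
      by_contra hne
      exact hv s (eq_of_mem_pts hne (hub_mem_ml c f (s, i)) (hub_mem_ml c f (s, i')) h1 h2)
    have hsub : ((gl f (c f)).filter fun l => v ∈ pts l) ⊆
        (univ.filter fun l : Ln q => v ∈ pts l ∧ ∃ i, ml (c f) (true, i) = l) ∪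
        (univ.filter fun l : Ln q => v ∈ pts l ∧ ∃ i, ml (c f) (false, i) = l) := by
      intro l hl
      rw [mem_filter] at hl
      rw [mem_union]
      simp only [mem_filter, mem_univ, true_and]
      rcases mem_gl.mp hl.1 with h | ⟨⟨s, i⟩, h⟩
      · exact absurd (h ▸ hl.2) hvl
      · cases s with
        | true => exact Or.inl ⟨hl.2, i, h⟩
        | false => exact Or.inr ⟨hl.2, i, h⟩
    have h1 := hone true
    have h2 := hone false
    exact (card_le_card hsub).trans ((card_union_le _ _).trans (by omega))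

/-- A gadget has at most one line of every direction. -/
theorem fib1 {c : Dir q → Gd q} (hc : Sep c) (f d : Dir q) :
    ((gl f (c f)).filter fun l => l.1 = d).card ≤ 1 := by
  rw [card_le_one]
  intro l hl l' hl'
  rw [mem_filter] at hl hl'
  rcases mem_gl.mp hl.1 with h | ⟨x, h⟩ <;> rcases mem_gl.mp hl'.1 with h' | ⟨x', h'⟩
  · rw [h, h']
  · exfalso
    apply dir_ne hc f x'
    rw [← ml_dir, h', hl'.2, ← hl.2, h, lf_dir]
  · exfalso
    apply dir_ne hc f x
    rw [← ml_dir, h, hl.2, ← hl'.2, h', lf_dir]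
  · have : x = x' := by
      apply dir_inj hc f
      rw [← ml_dir, h, hl.2, ← ml_dir, h', hl'.2]
    rw [← h, ← h', this]

end

end DTB

end P045
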