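import Vale.Agent.P045R.Model

/-!
# P045R: the hypergraph, definitions
-/

namespace P045

open Finset
open scoped Classical

/-- Vertices: (class, line of that direction or the extra vertex `none`). -/
abbrev Vx (q : ℕ) := Dir q × Option (ZMod q)

section
variable {q : ℕ} [Fact q.Prime]

/-- The edge of a point. -/
noncomputable def eN (v : Pt q) : Finset (Vx q) := univ.image fun g : Dir q => (g, some (ic g v))

/-- The vertex of class `g` in the edge of the hub `(f, s)`. -/
noncomputable def hv (c : Dir q → Gd q) (b : Dir q → Fin 9 → Pt q) (f : Dir q) (s : Bool)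
    (g : Dir q) : Option (ZMod q) :=
  if g = f then none
  else if h : ∃ i, (c f).2 (s, i) = g then some (ic g (b f h.choose))
  else some (ic g ((c f).1 s))

/-- The edge of the hub `(f, s)`. -/
noncomputable def eH (c : Dir q → Gd q) (b : Dir q → Fin 9 → Pt q) (f : Dir q) (s : Bool) :
    Finset (Vx q) :=
  univ.image fun g : Dir q => (g, hv c b f s g)

/-- The normal points: `W` and the planted points. -/
def Nrm (c : Dir q → Gd q) (b : Dir q → Fin 9 → Pt q) (v : Pt q) : Prop :=
  v ∈ Wp c ∨ (∃ f k, v = b f k) ∨ ∃ f s k i, i ≠ k ∧ v = Pp c b f s k i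

/-- The hypergraph. -/
noncomputable def Edges (c : Dir q → Gd q) (b : Dir q → Fin 9 → Pt q) : Finset (Finset (Vx q)) :=
  ((univ.filter fun v => Nrm c b v).image eN) ∪
    ((univ : Finset (Dir q × Bool)).image fun x => eH c b x.1 x.2)

/-- The planted points that belong to the special line `l`. -/
noncomputable def PlL (c : Dir q → Gd q) (b : Dir q → Fin 9 → Pt q) (l : Ln q) : Finset (Pt q) :=
  univ.filter fun v => (∃ f k, l = lf f (c f) ∧ v = b f k) ∨
    ∃ f s i k, i ≠ k ∧ l = ml (c f) (s, i) ∧ v = Pp c b f s k i

/-- The lines in a set of vertices. -/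
noncomputable def LX (X : Finset (Vx q)) : Finset (Ln q) := univ.filter fun l => (l.1, some l.2) ∈ X

/-- The extra vertices in a set of vertices. -/
noncomputable def AX (X : Finset (Vx q)) : Finset (Dir q) := univ.filter fun g => (g, none) ∈ X

end

end P045
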