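import Vale.Agent.P045R.DTDefs

/-!
# P045R, module DTG: planted points and special lines
-/

namespace P045

open Finset
open scoped Classical

variable {q : ℕ} [Fact q.Prime]

theorem dtg_gad {c : Dir q → Gd q} (hc : Sep c) (f : Dir q) :
    (c f).1 false ∈ pts (lf f (c f)) ∧ (c f).1 false ≠ (c f).1 true ∧
      Function.Injective (c f).2 ∧ ∀ x, (c f).2 x ≠ f :=
  mem_GadSet.1 (mem_All.1 hc.mem f)

theorem dtg_hub_lf {c : Dir q → Gd q} (hc : Sep c) (f : Dir q) (s : Bool) :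
    (c f).1 s ∈ pts (lf f (c f)) := by
  cases s
  · exact (dtg_gad hc f).1
  · exact mem_pts_thr _ _

theorem dtg_hub_ml (c : Dir q → Gd q) (f : Dir q) (s : Bool) (i : Fin 9) :
    (c f).1 s ∈ pts (ml (c f) (s, i)) := mem_pts_thr _ _

theorem dtg_hub_ne {c : Dir q → Gd q} (hc : Sep c) (f : Dir q) (s : Bool) :
    (c f).1 s ≠ (c f).1 (!s) := by
  cases s
  · exact (dtg_gad hc f).2.1
  · exact (dtg_gad hc f).2.1.symm

theorem dtg_ml_ne_lf {c : Dir q → Gd q} (hc : Sep c) (f : Dir q) (x : Bool × Fin 9) :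
    ml (c f) x ≠ lf f (c f) := by
  intro h
  exact (dtg_gad hc f).2.2.2 x (congrArg Prod.fst h)

/-- a point of `l_f` which is not the hub `s` is not on `m_{f,s,i}` -/
theorem dtg_not_ml {c : Dir q → Gd q} (hc : Sep c) (f : Dir q) (s : Bool) (i : Fin 9) {v : Pt q}
    (hv : v ∈ pts (lf f (c f))) (hne : v ≠ (c f).1 s) : v ∉ pts (ml (c f) (s, i)) := by
  intro h
  exact hne (eq_of_mem_pts (dtg_ml_ne_lf hc f (s, i)) h hv (dtg_hub_ml c f s i)
    (dtg_hub_lf hc f s))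

theorem dtg_valid {c : Dir q → Gd q} {b : Dir q → Fin 9 → Pt q}
    (hb : ∀ f, b f ∈ Bset c f) (f : Dir q) (k : Fin 9) :
    b f k ∈ pts (lf f (c f)) ∧ (∀ s, b f k ≠ (c f).1 s) ∧ b f k ∉ cov (Rx c f) ∧
      ∀ s i, i ≠ k → Pp c b f s k i ∉ cov (Rx c f) ∧
        ∀ i', Pp c b f s k i ∉ pts (ml (c f) (!s, i')) := by
  have h := (mem_filter.1 (hb f)).2.1 k
  unfold Valid at h
  rw [mem_filter] at h
  exact h

theorem dtg_inj {c : Dir q → Gd q} {b : Dir q → Fin 9 → Pt q}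
    (hb : ∀ f, b f ∈ Bset c f) (f : Dir q) : Function.Injective (b f) :=
  (mem_filter.1 (hb f)).2.2.1

theorem dtg_Pp_ne {c : Dir q → Gd q} {b : Dir q → Fin 9 → Pt q}
    (hb : ∀ f, b f ∈ Bset c f) (f : Dir q) (s : Bool) (k k' i : Fin 9) (h : k ≠ k')
    (hi : i ≠ k) (hi' : i ≠ k') : Pp c b f s k i ≠ Pp c b f s k' i :=
  (mem_filter.1 (hb f)).2.2.2 s k k' i h hi hi'

theorem dtg_Pp_mem {c : Dir q → Gd q} (hc : Sep c) (b : Dir q → Fin 9 → Pt q) (f : Dir q)
    (s : Bool) (k i : Fin 9) (hi : i ≠ k) :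
    Pp c b f s k i ∈ pts (Ll c b f s k) ∧ Pp c b f s k i ∈ pts (ml (c f) (s, i)) := by
  refine meet_spec ?_
  intro h
  have h1 : (c f).2 (s, k) = (c f).2 (s, i) := h
  have h2 := (dtg_gad hc f).2.2.1 h1
  simp only [Prod.mk.injEq, true_and] at h2
  exact hi h2.symm

theorem dtg_b_not_ml {c : Dir q → Gd q} {b : Dir q → Fin 9 → Pt q} (hc : Sep c)
    (hb : ∀ f, b f ∈ Bset c f) (f : Dir q) (k : Fin 9) (x : Bool × Fin 9) :
    b f k ∉ pts (ml (c f) x) :=
  dtg_not_ml hc f x.1 x.2 (dtg_valid hb f k).1 ((dtg_valid hb f k).2.1 x.1)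

theorem dtg_Pp_not_lf {c : Dir q → Gd q} {b : Dir q → Fin 9 → Pt q} (hc : Sep c)
    (hb : ∀ f, b f ∈ Bset c f) (f : Dir q) (s : Bool) (k i : Fin 9) (hi : i ≠ k) :
    Pp c b f s k i ∉ pts (lf f (c f)) := by
  intro h
  obtain ⟨h1, h2⟩ := dtg_Pp_mem hc b f s k i hi
  have hne : Ll c b f s k ≠ lf f (c f) := by
    intro hh
    exact (dtg_gad hc f).2.2.2 (s, k) (congrArg Prod.fst hh)
  have h3 : Pp c b f s k i = b f k :=
    eq_of_mem_pts hne h1 h (mem_pts_thr _ _) (dtg_valid hb f k).1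
  rw [h3] at h2
  exact dtg_b_not_ml hc hb f k (s, i) h2

theorem dtg_Pp_not_ml {c : Dir q → Gd q} {b : Dir q → Fin 9 → Pt q} (hc : Sep c)
    (hb : ∀ f, b f ∈ Bset c f) (f : Dir q) (s : Bool) (k i : Fin 9) (hi : i ≠ k)
    (x : Bool × Fin 9) (hx : x ≠ (s, i)) : Pp c b f s k i ∉ pts (ml (c f) x) := by
  intro h
  obtain ⟨s', i'⟩ := x
  by_cases hs : s' = s
  · subst hs
    obtain ⟨h1, h2⟩ := dtg_Pp_mem hc b f s' k i hi
    have hne : ml (c f) (s', i') ≠ ml (c f) (s', i) := by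
      intro hh
      have h3 : (c f).2 (s', i') = (c f).2 (s', i) := congrArg Prod.fst hh
      exact hx ((dtg_gad hc f).2.2.1 h3)
    have h3 : Pp c b f s' k i = (c f).1 s' :=
      eq_of_mem_pts hne h h2 (dtg_hub_ml c f s' i') (dtg_hub_ml c f s' i)
    rw [h3] at h1
    have h4 : Ll c b f s' k = ml (c f) (s', k) := mem_pts_iff_thr.1 h1
    have h5 : b f k ∈ pts (Ll c b f s' k) := mem_pts_thr _ _
    rw [h4] at h5
    exact dtg_b_not_ml hc hb f k (s', k) h5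
  · have hs' : s' = !s := by
      cases s <;> cases s' <;> simp_all
    subst hs'
    exact ((dtg_valid hb f k).2.2.2 s i hi).2 i' h

theorem dtg_mem_Rl {c : Dir q → Gd q} {l : Ln q} :
    l ∈ Rl c ↔ ∃ f, l = lf f (c f) ∨ ∃ x, l = ml (c f) x := by
  unfold Rl gl
  rw [mem_biUnion]
  constructor
  · rintro ⟨f, -, h⟩
    rw [mem_insert, mem_image] at h
    rcases h with h | ⟨x, -, h⟩
    · exact ⟨f, Or.inl h⟩
    · exact ⟨f, Or.inr ⟨x, h.symm⟩⟩
  · rintro ⟨f, h | ⟨x, h⟩⟩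
    · exact ⟨f, mem_univ _, mem_insert.2 (Or.inl h)⟩
    · exact ⟨f, mem_univ _, mem_insert.2 (Or.inr (mem_image.2 ⟨x, mem_univ _, h.symm⟩))⟩

theorem dtg_cov_Rx {c : Dir q → Gd q} {f g : Dir q} (hg : g ≠ f) {l : Ln q}
    (hl : l = lf g (c g) ∨ ∃ x, l = ml (c g) x) {v : Pt q} (hv : v ∈ pts l) :
    v ∈ cov (Rx c f) := by
  rw [mem_cov]
  refine ⟨l, ?_, hv⟩
  unfold Rx gl
  rw [mem_biUnion]
  refine ⟨g, mem_erase.2 ⟨hg, mem_univ _⟩, ?_⟩
  rw [mem_insert, mem_image]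
  rcases hl with h | ⟨x, h⟩
  · exact Or.inl h
  · exact Or.inr ⟨x, mem_univ _, h.symm⟩

theorem dtg_b_unique {c : Dir q → Gd q} {b : Dir q → Fin 9 → Pt q} (hc : Sep c)
    (hb : ∀ f, b f ∈ Bset c f) {l' : Ln q} {f : Dir q} {k : Fin 9} (hl' : l' ∈ Rl c)
    (hvl : b f k ∈ pts l') : l' = lf f (c f) := by
  obtain ⟨g, hg⟩ := dtg_mem_Rl.1 hl'
  by_cases hgf : g = f
  · subst hgf
    rcases hg with h | ⟨x, h⟩
    · exact h
    · rw [h] at hvl
      exact absurd hvl (dtg_b_not_ml hc hb g k x)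
  · exact absurd (dtg_cov_Rx hgf hg hvl) (dtg_valid hb f k).2.2.1

theorem dtg_P_unique {c : Dir q → Gd q} {b : Dir q → Fin 9 → Pt q} (hc : Sep c)
    (hb : ∀ f, b f ∈ Bset c f) {l' : Ln q} {f : Dir q} {s : Bool} {k i : Fin 9} (hi : i ≠ k)
    (hl' : l' ∈ Rl c) (hvl : Pp c b f s k i ∈ pts l') : l' = ml (c f) (s, i) := by
  obtain ⟨g, hg⟩ := dtg_mem_Rl.1 hl'
  by_cases hgf : g = f
  · subst hgf
    rcases hg with h | ⟨x, h⟩
    · rw [h] at hvl
      exact absurd hvl (dtg_Pp_not_lf hc hb g s k i hi)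
    · by_cases hx : x = (s, i)
      · rw [h, hx]
      · rw [h] at hvl
        exact absurd hvl (dtg_Pp_not_ml hc hb g s k i hi x hx)
  · exact absurd (dtg_cov_Rx hgf hg hvl) ((dtg_valid hb f k).2.2.2 s i hi).1

theorem dtg_mem_PlL {c : Dir q → Gd q} {b : Dir q → Fin 9 → Pt q} {l : Ln q} {v : Pt q} :
    v ∈ PlL c b l ↔ (∃ f k, l = lf f (c f) ∧ v = b f k) ∨
      ∃ f s i k, i ≠ k ∧ l = ml (c f) (s, i) ∧ v = Pp c b f s k i := by
  simp [PlL]

/-- At least 8 planted points on every special line (`b f` injective; for `m_{f,s,i}` the points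
`P_{f,s,k,i}`, `k ≠ i`, are different by `Bset`). -/
theorem card_PlL {c : Dir q → Gd q} {b : Dir q → Fin 9 → Pt q} (hc : Sep c)
    (hb : ∀ f, b f ∈ Bset c f) {l : Ln q} (hl : l ∈ Rl c) : 8 ≤ (PlL c b l).card := by
  have _ := hc
  obtain ⟨f, h | ⟨⟨s, i⟩, h⟩⟩ := dtg_mem_Rl.1 hl
  · have hsub : (univ : Finset (Fin 9)).image (b f) ⊆ PlL c b l := by
      intro v hv
      obtain ⟨k, -, rfl⟩ := mem_image.1 hv
      exact dtg_mem_PlL.2 (Or.inl ⟨f, k, h, rfl⟩)
    have h1 := card_le_card hsub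
    rw [card_image_of_injective _ (dtg_inj hb f), card_univ, Fintype.card_fin] at h1
    omega
  · have hsub : ((univ : Finset (Fin 9)).erase i).image (fun k => Pp c b f s k i) ⊆
        PlL c b l := by
      intro v hv
      obtain ⟨k, hk, rfl⟩ := mem_image.1 hv
      have hki : k ≠ i := (mem_erase.1 hk).1
      exact dtg_mem_PlL.2 (Or.inr ⟨f, s, i, k, hki.symm, h, rfl⟩)
    have h1 := card_le_card hsub
    rw [card_image_of_injOn, card_erase_of_mem (mem_univ _), card_univ, Fintype.card_fin] at h1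
    · exact h1
    · intro k hk k' hk' hh
      by_contra hne
      have hki : k ≠ i := (mem_erase.1 (mem_coe.1 hk)).1
      have hki' : k' ≠ i := (mem_erase.1 (mem_coe.1 hk')).1
      exact dtg_Pp_ne hb f s k k' i hne hki.symm hki'.symm hh

theorem PlL_subset {c : Dir q → Gd q} {b : Dir q → Fin 9 → Pt q} (hc : Sep c)
    (hb : ∀ f, b f ∈ Bset c f) {l : Ln q} {v : Pt q} (hv : v ∈ PlL c b l) : v ∈ pts l := by
  rcases dtg_mem_PlL.1 hv with ⟨f, k, rfl, rfl⟩ | ⟨f, s, i, k, hi, rfl, rfl⟩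
  · exact (dtg_valid hb f k).1
  · exact (dtg_Pp_mem hc b f s k i hi).2

theorem PlL_nrm {c : Dir q → Gd q} {b : Dir q → Fin 9 → Pt q} {l : Ln q} {v : Pt q}
    (hv : v ∈ PlL c b l) : Nrm c b v := by
  rcases dtg_mem_PlL.1 hv with ⟨f, k, -, h⟩ | ⟨f, s, i, k, hi, -, h⟩
  · exact Or.inr (Or.inl ⟨f, k, h⟩)
  · exact Or.inr (Or.inr ⟨f, s, k, i, hi, h⟩)

/-- A planted point is on exactly one special line. -/
theorem PlL_unique {c : Dir q → Gd q} {b : Dir q → Fin 9 → Pt q} (hc : Sep c)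
    (hb : ∀ f, b f ∈ Bset c f) {l l' : Ln q} {v : Pt q} (hv : v ∈ PlL c b l) (hl' : l' ∈ Rl c)
    (hvl : v ∈ pts l') : l' = l := by
  rcases dtg_mem_PlL.1 hv with ⟨f, k, rfl, rfl⟩ | ⟨f, s, i, k, hi, rfl, rfl⟩
  · exact dtg_b_unique hc hb hl' hvl
  · exact dtg_P_unique hc hb hi hl' hvl

/-- The special lines through the hub `(f, s)`. -/
theorem Rl_hub {c : Dir q → Gd q} (hc : Sep c) {f : Dir q} {s : Bool} {l : Ln q} :
    (l ∈ Rl c ∧ (c f).1 s ∈ pts l) ↔ (l = lf f (c f) ∨ ∃ i, l = ml (c f) (s, i)) := by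
  constructor
  · rintro ⟨hl, hs⟩
    obtain ⟨g, hg⟩ := dtg_mem_Rl.1 hl
    by_cases hgf : g = f
    · subst hgf
      rcases hg with h | ⟨⟨s', i⟩, h⟩
      · exact Or.inl h
      · right
        by_cases hss : s' = s
        · subst hss
          exact ⟨i, h⟩
        · exfalso
          rw [h] at hs
          refine dtg_not_ml hc g s' i (dtg_hub_lf hc g s) ?_ hs
          have hs' : s' = !s := by cases s <;> cases s' <;> simp_all
          rw [hs']
          exact dtg_hub_ne hc g s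
    · exfalso
      rcases hg with h | ⟨x, h⟩
      · rw [h] at hs
        exact hc.hub_lf g f (fun hh => hgf hh.symm) s hs
      · rw [h] at hs
        exact hc.hub_ml g f (fun hh => hgf hh.symm) s x hs
  · rintro (h | ⟨i, h⟩)
    · refine ⟨dtg_mem_Rl.2 ⟨f, Or.inl h⟩, ?_⟩
      rw [h]
      exact dtg_hub_lf hc f s
    · refine ⟨dtg_mem_Rl.2 ⟨f, Or.inr ⟨(s, i), h⟩⟩, ?_⟩
      rw [h]
      exact dtg_hub_ml c f s i

/-- `t` meets at most 8 special lines through a non hub `v ∉ t` in planted points (`Few.h1`; at most two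
special lines of a gadget pass through `v`). -/
theorem hit_aff {c : Dir q → Gd q} {b : Dir q → Fin 9 → Pt q} (hc : Sep c)
    (hb : ∀ f, b f ∈ Bset c f) (hf : Few c b) {v : Pt q} (hv : ∀ f s, (c f).1 s ≠ v) {t : Ln q}
    (ht : v ∉ pts t) :
    ((Rl c).filter fun l => v ∈ pts l ∧ ∃ x ∈ PlL c b l, x ∈ pts t).card ≤ 8 := by
  have _ := hb
  have hsub : ((Rl c).filter fun l => v ∈ pts l ∧ ∃ x ∈ PlL c b l, x ∈ pts t) ⊆
      (univ.filter fun f => HitA c b f v t).biUnion fun f =>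
        ((univ.filter fun l : Ln q => (c f).1 true ∈ pts l ∧ v ∈ pts l) ∪
          (univ.filter fun l : Ln q => (c f).1 false ∈ pts l ∧ v ∈ pts l)) := by
    intro l hl
    obtain ⟨-, hvl, x, hx, hxt⟩ := mem_filter.1 hl
    rw [mem_biUnion]
    rcases dtg_mem_PlL.1 hx with ⟨f, k, hl1, hx1⟩ | ⟨f, s, i, k, hi, hl1, hx1⟩
    · refine ⟨f, ?_, ?_⟩
      · rw [mem_filter]
        refine ⟨mem_univ _, Or.inl ⟨hl1 ▸ hvl, k, hx1 ▸ hxt⟩⟩
      · rw [mem_union, mem_filter]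
        refine Or.inl ⟨mem_univ _, ?_, hvl⟩
        rw [hl1]
        exact dtg_hub_lf hc f true
    · refine ⟨f, ?_, ?_⟩
      · rw [mem_filter]
        refine ⟨mem_univ _, Or.inr ⟨s, i, k, hi, hl1 ▸ hvl, hx1 ▸ hxt⟩⟩
      · rw [mem_union, mem_filter, mem_filter]
        have hh : (c f).1 s ∈ pts l := by
          rw [hl1]
          exact dtg_hub_ml c f s i
        cases s
        · exact Or.inr ⟨mem_univ _, hh, hvl⟩
        · exact Or.inl ⟨mem_univ _, hh, hvl⟩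
  refine (card_le_card hsub).trans (card_biUnion_le.trans ?_)
  have h2 : ∀ f ∈ (univ.filter fun f => HitA c b f v t),
      ((univ.filter fun l : Ln q => (c f).1 true ∈ pts l ∧ v ∈ pts l) ∪
          (univ.filter fun l : Ln q => (c f).1 false ∈ pts l ∧ v ∈ pts l)).card ≤ 2 := by
    intro f _
    refine (card_union_le _ _).trans ?_
    rw [card_lines_through_two (hv f true), card_lines_through_two (hv f false)]
  refine (sum_le_sum h2).trans ?_
  rw [sum_const, smul_eq_mul]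
  have := hf.h1 v hv t ht
  omega

/-- The same for a direction (`Few.h2`; at most one special line of direction `d` in a gadget). -/
theorem hit_inf {c : Dir q → Gd q} {b : Dir q → Fin 9 → Pt q} (hc : Sep c)
    (hb : ∀ f, b f ∈ Bset c f) (hf : Few c b) {d : Dir q} {t : Ln q} (ht : t.1 ≠ d) :
    ((Rl c).filter fun l => l.1 = d ∧ ∃ x ∈ PlL c b l, x ∈ pts t).card ≤ 3 := by
  have _ := hb
  have hsub : ((Rl c).filter fun l => l.1 = d ∧ ∃ x ∈ PlL c b l, x ∈ pts t) ⊆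
      (univ.filter fun f => HitI c b f d t).biUnion fun f =>
        (gl f (c f)).filter fun l => l.1 = d := by
    intro l hl
    obtain ⟨-, hvl, x, hx, hxt⟩ := mem_filter.1 hl
    rw [mem_biUnion]
    rcases dtg_mem_PlL.1 hx with ⟨f, k, hl1, hx1⟩ | ⟨f, s, i, k, hi, hl1, hx1⟩
    · refine ⟨f, ?_, ?_⟩
      · rw [mem_filter]
        refine ⟨mem_univ _, Or.inl ⟨?_, k, hx1 ▸ hxt⟩⟩
        rw [hl1] at hvl
        exact hvl
      · rw [mem_filter]
        refine ⟨?_, hvl⟩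
        unfold gl
        rw [mem_insert]
        exact Or.inl hl1
    · refine ⟨f, ?_, ?_⟩
      · rw [mem_filter]
        refine ⟨mem_univ _, Or.inr ⟨s, i, k, hi, ?_, hx1 ▸ hxt⟩⟩
        rw [hl1] at hvl
        exact hvl
      · rw [mem_filter]
        refine ⟨?_, hvl⟩
        unfold gl
        rw [mem_insert, mem_image]
        exact Or.inr ⟨(s, i), mem_univ _, hl1.symm⟩
  refine (card_le_card hsub).trans (card_biUnion_le.trans ?_)
  have h2 : ∀ f ∈ (univ.filter fun f => HitI c b f d t),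
      ((gl f (c f)).filter fun l => l.1 = d).card ≤ 1 := by
    intro f _
    rw [card_le_one]
    intro l hl l' hl'
    rw [mem_filter] at hl hl'
    obtain ⟨h1, h1d⟩ := hl
    obtain ⟨h2, h2d⟩ := hl'
    unfold gl at h1 h2
    rw [mem_insert, mem_image] at h1 h2
    rcases h1 with h1 | ⟨x, -, h1⟩
    · rcases h2 with h2 | ⟨x', -, h2⟩
      · rw [h1, h2]
      · exfalso
        have e1 : f = d := by rw [← h1d, h1]; rfl
        have e2 : (c f).2 x' = d := by rw [← h2d, ← h2]; rfl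
        exact (dtg_gad hc f).2.2.2 x' (e2.trans e1.symm)
    · rcases h2 with h2 | ⟨x', -, h2⟩
      · exfalso
        have e1 : f = d := by rw [← h2d, h2]; rfl
        have e2 : (c f).2 x = d := by rw [← h1d, ← h1]; rfl
        exact (dtg_gad hc f).2.2.2 x (e2.trans e1.symm)
      · have e1 : (c f).2 x = d := by rw [← h1d, ← h1]; rfl
        have e2 : (c f).2 x' = d := by rw [← h2d, ← h2]; rfl
        have e3 := (dtg_gad hc f).2.2.1 (e1.trans e2.symm)
        rw [← h1, ← h2, e3]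
  refine (sum_le_sum h2).trans ?_
  rw [sum_const, smul_eq_mul, mul_one]
  exact hf.h2 d t ht

end P045
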