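import Vale.Agent.P045R.DTBase

/-!
# P045R, module DTI: the hypergraph is intersecting
-/

namespace P045

open Finset DTB
open scoped Classical

section
variable {q : ℕ} [Fact q.Prime]

private theorem hv_self (c : Dir q → Gd q) (b : Dir q → Fin 9 → Pt q) (f : Dir q) (s : Bool) :
    hv c b f s f = none := by
  unfold hv
  rw [if_pos rfl]

private theorem hv_moved {c : Dir q → Gd q} (b : Dir q → Fin 9 → Pt q) (hc : Sep c) (f : Dir q)
    (s : Bool) (k : Fin 9) :
    hv c b f s ((c f).2 (s, k)) = some (ic ((c f).2 (s, k)) (b f k)) := by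
  unfold hv
  rw [if_neg (dir_ne hc f (s, k))]
  have h : ∃ i, (c f).2 (s, i) = (c f).2 (s, k) := ⟨k, rfl⟩
  rw [dif_pos h]
  have h2 := dir_inj hc f h.choose_spec
  simp only [Prod.mk.injEq, true_and] at h2
  rw [h2]

private theorem hv_free {c : Dir q → Gd q} (b : Dir q → Fin 9 → Pt q) {f : Dir q} {s : Bool}
    {g : Dir q} (h1 : g ≠ f) (h2 : ∀ i, (c f).2 (s, i) ≠ g) :
    hv c b f s g = some (ic g ((c f).1 s)) := by
  unfold hv
  rw [if_neg h1, dif_neg]
  rintro ⟨i, hi⟩
  exact h2 i hi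

private theorem mem_eN {v : Pt q} {g : Dir q} {x : ZMod q} (h : ic g v = x) :
    ((g, some x) : Vx q) ∈ eN v := by
  unfold eN
  rw [mem_image]
  exact ⟨g, mem_univ _, by rw [h]⟩

private theorem mem_eH {c : Dir q → Gd q} {b : Dir q → Fin 9 → Pt q} {f : Dir q} {s : Bool}
    {g : Dir q} {x : Option (ZMod q)} (h : hv c b f s g = x) :
    ((g, x) : Vx q) ∈ eH c b f s := by
  unfold eH
  rw [mem_image]
  exact ⟨g, mem_univ _, by rw [h]⟩

private theorem inter_nn (v w : Pt q) : (eN v ∩ eN w).Nonempty := by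
  by_cases h : v = w
  · subst h
    exact ⟨(none, some (ic none v)), mem_inter.mpr ⟨mem_eN rfl, mem_eN rfl⟩⟩
  · obtain ⟨l, ⟨h1, h2⟩, -⟩ := exists_unique_line h
    rw [mem_pts] at h1 h2
    exact ⟨(l.1, some l.2), mem_inter.mpr ⟨mem_eN h1, mem_eN h2⟩⟩

/-- A normal point on a special line is planted on it. -/
private theorem nrm_special {c : Dir q → Gd q} {b : Dir q → Fin 9 → Pt q} (hc : Sep c)
    (hb : ∀ f, b f ∈ Bset c f) {v : Pt q} (hv : Nrm c b v) {l : Ln q} (hl : l ∈ Rl c)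
    (h : v ∈ pts l) : (∃ f k, v = b f k ∧ l = lf f (c f)) ∨
      ∃ f s k i, i ≠ k ∧ v = Pp c b f s k i ∧ l = ml (c f) (s, i) := by
  rcases hv with h1 | ⟨f, k, rfl⟩ | ⟨f, s, k, i, hik, rfl⟩
  · exfalso
    unfold Wp at h1
    rw [mem_unc] at h1
    exact h1 l hl h
  · exact Or.inl ⟨f, k, rfl, b_uniq hc hb f k hl h⟩
  · exact Or.inr ⟨f, s, k, i, hik, rfl, P_uniq hc hb f s hik hl h⟩

private theorem lf_mem_Rl (c : Dir q → Gd q) (f : Dir q) : lf f (c f) ∈ Rl c :=
  mem_Rl.mpr ⟨f, mem_gl.mpr (Or.inl rfl)⟩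

private theorem ml_mem_Rl (c : Dir q → Gd q) (f : Dir q) (x : Bool × Fin 9) :
    ml (c f) x ∈ Rl c :=
  mem_Rl.mpr ⟨f, mem_gl.mpr (Or.inr ⟨x, rfl⟩)⟩

/-- A special line containing the hub `(f, s)` and belonging to the gadget `f'`: `f' = f`. -/
private theorem own_lf {c : Dir q → Gd q} (hc : Sep c) {f f' : Dir q} {s : Bool}
    (h : (c f).1 s ∈ pts (lf f' (c f'))) : f' = f := by
  by_contra hne
  exact hc.hub_lf f' f (fun h => hne h.symm) s h

private theorem own_ml {c : Dir q → Gd q} (hc : Sep c) {f f' : Dir q} {s : Bool}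
    {x : Bool × Fin 9} (h : (c f).1 s ∈ pts (ml (c f') x)) : f' = f := by
  by_contra hne
  exact hc.hub_ml f' f (fun h => hne h.symm) s x h

private theorem inter_nh {c : Dir q → Gd q} {b : Dir q → Fin 9 → Pt q} (hc : Sep c)
    (hb : ∀ f, b f ∈ Bset c f) {v : Pt q} (hv' : Nrm c b v) (f : Dir q) (s : Bool) :
    (eN v ∩ eH c b f s).Nonempty := by
  -- the two ways in which a planted point meets the hub edge
  have hB : ∀ k, v = b f k → (eN v ∩ eH c b f s).Nonempty := by
    rintro k rfl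
    refine ⟨((c f).2 (s, k), some (ic ((c f).2 (s, k)) (b f k))), mem_inter.mpr
      ⟨mem_eN rfl, mem_eH (hv_moved b hc f s k)⟩⟩
  have hP : ∀ k i, i ≠ k → v = Pp c b f s k i → (eN v ∩ eH c b f s).Nonempty := by
    rintro k i hik rfl
    have h1 := (P_mem (b := b) hc f s hik).1
    rw [mem_pts] at h1
    refine ⟨((c f).2 (s, k), some (ic ((c f).2 (s, k)) (b f k))), mem_inter.mpr
      ⟨mem_eN h1, mem_eH (hv_moved b hc f s k)⟩⟩
  by_cases hvl : v ∈ pts (lf f (c f))
  · rcases nrm_special hc hb hv' (lf_mem_Rl c f) hvl with ⟨f', k, h1, h2⟩ |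
      ⟨f', s', k, i, hik, h1, h2⟩
    · have h3 : f' = f := own_lf hc (h2 ▸ hub_mem_lf hc f true)
      subst h3
      exact hB k h1
    · exfalso
      have h3 : f' = f := own_ml hc (h2 ▸ hub_mem_lf hc f true)
      subst h3
      exact lf_ne_ml hc f' _ h2
  · by_cases hvm : ∃ i, v ∈ pts (ml (c f) (s, i))
    · obtain ⟨i, hi⟩ := hvm
      rcases nrm_special hc hb hv' (ml_mem_Rl c f (s, i)) hi with ⟨f', k, h1, h2⟩ |
        ⟨f', s', k, i', hik, h1, h2⟩
      · exfalso
        have h3 : f' = f := own_lf hc (h2 ▸ hub_mem_ml c f (s, i))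
        subst h3
        exact lf_ne_ml hc f' _ h2.symm
      · have h3 : f' = f := own_ml hc (h2 ▸ hub_mem_ml c f (s, i))
        subst h3
        have h4 := ml_inj hc f' h2
        simp only [Prod.mk.injEq] at h4
        obtain ⟨h5, h6⟩ := h4
        subst h5
        subst h6
        exact hP k i hik h1
    · push Not at hvm
      have hne : v ≠ (c f).1 s := fun h => hvl (h ▸ hub_mem_lf hc f s)
      obtain ⟨l, ⟨h1, h2⟩, -⟩ := exists_unique_line hne
      have hl1 : l = thr l.1 ((c f).1 s) := mem_pts_iff_thr.mp h2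
      have hgf : l.1 ≠ f := by
        intro h
        apply hvl
        have h3 := hub_mem_lf hc f s
        have h4 : l = lf f (c f) := by
          rw [hl1, h]
          exact (mem_pts_iff_thr.mp h3).symm
        rw [← h4]
        exact h1
      have hgm : ∀ i, (c f).2 (s, i) ≠ l.1 := by
        intro i h
        apply hvm i
        have h4 : l = ml (c f) (s, i) := by
          rw [hl1, ← h]
          rfl
        rw [← h4]
        exact h1
      refine ⟨(l.1, some l.2), mem_inter.mpr ⟨mem_eN (mem_pts.mp h1), mem_eH ?_⟩⟩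
      rw [hv_free b hgf hgm, mem_pts.mp h2]

private theorem inter_hh {c : Dir q → Gd q} {b : Dir q → Fin 9 → Pt q} (hc : Sep c)
    (f f' : Dir q) (s s' : Bool) : (eH c b f s ∩ eH c b f' s').Nonempty := by
  by_cases hff : f = f'
  · subst hff
    exact ⟨(f, none), mem_inter.mpr ⟨mem_eH (hv_self c b f s), mem_eH (hv_self c b f s')⟩⟩
  · have hne : (c f).1 s ≠ (c f').1 s' := by
      intro h
      exact hff (own_lf hc (h ▸ hub_mem_lf hc f s : (c f').1 s' ∈ pts (lf f (c f))))
    obtain ⟨l, ⟨h1, h2⟩, -⟩ := exists_unique_line hne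
    have key : ∀ (g g' : Dir q) (t t' : Bool), g ≠ g' → (c g).1 t ∈ pts l →
        (c g').1 t' ∈ pts l → hv c b g t l.1 = some l.2 := by
      intro g g' t t' hgg hg hg'
      have hl1 : l = thr l.1 ((c g).1 t) := mem_pts_iff_thr.mp hg
      have hgf : l.1 ≠ g := by
        intro h
        have h4 : l = lf g (c g) := by
          rw [hl1, h]
          exact (mem_pts_iff_thr.mp (hub_mem_lf hc g t)).symm
        exact hgg (own_lf hc (h4 ▸ hg'))
      have hgm : ∀ i, (c g).2 (t, i) ≠ l.1 := by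
        intro i h
        have h4 : l = ml (c g) (t, i) := by
          rw [hl1, ← h]
          rfl
        exact hgg (own_ml hc (h4 ▸ hg'))
      rw [hv_free b hgf hgm, mem_pts.mp hg]
    exact ⟨(l.1, some l.2), mem_inter.mpr ⟨mem_eH (key f f' s s' hff h1 h2),
      mem_eH (key f' f s' s (Ne.symm hff) h2 h1)⟩⟩

/-- Module DTI.  Any two edges meet. -/
theorem edges_inter {c : Dir q → Gd q} {b : Dir q → Fin 9 → Pt q} (hc : Sep c)
    (hb : ∀ f, b f ∈ Bset c f) :
    ∀ e ∈ Edges c b, ∀ e' ∈ Edges c b, (e ∩ e').Nonempty := by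
  intro e he e' he'
  unfold Edges at he he'
  rw [mem_union, mem_image, mem_image] at he he'
  rcases he with ⟨v, hv1, rfl⟩ | ⟨⟨f, s⟩, -, rfl⟩ <;>
    rcases he' with ⟨w, hw1, rfl⟩ | ⟨⟨f', s'⟩, -, rfl⟩
  · exact inter_nn v w
  · exact inter_nh hc hb (mem_filter.mp hv1).2 f' s'
  · rw [inter_comm]
    exact inter_nh hc hb (mem_filter.mp hw1).2 f s
  · exact inter_hh hc f f' s s'

end

end P045
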