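import Vale.Agent.P045R.DTDefs

/-!
# P045R, module DTP: the hypergraph is partite
-/

namespace P045

open Finset
open scoped Classical

section
variable {q : ℕ} [Fact q.Prime]

theorem dtp_graph (F : Dir q → Option (ZMod q)) (g : Dir q) :
    ∃! x, x ∈ (univ.image fun g : Dir q => ((g, F g) : Vx q)) ∧ x.1 = g := by
  refine ⟨(g, F g), ⟨mem_image_of_mem _ (mem_univ g), rfl⟩, ?_⟩
  rintro x ⟨hx, hg⟩
  obtain ⟨g', -, rfl⟩ := mem_image.1 hx
  have h : g' = g := hg
  rw [h]

theorem edges_partite (c : Dir q → Gd q) (b : Dir q → Fin 9 → Pt q) :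
    ∀ e ∈ Edges c b, ∀ g : Dir q, ∃! x, x ∈ e ∧ x.1 = g := by
  intro e he g
  unfold Edges at he
  rw [mem_union] at he
  rcases he with he | he
  · obtain ⟨v, -, rfl⟩ := mem_image.1 he
    exact dtp_graph (fun g => some (ic g v)) g
  · obtain ⟨x, -, rfl⟩ := mem_image.1 he
    exact dtp_graph (fun g => hv c b x.1 x.2 g) g

end

end P045
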