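import Vale.Agent.P045R.Marg

/-!
# P045R, module DENS: the random configuration has bounded density
-/

namespace P045

open Finset
open scoped Classical

namespace DensAux

section
variable {q : ℕ} [Fact q.Prime]

theorem card_OB_ge (hq : 32 ≤ q) (S : Dir q → ZMod q) :
    ((q : ℝ) ^ 2 / 512) ^ (q + 1) ≤ ((OB S).card : ℝ) := by
  unfold OB
  rw [Fintype.card_piFinset, Nat.cast_prod]
  calc ((q : ℝ) ^ 2 / 512) ^ (q + 1) = ∏ _f : Dir q, ((q : ℝ) ^ 2 / 512) := by
        rw [prod_const, card_univ, card_Dir]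
    _ ≤ _ := prod_le_prod (fun _ _ => by positivity) fun f _ => card_HB_ge hq S f

theorem card_OC_ge (hq : 36 / cF ≤ q) (H : Dir q → Bool → Pt q) :
    ((cF * q / 2) ^ 18) ^ (q + 1) ≤ ((OC H).card : ℝ) := by
  have hc : 0 < cF := by unfold cF; positivity
  unfold OC
  rw [Fintype.card_piFinset, Nat.cast_prod]
  calc ((cF * q / 2) ^ 18) ^ (q + 1) = ∏ _f : Dir q, ((cF * q / 2) ^ 18) := by
        rw [prod_const, card_univ, card_Dir]
    _ ≤ _ := prod_le_prod (fun _ _ => by positivity) fun f _ => card_EC_ge hq H f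

theorem card_All_le : ((All q).card : ℝ) ≤ ((q : ℝ) ^ 21) ^ (q + 1) := by
  unfold All
  rw [Fintype.card_piFinset, Nat.cast_prod]
  have h1 : (gadN q : ℝ) ≤ (q : ℝ) ^ 21 := by
    have h2 : gadN q ≤ q ^ 21 := by
      unfold gadN
      calc q ^ 2 * (q - 1) * q.descFactorial 18 ≤ q ^ 2 * q * q ^ 18 :=
            Nat.mul_le_mul (Nat.mul_le_mul_left _ (Nat.sub_le _ _)) (Nat.descFactorial_le_pow _ _)
        _ = q ^ 21 := by ring
    exact_mod_cast h2
  calc ∏ f : Dir q, ((GadSet q f).card : ℝ) = (gadN q : ℝ) ^ (q + 1) := by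
        rw [prod_congr rfl fun f _ => by rw [card_GadSet f], prod_const, card_univ, card_Dir]
    _ ≤ _ := pow_le_pow_left₀ (Nat.cast_nonneg _) h1 _

theorem card_All_pos : 0 < ((All q).card : ℝ) ∨ ((All q).card : ℝ) = 0 := by
  rcases (Nat.cast_nonneg (α := ℝ) (All q).card).lt_or_eq with h | h
  · exact Or.inl h
  · exact Or.inr h.symm

/-- the sum over all triples is at most the sum over all configurations -/
theorem triple_sum_le {X : (Dir q → Gd q) → ℝ} (hX : ∀ c, 0 ≤ X c) :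
    ∑ S : Dir q → ZMod q, ∑ H ∈ OB S, ∑ e ∈ OC H, X (mk H e) ≤ ∑ c ∈ All q, X c := by
  have h1 : ∑ S : Dir q → ZMod q, ∑ H ∈ OB S, ∑ e ∈ OC H, X (mk H e) =
      ∑ t ∈ (univ : Finset (Dir q → ZMod q)).sigma fun S => (OB S).sigma fun H => OC H,
        X (mk t.2.1 t.2.2) := by
    rw [sum_sigma]
    refine sum_congr rfl fun S _ => ?_
    rw [sum_sigma]
  rw [h1]
  have hinj : Set.InjOn (fun t : (Σ _ : Dir q → ZMod q, Σ _ : Dir q → Bool → Pt q,
      Dir q → Bool × Fin 9 → Dir q) => mk t.2.1 t.2.2)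
      ((univ : Finset (Dir q → ZMod q)).sigma fun S => (OB S).sigma fun H => OC H) := by
    rintro ⟨S, H, e⟩ ht ⟨S', H', e'⟩ ht' h
    simp only [coe_sigma, coe_univ, Set.mem_sigma_iff, Set.mem_univ, true_and, mem_coe] at ht ht'
    simp only at h
    have hH : H = H' := by
      funext f
      exact congrArg Prod.fst (congrFun h f)
    have he : e = e' := by
      funext f
      exact congrArg Prod.snd (congrFun h f)
    subst hH
    subst he
    have hS : S = S' := by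
      funext f
      have h2 := lf_mk ht.1 e f
      rw [lf_mk ht'.1 e f] at h2
      exact (congrArg Prod.snd h2).symm
    subst hS
    rfl
  rw [← sum_image hinj (f := X)]
  refine sum_le_sum_of_subset_of_nonneg ?_ fun c _ _ => hX c
  intro c hc
  rw [mem_image] at hc
  obtain ⟨⟨S, H, e⟩, ht, rfl⟩ := hc
  simp only [mem_sigma, mem_univ, true_and] at ht
  exact mk_mem_All ht.1 ht.2

end

end DensAux

open DensAux in
/-- `(S, H, e) ↦ mk H e` is injective into `All q` (`lf_mk`, `mk_mem_All`), every triple has weight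
`1/(q^(q+1) ∏ |HB| ∏ |EC|) ≤ (q · q²/512 · (cF q/2)^18)^{-(q+1)}` and `gadN q ≤ q^21`. -/
theorem dens : ∃ K > 0, ∃ q₀ : ℕ, ∀ q ≥ q₀, ∀ [Fact q.Prime], ∀ X : (Dir q → Gd q) → ℝ,
    (∀ c, 0 ≤ X c) →
    Enu X ≤ K ^ (q + 1) / ((All q).card : ℝ) * ∑ c ∈ All q, X c := by
  have hc : 0 < cF := by unfold cF; positivity
  refine ⟨512 * (2 / cF) ^ 18, by positivity, max 32 ⌈36 / cF⌉₊, ?_⟩
  intro q hq _ X hX
  have hq1 : 32 ≤ q := (le_max_left _ _).trans hq
  have hq2 : 36 / cF ≤ q := (Nat.le_ceil _).trans (by exact_mod_cast (le_max_right _ _).trans hq)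
  have hq0 : (0 : ℝ) < q := by
    have : 0 < q := by omega
    exact_mod_cast this
  set K : ℝ := 512 * (2 / cF) ^ 18 with hK
  have hK0 : 0 < K := by positivity
  set b : ℝ := ((q : ℝ) ^ 2 / 512) ^ (q + 1) with hb
  set c : ℝ := ((cF * q / 2) ^ 18) ^ (q + 1) with hc'
  have hb0 : 0 < b := by positivity
  have hc0 : 0 < c := by positivity
  -- the weights
  have h1 : Enu X ≤ (∑ S : Dir q → ZMod q, ∑ H ∈ OB S, ∑ e ∈ OC H, X (mk H e)) /
      ((q : ℝ) ^ (q + 1) * b * c) := by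
    unfold Enu avg
    have hcard : ((univ : Finset (Dir q → ZMod q)).card : ℝ) = (q : ℝ) ^ (q + 1) := by
      rw [card_univ, Fintype.card_fun, ZMod.card, card_Dir, Nat.cast_pow]
    have hre : (∑ S : Dir q → ZMod q, ∑ H ∈ OB S, ∑ e ∈ OC H, X (mk H e)) /
        ((q : ℝ) ^ (q + 1) * b * c) =
        (∑ S : Dir q → ZMod q, (∑ H ∈ OB S, ∑ e ∈ OC H, X (mk H e)) / c / b) /
          (q : ℝ) ^ (q + 1) := by
      rw [← sum_div, ← sum_div]
      field_simp
    rw [hcard, hre]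
    refine div_le_div_of_nonneg_right ?_ (by positivity)
    refine sum_le_sum fun S _ => ?_
    have hOB : b ≤ ((OB S).card : ℝ) := card_OB_ge hq1 S
    have h3 : (∑ H ∈ OB S, (∑ e ∈ OC H, X (mk H e)) / ((OC H).card : ℝ)) ≤
        (∑ H ∈ OB S, ∑ e ∈ OC H, X (mk H e)) / c := by
      rw [sum_div]
      refine sum_le_sum fun H _ => ?_
      exact div_le_div_of_nonneg_left (sum_nonneg fun e _ => hX _) hc0 (card_OC_ge hq2 H)
    have h4 : 0 ≤ ∑ H ∈ OB S, ∑ e ∈ OC H, X (mk H e) :=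
      sum_nonneg fun H _ => sum_nonneg fun e _ => hX _
    calc (∑ H ∈ OB S, (∑ e ∈ OC H, X (mk H e)) / ((OC H).card : ℝ)) / ((OB S).card : ℝ)
        ≤ ((∑ H ∈ OB S, ∑ e ∈ OC H, X (mk H e)) / c) / ((OB S).card : ℝ) :=
          div_le_div_of_nonneg_right h3 (Nat.cast_nonneg _)
      _ ≤ ((∑ H ∈ OB S, ∑ e ∈ OC H, X (mk H e)) / c) / b :=
          div_le_div_of_nonneg_left (by positivity) hb0 hOB
  refine h1.trans ?_
  have hT := triple_sum_le hX
  have hA := card_All_le (q := q)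
  have hS0 : 0 ≤ ∑ c ∈ All q, X c := sum_nonneg fun c _ => hX c
  have hwt : (q : ℝ) ^ (q + 1) * b * c = ((q : ℝ) ^ 21) ^ (q + 1) / K ^ (q + 1) := by
    rw [hb, hc', ← mul_pow, ← mul_pow, ← div_pow]
    congr 1
    rw [hK]
    field_simp
  rw [hwt]
  rcases card_All_pos (q := q) with hpos | hz
  · calc _ ≤ (∑ c ∈ All q, X c) / (((q : ℝ) ^ 21) ^ (q + 1) / K ^ (q + 1)) :=
          div_le_div_of_nonneg_right hT (by positivity)
      _ ≤ (∑ c ∈ All q, X c) / (((All q).card : ℝ) / K ^ (q + 1)) := by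
          apply div_le_div_of_nonneg_left hS0 (by positivity)
          exact div_le_div_of_nonneg_right hA (by positivity)
      _ = K ^ (q + 1) / ((All q).card : ℝ) * ∑ c ∈ All q, X c := by
          field_simp
  · have hE : All q = ∅ := card_eq_zero.1 (by exact_mod_cast hz)
    rw [hE, sum_empty] at hT ⊢
    rw [mul_zero]
    exact div_nonpos_of_nonpos_of_nonneg hT (by positivity)

end P045
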