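import Vale.Agent.P045R.Plane

/-!
# P045R, module DICHA: the resultant lemma (Szonyi-Weiner)
-/

namespace P045

open Finset Polynomial

namespace DA

section det

variable {F : Type*} [Field F] {ι : Type*} [Fintype ι] [DecidableEq ι]

/-- degree of a determinant, weights -/
theorem det_natDegree_le (M : Matrix ι ι F[X]) (wr wc : ι → ℕ)
    (h : ∀ i j, M i j ≠ 0 → (M i j).natDegree + wr i ≤ wc j) :
    M.det.natDegree ≤ ∑ j, wc j - ∑ i, wr i := by
  rw [Matrix.det_apply]
  refine natDegree_sum_le_of_forall_le _ _ fun σ _ => ?_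
  have h1 : (Equiv.Perm.sign σ • ∏ i, M (σ i) i).natDegree = (∏ i, M (σ i) i).natDegree := by
    rcases Int.units_eq_one_or (Equiv.Perm.sign σ) with h | h
    · rw [h, one_smul]
    · rw [h, Units.neg_smul, one_smul, natDegree_neg]
  rw [h1]
  by_cases h0 : ∏ i, M (σ i) i = 0
  · rw [h0]; simp
  · have h2 : ∀ i, M (σ i) i ≠ 0 := fun i => (Finset.prod_ne_zero_iff.1 h0) i (mem_univ i)
    have h3 : (∏ i, M (σ i) i).natDegree ≤ ∑ i, (M (σ i) i).natDegree := natDegree_prod_le _ _
    have h4 : ∑ i, ((M (σ i) i).natDegree + wr (σ i)) ≤ ∑ i, wc i :=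
      Finset.sum_le_sum fun i _ => h (σ i) i (h2 i)
    rw [Finset.sum_add_distrib, Equiv.sum_comp σ wr] at h4
    omega

/-- a matrix whose value at `y` has corank at least `r` has determinant divisible by `(X-y)^r` -/
theorem pow_dvd_det (M : Matrix ι ι F[X]) (y : F) (r : ℕ)
    (hr : r + (M.map (eval y)).rank ≤ Fintype.card ι) : (X - C y) ^ r ∣ M.det := by
  classical
  obtain ⟨L, L', D, h⟩ :=
    Matrix.Pivot.exists_list_transvec_mul_mul_list_transvec_eq_diagonal (M.map (eval y))
  set P := (List.map Matrix.TransvectionStruct.toMatrix L).prod with hP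
  set Q := (List.map Matrix.TransvectionStruct.toMatrix L').prod with hQ
  have hdP : P.det = 1 := Matrix.TransvectionStruct.det_toMatrix_prod L
  have hdQ : Q.det = 1 := Matrix.TransvectionStruct.det_toMatrix_prod L'
  set N : Matrix ι ι F[X] := P.map C * M * Q.map C with hN
  have hdN : N.det = M.det := by
    have e1 : (P.map C : Matrix ι ι F[X]).det = 1 := by
      have := (RingHom.map_det (C : F →+* F[X]) P).symm
      rw [hdP, map_one] at this
      exact this
    have e2 : (Q.map C : Matrix ι ι F[X]).det = 1 := by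
      have := (RingHom.map_det (C : F →+* F[X]) Q).symm
      rw [hdQ, map_one] at this
      exact this
    rw [hN, Matrix.det_mul, Matrix.det_mul, e1, e2, one_mul, mul_one]
  have hNe : N.map (evalRingHom y) = Matrix.diagonal D := by
    rw [hN, Matrix.map_mul, Matrix.map_mul, ← h]
    congr 1
    · congr 1
      ext i j
      simp
    · ext i j
      simp
  have hdvd : ∀ i, D i = 0 → ∀ j, (X - C y) ∣ N i j := by
    intro i hi j
    rw [dvd_iff_isRoot, IsRoot.def]
    have e1 := congrFun (congrFun hNe i) j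
    rw [Matrix.map_apply] at e1
    have e2 : (evalRingHom y) (N i j) = eval y (N i j) := rfl
    rw [← e2, e1]
    by_cases hij : i = j
    · subst hij
      rw [Matrix.diagonal_apply_eq, hi]
    · rw [Matrix.diagonal_apply_ne _ hij]
  have hA : ∀ i j, ∃ a : F[X], N i j = (if D i = 0 then X - C y else 1) * a := by
    intro i j
    by_cases hi : D i = 0
    · rw [if_pos hi]; exact hdvd i hi j
    · rw [if_neg hi]; exact ⟨N i j, (one_mul _).symm⟩
  choose A hA' using hA
  have hNA : N = Matrix.of fun i j => (if D i = 0 then X - C y else 1) * (Matrix.of A) i j := by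
    ext1 i j
    exact hA' i j
  rw [← hdN, hNA, Matrix.det_mul_column]
  refine Dvd.dvd.mul_right ?_ _
  rw [Finset.prod_ite, Finset.prod_const_one, mul_one, Finset.prod_const]
  refine pow_dvd_pow _ ?_
  have hrk : (Matrix.diagonal D).rank ≤ (M.map (eval y)).rank := by
    rw [← h]
    exact (Matrix.rank_mul_le_left _ _).trans (Matrix.rank_mul_le_right _ _)
  rw [Matrix.rank_diagonal, Fintype.card_subtype] at hrk
  have hc0 : (univ.filter fun i => D i ≠ 0).card = (univ.filter fun i => ¬ D i = 0).card := by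
    congr
  have hc : (univ.filter fun i => D i = 0).card + (univ.filter fun i => ¬ D i = 0).card
      = Fintype.card ι := by
    rw [Finset.card_filter_add_card_filter_not]
    rfl
  rw [hc0] at hrk
  omega

omit [DecidableEq ι] in
theorem corank (M : Matrix ι ι F) (r : ℕ) (φ : degreeLT F r →ₗ[F] (ι → F))
    (hφ : Function.Injective φ) (hker : ∀ x, M.mulVec (φ x) = 0) :
    r + M.rank ≤ Fintype.card ι := by
  have h1 : Module.finrank F (degreeLT F r) = r := by
    rw [(degreeLTEquiv F r).finrank_eq, Module.finrank_fintype_fun_eq_card, Fintype.card_fin]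
  have h2 : M.rank + Module.finrank F (LinearMap.ker M.mulVecLin) = Fintype.card ι := by
    have := M.mulVecLin.finrank_range_add_finrank_ker
    rw [Module.finrank_fintype_fun_eq_card] at this
    exact this
  have h3 : Module.finrank F (degreeLT F r) ≤ Module.finrank F (LinearMap.ker M.mulVecLin) := by
    refine LinearMap.finrank_le_finrank_of_injective
      (f := φ.codRestrict (LinearMap.ker M.mulVecLin) (fun x => ?_)) ?_
    · rw [LinearMap.mem_ker]
      exact hker x
    · intro x y hxy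
      exact hφ (congrArg Subtype.val hxy)
  omega

end det

section vec

variable {F : Type*} [CommRing F]

/-- the polynomial with given coefficients -/
noncomputable def pol {P : ℕ} (c : Fin P → F) : F[X] := ∑ a : Fin P, C (c a) * X ^ (a : ℕ)

theorem coeff_pol {P : ℕ} (c : Fin P → F) (m : ℕ) :
    (pol c).coeff m = if h : m < P then c ⟨m, h⟩ else 0 := by
  unfold pol
  rw [finsetSum_coeff]
  simp only [coeff_C_mul, coeff_X_pow, mul_ite, mul_one, mul_zero]
  split_ifs with h
  · rw [Finset.sum_eq_single (⟨m, h⟩ : Fin P)]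
    · simp
    · intro b _ hb
      rw [if_neg]
      intro h1
      exact hb (Fin.ext h1.symm)
    · intro h1
      exact absurd (mem_univ _) h1
  · refine Finset.sum_eq_zero fun b _ => ?_
    rw [if_neg]
    intro h1
    exact h (h1 ▸ b.isLt)

theorem pol_coeff {P : ℕ} (A : F[X]) (hA : A.degree < P) : pol (fun a : Fin P => A.coeff a) = A := by
  ext m
  rw [coeff_pol]
  split_ifs with h
  · rfl
  · exact (coeff_eq_zero_of_degree_lt (hA.trans_le (by exact_mod_cast not_lt.1 h))).symm

theorem degree_pol {P : ℕ} (c : Fin P → F) : (pol c).degree < P := by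
  rw [degree_lt_iff_coeff_zero]
  intro m hm
  rw [coeff_pol, dif_neg (by omega)]

theorem pol_mul_coeff {P : ℕ} (c : Fin P → F) (f : F[X]) (m : ℕ) :
    (pol c * f).coeff m = ∑ a : Fin P, (X ^ (a : ℕ) * f).coeff m * c a := by
  unfold pol
  rw [Finset.sum_mul, finsetSum_coeff]
  refine Finset.sum_congr rfl fun a _ => ?_
  rw [mul_assoc, coeff_C_mul, mul_comm]

end vec

/-- the row index -/
def row (κ P Q : ℕ) : Fin P ⊕ Fin Q → ℕ
  | Sum.inl a => κ + a
  | Sum.inr b => κ + P + b

theorem row_surj (κ P Q m : ℕ) (h1 : κ ≤ m) (h2 : m < κ + P + Q) :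
    ∃ i, row κ P Q i = m := by
  by_cases h : m < κ + P
  · exact ⟨Sum.inl ⟨m - κ, by omega⟩, by simp only [row]; omega⟩
  · exact ⟨Sum.inr ⟨m - κ - P, by omega⟩, by simp only [row]; omega⟩

/-- the subresultant matrix -/
noncomputable def sres {R : Type*} [CommRing R] (κ P Q : ℕ) (f g : R[X]) :
    Matrix (Fin P ⊕ Fin Q) (Fin P ⊕ Fin Q) R := fun i j =>
  match j with
  | Sum.inl a => (X ^ (a : ℕ) * f).coeff (row κ P Q i)
  | Sum.inr b => (X ^ (b : ℕ) * g).coeff (row κ P Q i)

theorem sres_mulVec {R : Type*} [CommRing R] (κ P Q : ℕ) (f g : R[X]) (c : Fin P ⊕ Fin Q → R)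
    (i : Fin P ⊕ Fin Q) : (sres κ P Q f g).mulVec c i
      = (pol (fun a => c (Sum.inl a)) * f + pol (fun b => c (Sum.inr b)) * g).coeff
        (row κ P Q i) := by
  rw [coeff_add, pol_mul_coeff, pol_mul_coeff, Matrix.mulVec, dotProduct, Fintype.sum_sum_type]
  rfl

theorem sres_map {R S : Type*} [CommRing R] [CommRing S] (φ : R →+* S) (κ P Q : ℕ) (f g : R[X]) :
    (sres κ P Q f g).map φ = sres κ P Q (f.map φ) (g.map φ) := by
  ext i j
  rcases j with a | b
  · show φ ((X ^ (a : ℕ) * f).coeff (row κ P Q i)) = (X ^ (a : ℕ) * f.map φ).coeff (row κ P Q i)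
    rw [← coeff_map, Polynomial.map_mul, Polynomial.map_pow, map_X]
  · show φ ((X ^ (b : ℕ) * g).coeff (row κ P Q i)) = (X ^ (b : ℕ) * g.map φ).coeff (row κ P Q i)
    rw [← coeff_map, Polynomial.map_mul, Polynomial.map_pow, map_X]

section field

variable {F : Type*} [Field F] [DecidableEq F[X]]

/-- the cofactors of the gcd -/
theorem gcd_split (f g : F[X]) (n q κ : ℕ) (hf : f.natDegree = n) (hg : g.natDegree = q)
    (hg0 : g ≠ 0) (hf0 : f ≠ 0) (hκ : (EuclideanDomain.gcd f g).natDegree = κ) :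
    ∃ d f₁ g₁ : F[X], d ≠ 0 ∧ f₁ ≠ 0 ∧ g₁ ≠ 0 ∧ f = d * f₁ ∧ g = d * g₁ ∧ d.natDegree = κ ∧
      f₁.natDegree + κ = n ∧ g₁.natDegree + κ = q ∧ IsCoprime f₁ g₁ := by
  have hb := EuclideanDomain.gcd_eq_gcd_ab f g
  obtain ⟨f₁, hf₁⟩ : EuclideanDomain.gcd f g ∣ f := EuclideanDomain.gcd_dvd_left f g
  obtain ⟨g₁, hg₁⟩ : EuclideanDomain.gcd f g ∣ g := EuclideanDomain.gcd_dvd_right f g
  generalize EuclideanDomain.gcd f g = d at *
  have hd0 : d ≠ 0 := by
    rintro rfl
    exact hf0 (by rw [hf₁, zero_mul])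
  have hf₁0 : f₁ ≠ 0 := by
    rintro rfl
    exact hf0 (by rw [hf₁, mul_zero])
  have hg₁0 : g₁ ≠ 0 := by
    rintro rfl
    exact hg0 (by rw [hg₁, mul_zero])
  refine ⟨d, f₁, g₁, hd0, hf₁0, hg₁0, hf₁, hg₁, hκ, ?_, ?_, ?_⟩
  · rw [← hf, hf₁, natDegree_mul hd0 hf₁0, hκ, add_comm]
  · rw [← hg, hg₁, natDegree_mul hd0 hg₁0, hκ, add_comm]
  · generalize EuclideanDomain.gcdA f g = A at *
    generalize EuclideanDomain.gcdB f g = B at *
    refine ⟨A, B, mul_left_cancel₀ hd0 ?_⟩
    rw [mul_one]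
    conv_rhs => rw [hb]
    rw [hf₁, hg₁]
    ring

theorem degree_pol_mul_lt {P : ℕ} (c : Fin P → F) (f : F[X]) (n : ℕ) (hf : f.natDegree = n) :
    ∀ m, P + n ≤ m → (pol c * f).coeff m = 0 := by
  intro m hm
  apply coeff_eq_zero_of_degree_lt
  rcases eq_or_ne (pol c) 0 with h0 | h0
  · rw [h0, zero_mul, degree_zero]
    exact WithBot.bot_lt_coe _
  · by_cases hf0 : f = 0
    · rw [hf0, mul_zero, degree_zero]
      exact WithBot.bot_lt_coe _
    · rw [degree_eq_natDegree (mul_ne_zero h0 hf0), natDegree_mul h0 hf0, hf]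
      have h1 : (pol c).natDegree < P := by
        rw [natDegree_lt_iff_degree_lt h0]
        exact degree_pol c
      exact_mod_cast (by omega)

/-- nonsingular at the right index -/
theorem sres_det_ne (f g : F[X]) (n q κ : ℕ) (hf : f.natDegree = n) (hg : g.natDegree = q)
    (hg0 : g ≠ 0) (hf0 : f ≠ 0) (hκ : (EuclideanDomain.gcd f g).natDegree = κ) :
    (sres κ (q - κ) (n - κ) f g).det ≠ 0 := by
  obtain ⟨d, f₁, g₁, hd0, hf₁0, hg₁0, hf₁, hg₁, hdκ, hfd, hgd, hcop⟩ :=
    gcd_split f g n q κ hf hg hg0 hf0 hκ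
  intro hdet
  obtain ⟨c, hc0, hc⟩ := Matrix.exists_mulVec_eq_zero_iff.2 hdet
  set A := pol (fun a => c (Sum.inl a)) with hA
  set B := pol (fun b => c (Sum.inr b)) with hB
  have h1 : ∀ m, κ ≤ m → (A * f + B * g).coeff m = 0 := by
    intro m hm
    by_cases hm2 : m < κ + (q - κ) + (n - κ)
    · obtain ⟨i, hi⟩ := row_surj κ (q - κ) (n - κ) m hm hm2
      have h2 := congrFun hc i
      rw [sres_mulVec, hi] at h2
      exact h2
    · rw [coeff_add, degree_pol_mul_lt _ f n hf m (by omega),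
        degree_pol_mul_lt _ g q hg m (by omega), add_zero]
  have h2 : A * f + B * g = 0 := by
    by_contra hne
    have h3 : d ∣ A * f + B * g := by
      rw [hf₁, hg₁]
      exact ⟨A * f₁ + B * g₁, by ring⟩
    have h4 := natDegree_le_of_dvd h3 hne
    rw [hdκ] at h4
    exact hne (leadingCoeff_eq_zero.1 (h1 _ h4))
  have h3 : A * f₁ + B * g₁ = 0 := by
    have : d * (A * f₁ + B * g₁) = 0 := by
      rw [← h2, hf₁, hg₁]
      ring
    exact (mul_eq_zero.1 this).resolve_left hd0
  have h4 : g₁ ∣ A := by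
    have h5 : g₁ ∣ A * f₁ := ⟨-B, by linear_combination h3⟩
    exact hcop.symm.dvd_of_dvd_mul_right h5
  have hA0 : A = 0 := by
    by_contra hne
    have h5 := natDegree_le_of_dvd h4 hne
    have h6 : A.natDegree < q - κ := by
      rw [natDegree_lt_iff_degree_lt hne]
      exact degree_pol _
    omega
  have hB0 : B = 0 := by
    rw [hA0, zero_mul, zero_add] at h3
    exact (mul_eq_zero.1 h3).resolve_right hg₁0
  apply hc0
  funext j
  rcases j with a | b
  · have h5 := coeff_pol (fun a => c (Sum.inl a)) (a : ℕ)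
    rw [← hA, hA0, coeff_zero, dif_pos a.isLt] at h5
    exact h5.symm
  · have h5 := coeff_pol (fun b => c (Sum.inr b)) (b : ℕ)
    rw [← hB, hB0, coeff_zero, dif_pos b.isLt] at h5
    exact h5.symm

omit [DecidableEq F[X]] in
/-- kernel vectors -/
noncomputable def kerMap (r P Q : ℕ) (f₁ g₁ : F[X]) : degreeLT F r →ₗ[F] (Fin P ⊕ Fin Q → F) where
  toFun := fun x => Sum.elim (fun a => ((x : F[X]) * g₁).coeff a)
        (fun b => (-((x : F[X]) * f₁)).coeff b)
  map_add' := by
    intro x y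
    funext j
    rcases j with a | b
    · simp [add_mul]
    · simp [add_mul]
      ring
  map_smul' := by
    intro c x
    funext j
    rcases j with a | b
    · simp
    · simp

omit [DecidableEq F[X]] in
theorem degree_ker_lt (r s : ℕ) (x : degreeLT F r) (h : F[X]) (hs : h.natDegree + r ≤ s) :
    ((x : F[X]) * h).degree < (s : WithBot ℕ) := by
  have hx := mem_degreeLT.1 x.2
  rcases eq_or_ne (x : F[X]) 0 with h0 | h0
  · rw [h0, zero_mul, degree_zero]
    exact WithBot.bot_lt_coe _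
  · by_cases hh0 : h = 0
    · rw [hh0, mul_zero, degree_zero]
      exact WithBot.bot_lt_coe _
    · rw [degree_eq_natDegree (mul_ne_zero h0 hh0), natDegree_mul h0 hh0]
      rw [degree_eq_natDegree h0] at hx
      have hx' : (x : F[X]).natDegree < r := by exact_mod_cast hx
      have : (x : F[X]).natDegree + h.natDegree < s := by omega
      exact_mod_cast this

omit [DecidableEq F[X]] in
theorem kerMap_inl (r P Q : ℕ) (f₁ g₁ : F[X]) (hP : g₁.natDegree + r ≤ P) (x : degreeLT F r) :
    pol (fun a => kerMap r P Q f₁ g₁ x (Sum.inl a)) = (x : F[X]) * g₁ :=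
  pol_coeff _ (degree_ker_lt r P x g₁ hP)

omit [DecidableEq F[X]] in
theorem kerMap_inr (r P Q : ℕ) (f₁ g₁ : F[X]) (hQ : f₁.natDegree + r ≤ Q) (x : degreeLT F r) :
    pol (fun b => kerMap r P Q f₁ g₁ x (Sum.inr b)) = -((x : F[X]) * f₁) := by
  have h1 : (-((x : F[X]) * f₁)).degree < (Q : WithBot ℕ) := by
    rw [degree_neg]
    exact degree_ker_lt r Q x f₁ hQ
  have h2 : (fun b => kerMap r P Q f₁ g₁ x (Sum.inr b))
      = fun b : Fin Q => (-((x : F[X]) * f₁)).coeff b := by
    funext b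
    unfold kerMap
    simp only [LinearMap.coe_mk, AddHom.coe_mk, Sum.elim_inr]
  rw [h2]
  exact pol_coeff (P := Q) (-((x : F[X]) * f₁)) h1

omit [DecidableEq F[X]] in
theorem kerMap_inj (r P Q : ℕ) (f₁ g₁ : F[X]) (hP : g₁.natDegree + r ≤ P) (hg : g₁ ≠ 0) :
    Function.Injective (kerMap r P Q f₁ g₁) := by
  rw [injective_iff_map_eq_zero]
  intro x hx
  have h1 := kerMap_inl r P Q f₁ g₁ hP x
  rw [hx] at h1
  have h2 : pol (fun _ : Fin P => (0 : F)) = 0 := by
    unfold pol
    simp
  have h3 : (x : F[X]) * g₁ = 0 := by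
    rw [← h1]
    exact h2
  exact Subtype.ext ((mul_eq_zero.1 h3).resolve_right hg)

/-- the corank at a point with a larger gcd -/
theorem sres_corank (f g : F[X]) (n q κ κ' : ℕ) (hf : f.natDegree = n) (hg : g.natDegree = q)
    (hg0 : g ≠ 0) (hf0 : f ≠ 0) (hκ : (EuclideanDomain.gcd f g).natDegree = κ') (hle : κ ≤ κ') :
    (κ' - κ) + (sres κ (q - κ) (n - κ) f g).rank ≤ Fintype.card (Fin (q - κ) ⊕ Fin (n - κ)) := by
  obtain ⟨d, f₁, g₁, hd0, hf₁0, hg₁0, hf₁, hg₁, hdκ, hfd, hgd, hcop⟩ :=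
    gcd_split f g n q κ' hf hg hg0 hf0 hκ
  refine corank _ _ (kerMap (κ' - κ) (q - κ) (n - κ) f₁ g₁)
    (kerMap_inj _ _ _ _ _ (by omega) hg₁0) ?_
  intro x
  funext i
  rw [sres_mulVec, kerMap_inl _ _ _ _ _ (by omega), kerMap_inr _ _ _ _ _ (by omega)]
  have h1 : (x : F[X]) * g₁ * f + -((x : F[X]) * f₁) * g = 0 := by
    rw [hf₁, hg₁]
    ring
  rw [h1, coeff_zero]
  rfl

end field

section weights

variable {F : Type*} [Field F]

theorem entry_left (f : F[X][X]) (n : ℕ) (hn : f.natDegree = n)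
    (hdeg : ∀ i ≤ n, (f.coeff i).natDegree ≤ n - i) (a m : ℕ)
    (h : (X ^ a * f).coeff m ≠ 0) : ((X ^ a * f).coeff m).natDegree + m ≤ a + n := by
  rw [coeff_X_pow_mul'] at h ⊢
  split_ifs at h ⊢ with ham
  · have h1 : m - a ≤ n := by
      rw [← hn]
      exact le_natDegree_of_ne_zero h
    have h2 := hdeg (m - a) h1
    omega
  · exact absurd rfl h

theorem entry_right (q : ℕ) (hq : 1 ≤ q) (b m : ℕ)
    (h : (X ^ b * (X ^ q - X : F[X][X])).coeff m ≠ 0) :
    ((X ^ b * (X ^ q - X : F[X][X])).coeff m).natDegree + m ≤ b + q := by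
  rw [coeff_X_pow_mul'] at h ⊢
  split_ifs at h ⊢ with hbm
  · rw [coeff_sub, coeff_X_pow, coeff_X] at h ⊢
    by_cases h1 : m - b = q
    · by_cases h2 : 1 = m - b
      · rw [if_pos h1, if_pos h2, sub_self] at h
        exact absurd rfl h
      · rw [if_pos h1, if_neg h2, sub_zero, natDegree_one]
        omega
    · by_cases h2 : 1 = m - b
      · rw [if_neg h1, if_pos h2, zero_sub, natDegree_neg, natDegree_one]
        omega
      · rw [if_neg h1, if_neg h2, sub_self] at h
        exact absurd rfl h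
  · exact absurd rfl h

theorem sres_degree (f : F[X][X]) (n q κ : ℕ) (hq : 1 ≤ q) (hn : f.natDegree = n)
    (hdeg : ∀ i ≤ n, (f.coeff i).natDegree ≤ n - i) (h1 : κ ≤ n) (h2 : κ ≤ q) :
    (sres κ (q - κ) (n - κ) f (X ^ q - X)).det.natDegree ≤ (n - κ) * (q - κ) := by
  have key := det_natDegree_le (sres κ (q - κ) (n - κ) f (X ^ q - X)) (row κ (q - κ) (n - κ))
    (fun j => match j with
      | Sum.inl a => (a : ℕ) + n
      | Sum.inr b => (b : ℕ) + q) (by
    intro i j hij
    rcases j with a | b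
    · exact entry_left f n hn hdeg a _ hij
    · exact entry_right q hq b _ hij)
  refine key.trans ?_
  rw [Fintype.sum_sum_type, Fintype.sum_sum_type]
  simp only [row]
  have e1 : ∑ a : Fin (q - κ), ((a : ℕ) + n) = ∑ a : Fin (q - κ), (κ + (a : ℕ))
      + (q - κ) * (n - κ) := by
    have : ∑ _a : Fin (q - κ), (n - κ) = (q - κ) * (n - κ) := by
      rw [Finset.sum_const, Finset.card_univ, Fintype.card_fin, smul_eq_mul]
    rw [← this, ← Finset.sum_add_distrib]
    refine Finset.sum_congr rfl fun a _ => ?_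
    omega
  have e2 : ∑ b : Fin (n - κ), ((b : ℕ) + q) = ∑ b : Fin (n - κ), (κ + (q - κ) + (b : ℕ)) := by
    refine Finset.sum_congr rfl fun b _ => ?_
    omega
  rw [e1, e2, mul_comm (n - κ)]
  omega

end weights

end DA

open DA
open scoped Classical

/-- Module DICHA.  The resultant lemma.  `f = ∑ f_i(Y) X^i`, `deg f_i ≤ n - i`, leading coefficient
`f_n` a nonzero constant, `g = X^q - X`; `κ y = deg gcd(f(X,y), g)`.  Then
`∑_y (κ y - κ y₀)⁺ ≤ (n - κ y₀)(q - κ y₀)`.
Proof.  `κ = κ y₀`; the linear map `(A,B) ↦ A f + B g` (`deg A < q - κ`, `deg B < n - κ`), followed by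
taking the coefficients of `X^κ, ..., X^(n+q-κ-1)`, has a square matrix with entries in `F[Y]`; its
determinant has degree `≤ (n-κ)(q-κ)` in `Y` (weights: column of `X^a f` has weight `a+n`, column of
`X^b g` weight `b+q`, row of `X^m` weight `m`), it is nonzero at `y₀` and at `y` the kernel has
dimension `≥ κ y - κ` (multiples `(C g/d, -C f/d)`), so `(Y-y)^(κ y - κ)` divides the determinant. -/
theorem resultant_lemma {q : ℕ} [Fact q.Prime] (n : ℕ) (f : (ZMod q)[X][X])
    (hn : f.natDegree = n) (hlead : ∃ u : ZMod q, u ≠ 0 ∧ f.leadingCoeff = C u)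
    (hdeg : ∀ i ≤ n, (f.coeff i).natDegree ≤ n - i) (κ : ZMod q → ℕ)
    (hκ : ∀ y, κ y = (EuclideanDomain.gcd (f.map (evalRingHom y)) (X ^ q - X : (ZMod q)[X])).natDegree)
    (y₀ : ZMod q) :
    ∑ y, (κ y - κ y₀) ≤ (n - κ y₀) * (q - κ y₀) := by
  have hq1 : 1 < q := (Fact.out : q.Prime).one_lt
  obtain ⟨u, hu, hlead⟩ := hlead
  have hfy : ∀ y, (f.map (evalRingHom y)).natDegree = n := by
    intro y
    rw [natDegree_map_of_leadingCoeff_ne_zero, hn]
    rw [hlead]
    simpa using hu
  have hfy0 : ∀ y, f.map (evalRingHom y) ≠ 0 := by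
    intro y h
    have h1 : (evalRingHom y) f.leadingCoeff = 0 := by
      have := congrArg (fun P => P.coeff n) h
      simp only [coeff_map, coeff_zero] at this
      rw [leadingCoeff, hn]
      exact this
    rw [hlead] at h1
    apply hu
    simpa using h1
  have hg : (X ^ q - X : (ZMod q)[X]).natDegree = q := by
    rw [natDegree_sub_eq_left_of_natDegree_lt]
    · exact natDegree_X_pow q
    · rw [natDegree_X, natDegree_X_pow]
      exact hq1
  have hg0 : (X ^ q - X : (ZMod q)[X]) ≠ 0 := by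
    intro h
    rw [h, natDegree_zero] at hg
    omega
  have hgm : ∀ y : ZMod q, (X ^ q - X : (ZMod q)[X][X]).map (evalRingHom y) = X ^ q - X := by
    intro y
    simp
  have hκn : κ y₀ ≤ n := by
    rw [hκ, ← hfy y₀]
    exact natDegree_le_of_dvd (EuclideanDomain.gcd_dvd_left _ _) (hfy0 y₀)
  have hκq : κ y₀ ≤ q := by
    rw [hκ]
    exact (natDegree_le_of_dvd (EuclideanDomain.gcd_dvd_right _ _) hg0).trans hg.le
  set M := sres (κ y₀) (q - κ y₀) (n - κ y₀) f (X ^ q - X : (ZMod q)[X][X]) with hM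
  have hMy : ∀ y, M.map (eval y)
      = sres (κ y₀) (q - κ y₀) (n - κ y₀) (f.map (evalRingHom y)) (X ^ q - X) := by
    intro y
    rw [← hgm y, ← sres_map]
    rfl
  have hdet : M.det ≠ 0 := by
    intro h0
    have h1 : (M.map (eval y₀)).det = 0 := by
      have h2 := (RingHom.map_det (evalRingHom y₀) M).symm
      rw [h0, map_zero] at h2
      exact h2
    rw [hMy] at h1
    exact sres_det_ne _ _ n q (κ y₀) (hfy y₀) hg hg0 (hfy0 y₀) (hκ y₀).symm h1
  have hdvd : ∀ y, (X - C y) ^ (κ y - κ y₀) ∣ M.det := by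
    intro y
    rcases le_or_gt (κ y) (κ y₀) with h | h
    · rw [Nat.sub_eq_zero_of_le h, pow_zero]
      exact one_dvd _
    · refine pow_dvd_det M y _ ?_
      rw [hMy]
      exact sres_corank _ _ n q (κ y₀) (κ y) (hfy y) hg hg0 (hfy0 y) (hκ y).symm h.le
  have hprod : ∏ y, (X - C y) ^ (κ y - κ y₀) ∣ M.det := by
    refine Finset.prod_dvd_of_coprime ?_ (fun y _ => hdvd y)
    intro a _ b _ hab
    exact (isCoprime_X_sub_C_of_isUnit_sub (sub_ne_zero.2 hab).isUnit).pow
  have h1 := natDegree_le_of_dvd hprod hdet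
  rw [natDegree_prod _ _ (fun y _ => pow_ne_zero _ (X_sub_C_ne_zero y))] at h1
  simp only [natDegree_pow, natDegree_X_sub_C, mul_one] at h1
  exact h1.trans (sres_degree f n q (κ y₀) hq1.le hn hdeg hκn hκq)

end P045
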