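import Vale.Agent.P045R.DichA

/-!
# P045R, module DICHB: the dichotomy (Szonyi-Weiner)
-/

namespace P045

open Finset Polynomial
open scoped Classical

/-- A direction different from `d`. -/
def dbOther {q : ℕ} (d : Dir q) : Dir q :=
  match d with
  | none => some 0
  | some _ => none

theorem dbOther_ne {q : ℕ} (d : Dir q) : d ≠ dbOther d := by
  match d with
  | none => simp [dbOther]
  | some m => simp [dbOther]

/-- The equation of a line in the coordinates `X = ic (dbOther d₀)`, `Y = ic d₀`. -/
theorem db_affine {q : ℕ} [Fact q.Prime] (d₀ d : Dir q) (h : d ≠ d₀) (c : ZMod q) :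
    ∃ α β : ZMod q, ∀ v : Pt q, ic d v = c ↔ ic (dbOther d₀) v = α * ic d₀ v + β := by
  match d₀, d with
  | none, none => exact absurd rfl h
  | none, some m =>
    refine ⟨m, c, fun v => ?_⟩
    simp only [dbOther, ic]
    constructor
    · intro h1
      linear_combination h1
    · intro h1
      linear_combination h1
  | some m₀, none =>
    refine ⟨0, c, fun v => ?_⟩
    simp only [dbOther, ic, zero_mul, zero_add]
  | some m₀, some m =>
    have hm : m₀ - m ≠ 0 := sub_ne_zero.mpr fun h' => h (by rw [h'])
    refine ⟨-(m₀ - m)⁻¹, c * (m₀ - m)⁻¹, fun v => ?_⟩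
    simp only [dbOther, ic]
    constructor
    · intro h1
      field_simp
      linear_combination h1
    · intro h1
      field_simp at h1
      linear_combination h1

/-- total degree of a product of linear forms -/
theorem db_deg {q : ℕ} [Fact q.Prime] {ι : Type*} (s : Finset ι) (a : ι → (ZMod q)[X])
    (ha : ∀ l ∈ s, (a l).natDegree ≤ 1) (i : ℕ) :
    (∏ l ∈ s, (X - C (a l)) : (ZMod q)[X][X]).coeff i = 0 ∨
      ((∏ l ∈ s, (X - C (a l)) : (ZMod q)[X][X]).coeff i).natDegree + i ≤ s.card := by
  induction s using Finset.induction_on generalizing i with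
  | empty =>
    rw [prod_empty, coeff_one]
    by_cases hi : i = 0
    · right
      simp [hi]
    · left
      rw [if_neg hi]
  | insert l s hl ih =>
    have ih' := ih (fun k hk => ha k (mem_insert_of_mem hk))
    have hal : (a l).natDegree ≤ 1 := ha l (mem_insert_self _ _)
    rw [prod_insert hl, card_insert_of_notMem hl, sub_mul, coeff_sub, coeff_C_mul]
    set g : (ZMod q)[X][X] := ∏ l ∈ s, (X - C (a l)) with hg
    -- second term
    have h2 : a l * g.coeff i = 0 ∨ (a l * g.coeff i).natDegree + i ≤ s.card + 1 := by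
      rcases ih' i with h | h
      · left; rw [h, mul_zero]
      · right
        have := natDegree_mul_le (p := a l) (q := g.coeff i)
        omega
    have h1 : (X * g).coeff i = 0 ∨ ((X * g).coeff i).natDegree + i ≤ s.card + 1 := by
      cases i with
      | zero => left; simp
      | succ i =>
        rw [coeff_X_mul]
        rcases ih' i with h | h
        · exact Or.inl h
        · right; omega
    by_cases hi : i ≤ s.card + 1
    · right
      have key : ∀ P : (ZMod q)[X], (P = 0 ∨ P.natDegree + i ≤ s.card + 1) →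
          P.natDegree ≤ s.card + 1 - i := by
        rintro P (h | h)
        · rw [h]; simp
        · omega
      have := natDegree_sub_le_of_le (key _ h1) (key _ h2)
      omega
    · left
      have z1 : (X * g).coeff i = 0 := by
        rcases h1 with h | h
        · exact h
        · omega
      have z2 : a l * g.coeff i = 0 := by
        rcases h2 with h | h
        · exact h
        · omega
      rw [z1, z2, sub_zero]

/-- degree of the greatest common divisor with `X^q - X` -/
theorem db_gcd {q : ℕ} [Fact q.Prime] {ι : Type*} (s : Finset ι) (b : ι → ZMod q) :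
    (EuclideanDomain.gcd (∏ l ∈ s, (X - C (b l)) : (ZMod q)[X]) (X ^ q - X)).natDegree =
      (s.image b).card := by
  have hq1 : 1 < q := (Fact.out : q.Prime).one_lt
  set g : (ZMod q)[X] := X ^ q - X with hg
  have hg0 : g ≠ 0 := FiniteField.X_pow_card_sub_X_ne_zero (ZMod q) hq1
  have hgdeg : g.natDegree = q := FiniteField.X_pow_card_sub_X_natDegree_eq (ZMod q) hq1
  have hroots : g.roots = Finset.univ.val := by
    have h := FiniteField.roots_X_pow_card_sub_X (ZMod q)
    rw [ZMod.card] at h
    exact h
  set F : (ZMod q)[X] := ∏ l ∈ s, (X - C (b l)) with hF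
  set D := EuclideanDomain.gcd F g with hD
  have hDg : D ∣ g := EuclideanDomain.gcd_dvd_right _ _
  have hDF : D ∣ F := EuclideanDomain.gcd_dvd_left _ _
  have hD0 : D ≠ 0 := fun h => hg0 (by
    obtain ⟨E, hE⟩ := hDg
    rw [hE, h, zero_mul])
  have hF0 : F ≠ 0 := (monic_prod_of_monic _ _ fun l _ => monic_X_sub_C (b l)).ne_zero
  -- `g` splits
  have hgs : g.Splits := by
    rw [splits_iff_card_roots, hroots, hgdeg]
    simp [ZMod.card]
  have hDs : D.Splits := hgs.of_dvd hg0 hDg
  have hcard : D.natDegree = D.roots.card := (splits_iff_card_roots.1 hDs).symm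
  have hnodup : D.roots.Nodup := by
    refine Multiset.nodup_of_le (roots.le_of_dvd hg0 hDg) ?_
    rw [hroots]
    exact Finset.univ.nodup
  have hset : D.roots.toFinset = s.image b := by
    ext x
    rw [Multiset.mem_toFinset, mem_roots hD0, mem_image]
    constructor
    · intro hx
      have hxF : F.IsRoot x := hx.dvd hDF
      rw [IsRoot, hF, eval_prod, prod_eq_zero_iff] at hxF
      obtain ⟨l, hl, h⟩ := hxF
      refine ⟨l, hl, ?_⟩
      rw [eval_sub, eval_X, eval_C, sub_eq_zero] at h
      exact h.symm
    · rintro ⟨l, hl, rfl⟩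
      rw [← dvd_iff_isRoot]
      refine EuclideanDomain.dvd_gcd ?_ ?_
      · exact dvd_prod_of_mem (fun l => X - C (b l)) hl
      · rw [dvd_iff_isRoot, ← mem_roots hg0, hroots]
        exact Finset.mem_univ (b l)
  rw [hcard, ← hset, Multiset.toFinset_card_of_nodup hnodup]

/-- Module DICHB.  The dichotomy.  By an affine change of coordinates `k` is horizontal; `f` is the
product of the equations of the non horizontal lines of `L`, as a polynomial in `X` over `F[Y]`; on
the line `Y = y` the covered points are the roots of `gcd(f(X,y), X^q - X)`.  With `n_h` horizontal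
lines, `n = q - n_h`, `s = |k ∩ unc L|`: `(q - n_h) s - |unc L| ≤ s (s - n_h)`. -/
theorem dichotomy {q : ℕ} [Fact q.Prime] {L : Finset (Ln q)} (hL : L.card = q) {k : Ln q}
    (hk : k ∉ L) :
    q * (pts k ∩ unc L).card ≤ (pts k ∩ unc L).card ^ 2 + (unc L).card := by
  obtain ⟨d₀, y₀⟩ := k
  set N : Finset (Ln q) := L.filter fun l => l.1 ≠ d₀ with hN
  set Hh : Finset (Ln q) := L.filter fun l => l.1 = d₀ with hHh
  have hNH : N.card + Hh.card = q := by
    refine Eq.trans ?_ hL
    rw [hN, hHh, add_comm]
    exact card_filter_add_card_filter_not (s := L) (fun l : Ln q => l.1 = d₀)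
  -- equations
  have hex : ∀ l : Ln q, ∃ αβ : ZMod q × ZMod q, l.1 ≠ d₀ → ∀ v : Pt q,
      v ∈ pts l ↔ ic (dbOther d₀) v = αβ.1 * ic d₀ v + αβ.2 := by
    intro l
    by_cases h : l.1 = d₀
    · exact ⟨(0, 0), fun h' => absurd h h'⟩
    · obtain ⟨α, β, hab⟩ := db_affine d₀ l.1 h l.2
      exact ⟨(α, β), fun _ v => by rw [mem_pts]; exact hab v⟩
  choose αβ hαβ using hex
  set f : (ZMod q)[X][X] := ∏ l ∈ N, (X - C (C (αβ l).1 * X + C (αβ l).2)) with hf
  have hmonic : f.Monic := monic_prod_of_monic _ _ fun l _ => monic_X_sub_C _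
  have hdegf : f.natDegree = N.card := by
    rw [hf, natDegree_prod_of_monic _ _ fun l _ => monic_X_sub_C _]
    rw [sum_congr rfl fun l _ => natDegree_X_sub_C _, sum_const, smul_eq_mul, mul_one]
  have hdeg1 : ∀ i ≤ N.card, (f.coeff i).natDegree ≤ N.card - i := by
    intro i hi
    have h := db_deg N (fun l => C (αβ l).1 * X + C (αβ l).2)
      (fun l _ => natDegree_linear_le) i
    rcases h with h | h
    · rw [hf, h]; simp
    · rw [hf]
      omega
  set b : ZMod q → Ln q → ZMod q := fun y l => (αβ l).1 * y + (αβ l).2 with hb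
  have hmap : ∀ y : ZMod q, f.map (evalRingHom y) = ∏ l ∈ N, (X - C (b y l)) := by
    intro y
    rw [hf, Polynomial.map_prod]
    refine prod_congr rfl fun l _ => ?_
    rw [Polynomial.map_sub, map_X, map_C, hb]
    simp
  set κ : ZMod q → ℕ := fun y => (N.image (b y)).card with hκ
  have hres := resultant_lemma N.card f hdegf ⟨1, one_ne_zero, by rw [hmonic.leadingCoeff, C_1]⟩
    hdeg1 κ (fun y => by rw [hmap, db_gcd]) y₀
  -- uncovered points on horizontal lines
  set u : ZMod q → ℕ := fun y => (pts (d₀, y) ∩ unc L).card with hu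
  have hbij := ic_bij (dbOther_ne d₀)
  have hcount : ∀ y : ZMod q, (d₀, y) ∉ L → κ y + u y = q := by
    intro y hy
    have h1 : (pts (d₀, y) \ unc L).card = κ y := by
      rw [hκ]
      refine card_bij (fun v _ => ic (dbOther d₀) v) ?_ ?_ ?_
      · intro v hv
        rw [mem_sdiff, mem_pts, unc_eq_compl, mem_compl, not_not, mem_cov] at hv
        obtain ⟨hv1, l, hl, hvl⟩ := hv
        have hld : l.1 ≠ d₀ := by
          intro hld
          apply hy
          have : l = (d₀, y) := by
            rw [mem_pts, hld] at hvl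
            exact Prod.ext hld (hvl.symm.trans hv1)
          rwa [← this]
        rw [mem_image]
        refine ⟨l, by rw [hN, mem_filter]; exact ⟨hl, hld⟩, ?_⟩
        rw [(hαβ l hld v).1 hvl, hb]
        rw [show ic d₀ v = y from hv1]
      · intro v hv w hw hvw
        rw [mem_sdiff, mem_pts] at hv hw
        apply hbij.1
        exact Prod.ext (hv.1.trans hw.1.symm) hvw
      · intro x hx
        rw [mem_image] at hx
        obtain ⟨l, hl, hx⟩ := hx
        rw [hN, mem_filter] at hl
        obtain ⟨v, hv⟩ := hbij.2 (y, x)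
        simp only [Prod.mk.injEq] at hv
        refine ⟨v, ?_, hv.2⟩
        rw [mem_sdiff, mem_pts, unc_eq_compl, mem_compl, not_not, mem_cov]
        refine ⟨hv.1, l, hl.1, ?_⟩
        rw [hαβ l hl.2 v, hv.1, hv.2, ← hx]
    rw [← h1, hu]
    have h2 := card_sdiff_add_card_inter (pts (d₀, y)) (unc L)
    rw [card_pts] at h2
    exact h2
  have hs := hcount y₀ hk
  set G : Finset (ZMod q) := univ.filter fun y => (d₀, y) ∉ L with hG
  have hGcard : G.card + Hh.card = q := by
    have h1 : Hh.card = (univ.filter fun y : ZMod q => (d₀, y) ∈ L).card := by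
      refine card_bij (fun l _ => l.2) ?_ ?_ ?_
      · intro l hl
        rw [hHh, mem_filter] at hl
        rw [mem_filter]
        refine ⟨mem_univ _, ?_⟩
        have : (d₀, l.2) = l := Prod.ext hl.2.symm rfl
        rw [this]
        exact hl.1
      · intro l hl l' hl' h
        rw [hHh, mem_filter] at hl hl'
        exact Prod.ext (hl.2.trans hl'.2.symm) h
      · intro y hy
        rw [mem_filter] at hy
        exact ⟨(d₀, y), by rw [hHh, mem_filter]; exact ⟨hy.2, rfl⟩, rfl⟩
    rw [h1, hG, add_comm, card_filter_add_card_filter_not, card_univ, ZMod.card]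
  have hsumu : ∑ y ∈ G, u y = (unc L).card := by
    rw [card_eq_sum_card_fiberwise (f := fun v : Pt q => ic d₀ v) (t := G)]
    · refine sum_congr rfl fun y _ => ?_
      refine congrArg Finset.card ?_
      ext v
      rw [mem_inter, mem_filter, mem_pts, and_comm]
    · intro v hv
      rw [mem_coe] at hv ⊢
      rw [hG, mem_filter]
      refine ⟨mem_univ _, fun h => ?_⟩
      rw [mem_unc] at hv
      exact hv _ h (by rw [mem_pts])
  have hκle : κ y₀ ≤ N.card := card_image_le
  -- the final computation
  have hlow : ((N.card : ℤ)) * (u y₀ : ℤ) - (unc L).card ≤ ((∑ y, (κ y - κ y₀) : ℕ) : ℤ) := by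
    have hGN : G.card = N.card := by omega
    have h1 : ∑ y ∈ G, ((κ y : ℤ) - κ y₀) = (N.card : ℤ) * (u y₀ : ℤ) - (unc L).card := by
      have h2 : ∀ y ∈ G, ((κ y : ℤ) - κ y₀) = (u y₀ : ℤ) - u y := by
        intro y hy
        rw [hG, mem_filter] at hy
        have := hcount y hy.2
        omega
      rw [sum_congr rfl h2, sum_sub_distrib, sum_const, nsmul_eq_mul, hGN, ← hsumu]
      push_cast
      ring
    rw [← h1]
    push_cast
    calc ∑ y ∈ G, ((κ y : ℤ) - κ y₀) ≤ ∑ y ∈ G, (((κ y - κ y₀ : ℕ)) : ℤ) :=
          sum_le_sum fun y _ => by omega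
      _ ≤ ∑ y, (((κ y - κ y₀ : ℕ)) : ℤ) :=
          sum_le_sum_of_subset_of_nonneg (subset_univ _) fun _ _ _ => by positivity
  have hres' : ((∑ y, (κ y - κ y₀) : ℕ) : ℤ) ≤ ((N.card : ℤ) - κ y₀) * ((q : ℤ) - κ y₀) := by
    have h1 : (((N.card - κ y₀) * (q - κ y₀) : ℕ) : ℤ) =
        ((N.card : ℤ) - κ y₀) * ((q : ℤ) - κ y₀) := by
      push_cast [Nat.cast_sub hκle, Nat.cast_sub (by omega : κ y₀ ≤ q)]
      ring
    rw [← h1]
    exact_mod_cast hres
  have hfin := hlow.trans hres'
  have e1 : ((q : ℤ) - κ y₀) = u y₀ := by omega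
  have e2 : ((N.card : ℤ) - κ y₀) = (u y₀ : ℤ) - Hh.card := by omega
  have e3 : (N.card : ℤ) = (q : ℤ) - Hh.card := by omega
  rw [e1, e2, e3] at hfin
  have hgoal : (q : ℤ) * (u y₀ : ℤ) ≤ (u y₀ : ℤ) ^ 2 + (unc L).card := by nlinarith
  exact_mod_cast hgoal

/-- A line is large with respect to `L` if almost all of its points are uncovered. -/
def Large {q : ℕ} [Fact q.Prime] (L : Finset (Ln q)) (k : Ln q) : Prop :=
  (q : ℝ) - 2 * (unc L).card / q ≤ (pts k ∩ unc L).card

/-- A line is small with respect to `L`. -/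
def Small {q : ℕ} [Fact q.Prime] (L : Finset (Ln q)) (k : Ln q) : Prop :=
  ((pts k ∩ unc L).card : ℝ) ≤ 2 * (unc L).card / q

set_option linter.unusedVariables false in
theorem small_or_large {q : ℕ} [Fact q.Prime] {L : Finset (Ln q)} (hL : L.card = q)
    (hU : 4 * (unc L).card ≤ q ^ 2) (k : Ln q) : Small L k ∨ Large L k := by
  have hq : (0 : ℝ) < q := by exact_mod_cast (Fact.out : q.Prime).pos
  by_cases hk : k ∈ L
  · left
    have h0 : pts k ∩ unc L = ∅ := by
      ext v
      simp only [mem_inter, mem_unc, notMem_empty, iff_false, not_and, not_forall]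
      intro hv
      exact ⟨k, hk, fun h => h hv⟩
    unfold Small
    rw [h0]
    simp only [card_empty, Nat.cast_zero]
    positivity
  · have h1 : (q : ℝ) * (pts k ∩ unc L).card ≤
        ((pts k ∩ unc L).card : ℝ) ^ 2 + (unc L).card := by
      exact_mod_cast dichotomy hL hk
    have h2 : ((pts k ∩ unc L).card : ℝ) ≤ q := by
      have h3 : (pts k ∩ unc L).card ≤ (pts k).card := card_le_card inter_subset_left
      rw [card_pts] at h3
      exact_mod_cast h3
    set s : ℝ := ((pts k ∩ unc L).card : ℝ) with hs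
    have hs0 : 0 ≤ s := Nat.cast_nonneg _
    rcases le_or_gt s ((q : ℝ) / 2) with h | h
    · left
      unfold Small
      rw [← hs, le_div_iff₀ hq]
      nlinarith
    · right
      unfold Large
      rw [← hs, sub_le_iff_le_add, ← sub_le_iff_le_add', le_div_iff₀ hq]
      nlinarith

end P045
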