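import Vale.Agent.P045R.Model
import Vale.Agent.P045R.Consts
import Vale.Agent.P045R.DichB

/-!
# P045R: the good events (deterministic properties of a configuration)
-/

namespace P045

open Finset
open scoped Classical

/-- The middle range of sizes of the uncovered set. -/
def Mid (q N : ℕ) : Prop := (q : ℝ) ^ (3 / 2 : ℝ) / 4 < N ∧ (N : ℝ) ≤ del0 * (q : ℝ) ^ 2

section
variable {q : ℕ} [Fact q.Prime]

/-- GH: `q` lines covering `W` leave at most `del0 q²` points uncovered. -/
def GHp (c : Dir q → Gd q) : Prop :=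
  ∀ L : Finset (Ln q), L.card = q → Wp c ⊆ cov L → ((unc L).card : ℝ) ≤ del0 * (q : ℝ) ^ 2

/-- P1: if the special lines cover the uncovered set of `q` lines and it is in the middle range then
many special lines are large. -/
def P1p (c : Dir q → Gd q) : Prop :=
  ∀ L : Finset (Ln q), L.card = q → Mid q (unc L).card → unc L ⊆ cov (Rl c) →
    c3 * (unc L).card / q ≤ (((Rl c).filter (Large L)).card : ℝ)

/-- Lines meeting the set `S` of lines in few different points. -/
noncomputable def Ronce (N : ℕ) (S : Finset (Ln q)) : Finset (Ln q) :=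
  univ.filter fun k => ((pts k ∩ cov S).card : ℝ) ≤ (1 - c1 / 16) * (c1 * N / q)

/-- P2: few special lines in `Ronce N S` for all small sets `S` of lines. -/
def P2p (c : Dir q → Gd q) : Prop :=
  ∀ N : ℕ, Mid q N → ∀ S : Finset (Ln q), (S.card : ℝ) ≤ 2 * c1 * N / q →
    ((Ronce N S).card : ℝ) ≤ 4 * q → ((Rl c ∩ Ronce N S).card : ℝ) ≤ c3 * N / (4 * q)

/-- The gadgets with a line in `Λ`. -/
noncomputable def hits (c : Dir q → Gd q) (Λ : Finset (Ln q)) : ℕ :=
  (univ.filter fun f => ∃ k ∈ gl f (c f), k ∈ Λ).card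

/-- The lines through a point. -/
noncomputable def pen (v : Pt q) : Finset (Ln q) := univ.filter fun l => v ∈ pts l

/-- The lines of direction `d`. -/
noncomputable def par (d : Dir q) : Finset (Ln q) := univ.filter fun l => l.1 = d

/-- Moments of the number of gadgets at a point or a direction. -/
def Mom (c : Dir q → Gd q) (C : ℝ) : Prop :=
  (∑ v : Pt q, ((hits c (pen v)).choose 5 : ℝ)) ≤ C * (q : ℝ) ^ 2 ∧
    (∑ d : Dir q, ((hits c (par d)).choose 4 : ℝ)) ≤ C * q

/-- Everything that is needed about the first three stages. -/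
structure Good (a C : ℝ) (c : Dir q → Gd q) : Prop where
  sep : Sep c
  valid : ∀ f k, a * q ≤ ((Valid c f k).card : ℝ)
  rich : Rich c (a * q)
  gh : GHp c
  p1 : P1p c
  p2 : P2p c
  mom : Mom c C

end

end P045
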