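import Vale.Agent.P045R.Bad2
import Vale.Agent.P045R.StructG

/-!
# P045R, module GHB: `q` lines covering `W` leave few points uncovered
-/

namespace P045

open Finset
open scoped Classical

theorem ghb_num (C : ℝ) (hC : 0 < C) : ∃ q₀ : ℕ, ∀ q ≥ q₀,
    (q : ℝ) ^ (del0 / 200 * q) *
      (C ^ ⌈del0 * q / 38⌉₊ / (⌈del0 * q / 38⌉₊).factorial) ≤ 1 / 20 := by
  have hd := del0_pos
  have he := Real.exp_pos 1
  refine ⟨⌈(38 * Real.exp 1 * C / del0) ^ 2⌉₊ + ⌈150 / del0⌉₊ + 20, fun q hq => ?_⟩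
  have hqR20 : (20 : ℝ) ≤ q := by exact_mod_cast (by omega : 20 ≤ q)
  have hqR : (0 : ℝ) < q := by linarith
  have ha : (38 * Real.exp 1 * C / del0) ^ 2 ≤ (q : ℝ) := by
    refine (Nat.le_ceil _).trans ?_
    exact_mod_cast (by omega : ⌈(38 * Real.exp 1 * C / del0) ^ 2⌉₊ ≤ q)
  have hb : 150 / del0 ≤ (q : ℝ) := by
    refine (Nat.le_ceil _).trans ?_
    exact_mod_cast (by omega : ⌈150 / del0⌉₊ ≤ q)
  have hb' : 1 ≤ del0 * q / 150 := by
    rw [div_le_iff₀ hd] at hb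
    rw [le_div_iff₀ (by norm_num)]
    linarith
  set m : ℕ := ⌈del0 * q / 38⌉₊ with hm
  have hmt : del0 * q / 38 ≤ (m : ℝ) := Nat.le_ceil _
  have hm0 : (0 : ℝ) < m := lt_of_lt_of_le (by positivity) hmt
  have hmN : 0 < m := by exact_mod_cast hm0
  have h1 := pow_div_factorial_le hC.le hmN
  have hsq : 38 * Real.exp 1 * C / del0 ≤ Real.sqrt q := Real.le_sqrt_of_sq_le ha
  have hs0 : 0 < Real.sqrt q := Real.sqrt_pos.mpr hqR
  have h2 : Real.exp 1 * C / m ≤ (q : ℝ) ^ (-(1 / 2) : ℝ) := by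
    rw [Real.rpow_neg hqR.le, ← Real.sqrt_eq_rpow, ← one_div, div_le_div_iff₀ hm0 hs0, one_mul]
    have h3 : Real.exp 1 * C = (38 * Real.exp 1 * C / del0) * (del0 / 38) := by
      field_simp
    have h4 : Real.sqrt q * Real.sqrt q = q := Real.mul_self_sqrt hqR.le
    calc Real.exp 1 * C * Real.sqrt q = (38 * Real.exp 1 * C / del0) * (del0 / 38) * Real.sqrt q := by
          rw [← h3]
      _ ≤ Real.sqrt q * (del0 / 38) * Real.sqrt q := by gcongr
      _ = del0 * (Real.sqrt q * Real.sqrt q) / 38 := by ring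
      _ = del0 * q / 38 := by rw [h4]
      _ ≤ m := hmt
  have h5 : (Real.exp 1 * C / m) ^ m ≤ (q : ℝ) ^ (-(del0 * q / 76)) := by
    calc (Real.exp 1 * C / m) ^ m ≤ ((q : ℝ) ^ (-(1 / 2) : ℝ)) ^ m :=
          pow_le_pow_left₀ (by positivity) h2 m
      _ = (q : ℝ) ^ (-(1 / 2) * (m : ℝ)) := by
          rw [← Real.rpow_natCast, ← Real.rpow_mul hqR.le]
      _ ≤ (q : ℝ) ^ (-(del0 * q / 76)) := by
          apply Real.rpow_le_rpow_of_exponent_le (by linarith)
          linarith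
  calc (q : ℝ) ^ (del0 / 200 * q) * (C ^ m / m.factorial)
      ≤ (q : ℝ) ^ (del0 / 200 * q) * (q : ℝ) ^ (-(del0 * q / 76)) := by
        gcongr
        exact h1.trans h5
    _ = (q : ℝ) ^ (del0 / 200 * q - del0 * q / 76) := by
        rw [← Real.rpow_add hqR]
        ring_nf
    _ ≤ (q : ℝ) ^ (-1 : ℝ) := by
        apply Real.rpow_le_rpow_of_exponent_le (by linarith)
        have : del0 / 200 * q - del0 * q / 76 = -(del0 * q / 150) * (150 * (1 / 76 - 1 / 200)) := by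
          ring
        rw [this]
        nlinarith
    _ = 1 / q := by rw [Real.rpow_neg_one, one_div]
    _ ≤ 1 / 20 := one_div_le_one_div_of_le (by norm_num) hqR20

theorem ghb_card_cov {q : ℕ} [Fact q.Prime] (D : Finset (Ln q)) : (cov D).card ≤ q * D.card := by
  have h : cov D ⊆ D.biUnion pts := by
    intro v hv
    rw [mem_cov] at hv
    rw [mem_biUnion]
    exact hv
  calc (cov D).card ≤ (D.biUnion pts).card := card_le_card h
    _ ≤ ∑ l ∈ D, (pts l).card := card_biUnion_le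
    _ = ∑ l ∈ D, q := sum_congr rfl fun l _ => card_pts l
    _ = q * D.card := by rw [sum_const, smul_eq_mul, mul_comm]

theorem ghb_det {q : ℕ} [Fact q.Prime] (hq : 19 ≤ q) (c : Dir q → Gd q)
    (F : Finset (Finset (Ln q)))
    (hF : ∀ T : Finset (Ln q), (T.card : ℝ) ≤ 21 * q → cov T = univ →
        ∃ D ∈ F, D ⊆ T ∧ ((unc D).card : ℝ) ≤ del0 / 2 * (q : ℝ) ^ 2)
    (hc : ∀ D ∈ F, hits c D < ⌈del0 * q / 38⌉₊) : GHp c := by
  intro L hL hW
  have hT1 : ((L ∪ Rl c).card : ℝ) ≤ 21 * q := by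
    have h1 := card_union_le L (Rl c)
    have h2 : (Rl c).card ≤ 19 * (q + 1) := by
      calc (Rl c).card ≤ ∑ f : Dir q, (gl f (c f)).card := card_biUnion_le
        _ ≤ ∑ _f : Dir q, 19 := sum_le_sum fun f _ => bad2_card_gl f (c f)
        _ = 19 * (q + 1) := by
          rw [sum_const, card_univ, card_Dir, smul_eq_mul, mul_comm]
    have h3 : (L ∪ Rl c).card ≤ 21 * q := by omega
    exact_mod_cast h3
  have hT2 : cov (L ∪ Rl c) = univ := by
    rw [cov_union, eq_univ_iff_forall]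
    intro v
    rw [mem_union]
    by_cases hv : v ∈ cov (Rl c)
    · exact Or.inr hv
    · left
      apply hW
      unfold Wp
      rw [unc_eq_compl, mem_compl]
      exact hv
  obtain ⟨D, hD, hDT, hDu⟩ := hF _ hT1 hT2
  have h1 := hc D hD
  have h2 : ((hits c D : ℕ) : ℝ) < del0 * q / 38 := Nat.lt_ceil.mp h1
  have h3 := bad2_card_Rl_inter c D
  have h4 : (((Rl c ∩ D).card : ℕ) : ℝ) ≤ del0 / 2 * q := by
    have h5 : (((Rl c ∩ D).card : ℕ) : ℝ) ≤ 19 * (hits c D : ℕ) := by exact_mod_cast h3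
    linarith
  have h6 : unc L ⊆ unc D ∪ cov (Rl c ∩ D) := by
    intro v hv
    rw [mem_union]
    by_cases hv2 : v ∈ unc D
    · exact Or.inl hv2
    · right
      rw [unc_eq_compl, mem_compl, not_not, mem_cov] at hv2
      obtain ⟨l, hl, hvl⟩ := hv2
      rw [mem_cov]
      refine ⟨l, ?_, hvl⟩
      rw [mem_inter]
      refine ⟨?_, hl⟩
      have h7 := hDT hl
      rw [mem_union] at h7
      rcases h7 with h7 | h7
      · rw [mem_unc] at hv
        exact absurd hvl (hv l h7)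
      · exact h7
  have h8 : (unc L).card ≤ (unc D).card + q * (Rl c ∩ D).card := by
    calc (unc L).card ≤ (unc D ∪ cov (Rl c ∩ D)).card := card_le_card h6
      _ ≤ (unc D).card + (cov (Rl c ∩ D)).card := card_union_le _ _
      _ ≤ (unc D).card + q * (Rl c ∩ D).card := by
        have := ghb_card_cov (Rl c ∩ D)
        omega
  have h9 : ((unc L).card : ℝ) ≤ (unc D).card + q * (Rl c ∩ D).card := by exact_mod_cast h8
  have hq0 : (0 : ℝ) ≤ q := Nat.cast_nonneg _
  have h10 : (q : ℝ) * (Rl c ∩ D).card ≤ q * (del0 / 2 * q) := mul_le_mul_of_nonneg_left h4 hq0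
  calc ((unc L).card : ℝ) ≤ del0 / 2 * (q : ℝ) ^ 2 + q * (del0 / 2 * q) := by linarith
    _ = del0 * (q : ℝ) ^ 2 := by ring

theorem ghb : ∃ q₀ : ℕ, ∀ q ≥ q₀, ∀ [Fact q.Prime],
    Enu (q := q) (fun c => ind (¬ GHp c)) ≤ 1 / 20 := by
  have hd := del0_pos
  obtain ⟨B, hB, q1, hG⟩ := structG 21 (del0 / 2) (del0 / 200) (by norm_num) (by positivity)
    (by positivity)
  obtain ⟨C, hC, q2, hH⟩ := hit B hB
  obtain ⟨q3, hN⟩ := ghb_num C hC
  refine ⟨q1 + q2 + q3 + 19, fun q hq => ?_⟩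
  intro hp
  obtain ⟨F, hF1, hF2, hF3⟩ := hG q (by omega)
  set m : ℕ := ⌈del0 * q / 38⌉₊ with hm
  have hstep : Enu (q := q) (fun c => ind (¬ GHp c)) ≤
      Enu (q := q) (fun c => ∑ D ∈ F, ((hits c D).choose m : ℝ)) := by
    apply Enu_mono
    intro c
    by_cases hg : GHp c
    · have h1 : ind (¬ GHp c) = 0 := by
        unfold ind
        rw [if_neg (not_not.mpr hg)]
      rw [h1]
      exact sum_nonneg fun D _ => Nat.cast_nonneg _
    · have h2 : ∃ D ∈ F, m ≤ hits c D := by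
        by_contra hcon
        push Not at hcon
        exact hg (ghb_det (by omega) c F hF3 hcon)
      obtain ⟨D, hD, hmD⟩ := h2
      have h3 : (1 : ℝ) ≤ ((hits c D).choose m : ℝ) := by
        exact_mod_cast Nat.choose_pos hmD
      calc ind (¬ GHp c) ≤ 1 := ind_le_one _
        _ ≤ ((hits c D).choose m : ℝ) := h3
        _ ≤ ∑ D ∈ F, ((hits c D).choose m : ℝ) :=
          single_le_sum (f := fun D => ((hits c D).choose m : ℝ)) (fun D _ => Nat.cast_nonneg _) hD
  refine hstep.trans ?_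
  rw [Enu_sum]
  have h4 : ∀ D ∈ F, Enu (q := q) (fun c => ((hits c D).choose m : ℝ)) ≤ C ^ m / m.factorial :=
    fun D hD => hH q (by omega) D (hF2 D hD) m
  have h5 : (0 : ℝ) ≤ C ^ m / m.factorial := by positivity
  calc ∑ D ∈ F, Enu (q := q) (fun c => ((hits c D).choose m : ℝ))
      ≤ ∑ D ∈ F, C ^ m / (m.factorial : ℝ) := sum_le_sum h4
    _ = F.card * (C ^ m / m.factorial) := by rw [sum_const, nsmul_eq_mul]
    _ ≤ (q : ℝ) ^ (del0 / 200 * q) * (C ^ m / m.factorial) :=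
        mul_le_mul_of_nonneg_right hF1 h5
    _ ≤ 1 / 20 := hN q (by omega)

end P045
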