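import Vale.Agent.P045R.Hit

/-!
# P045R, module MOM: moments
-/

namespace P045

open Finset
open scoped Classical

private theorem card_par {q : ℕ} [Fact q.Prime] (d : Dir q) : (par (q := q) d).card = q := by
  have h : par (q := q) d = (univ : Finset (ZMod q)).image (fun c => ((d, c) : Ln q)) := by
    ext l
    simp only [par, mem_filter, mem_univ, true_and, mem_image]
    constructor
    · intro hl
      exact ⟨l.2, by rw [← hl]⟩
    · rintro ⟨c, rfl⟩
      rfl
  rw [h, card_image_of_injective, card_univ, ZMod.card]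
  intro c c' hc
  exact (Prod.mk.inj hc).2

/-- Module MOM.  `hit` for `Λ = pen v` (`q + 1` lines) and `Λ = par d` (`q` lines), Markov. -/
theorem mom : ∃ C : ℝ, ∃ q₀ : ℕ, ∀ q ≥ q₀, ∀ [Fact q.Prime],
    Enu (q := q) (fun c => ind (¬ Mom c C)) ≤ 1 / 20 := by
  obtain ⟨B, hB, q₀, hhit⟩ := hit 2 (by norm_num)
  set C : ℝ := 40 * B ^ 5 + 80 * B ^ 4 with hC
  have hCpos : 0 < C := by positivity
  refine ⟨C, q₀, fun q hq _ => ?_⟩
  have hq2 : 2 ≤ q := (Fact.out : q.Prime).two_le
  have hq0 : (0 : ℝ) < q := by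
    have : 0 < q := by omega
    exact_mod_cast this
  have hq1 : (1 : ℝ) ≤ q := by
    have : 1 ≤ q := by omega
    exact_mod_cast this
  have hpen : ∀ v : Pt q, ((pen v).card : ℝ) ≤ 2 * q := by
    intro v
    have : (pen v).card = q + 1 := card_lines_through v
    rw [this]
    push_cast
    linarith
  have hpar : ∀ d : Dir q, ((par d).card : ℝ) ≤ 2 * q := by
    intro d
    rw [card_par d]
    linarith
  -- first moment sums
  have hX : Enu (q := q) (fun c => ∑ v : Pt q, ((hits c (pen v)).choose 5 : ℝ)) ≤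
      (q : ℝ) ^ 2 * (B ^ 5) := by
    rw [Enu_sum]
    calc ∑ v : Pt q, Enu (q := q) (fun c => ((hits c (pen v)).choose 5 : ℝ))
        ≤ ∑ _v : Pt q, B ^ 5 := by
          refine sum_le_sum fun v _ => (hhit q hq (pen v) (hpen v) 5).trans ?_
          exact div_le_self (by positivity) (by norm_num [Nat.factorial])
      _ = (q : ℝ) ^ 2 * (B ^ 5) := by
          rw [sum_const, card_univ, card_Pt, nsmul_eq_mul]
          push_cast
          ring
  have hY : Enu (q := q) (fun c => ∑ d : Dir q, ((hits c (par d)).choose 4 : ℝ)) ≤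
      2 * (q : ℝ) * (B ^ 4) := by
    rw [Enu_sum]
    calc ∑ d : Dir q, Enu (q := q) (fun c => ((hits c (par d)).choose 4 : ℝ))
        ≤ ∑ _d : Dir q, B ^ 4 := by
          refine sum_le_sum fun d _ => (hhit q hq (par d) (hpar d) 4).trans ?_
          exact div_le_self (by positivity) (by norm_num [Nat.factorial])
      _ = ((q : ℝ) + 1) * (B ^ 4) := by
          rw [sum_const, card_univ, card_Dir, nsmul_eq_mul]
          push_cast
          ring
      _ ≤ 2 * (q : ℝ) * (B ^ 4) := by
          refine mul_le_mul_of_nonneg_right ?_ (by positivity)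
          linarith
  have hX2 : Enu (q := q) (fun c =>
      ind (C * (q : ℝ) ^ 2 ≤ ∑ v : Pt q, ((hits c (pen v)).choose 5 : ℝ))) ≤ 1 / 40 := by
    refine (Enu_ind_le (q := q) (X := fun c => ∑ v : Pt q, ((hits c (pen v)).choose 5 : ℝ))
      (t := C * (q : ℝ) ^ 2) (fun c => sum_nonneg fun v _ => Nat.cast_nonneg _) (by positivity)
      (fun c hc => hc)).trans ?_
    rw [div_le_iff₀ (by positivity)]
    refine hX.trans ?_
    have : (0 : ℝ) ≤ (q : ℝ) ^ 2 * B ^ 4 := by positivity
    rw [hC]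
    nlinarith
  have hY2 : Enu (q := q) (fun c =>
      ind (C * (q : ℝ) ≤ ∑ d : Dir q, ((hits c (par d)).choose 4 : ℝ))) ≤ 1 / 40 := by
    refine (Enu_ind_le (q := q) (X := fun c => ∑ d : Dir q, ((hits c (par d)).choose 4 : ℝ))
      (t := C * (q : ℝ)) (fun c => sum_nonneg fun v _ => Nat.cast_nonneg _) (by positivity)
      (fun c hc => hc)).trans ?_
    rw [div_le_iff₀ (by positivity)]
    refine hY.trans ?_
    have : (0 : ℝ) ≤ (q : ℝ) * B ^ 5 := by positivity
    rw [hC]
    nlinarith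
  have hsum : Enu (q := q) (fun c => ind (¬ Mom c C)) ≤
      Enu (q := q) (fun c =>
        ind (C * (q : ℝ) ^ 2 ≤ ∑ v : Pt q, ((hits c (pen v)).choose 5 : ℝ)) +
        ind (C * (q : ℝ) ≤ ∑ d : Dir q, ((hits c (par d)).choose 4 : ℝ))) := by
    refine Enu_mono fun c => ?_
    by_cases h : Mom c C
    · have : ind (¬ Mom c C) = 0 := by simp [ind, h]
      rw [this]
      exact add_nonneg (ind_nonneg _) (ind_nonneg _)
    · have h1 : ind (¬ Mom c C) = 1 := by simp [ind, h]
      rw [h1]
      unfold Mom at h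
      rw [not_and_or, not_le, not_le] at h
      rcases h with h | h
      · have h2 : ind (C * (q : ℝ) ^ 2 ≤ ∑ v : Pt q, ((hits c (pen v)).choose 5 : ℝ)) = 1 := by
          unfold ind
          rw [if_pos h.le]
        rw [h2]
        linarith [ind_nonneg (C * (q : ℝ) ≤ ∑ d : Dir q, ((hits c (par d)).choose 4 : ℝ))]
      · have h2 : ind (C * (q : ℝ) ≤ ∑ d : Dir q, ((hits c (par d)).choose 4 : ℝ)) = 1 := by
          unfold ind
          rw [if_pos h.le]
        rw [h2]
        linarith [ind_nonneg (C * (q : ℝ) ^ 2 ≤ ∑ v : Pt q, ((hits c (pen v)).choose 5 : ℝ))]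
  refine hsum.trans ?_
  have hadd : Enu (q := q) (fun c =>
        ind (C * (q : ℝ) ^ 2 ≤ ∑ v : Pt q, ((hits c (pen v)).choose 5 : ℝ)) +
        ind (C * (q : ℝ) ≤ ∑ d : Dir q, ((hits c (par d)).choose 4 : ℝ))) =
      Enu (q := q) (fun c =>
        ind (C * (q : ℝ) ^ 2 ≤ ∑ v : Pt q, ((hits c (pen v)).choose 5 : ℝ))) +
      Enu (q := q) (fun c =>
        ind (C * (q : ℝ) ≤ ∑ d : Dir q, ((hits c (par d)).choose 4 : ℝ))) := by
    unfold Enu
    simp only [avg_add]
  rw [hadd]
  linarith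

end P045
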