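import Vale.Agent.P045R.StDefs

/-!
# P045R, module STA1: stage A, first event
-/

namespace P045

open Finset
open scoped Classical

private theorem sta1_asymp (c : ℝ) (hc : 0 < c) :
    ∃ q₀ : ℕ, ∀ q ≥ q₀, ((q : ℝ) + 1) * (q : ℝ) ^ 2 * Real.exp (-(c * q)) ≤ 1 / 20 := by
  have h1 := Real.tendsto_pow_mul_exp_neg_atTop_nhds_zero 3
  have h2 : Filter.Tendsto (fun q : ℕ => c * (q : ℝ)) Filter.atTop Filter.atTop :=
    Filter.Tendsto.const_mul_atTop hc tendsto_natCast_atTop_atTop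
  have h3 := h1.comp h2
  have h4 : ∀ᶠ q : ℕ in Filter.atTop,
      ((fun x : ℝ => x ^ 3 * Real.exp (-x)) ∘ fun q : ℕ => c * (q : ℝ)) q < c ^ 3 / 40 :=
    h3.eventually (gt_mem_nhds (by positivity))
  obtain ⟨q₀, hq₀⟩ := Filter.eventually_atTop.1 h4
  refine ⟨max q₀ 1, fun q hq => ?_⟩
  have h5 := hq₀ q ((le_max_left _ _).trans hq)
  have hq1 : (1 : ℝ) ≤ q := by exact_mod_cast (le_max_right _ _).trans hq
  have h6 : (c * (q : ℝ)) ^ 3 * Real.exp (-(c * q)) < c ^ 3 / 40 := h5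
  have h7 : (q : ℝ) ^ 3 * Real.exp (-(c * q)) < 1 / 40 := by
    have hc3 : 0 < c ^ 3 := by positivity
    have h8 : c ^ 3 * ((q : ℝ) ^ 3 * Real.exp (-(c * q))) < c ^ 3 * (1 / 40) := by
      calc c ^ 3 * ((q : ℝ) ^ 3 * Real.exp (-(c * q))) =
          (c * (q : ℝ)) ^ 3 * Real.exp (-(c * q)) := by ring
        _ < c ^ 3 / 40 := h6
        _ = c ^ 3 * (1 / 40) := by ring
    exact lt_of_mul_lt_mul_left h8 hc3.le
  have h9 : ((q : ℝ) + 1) * (q : ℝ) ^ 2 ≤ 2 * (q : ℝ) ^ 3 := by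
    nlinarith [sq_nonneg (q : ℝ), mul_nonneg (sub_nonneg.2 hq1) (sq_nonneg (q : ℝ))]
  calc ((q : ℝ) + 1) * (q : ℝ) ^ 2 * Real.exp (-(c * q))
      ≤ 2 * (q : ℝ) ^ 3 * Real.exp (-(c * q)) :=
        mul_le_mul_of_nonneg_right h9 (Real.exp_pos _).le
    _ = 2 * ((q : ℝ) ^ 3 * Real.exp (-(c * q))) := by ring
    _ ≤ 1 / 20 := by linarith

private theorem sta1_avg_ind_le {α : Type*} (s : Finset α) (P : α → Prop) (T : Finset α) (c : ℝ)
    (hc : 0 ≤ c) (hT : ∀ a ∈ s, P a → a ∈ T) (h : (T.card : ℝ) ≤ c * s.card) :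
    avg s (fun a => ind (P a)) ≤ c := by
  have h1 : avg s (fun a => ind (P a)) ≤ (T.card : ℝ) / s.card := by
    unfold avg
    refine div_le_div_of_nonneg_right ?_ (Nat.cast_nonneg _)
    unfold ind
    rw [← sum_filter, sum_const, nsmul_eq_mul, mul_one]
    refine Nat.cast_le.2 (card_le_card fun a ha => ?_)
    exact hT a (mem_filter.1 ha).1 (mem_filter.1 ha).2
  refine h1.trans ?_
  rcases Nat.eq_zero_or_pos s.card with h0 | h0
  · rw [h0, Nat.cast_zero, div_zero]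
    exact hc
  · rw [div_le_iff₀ (by exact_mod_cast h0)]
    exact h

private theorem sta1_one {q : ℕ} [Fact q.Prime] (c : ℝ)
    (hs : ∀ {ι α X : Type} [Fintype ι], Fintype.card ι ≤ q + 1 →
      ∀ (A : ι → Finset α), (∀ i, (A i).Nonempty) → ∀ (B : Finset X) (K : ι → α → Finset X),
      1 * (q : ℝ) ≤ B.card → (∀ i, ∀ a ∈ A i, ((B ∩ K i a).card : ℝ) ≤ 1) →
      (∀ i, ∀ x ∈ B, (((A i).filter fun a => x ∈ K i a).card : ℝ) ≤ 1 / q * (A i).card) →
      (((Fintype.piFinset A).filter fun w =>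
        ((B.filter fun x => ∀ i, x ∉ K i (w i)).card : ℝ) < Real.exp (-1) / 4 * B.card).card : ℝ) ≤
        Real.exp (-(c * q)) * (Fintype.piFinset A).card) (k : Ln q) :
    avg (univ : Finset (Dir q → ZMod q)) (fun S => ind (¬ (q : ℝ) / 16 ≤ ((Sim S k).card : ℝ))) ≤
      Real.exp (-(c * q)) := by
  have hq0 : (0 : ℝ) < q := by exact_mod_cast (Fact.out : q.Prime).pos
  have h1 := hs (ι := Dir q) (α := ZMod q) (X := Pt q) card_Dir.le (fun _ => univ)
    (fun _ => univ_nonempty) (pts k)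
    (fun g a => if g = k.1 then ∅ else pts (g, a)) ?_ ?_ ?_
  · have hpi : @Fintype.piFinset (Dir q) (fun a b => Classical.propDecidable (a = b)) _
        (fun _ => ZMod q) (fun _ => univ) = (univ : Finset (Dir q → ZMod q)) := by
      ext w
      rw [@Fintype.mem_piFinset _ (_)]
      simp
    rw [hpi] at h1
    refine sta1_avg_ind_le _ _ _ _ (Real.exp_pos _).le ?_ h1
    intro S _ hS
    rw [mem_filter]
    refine ⟨mem_univ _, ?_⟩
    have h2 := not_le.1 hS
    rw [card_pts]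
    refine lt_of_le_of_lt (Nat.cast_le.2 (card_le_card (t := Sim S k) fun x hx => ?_)) ?_
    · have hx' := (@mem_filter _ _ (_) _ _).1 hx
      unfold Sim
      rw [mem_filter]
      refine ⟨hx'.1, fun g hg => ?_⟩
      have := hx'.2 g
      rwa [if_neg hg] at this
    have h4 : (1 : ℝ) / 4 ≤ Real.exp (-1) := by
      rw [Real.exp_neg, ← one_div]
      apply one_div_le_one_div_of_le (Real.exp_pos 1)
      have := Real.exp_one_lt_d9
      linarith
    have h5 : (q : ℝ) / 16 ≤ Real.exp (-1) / 4 * q := by nlinarith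
    linarith
  · rw [card_pts, one_mul]
  · intro g a _
    by_cases hg : g = k.1
    · simp [hg]
    · rw [if_neg hg]
      rw [Nat.cast_le_one, card_le_one]
      intro x hx y hy
      have hx' := (@mem_inter _ (_) _ _ _).1 hx
      have hy' := (@mem_inter _ (_) _ _ _).1 hy
      refine eq_of_mem_pts (l := k) (k := (g, a)) ?_ hx'.1 hx'.2 hy'.1 hy'.2
      intro h
      exact hg (congrArg Prod.fst h).symm
  · intro g x _
    rw [card_univ, ZMod.card, one_div, inv_mul_cancel₀ hq0.ne']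
    by_cases hg : g = k.1
    · simp [hg]
    · rw [Nat.cast_le_one, card_le_one]
      intro a ha b hb
      have ha' := ((@mem_filter _ _ (_) _ _).1 ha).2
      have hb' := ((@mem_filter _ _ (_) _ _).1 hb).2
      rw [if_neg hg, mem_pts] at ha' hb'
      exact ha'.symm.trans hb'

/-- Module STA1.  `surv` with `B = pts k`, `K g a = pts k ∩ pts (g, a)` (`∅` if `g` is the direction of
`k`), `τ = κ = β = 1`; union bound over `q² + q` lines. -/
theorem stA1 : ∃ q₀ : ℕ, ∀ q ≥ q₀, ∀ [Fact q.Prime],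
    avg (univ : Finset (Dir q → ZMod q)) (fun S => ind (¬ GA1 S)) ≤ 1 / 20 := by
  obtain ⟨c, hc, q₁, hs⟩ := surv 1 1 1 one_pos one_pos one_pos
  obtain ⟨q₂, hq₂⟩ := sta1_asymp c hc
  refine ⟨max q₁ q₂, fun q hq hp => ?_⟩
  have hq1 : q₁ ≤ q := (le_max_left _ _).trans hq
  have hq2 : q₂ ≤ q := (le_max_right _ _).trans hq
  have h1 : ∀ k : Ln q, avg (univ : Finset (Dir q → ZMod q))
      (fun S => ind (¬ (q : ℝ) / 16 ≤ ((Sim S k).card : ℝ))) ≤ Real.exp (-(c * q)) :=
    fun k => sta1_one c (hs q hq1) k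
  have h2 : avg (univ : Finset (Dir q → ZMod q)) (fun S => ind (¬ GA1 S)) ≤
      avg (univ : Finset (Dir q → ZMod q)) (fun S => ∑ k : Ln q,
        ind (¬ (q : ℝ) / 16 ≤ ((Sim S k).card : ℝ))) := by
    refine avg_mono _ fun S _ => ?_
    by_cases h : GA1 S
    · have : ind (¬ GA1 S) = 0 := by
        unfold ind
        rw [if_neg (not_not.2 h)]
      rw [this]
      exact sum_nonneg fun k _ => ind_nonneg _
    · have h3 : ∃ k : Ln q, ¬ (q : ℝ) / 16 ≤ ((Sim S k).card : ℝ) := by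
        unfold GA1 at h
        push Not at h ⊢
        exact h
      obtain ⟨k, hk⟩ := h3
      have h4 : ind (¬ (q : ℝ) / 16 ≤ ((Sim S k).card : ℝ)) = 1 := by
        unfold ind
        rw [if_pos hk]
      refine (ind_le_one _).trans ?_
      rw [← h4]
      exact single_le_sum (f := fun k : Ln q => ind (¬ (q : ℝ) / 16 ≤ ((Sim S k).card : ℝ)))
        (fun k _ => ind_nonneg _) (mem_univ k)
  refine h2.trans ?_
  rw [avg_sum]
  refine (sum_le_sum fun k _ => h1 k).trans ?_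
  rw [sum_const, card_univ, card_Ln, nsmul_eq_mul]
  refine le_trans ?_ (hq₂ q hq2)
  refine mul_le_mul_of_nonneg_right ?_ (Real.exp_pos _).le
  push_cast
  have hq1' : (1 : ℝ) ≤ q := by exact_mod_cast hp.out.one_le
  refine mul_le_mul_of_nonneg_left ?_ (by positivity)
  nlinarith

end P045
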