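import Vale.Agent.P045R.StDefs

/-!
# P045R, module STA2: stage A, second event
-/

namespace P045

open Finset
open scoped Classical

section
variable {q : ℕ} [Fact q.Prime]

/-- killed targets -/
private noncomputable def sa2K (f : Dir q) (γ : Gd q) (k : Fin 9) (g : Dir q) (a : ZMod q) :
    Finset (Pt q) :=
  univ.filter fun x => g ≠ f ∧ (∀ y, ml γ y ≠ (g, a)) ∧
    (x ∈ pts ((g, a) : Ln q) ∨ ∃ z : Bool × Fin 9, z.2 ≠ k ∧
      meet (thr (γ.2 (z.1, k)) x) (ml γ z) ∈ pts ((g, a) : Ln q))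

private theorem sa2_card_z (k : Fin 9) :
    (univ.filter fun z : Bool × Fin 9 => z.2 ≠ k).card = 16 := by
  have h : (univ.filter fun z : Bool × Fin 9 => z.2 ≠ k) =
      (univ : Finset Bool) ×ˢ ((univ : Finset (Fin 9)).erase k) := by
    ext z
    simp
  rw [h, card_product, card_erase_of_mem (mem_univ _)]
  simp

private theorem sa2_meet {f : Dir q} {γ : Gd q} (hγ : γ ∈ GadSet q f) {k : Fin 9}
    {z : Bool × Fin 9} (hz : z.2 ≠ k) (x : Pt q) :
    meet (thr (γ.2 (z.1, k)) x) (ml γ z) ∈ pts (thr (γ.2 (z.1, k)) x) ∧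
      meet (thr (γ.2 (z.1, k)) x) (ml γ z) ∈ pts (ml γ z) := by
  apply meet_spec
  rw [mem_GadSet] at hγ
  intro h
  have h2 : γ.2 (z.1, k) = γ.2 z := h
  have h3 := hγ.2.2.1 h2
  apply hz
  rw [← h3]

private theorem sa2_kappa {f : Dir q} {γ : Gd q} (hγ : γ ∈ GadSet q f) (k : Fin 9) (g : Dir q)
    (a : ZMod q) : (pts (lf f γ) ∩ sa2K f γ k g a).card ≤ 17 := by
  by_cases hg : g ≠ f ∧ ∀ y, ml γ y ≠ (g, a)
  · obtain ⟨hgf, hml⟩ := hg
    have hsub : pts (lf f γ) ∩ sa2K f γ k g a ⊆ (pts (lf f γ) ∩ pts ((g, a) : Ln q)) ∪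
        (univ.filter fun z : Bool × Fin 9 => z.2 ≠ k).biUnion fun z =>
          (pts (lf f γ)).filter fun x =>
            meet (thr (γ.2 (z.1, k)) x) (ml γ z) ∈ pts ((g, a) : Ln q) := by
      intro x hx
      rw [mem_inter, sa2K, mem_filter] at hx
      obtain ⟨h1, -, -, -, h2⟩ := hx
      rw [mem_union, mem_inter, mem_biUnion]
      rcases h2 with h2 | ⟨z, hz, h2⟩
      · exact Or.inl ⟨h1, h2⟩
      · exact Or.inr ⟨z, by simpa using hz, mem_filter.2 ⟨h1, h2⟩⟩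
    have hone : (pts (lf f γ) ∩ pts ((g, a) : Ln q)).card ≤ 1 := by
      rw [card_le_one]
      intro x hx y hy
      rw [mem_inter] at hx hy
      have hne : lf f γ ≠ ((g, a) : Ln q) := by
        intro h
        exact hgf (congrArg Prod.fst h).symm
      exact eq_of_mem_pts hne hx.1 hx.2 hy.1 hy.2
    have htwo : ∀ z ∈ (univ.filter fun z : Bool × Fin 9 => z.2 ≠ k),
        ((pts (lf f γ)).filter fun x =>
          meet (thr (γ.2 (z.1, k)) x) (ml γ z) ∈ pts ((g, a) : Ln q)).card ≤ 1 := by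
      intro z hz
      have hz2 : z.2 ≠ k := by simpa using hz
      rw [card_le_one]
      intro x hx y hy
      rw [mem_filter] at hx hy
      have hmx := sa2_meet hγ hz2 x
      have hmy := sa2_meet hγ hz2 y
      have hP : meet (thr (γ.2 (z.1, k)) x) (ml γ z) = meet (thr (γ.2 (z.1, k)) y) (ml γ z) :=
        eq_of_mem_pts (hml z) hmx.2 hx.2 hmy.2 hy.2
      have e1 := mem_pts_iff_thr.1 hmx.1
      have e2 := mem_pts_iff_thr.1 hmy.1
      have e3 : thr (γ.2 (z.1, k)) x = thr (γ.2 (z.1, k)) y := by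
        rw [e1, e2, hP]
        rfl
      have hd : lf f γ ≠ thr (γ.2 (z.1, k)) x := by
        intro h
        have h5 : f = γ.2 (z.1, k) := congrArg Prod.fst h
        exact (mem_GadSet.1 hγ).2.2.2 (z.1, k) h5.symm
      refine eq_of_mem_pts hd hx.1 (mem_pts_thr _ _) hy.1 ?_
      rw [e3]
      exact mem_pts_thr _ _
    calc (pts (lf f γ) ∩ sa2K f γ k g a).card ≤ _ := card_le_card hsub
      _ ≤ _ := card_union_le _ _
      _ ≤ 1 + 16 * 1 := by
          refine add_le_add hone ?_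
          rw [← sa2_card_z k]
          exact card_biUnion_le_card_mul _ _ _ htwo
      _ = 17 := by norm_num
  · have : sa2K f γ k g a = ∅ := by
      rw [eq_empty_iff_forall_notMem]
      intro x hx
      rw [sa2K, mem_filter] at hx
      exact hg ⟨hx.2.1, hx.2.2.1⟩
    rw [this, inter_empty, card_empty]
    norm_num

private theorem sa2_tau (f : Dir q) (γ : Gd q) (k : Fin 9) (g : Dir q) (x : Pt q) :
    ((univ : Finset (ZMod q)).filter fun a => x ∈ sa2K f γ k g a).card ≤ 17 := by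
  have hsub : ((univ : Finset (ZMod q)).filter fun a => x ∈ sa2K f γ k g a) ⊆
      insert (ic g x) ((univ.filter fun z : Bool × Fin 9 => z.2 ≠ k).image fun z =>
        ic g (meet (thr (γ.2 (z.1, k)) x) (ml γ z))) := by
    intro a ha
    rw [mem_filter, sa2K, mem_filter] at ha
    obtain ⟨-, -, -, -, h2⟩ := ha
    rw [mem_insert, mem_image]
    rcases h2 with h2 | ⟨z, hz, h2⟩
    · rw [mem_pts] at h2
      exact Or.inl h2.symm
    · rw [mem_pts] at h2
      exact Or.inr ⟨z, by simpa using hz, h2⟩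
  calc _ ≤ _ := card_le_card hsub
    _ ≤ _ := card_insert_le _ _
    _ ≤ 16 + 1 := by
        refine add_le_add ?_ le_rfl
        rw [← sa2_card_z k]
        exact card_image_le
    _ = 17 := by norm_num

private theorem sa2_surv_sub (S : Dir q → ZMod q) (f : Dir q) (γ : Gd q) (k : Fin 9) :
    ((pts (lf f γ)).filter fun x => ∀ g, x ∉ sa2K f γ k g (S g)) ⊆ VA S f γ k := by
  intro x hx
  rw [mem_filter] at hx
  unfold VA
  rw [mem_filter]
  refine ⟨hx.1, fun g hg hml => ?_⟩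
  have h := hx.2 g
  rw [sa2K, mem_filter] at h
  refine ⟨fun h1 => h ⟨mem_univ _, hg, hml, Or.inl h1⟩, fun s i hi h1 => ?_⟩
  exact h ⟨mem_univ _, hg, hml, Or.inr ⟨(s, i), hi, h1⟩⟩

end

/-- `surv` for arbitrary decidability instances -/
private theorem sa2_surv (τ κ β : ℝ) (hτ : 0 < τ) (hκ : 0 < κ) (hβ : 0 < β) :
    ∃ c' > 0, ∃ q₀ : ℕ, ∀ q ≥ q₀, ∀ {ι α X : Type} [Fintype ι] [DecidableEq ι] [DecidableEq X],
      Fintype.card ι ≤ q + 1 →
      ∀ (A : ι → Finset α), (∀ i, (A i).Nonempty) → ∀ (B : Finset X) (K : ι → α → Finset X),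
      β * q ≤ B.card → (∀ i, ∀ a ∈ A i, ((B ∩ K i a).card : ℝ) ≤ κ) →
      (∀ i, ∀ x ∈ B, (((A i).filter fun a => x ∈ K i a).card : ℝ) ≤ τ / q * (A i).card) →
      (((Fintype.piFinset A).filter fun w =>
        ((B.filter fun x => ∀ i, x ∉ K i (w i)).card : ℝ) < Real.exp (-τ) / 4 * B.card).card : ℝ) ≤
        Real.exp (-(c' * q)) * (Fintype.piFinset A).card := by
  obtain ⟨c', hc', q₀, h⟩ := surv τ κ β hτ hκ hβ
  refine ⟨c', hc', q₀, fun q hq ι α X _ i1 i2 => ?_⟩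
  obtain rfl : i1 = fun a b => Classical.propDecidable (a = b) := Subsingleton.elim _ _
  obtain rfl : i2 = fun a b => Classical.propDecidable (a = b) := Subsingleton.elim _ _
  exact h q hq

private theorem sa2_analytic (c' A : ℝ) (hc : 0 < c') (n : ℕ) :
    ∃ q₀ : ℕ, ∀ q : ℕ, q₀ ≤ q → A * ((q : ℝ) + 1) ^ n * Real.exp (-(c' * q)) ≤ 1 / 20 := by
  have h1 : Filter.Tendsto (fun x : ℝ => x ^ n * Real.exp (-x)) Filter.atTop (nhds 0) :=
    Real.tendsto_pow_mul_exp_neg_atTop_nhds_zero n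
  have h2 : Filter.Tendsto (fun q : ℕ => c' * ((q : ℝ) + 1)) Filter.atTop Filter.atTop := by
    apply Filter.Tendsto.const_mul_atTop hc
    exact Filter.tendsto_atTop_add_const_right _ _ tendsto_natCast_atTop_atTop
  have h3 := (h1.comp h2).const_mul (A * Real.exp c' / c' ^ n)
  rw [mul_zero] at h3
  have h4 := (h3.eventually (gt_mem_nhds (show (0 : ℝ) < 1 / 20 by norm_num)))
  obtain ⟨q₀, hq₀⟩ := Filter.eventually_atTop.1 h4
  refine ⟨q₀, fun q hq => ?_⟩
  have h5 := hq₀ q hq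
  simp only [Function.comp] at h5
  refine le_trans (le_of_eq ?_) h5.le
  have h6 : Real.exp (-(c' * q)) = Real.exp c' * Real.exp (-(c' * ((q : ℝ) + 1))) := by
    rw [← Real.exp_add]
    congr 1
    ring
  rw [h6, mul_pow]
  have : c' ^ n ≠ 0 := pow_ne_zero _ hc.ne'
  field_simp

section
variable {q : ℕ} [Fact q.Prime]

private theorem sa2_one {c' : ℝ} {f : Dir q} {γ : Gd q} (hγ : γ ∈ GadSet q f) (k : Fin 9)
    (hsurv : ∀ {ι α X : Type} [Fintype ι] [DecidableEq ι] [DecidableEq X],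
      Fintype.card ι ≤ q + 1 →
      ∀ (A : ι → Finset α), (∀ i, (A i).Nonempty) → ∀ (B : Finset X) (K : ι → α → Finset X),
      (1 : ℝ) * q ≤ B.card → (∀ i, ∀ a ∈ A i, ((B ∩ K i a).card : ℝ) ≤ 17) →
      (∀ i, ∀ x ∈ B, (((A i).filter fun a => x ∈ K i a).card : ℝ) ≤ 17 / q * (A i).card) →
      (((Fintype.piFinset A).filter fun w =>
        ((B.filter fun x => ∀ i, x ∉ K i (w i)).card : ℝ) < Real.exp (-17) / 4 * B.card).card : ℝ) ≤
        Real.exp (-(c' * q)) * (Fintype.piFinset A).card) :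
    ((univ.filter fun w : Dir q → ZMod q =>
      ((VA w f γ k).card : ℝ) < Real.exp (-17) / 4 * q).card : ℝ) ≤
        Real.exp (-(c' * q)) * ((univ : Finset (Dir q → ZMod q)).card : ℝ) := by
  have hq0 : (0 : ℝ) < q := by exact_mod_cast (Fact.out : q.Prime).pos
  have e1 : (1 : ℝ) * q ≤ ((pts (lf f γ)).card : ℝ) := by
    rw [card_pts, one_mul]
  have e2 : ∀ g : Dir q, ∀ a ∈ (univ : Finset (ZMod q)),
      ((pts (lf f γ) ∩ sa2K f γ k g a).card : ℝ) ≤ 17 := by
    intro g a _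
    have := sa2_kappa hγ k g a
    exact_mod_cast this
  have e3 : ∀ g : Dir q, ∀ x ∈ pts (lf f γ),
      (((univ : Finset (ZMod q)).filter fun a => x ∈ sa2K f γ k g a).card : ℝ) ≤
        17 / q * ((univ : Finset (ZMod q)).card : ℝ) := by
    intro g x _
    have h1 : (((univ : Finset (ZMod q)).filter fun a => x ∈ sa2K f γ k g a).card : ℝ) ≤ 17 := by
      have := sa2_tau f γ k g x
      exact_mod_cast this
    rw [card_univ, ZMod.card]
    have h2 : (17 : ℝ) / q * q = 17 := by field_simp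
    rw [h2]
    exact h1
  have h := hsurv (ι := Dir q) (α := ZMod q) (X := Pt q) (le_of_eq card_Dir)
    (fun _ => (univ : Finset (ZMod q))) (fun _ => univ_nonempty) (pts (lf f γ))
    (fun g a => sa2K f γ k g a) e1 e2 e3
  rw [Fintype.piFinset_univ, card_pts] at h
  refine le_trans ?_ h
  have hsub : (univ.filter fun w : Dir q → ZMod q =>
      ((VA w f γ k).card : ℝ) < Real.exp (-17) / 4 * q) ⊆
      (univ.filter fun w : Dir q → ZMod q =>
        (((pts (lf f γ)).filter fun x => ∀ g, x ∉ sa2K f γ k g (w g)).card : ℝ) <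
          Real.exp (-17) / 4 * q) := by
    intro w hw
    rw [mem_filter] at hw ⊢
    refine ⟨mem_univ _, lt_of_le_of_lt ?_ hw.2⟩
    exact_mod_cast card_le_card (sa2_surv_sub w f γ k)
  exact_mod_cast card_le_card hsub

private theorem sa2_cardT :
    Fintype.card (Dir q × Gd q × Fin 9) = (q + 1) * ((q ^ 2) ^ 2 * (q + 1) ^ 18 * 9) := by
  have h1 : Fintype.card (Gd q) = (q ^ 2) ^ 2 * (q + 1) ^ 18 := by
    rw [Fintype.card_prod, Fintype.card_fun, Fintype.card_fun, card_Pt, card_Dir]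
    rfl
  rw [Fintype.card_prod, Fintype.card_prod, h1, card_Dir, Fintype.card_fin]

omit [Fact q.Prime] in
private theorem sa2_real (hq0 : (0 : ℝ) < q) :
    (((q + 1) * ((q ^ 2) ^ 2 * (q + 1) ^ 18 * 9) : ℕ) : ℝ) ≤ 9 * ((q : ℝ) + 1) ^ 23 := by
  have h4 : ((q : ℝ) ^ 2) ^ 2 ≤ ((q : ℝ) + 1) ^ 4 := by
    rw [← pow_mul]
    exact pow_le_pow_left₀ hq0.le (by linarith) 4
  have h5 : (0 : ℝ) ≤ 9 * ((q : ℝ) + 1) ^ 19 := by positivity
  have h6 := mul_le_mul_of_nonneg_left h4 h5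
  calc (((q + 1) * ((q ^ 2) ^ 2 * (q + 1) ^ 18 * 9) : ℕ) : ℝ) =
      9 * ((q : ℝ) + 1) ^ 19 * ((q : ℝ) ^ 2) ^ 2 := by
        push_cast
        ring
    _ ≤ _ := h6
    _ = _ := by ring

private theorem sa2_T_card :
    ((univ.filter fun t : Dir q × Gd q × Fin 9 => t.2.1 ∈ GadSet q t.1).card : ℝ) ≤
      9 * ((q : ℝ) + 1) ^ 23 := by
  have hq0 : (0 : ℝ) < q := by exact_mod_cast (Fact.out : q.Prime).pos
  have h1 : (univ.filter fun t : Dir q × Gd q × Fin 9 => t.2.1 ∈ GadSet q t.1).card ≤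
      Fintype.card (Dir q × Gd q × Fin 9) := card_filter_le _ _
  rw [sa2_cardT] at h1
  exact (Nat.cast_le.2 h1).trans (sa2_real hq0)

private theorem sa2_union {b : ℝ} (hb0 : 0 ≤ b)
    (hb : ∀ (f : Dir q) (γ : Gd q) (k : Fin 9), γ ∈ GadSet q f →
      ((univ.filter fun w : Dir q → ZMod q =>
        ((VA w f γ k).card : ℝ) < Real.exp (-17) / 4 * q).card : ℝ) ≤ b) :
    ((univ.filter fun S : Dir q → ZMod q => ¬ GA2 S).card : ℝ) ≤ 9 * ((q : ℝ) + 1) ^ 23 * b := by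
  have hsub : (univ.filter fun S : Dir q → ZMod q => ¬ GA2 S) ⊆
      (univ.filter fun t : Dir q × Gd q × Fin 9 => t.2.1 ∈ GadSet q t.1).biUnion fun t =>
        univ.filter fun w : Dir q → ZMod q =>
          ((VA w t.1 t.2.1 t.2.2).card : ℝ) < Real.exp (-17) / 4 * q := by
    intro S hS
    rw [mem_filter] at hS
    have hS2 := hS.2
    unfold GA2 at hS2
    push Not at hS2
    obtain ⟨f, γ, hγ, k, hlt⟩ := hS2
    rw [mem_biUnion]
    exact ⟨(f, γ, k), mem_filter.2 ⟨mem_univ _, hγ⟩, mem_filter.2 ⟨mem_univ _, hlt⟩⟩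
  calc ((univ.filter fun S : Dir q → ZMod q => ¬ GA2 S).card : ℝ) ≤ _ :=
        Nat.cast_le.2 (card_le_card hsub)
    _ ≤ ∑ t ∈ (univ.filter fun t : Dir q × Gd q × Fin 9 => t.2.1 ∈ GadSet q t.1),
        ((univ.filter fun w : Dir q → ZMod q =>
          ((VA w t.1 t.2.1 t.2.2).card : ℝ) < Real.exp (-17) / 4 * q).card : ℝ) := by
        rw [← Nat.cast_sum]
        exact Nat.cast_le.2 card_biUnion_le
    _ ≤ ∑ t ∈ (univ.filter fun t : Dir q × Gd q × Fin 9 => t.2.1 ∈ GadSet q t.1), b :=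
        sum_le_sum fun t ht => hb _ _ _ (mem_filter.1 ht).2
    _ = ((univ.filter fun t : Dir q × Gd q × Fin 9 => t.2.1 ∈ GadSet q t.1).card : ℝ) * b := by
        rw [sum_const, nsmul_eq_mul]
    _ ≤ _ := mul_le_mul_of_nonneg_right sa2_T_card hb0

private theorem sa2_avg {c' : ℝ}
    (h : ((univ.filter fun S : Dir q → ZMod q => ¬ GA2 S).card : ℝ) ≤
      9 * ((q : ℝ) + 1) ^ 23 *
        (Real.exp (-(c' * q)) * ((univ : Finset (Dir q → ZMod q)).card : ℝ)))
    (h6 : 9 * ((q : ℝ) + 1) ^ 23 * Real.exp (-(c' * q)) ≤ 1 / 20) :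
    avg (univ : Finset (Dir q → ZMod q)) (fun S => ind (¬ GA2 S)) ≤ 1 / 20 := by
  have hsum : ∑ S : Dir q → ZMod q, ind (¬ GA2 S) =
      ((univ.filter fun S : Dir q → ZMod q => ¬ GA2 S).card : ℝ) := by
    rw [card_filter, Nat.cast_sum]
    refine sum_congr rfl fun S _ => ?_
    unfold ind
    split_ifs <;> simp
  unfold avg
  rw [hsum]
  have hΩpos : (0 : ℝ) < ((univ : Finset (Dir q → ZMod q)).card : ℝ) := by
    have : (univ : Finset (Dir q → ZMod q)).Nonempty := univ_nonempty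
    exact_mod_cast this.card_pos
  rw [div_le_iff₀ hΩpos]
  refine h.trans ?_
  rw [← mul_assoc]
  exact mul_le_mul_of_nonneg_right h6 hΩpos.le

end

/-- Module STA2.  `surv` for every `f`, `γ ∈ GadSet q f`, `k` (at most `q^23` choices), `B = pts (lf f γ)`,
`K g a = ∅` if `g = f` or `(g, a)` is a moved line of `γ`, otherwise the `x` such that `x` or one of the
16 points `meet (thr (γ.2 (s,k)) x) (ml γ (s,i))` is on `(g, a)`; `κ = τ = 17`, `β = 1`. -/
theorem stA2 : ∃ q₀ : ℕ, ∀ q ≥ q₀, ∀ [Fact q.Prime],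
    avg (univ : Finset (Dir q → ZMod q)) (fun S => ind (¬ GA2 S)) ≤ 1 / 20 := by
  obtain ⟨c', hc', q₁, hsurv⟩ := sa2_surv 17 17 1 (by norm_num) (by norm_num) (by norm_num)
  obtain ⟨q₂, hq₂⟩ := sa2_analytic c' 9 hc' 23
  refine ⟨max q₁ q₂, fun q hq => ?_⟩
  intro hqp
  have hq1 : q₁ ≤ q := le_of_max_le_left hq
  have hq2 : q₂ ≤ q := le_of_max_le_right hq
  refine sa2_avg (sa2_union (by positivity) fun f γ k hγ => ?_) (hq₂ q hq2)
  exact sa2_one hγ k (hsurv q hq1)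

end P045
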