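import Vale.Agent.P045R.StDefs

/-!
# P045R, module STB: stage B
-/

namespace P045

open Finset
open scoped Classical

private theorem stb_asymp (c : ℝ) (hc : 0 < c) :
    ∃ q₀ : ℕ, ∀ q ≥ q₀, ((q : ℝ) + 1) * (q : ℝ) ^ 2 * Real.exp (-(c * q)) ≤ 1 / 20 := by
  have h1 := Real.tendsto_pow_mul_exp_neg_atTop_nhds_zero 3
  have h2 : Filter.Tendsto (fun q : ℕ => c * (q : ℝ)) Filter.atTop Filter.atTop :=
    Filter.Tendsto.const_mul_atTop hc tendsto_natCast_atTop_atTop
  have h3 := h1.comp h2
  have h4 : ∀ᶠ q : ℕ in Filter.atTop,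
      ((fun x : ℝ => x ^ 3 * Real.exp (-x)) ∘ fun q : ℕ => c * (q : ℝ)) q < c ^ 3 / 40 :=
    h3.eventually (gt_mem_nhds (by positivity))
  obtain ⟨q₀, hq₀⟩ := Filter.eventually_atTop.1 h4
  refine ⟨max q₀ 1, fun q hq => ?_⟩
  have h5 := hq₀ q ((le_max_left _ _).trans hq)
  have hq1 : (1 : ℝ) ≤ q := by exact_mod_cast (le_max_right _ _).trans hq
  have h6 : (c * (q : ℝ)) ^ 3 * Real.exp (-(c * q)) < c ^ 3 / 40 := h5
  have h7 : (q : ℝ) ^ 3 * Real.exp (-(c * q)) < 1 / 40 := by
    have hc3 : 0 < c ^ 3 := by positivity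
    have h8 : c ^ 3 * ((q : ℝ) ^ 3 * Real.exp (-(c * q))) < c ^ 3 * (1 / 40) := by
      calc c ^ 3 * ((q : ℝ) ^ 3 * Real.exp (-(c * q))) =
          (c * (q : ℝ)) ^ 3 * Real.exp (-(c * q)) := by ring
        _ < c ^ 3 / 40 := h6
        _ = c ^ 3 * (1 / 40) := by ring
    exact lt_of_mul_lt_mul_left h8 hc3.le
  have h9 : ((q : ℝ) + 1) * (q : ℝ) ^ 2 ≤ 2 * (q : ℝ) ^ 3 := by
    nlinarith [sq_nonneg (q : ℝ), mul_nonneg (sub_nonneg.2 hq1) (sq_nonneg (q : ℝ))]
  calc ((q : ℝ) + 1) * (q : ℝ) ^ 2 * Real.exp (-(c * q))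
      ≤ 2 * (q : ℝ) ^ 3 * Real.exp (-(c * q)) :=
        mul_le_mul_of_nonneg_right h9 (Real.exp_pos _).le
    _ = 2 * ((q : ℝ) ^ 3 * Real.exp (-(c * q))) := by ring
    _ ≤ 1 / 20 := by linarith

private theorem stb_avg_ind_le {α : Type*} (s : Finset α) (P : α → Prop) (T : Finset α) (c : ℝ)
    (hc : 0 ≤ c) (hT : ∀ a ∈ s, P a → a ∈ T) (h : (T.card : ℝ) ≤ c * s.card) :
    avg s (fun a => ind (P a)) ≤ c := by
  have h1 : avg s (fun a => ind (P a)) ≤ (T.card : ℝ) / s.card := by
    unfold avg
    refine div_le_div_of_nonneg_right ?_ (Nat.cast_nonneg _)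
    unfold ind
    rw [← sum_filter, sum_const, nsmul_eq_mul, mul_one]
    refine Nat.cast_le.2 (card_le_card fun a ha => ?_)
    exact hT a (mem_filter.1 ha).1 (mem_filter.1 ha).2
  refine h1.trans ?_
  rcases Nat.eq_zero_or_pos s.card with h0 | h0
  · rw [h0, Nat.cast_zero, div_zero]
    exact hc
  · rw [div_le_iff₀ (by exact_mod_cast h0)]
    exact h

private theorem stb_union {α κ : Type*} [Fintype κ] (s : Finset α) (P : α → Prop)
    (Q : κ → α → Prop) (c : ℝ) (h : ∀ a ∈ s, P a → ∃ k, Q k a)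
    (hQ : ∀ k, avg s (fun a => ind (Q k a)) ≤ c) :
    avg s (fun a => ind (P a)) ≤ Fintype.card κ * c := by
  have h2 : avg s (fun a => ind (P a)) ≤ avg s (fun a => ∑ k : κ, ind (Q k a)) := by
    refine avg_mono _ fun a ha => ?_
    by_cases hP : P a
    · obtain ⟨k, hk⟩ := h a ha hP
      have h4 : ind (Q k a) = 1 := by
        unfold ind
        rw [if_pos hk]
      refine (ind_le_one _).trans ?_
      rw [← h4]
      exact single_le_sum (f := fun k : κ => ind (Q k a)) (fun k _ => ind_nonneg _) (mem_univ k)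
    · have : ind (P a) = 0 := by
        unfold ind
        rw [if_neg hP]
      rw [this]
      exact sum_nonneg fun k _ => ind_nonneg _
  refine h2.trans ?_
  rw [avg_sum]
  refine (sum_le_sum fun k _ => hQ k).trans ?_
  rw [sum_const, card_univ, nsmul_eq_mul]

/-- the directions killed by the hubs of `g` -/
private noncomputable def stb_K {q : ℕ} [Fact q.Prime] (f : Dir q) (p : Pt q) (g : Dir q)
    (h : Bool → Pt q) : Finset (Dir q) :=
  if g = f then ∅ else univ.filter fun d => ∃ s, h s ∈ pts (thr d p)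

private theorem stb_one {q : ℕ} [Fact q.Prime] (hq : 32 ≤ q) (c : ℝ)
    (hs : ∀ {ι α X : Type} [Fintype ι], Fintype.card ι ≤ q + 1 →
      ∀ (A : ι → Finset α), (∀ i, (A i).Nonempty) → ∀ (B : Finset X) (K : ι → α → Finset X),
      1 * (q : ℝ) ≤ B.card → (∀ i, ∀ a ∈ A i, ((B ∩ K i a).card : ℝ) ≤ 2) →
      (∀ i, ∀ x ∈ B, (((A i).filter fun a => x ∈ K i a).card : ℝ) ≤ 32 / q * (A i).card) →
      (((Fintype.piFinset A).filter fun w =>
        ((B.filter fun x => ∀ i, x ∉ K i (w i)).card : ℝ) <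
          Real.exp (-32) / 4 * B.card).card : ℝ) ≤
        Real.exp (-(c * q)) * (Fintype.piFinset A).card)
    (S : Dir q → ZMod q) (f : Dir q) (p : Pt q) (hp : p ∈ Sim S (f, S f)) :
    avg (OB S) (fun H => ind (¬ cF * q ≤ ((Free H f p).card : ℝ))) ≤ Real.exp (-(c * q)) := by
  have hq0 : (0 : ℝ) < q := by exact_mod_cast (Fact.out : q.Prime).pos
  have hpg : ∀ g, g ≠ f → p ∉ pts (g, S g) := by
    unfold Sim at hp
    exact (mem_filter.1 hp).2
  have hsub : ∀ g, ∀ h ∈ HB S g, ∀ s, h s ∈ pts (g, S g) := by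
    intro g h hh s
    unfold HB at hh
    exact Sim'_subset S g ((mem_filter.1 hh).2.1 s)
  have hB : (univ.erase f : Finset (Dir q)).card = q := by
    rw [card_erase_of_mem (mem_univ f), card_univ, card_Dir, Nat.add_sub_cancel]
  have h1 := hs (ι := Dir q) (α := Bool → Pt q) (X := Dir q) card_Dir.le (HB S) ?_ (univ.erase f)
    (stb_K f p) ?_ ?_ ?_
  · have hpi : @Fintype.piFinset (Dir q) (fun a b => Classical.propDecidable (a = b)) _
        (fun _ => Bool → Pt q) (HB S) = OB S := by
      unfold OB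
      ext w
      rw [@Fintype.mem_piFinset _ (_), Fintype.mem_piFinset]
    rw [hpi] at h1
    refine stb_avg_ind_le _ _ _ _ (Real.exp_pos _).le ?_ h1
    intro H hH hlt
    rw [mem_filter]
    refine ⟨hH, ?_⟩
    have h2 := not_le.1 hlt
    rw [hB]
    refine lt_of_le_of_lt (Nat.cast_le.2 (card_le_card (t := Free H f p) fun d hd => ?_)) ?_
    · have hd' := (@mem_filter _ _ (_) _ _).1 hd
      unfold Free
      rw [mem_filter]
      refine ⟨mem_univ _, (mem_erase.1 hd'.1).1, fun g hg s hs => ?_⟩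
      refine hd'.2 g ?_
      unfold stb_K
      rw [if_neg hg, mem_filter]
      exact ⟨mem_univ _, s, hs⟩
    · exact h2
  · intro g
    rw [← card_pos]
    have := card_HB_ge hq S g
    have h0 : (0 : ℝ) < ((HB S g).card : ℝ) := lt_of_lt_of_le (by positivity) this
    exact_mod_cast h0
  · rw [hB, one_mul]
  · intro g h hh
    by_cases hg : g = f
    · have : stb_K f p g h = ∅ := by
        unfold stb_K
        rw [if_pos hg]
      rw [this]
      simp
    · have h2 : ∀ s, (univ.filter fun d : Dir q => h s ∈ pts (thr d p)).card ≤ 1 := by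
        intro s
        rw [card_le_one]
        intro d hd d' hd'
        by_contra hne
        have hd1 := (mem_filter.1 hd).2
        have hd2 := (mem_filter.1 hd').2
        have h3 : h s = p := eq_of_mem_pts (l := thr d p) (k := thr d' p)
          (fun h => hne (congrArg Prod.fst h)) hd1 hd2 (mem_pts_thr d p) (mem_pts_thr d' p)
        exact hpg g hg (h3 ▸ hsub g h hh s)
      have h3 : (stb_K f p g h).card ≤ 2 := by
        have h4 : stb_K f p g h ⊆ (univ.filter fun d : Dir q => h false ∈ pts (thr d p)) ∪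
            (univ.filter fun d : Dir q => h true ∈ pts (thr d p)) := by
          intro d hd
          unfold stb_K at hd
          rw [if_neg hg, mem_filter] at hd
          obtain ⟨-, s, hs⟩ := hd
          rw [mem_union, mem_filter, mem_filter]
          cases s
          · exact Or.inl ⟨mem_univ _, hs⟩
          · exact Or.inr ⟨mem_univ _, hs⟩
        have h5 := h2 false
        have h6 := h2 true
        exact (card_le_card h4).trans ((card_union_le _ _).trans (by omega))
      have h4 : ((univ.erase f ∩ stb_K f p g h).card) ≤ (stb_K f p g h).card :=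
        card_le_card inter_subset_right
      have h5 : ((univ.erase f ∩ stb_K f p g h).card) ≤ 2 := h4.trans h3
      refine le_trans (Nat.cast_le.2 (le_of_eq ?_)) (show (((univ.erase f ∩ stb_K f p g h).card : ℕ) : ℝ) ≤ 2 by exact_mod_cast h5)
      congr 1
      ext d
      rw [@mem_inter _ (_), mem_inter]
  · intro g d _
    by_cases hg : g = f
    · have : ∀ h, stb_K f p g h = ∅ := by
        intro h
        unfold stb_K
        rw [if_pos hg]
      simp only [this]
      simp
      positivity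
    · have hne : thr d p ≠ (g, S g) := by
        intro h
        exact hpg g hg (h ▸ mem_pts_thr d p)
      have h2 : ∀ s, (((HB S g).filter fun h => h s ∈ pts (thr d p)).card : ℝ) ≤
          16 / q * (HB S g).card := by
        intro s
        by_cases hex : ∃ x, x ∈ pts (thr d p) ∧ x ∈ pts (g, S g)
        · obtain ⟨x, hx1, hx2⟩ := hex
          refine le_trans ?_ (HB_marg hq S g s x)
          refine Nat.cast_le.2 (card_le_card fun h hh => ?_)
          rw [mem_filter] at hh ⊢
          exact ⟨hh.1, eq_of_mem_pts hne hh.2 (hsub g h hh.1 s) hx1 hx2⟩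
        · have : (HB S g).filter (fun h => h s ∈ pts (thr d p)) = ∅ := by
            rw [filter_eq_empty_iff]
            intro h hh hc
            exact hex ⟨h s, hc, hsub g h hh s⟩
          rw [this, card_empty, Nat.cast_zero]
          positivity
      have h3 : (((HB S g).filter fun h => h false ∈ pts (thr d p)).card : ℝ) +
          (((HB S g).filter fun h => h true ∈ pts (thr d p)).card : ℝ) ≤
          32 / q * (HB S g).card := by
        have h4 := h2 false
        have h5 := h2 true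
        calc _ ≤ 16 / (q : ℝ) * (HB S g).card + 16 / (q : ℝ) * (HB S g).card := add_le_add h4 h5
          _ = 32 / (q : ℝ) * (HB S g).card := by ring
      refine le_trans ?_ h3
      rw [← Nat.cast_add]
      refine Nat.cast_le.2 (le_trans (card_le_card (t :=
        ((HB S g).filter fun h => h false ∈ pts (thr d p)) ∪
          ((HB S g).filter fun h => h true ∈ pts (thr d p))) fun h hh => ?_) (card_union_le _ _))
      have hh' := (@mem_filter _ _ (_) _ _).1 hh
      have hh2 := hh'.2
      unfold stb_K at hh2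
      rw [if_neg hg, mem_filter] at hh2
      obtain ⟨-, s, hs⟩ := hh2
      rw [mem_union, mem_filter, mem_filter]
      cases s
      · exact Or.inl ⟨hh'.1, hs⟩
      · exact Or.inr ⟨hh'.1, hs⟩

/-- `surv` for every `f` and `p ∈ Sim S (f, S f)`, `A = HB S`, `B = univ.erase f`, `K g h = ∅` if
`g = f`, otherwise the directions `d ≠ f` with `h s ∈ pts (thr d p)` for some `s`; `h s ≠ p` as `p` is on
no `l_g`, so `κ = 2`; `thr d p ≠ l_g` so it meets `l_g` in at most one point and by `HB_marg` `τ = 32`.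
`β = 1`. -/
theorem stB : ∃ q₀ : ℕ, ∀ q ≥ q₀, ∀ [Fact q.Prime], ∀ S : Dir q → ZMod q, GA1 S →
    avg (OB S) (fun H => ind (¬ GB S H)) ≤ 1 / 20 := by
  obtain ⟨c, hc, q₁, hs⟩ := surv 32 2 1 (by norm_num) two_pos one_pos
  obtain ⟨q₂, hq₂⟩ := stb_asymp c hc
  refine ⟨max q₁ (max q₂ 32), fun q hq hp S _ => ?_⟩
  have hq1 : q₁ ≤ q := (le_max_left _ _).trans hq
  have hq2 : q₂ ≤ q := (le_max_left _ _).trans ((le_max_right _ _).trans hq)
  have hq3 : 32 ≤ q := (le_max_right _ _).trans ((le_max_right _ _).trans hq)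
  have h1 : ∀ z : Dir q × Pt q, avg (OB S)
      (fun H => ind (z.2 ∈ Sim S (z.1, S z.1) ∧ ¬ cF * q ≤ ((Free H z.1 z.2).card : ℝ))) ≤
      Real.exp (-(c * q)) := by
    intro z
    by_cases hz : z.2 ∈ Sim S (z.1, S z.1)
    · refine le_trans (avg_mono _ fun H _ => ?_) (stb_one hq3 c (hs q hq1) S z.1 z.2 hz)
      by_cases h2 : ¬ cF * q ≤ ((Free H z.1 z.2).card : ℝ)
      · unfold ind
        rw [if_pos h2]
        split_ifs <;> norm_num
      · unfold ind
        rw [if_neg h2, if_neg (fun h => h2 h.2)]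
    · refine avg_le_of_le (Real.exp_pos _).le fun H _ => ?_
      unfold ind
      rw [if_neg (fun h => hz h.1)]
      exact (Real.exp_pos _).le
  have h2 := stb_union (OB S) (fun H => ¬ GB S H) (fun (z : Dir q × Pt q) H =>
    z.2 ∈ Sim S (z.1, S z.1) ∧ ¬ cF * q ≤ ((Free H z.1 z.2).card : ℝ)) (Real.exp (-(c * q)))
    (fun H _ h => by
      unfold GB at h
      push Not at h
      obtain ⟨f, p, hp1, hp2⟩ := h
      exact ⟨(f, p), hp1, not_le.2 hp2⟩) h1
  refine h2.trans ?_
  rw [Fintype.card_prod, card_Dir, card_Pt]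
  refine le_trans ?_ (hq₂ q hq2)
  refine mul_le_mul_of_nonneg_right ?_ (Real.exp_pos _).le
  push_cast
  exact le_rfl

end P045
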