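import Vale.Agent.P045R.StDefs

/-!
# P045R, module STC1: stage C, valid points
-/

namespace P045

open Finset
open scoped Classical

namespace StC1Aux

section
variable {q : ℕ} [Fact q.Prime]

theorem cF_pos : 0 < cF := by unfold cF; positivity

theorem kC_pos : 0 < kC := by
  have := cF_pos
  unfold kC; positivity

/-- The points `x` of `l` whose projection to `m` along `d` is on `k`. -/
theorem card_proj_le_one (l m k : Ln q) (d : Dir q) (h1 : l.1 ≠ d) (h2 : d ≠ m.1) (h3 : m ≠ k) :
    ((pts l).filter fun x => meet (thr d x) m ∈ pts k).card ≤ 1 := by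
  rw [card_le_one]
  intro x hx y hy
  rw [mem_filter] at hx hy
  have hxm := meet_spec (l := thr d x) (k := m) h2
  have hym := meet_spec (l := thr d y) (k := m) h2
  have hz : meet (thr d x) m = meet (thr d y) m := eq_of_mem_pts h3 hxm.2 hx.2 hym.2 hy.2
  have h4 : thr d y = thr d x := by
    have h5 := mem_pts_iff_thr.1 hxm.1
    have h6 := mem_pts_iff_thr.1 hym.1
    have h7 : (thr d x).1 = d := rfl
    have h8 : (thr d y).1 = d := rfl
    rw [h7] at h5
    rw [h8] at h6
    rw [h5, h6, hz]
  have h9 : l ≠ thr d x := by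
    intro h
    exact h1 (by rw [h]; rfl)
  refine eq_of_mem_pts h9 hx.1 (mem_pts_thr d x) hy.1 ?_
  rw [← h4]
  exact mem_pts_thr d y

theorem card_inter_le_one {l k : Ln q} (h : l ≠ k) :
    ((pts l).filter fun x => x ∈ pts k).card ≤ 1 := by
  rw [card_le_one]
  intro x hx y hy
  rw [mem_filter] at hx hy
  exact eq_of_mem_pts h hx.1 hx.2 hy.1 hy.2

/-- Marginal for a point different from the hub. -/
theorem marg_pt (hq : 36 / cF ≤ q) (H : Dir q → Bool → Pt q) (g : Dir q) (y : Bool × Fin 9)
    {z : Pt q} (hz : z ≠ H g y.1) :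
    (((EC H g).filter fun η => z ∈ pts (thr (η y) (H g y.1))).card : ℝ) ≤
      kC / q * (EC H g).card := by
  obtain ⟨l, _, hu⟩ := exists_unique_line hz
  refine le_trans ?_ (EC_marg hq H g y l.1)
  have h1 : ((EC H g).filter fun η => z ∈ pts (thr (η y) (H g y.1))) ⊆
      (EC H g).filter fun η => η y = l.1 := by
    intro η hη
    rw [mem_filter] at hη ⊢
    refine ⟨hη.1, ?_⟩
    have h2 := hu (thr (η y) (H g y.1)) ⟨hη.2, mem_pts_thr _ _⟩
    rw [← h2]
    rfl
  exact_mod_cast card_le_card h1

/-- Killing sets. -/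
noncomputable def KC (H : Dir q → Bool → Pt q) (f : Dir q) (ε : Bool × Fin 9 → Dir q) (k : Fin 9)
    (g : Dir q) (η : Bool × Fin 9 → Dir q) : Finset (Pt q) :=
  if g = f then ∅ else univ.filter fun x => ∃ y : Bool × Fin 9,
    x ∈ pts (thr (η y) (H g y.1)) ∨ ∃ z : Bool × Fin 9, z.2 ≠ k ∧
      meet (thr (ε (z.1, k)) x) (ml ((H f, ε) : Gd q) z) ∈ pts (thr (η y) (H g y.1))

/-- The facts about the hubs used in stage C. -/
structure HubFacts (S : Dir q → ZMod q) (H : Dir q → Bool → Pt q) (f : Dir q)
    (ε : Bool × Fin 9 → Dir q) : Prop where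
  inj : Function.Injective ε
  ne : ∀ z, ε z ≠ f
  hub : ∀ g s, H g s ∈ pts (g, S g)
  lf : ∀ g, g ≠ f → ∀ s, H g s ∉ pts ((f, S f) : Ln q)
  ml : ∀ g, g ≠ f → ∀ s z, H g s ∉ pts (ml ((H f, ε) : Gd q) z)

theorem hubFacts {S : Dir q → ZMod q} (hS : GA1 S) {H : Dir q → Bool → Pt q} (hH : H ∈ OB S)
    (hB : GB S H) {f : Dir q} {ε : Bool × Fin 9 → Dir q} (hε : ε ∈ EC H f) :
    HubFacts S H f ε := by
  have hsim : ∀ g, Sim' S g = Sim S (g, S g) := fun g => if_pos (hS (g, S g))
  have hmem : ∀ g s, H g s ∈ Sim S (g, S g) := by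
    intro g s
    have h1 := Fintype.mem_piFinset.1 hH g
    rw [HB, mem_filter] at h1
    rw [← hsim]
    exact h1.2.1 s
  have hε' := hε
  rw [EC, mem_filter] at hε'
  refine ⟨hε'.2.1, fun z => Free'_ne (hε'.2.2 z), ?_, ?_, ?_⟩
  · intro g s
    have h1 := hmem g s
    rw [Sim, mem_filter] at h1
    exact h1.1
  · intro g hg s
    have h1 := hmem g s
    rw [Sim, mem_filter] at h1
    exact h1.2 f (Ne.symm hg)
  · intro g hg s z
    have h1 := hε'.2.2 z
    have h2 : Free' H f z.1 = Free H f (H f z.1) := if_pos (hB f (H f z.1) (hmem f z.1))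
    rw [h2, Free, mem_filter] at h1
    exact h1.2.2 g hg s

variable {S : Dir q → ZMod q} {H : Dir q → Bool → Pt q} {f : Dir q} {ε : Bool × Fin 9 → Dir q}

theorem card_fin18 : (univ : Finset (Bool × Fin 9)).card = 18 := rfl

theorem card_KC_le (hf : HubFacts S H f ε) (k : Fin 9) (g : Dir q) (η : Bool × Fin 9 → Dir q) :
    ((pts ((f, S f) : Ln q)).filter fun x => x ∈ KC H f ε k g η).card ≤ 342 := by
  by_cases hg : g = f
  · rw [filter_false_of_mem]
    · simp
    · intro x _ hx
      rw [KC, if_pos hg] at hx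
      exact absurd hx (notMem_empty _)
  · have h1 : ((pts ((f, S f) : Ln q)).filter fun x => x ∈ KC H f ε k g η) ⊆
        univ.biUnion fun y : Bool × Fin 9 =>
          ((pts ((f, S f) : Ln q)).filter fun x => x ∈ pts (thr (η y) (H g y.1))) ∪
          univ.biUnion fun z : Bool × Fin 9 => (pts ((f, S f) : Ln q)).filter fun x =>
            z.2 ≠ k ∧ meet (thr (ε (z.1, k)) x) (ml ((H f, ε) : Gd q) z) ∈
              pts (thr (η y) (H g y.1)) := by
      intro x hx
      rw [mem_filter, KC, if_neg hg, mem_filter] at hx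
      obtain ⟨hx1, _, y, hy⟩ := hx
      rw [mem_biUnion]
      refine ⟨y, mem_univ _, ?_⟩
      rw [mem_union]
      rcases hy with hy | ⟨z, hz, hy⟩
      · left
        rw [mem_filter]
        exact ⟨hx1, hy⟩
      · right
        rw [mem_biUnion]
        refine ⟨z, mem_univ _, ?_⟩
        rw [mem_filter]
        exact ⟨hx1, hz, hy⟩
    refine (card_le_card h1).trans (card_biUnion_le.trans ?_)
    have h2 : ∀ y ∈ (univ : Finset (Bool × Fin 9)),
        (((pts ((f, S f) : Ln q)).filter fun x => x ∈ pts (thr (η y) (H g y.1))) ∪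
          univ.biUnion fun z : Bool × Fin 9 => (pts ((f, S f) : Ln q)).filter fun x =>
            z.2 ≠ k ∧ meet (thr (ε (z.1, k)) x) (ml ((H f, ε) : Gd q) z) ∈
              pts (thr (η y) (H g y.1))).card ≤ 19 := by
      intro y _
      refine (card_union_le _ _).trans ?_
      have h3 : ((pts ((f, S f) : Ln q)).filter fun x =>
          x ∈ pts (thr (η y) (H g y.1))).card ≤ 1 := by
        apply card_inter_le_one
        intro h
        apply hf.lf g hg y.1
        rw [h]
        exact mem_pts_thr _ _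
      have h4 : (univ.biUnion fun z : Bool × Fin 9 => (pts ((f, S f) : Ln q)).filter fun x =>
            z.2 ≠ k ∧ meet (thr (ε (z.1, k)) x) (ml ((H f, ε) : Gd q) z) ∈
              pts (thr (η y) (H g y.1))).card ≤ 18 := by
        refine card_biUnion_le.trans ?_
        have h5 : ∀ z ∈ (univ : Finset (Bool × Fin 9)),
            ((pts ((f, S f) : Ln q)).filter fun x =>
            z.2 ≠ k ∧ meet (thr (ε (z.1, k)) x) (ml ((H f, ε) : Gd q) z) ∈
              pts (thr (η y) (H g y.1))).card ≤ 1 := by
          intro z _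
          by_cases hz : z.2 ≠ k
          · refine le_trans (card_le_card ?_)
              (card_proj_le_one (f, S f) (ml ((H f, ε) : Gd q) z) (thr (η y) (H g y.1))
                (ε (z.1, k)) (hf.ne _).symm ?_ ?_)
            · intro x hx
              rw [mem_filter] at hx ⊢
              exact ⟨hx.1, hx.2.2⟩
            · intro h
              have h6 := hf.inj h
              exact hz (congrArg Prod.snd h6).symm
            · intro h
              apply hf.ml g hg y.1 z
              rw [h]
              exact mem_pts_thr _ _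
          · rw [filter_false_of_mem]
            · simp
            · intro x _ hx
              exact hz hx.1
        refine (sum_le_sum h5).trans ?_
        rw [sum_const, card_fin18]
        simp
      omega
    refine (sum_le_sum h2).trans ?_
    rw [sum_const, card_fin18]
    simp

theorem prob_KC_le (hq : 36 / cF ≤ q) (hf : HubFacts S H f ε) (k : Fin 9) (g : Dir q) {x : Pt q}
    (hx : x ∈ VA S f (H f, ε) k) :
    (((EC H g).filter fun η => x ∈ KC H f ε k g η).card : ℝ) ≤
      342 * kC / q * (EC H g).card := by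
  have hk := kC_pos
  by_cases hg : g = f
  · rw [filter_false_of_mem]
    · rw [card_empty, Nat.cast_zero]
      positivity
    · intro η _ hη
      rw [KC, if_pos hg] at hη
      exact absurd hη (notMem_empty _)
  · rw [VA, mem_filter] at hx
    have hnl : ∀ y, ml ((H f, ε) : Gd q) y ≠ (g, S g) := by
      intro y h
      apply hf.ml g hg true y
      rw [h]
      exact hf.hub g true
    obtain ⟨hx1, hx2⟩ := hx.2 g hg hnl
    have h1 : ((EC H g).filter fun η => x ∈ KC H f ε k g η) ⊆
        univ.biUnion fun y : Bool × Fin 9 =>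
          ((EC H g).filter fun η => x ∈ pts (thr (η y) (H g y.1))) ∪
          univ.biUnion fun z : Bool × Fin 9 => (EC H g).filter fun η =>
            z.2 ≠ k ∧ meet (thr (ε (z.1, k)) x) (ml ((H f, ε) : Gd q) z) ∈
              pts (thr (η y) (H g y.1)) := by
      intro η hη
      rw [mem_filter, KC, if_neg hg, mem_filter] at hη
      obtain ⟨hη1, _, y, hy⟩ := hη
      rw [mem_biUnion]
      refine ⟨y, mem_univ _, ?_⟩
      rw [mem_union]
      rcases hy with hy | ⟨z, hz, hy⟩
      · left
        rw [mem_filter]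
        exact ⟨hη1, hy⟩
      · right
        rw [mem_biUnion]
        refine ⟨z, mem_univ _, ?_⟩
        rw [mem_filter]
        exact ⟨hη1, hz, hy⟩
    have hb0 : 0 ≤ kC / q * ((EC H g).card : ℝ) := by positivity
    have h2 : ∀ y ∈ (univ : Finset (Bool × Fin 9)),
        ((((EC H g).filter fun η => x ∈ pts (thr (η y) (H g y.1))) ∪
          univ.biUnion fun z : Bool × Fin 9 => (EC H g).filter fun η =>
            z.2 ≠ k ∧ meet (thr (ε (z.1, k)) x) (ml ((H f, ε) : Gd q) z) ∈
              pts (thr (η y) (H g y.1))).card : ℝ) ≤ 19 * (kC / q * ((EC H g).card : ℝ)) := by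
      intro y _
      have h3 : (((EC H g).filter fun η => x ∈ pts (thr (η y) (H g y.1))).card : ℝ) ≤
          kC / q * ((EC H g).card : ℝ) := by
        apply marg_pt hq
        intro h
        apply hx1
        rw [h]
        exact hf.hub g y.1
      have h4 : ((univ.biUnion fun z : Bool × Fin 9 => (EC H g).filter fun η =>
            z.2 ≠ k ∧ meet (thr (ε (z.1, k)) x) (ml ((H f, ε) : Gd q) z) ∈
              pts (thr (η y) (H g y.1))).card : ℝ) ≤ 18 * (kC / q * ((EC H g).card : ℝ)) := by
        have h5 : ∀ z ∈ (univ : Finset (Bool × Fin 9)), (((EC H g).filter fun η =>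
            z.2 ≠ k ∧ meet (thr (ε (z.1, k)) x) (ml ((H f, ε) : Gd q) z) ∈
              pts (thr (η y) (H g y.1))).card : ℝ) ≤ kC / q * ((EC H g).card : ℝ) := by
          intro z _
          by_cases hz : z.2 ≠ k
          · have h6 : meet (thr (ε (z.1, k)) x) (ml ((H f, ε) : Gd q) z) ≠ H g y.1 := by
              intro h
              apply hx2 z.1 z.2 hz
              have h7 : meet (thr (((H f, ε) : Gd q).2 (z.1, k)) x)
                  (ml ((H f, ε) : Gd q) (z.1, z.2)) = H g y.1 := h
              rw [h7]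
              exact hf.hub g y.1
            refine le_trans ?_ (marg_pt hq H g y h6)
            have h8 : ((EC H g).filter fun η =>
                z.2 ≠ k ∧ meet (thr (ε (z.1, k)) x) (ml ((H f, ε) : Gd q) z) ∈
                  pts (thr (η y) (H g y.1))) ⊆ (EC H g).filter fun η =>
                meet (thr (ε (z.1, k)) x) (ml ((H f, ε) : Gd q) z) ∈
                  pts (thr (η y) (H g y.1)) := by
              intro η hη
              rw [mem_filter] at hη ⊢
              exact ⟨hη.1, hη.2.2⟩
            exact_mod_cast card_le_card h8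
          · rw [filter_false_of_mem]
            · rw [card_empty, Nat.cast_zero]
              exact hb0
            · intro η _ hη
              exact hz hη.1
        calc ((univ.biUnion fun z : Bool × Fin 9 => (EC H g).filter fun η =>
            z.2 ≠ k ∧ meet (thr (ε (z.1, k)) x) (ml ((H f, ε) : Gd q) z) ∈
              pts (thr (η y) (H g y.1))).card : ℝ)
            ≤ ∑ z : Bool × Fin 9, (((EC H g).filter fun η =>
            z.2 ≠ k ∧ meet (thr (ε (z.1, k)) x) (ml ((H f, ε) : Gd q) z) ∈
              pts (thr (η y) (H g y.1))).card : ℝ) := by exact_mod_cast card_biUnion_le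
          _ ≤ ∑ _z : Bool × Fin 9, kC / q * ((EC H g).card : ℝ) := sum_le_sum h5
          _ = 18 * (kC / q * ((EC H g).card : ℝ)) := by
              rw [sum_const, card_fin18, nsmul_eq_mul]
              norm_num
      calc _ ≤ (((EC H g).filter fun η => x ∈ pts (thr (η y) (H g y.1))).card : ℝ) +
            ((univ.biUnion fun z : Bool × Fin 9 => (EC H g).filter fun η =>
            z.2 ≠ k ∧ meet (thr (ε (z.1, k)) x) (ml ((H f, ε) : Gd q) z) ∈
              pts (thr (η y) (H g y.1))).card : ℝ) := by exact_mod_cast card_union_le _ _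
        _ ≤ _ := by linarith
    calc (((EC H g).filter fun η => x ∈ KC H f ε k g η).card : ℝ)
        ≤ ((univ.biUnion fun y : Bool × Fin 9 =>
          ((EC H g).filter fun η => x ∈ pts (thr (η y) (H g y.1))) ∪
          univ.biUnion fun z : Bool × Fin 9 => (EC H g).filter fun η =>
            z.2 ≠ k ∧ meet (thr (ε (z.1, k)) x) (ml ((H f, ε) : Gd q) z) ∈
              pts (thr (η y) (H g y.1))).card : ℝ) := by exact_mod_cast card_le_card h1
      _ ≤ ∑ y : Bool × Fin 9, ((((EC H g).filter fun η => x ∈ pts (thr (η y) (H g y.1))) ∪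
          univ.biUnion fun z : Bool × Fin 9 => (EC H g).filter fun η =>
            z.2 ≠ k ∧ meet (thr (ε (z.1, k)) x) (ml ((H f, ε) : Gd q) z) ∈
              pts (thr (η y) (H g y.1))).card : ℝ) := by exact_mod_cast card_biUnion_le
      _ ≤ ∑ _y : Bool × Fin 9, 19 * (kC / q * ((EC H g).card : ℝ)) := sum_le_sum h2
      _ = 342 * kC / q * ((EC H g).card : ℝ) := by
          rw [sum_const, card_fin18, nsmul_eq_mul]
          norm_num
          ring

/-- The survivors are valid, except at most `18 + 2 · 162 `points. -/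
theorem card_survivors_le {H : Dir q → Bool → Pt q} {e : Dir q → Bool × Fin 9 → Dir q}
    (hH : H ∈ OB S) (hf : HubFacts S H f (e f)) (k : Fin 9) :
    ((VA S f (H f, e f) k).filter fun x => ∀ g, x ∉ KC H f (e f) k g (e g)).card ≤
      (Valid (mk H e) f k).card + 200 := by
  have hlf : lf f (mk H e f) = (f, S f) := lf_mk hH e f
  have hlf' : ∀ g, lf g (mk H e g) = (g, S g) := fun g => lf_mk hH e g
  set E1 : Finset (Pt q) := univ.image fun s : Bool => H f s with hE1
  set E2 : Finset (Pt q) := (univ : Finset ((Bool × Fin 9) × Fin 9)).biUnion fun z =>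
    (pts ((f, S f) : Ln q)).filter fun x => z.1.2 ≠ k ∧
      meet (thr (e f (z.1.1, k)) x) (ml ((H f, e f) : Gd q) z.1) ∈
        pts (ml ((H f, e f) : Gd q) (!z.1.1, z.2)) with hE2
  have hc1 : E1.card ≤ 2 := by
    refine card_image_le.trans ?_
    simp
  have hc2 : E2.card ≤ 162 := by
    refine card_biUnion_le.trans ?_
    have h1 : ∀ z ∈ (univ : Finset ((Bool × Fin 9) × Fin 9)),
        ((pts ((f, S f) : Ln q)).filter fun x => z.1.2 ≠ k ∧
          meet (thr (e f (z.1.1, k)) x) (ml ((H f, e f) : Gd q) z.1) ∈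
            pts (ml ((H f, e f) : Gd q) (!z.1.1, z.2))).card ≤ 1 := by
      intro z _
      by_cases hz : z.1.2 ≠ k
      · refine le_trans (card_le_card ?_)
          (card_proj_le_one (f, S f) (ml ((H f, e f) : Gd q) z.1)
            (ml ((H f, e f) : Gd q) (!z.1.1, z.2)) (e f (z.1.1, k)) (hf.ne _).symm ?_ ?_)
        · intro x hx
          rw [mem_filter] at hx ⊢
          exact ⟨hx.1, hx.2.2⟩
        · intro h
          have h6 := hf.inj h
          exact hz (congrArg Prod.snd h6).symm
        · intro h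
          have h6 : e f z.1 = e f (!z.1.1, z.2) := congrArg Prod.fst h
          have h7 := congrArg Prod.fst (hf.inj h6)
          cases hb : z.1.1 <;> simp [hb] at h7
      · rw [filter_false_of_mem]
        · simp
        · intro x _ hx
          exact hz hx.1
    refine (sum_le_sum h1).trans ?_
    rw [sum_const]
    simp
  have hsub : ((VA S f (H f, e f) k).filter fun x => ∀ g, x ∉ KC H f (e f) k g (e g)) ⊆
      Valid (mk H e) f k ∪ (E1 ∪ E2) := by
    intro x hx
    rw [mem_filter] at hx
    obtain ⟨hxV, hxK⟩ := hx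
    rw [VA, mem_filter] at hxV
    obtain ⟨hxl, hxV⟩ := hxV
    have hxl' : x ∈ pts ((f, S f) : Ln q) := by
      rw [← hlf]
      exact hxl
    rw [mem_union, mem_union]
    by_contra hcon
    rw [not_or, not_or] at hcon
    obtain ⟨hc, hce1, hce2⟩ := hcon
    apply hc
    have hnl : ∀ g, g ≠ f → ∀ y, ml ((H f, e f) : Gd q) y ≠ (g, S g) := by
      intro g hg y h
      apply hf.ml g hg true y
      rw [h]
      exact hf.hub g true
    -- points on lines of other gadgets
    have hkill : ∀ g, g ≠ f → ∀ y, x ∉ pts (thr (e g y) (H g y.1)) ∧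
        ∀ z : Bool × Fin 9, z.2 ≠ k →
          meet (thr (e f (z.1, k)) x) (ml ((H f, e f) : Gd q) z) ∉
            pts (thr (e g y) (H g y.1)) := by
      intro g hg y
      have h1 := hxK g
      rw [KC, if_neg hg, mem_filter] at h1
      constructor
      · intro h2
        exact h1 ⟨mem_univ _, y, Or.inl h2⟩
      · intro z hz h2
        exact h1 ⟨mem_univ _, y, Or.inr ⟨z, hz, h2⟩⟩
    rw [Valid, mem_filter]
    refine ⟨hxl, ?_, ?_, ?_⟩
    · intro s h
      apply hce1
      rw [hE1, mem_image]
      exact ⟨s, mem_univ _, h.symm⟩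
    · rw [mem_cov]
      rintro ⟨l, hl, hxl2⟩
      rw [Rx, mem_biUnion] at hl
      obtain ⟨g, hg, hl⟩ := hl
      have hg' : g ≠ f := (mem_erase.1 hg).1
      rw [gl, mem_insert, mem_image] at hl
      rcases hl with rfl | ⟨y, _, rfl⟩
      · rw [hlf' g] at hxl2
        exact (hxV g hg' (hnl g hg')).1 hxl2
      · exact (hkill g hg' y).1 hxl2
    · intro s i hi
      constructor
      · rw [mem_cov]
        rintro ⟨l, hl, hxl2⟩
        rw [Rx, mem_biUnion] at hl
        obtain ⟨g, hg, hl⟩ := hl
        have hg' : g ≠ f := (mem_erase.1 hg).1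
        rw [gl, mem_insert, mem_image] at hl
        rcases hl with rfl | ⟨y, _, rfl⟩
        · rw [hlf' g] at hxl2
          exact (hxV g hg' (hnl g hg')).2 s i hi hxl2
        · exact (hkill g hg' y).2 (s, i) hi hxl2
      · intro i' h
        apply hce2
        rw [hE2, mem_biUnion]
        refine ⟨((s, i), i'), mem_univ _, ?_⟩
        rw [mem_filter]
        exact ⟨hxl', hi, h⟩
  have h1 := card_le_card hsub
  have h2 := card_union_le (Valid (mk H e) f k) (E1 ∪ E2)
  have h3 := card_union_le E1 E2
  omega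

end

theorem avg_ind {α : Type*} (s : Finset α) (P : α → Prop) :
    avg s (fun a => ind (P a)) = ((s.filter P).card : ℝ) / s.card := by
  unfold avg ind
  congr 1
  rw [card_filter]
  push_cast
  rfl

/-- asymptotics -/
theorem asym (c' : ℝ) (hc : 0 < c') : ∃ q₀ : ℕ, ∀ q : ℕ, q₀ ≤ q →
    9 * ((q : ℝ) + 1) ^ 19 * Real.exp (-(c' * q)) ≤ 1 / 20 := by
  have h1 : Filter.Tendsto (fun x : ℝ => x ^ 19 / Real.exp (c' * x)) Filter.atTop (nhds 0) := by
    have h := Real.tendsto_pow_mul_exp_neg_atTop_nhds_zero 19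
    have h2 : Filter.Tendsto (fun x : ℝ => c' * x) Filter.atTop Filter.atTop :=
      Filter.tendsto_id.const_mul_atTop hc
    have h3 := (h.comp h2).const_mul ((1 / c') ^ 19)
    rw [mul_zero] at h3
    refine h3.congr fun x => ?_
    simp only [Function.comp]
    rw [mul_pow, Real.exp_neg, ← mul_assoc, ← mul_assoc, ← mul_pow, one_div_mul_cancel hc.ne',
      one_pow, one_mul, div_eq_mul_inv]
  have h2 := h1.comp tendsto_natCast_atTop_atTop
  have h3 := h2.const_mul (9 * 2 ^ 19 : ℝ)
  rw [mul_zero] at h3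
  have h4 : ∀ᶠ q : ℕ in Filter.atTop, 9 * 2 ^ 19 * ((q : ℝ) ^ 19 / Real.exp (c' * q)) < 1 / 20 :=
    h3.eventually (gt_mem_nhds (by norm_num))
  obtain ⟨q₀, hq₀⟩ := Filter.eventually_atTop.1 h4
  refine ⟨max q₀ 1, fun q hq => ?_⟩
  have h5 := hq₀ q ((le_max_left _ _).trans hq)
  have hq1 : (1 : ℝ) ≤ q := by exact_mod_cast (le_max_right _ _).trans hq
  have h6 : ((q : ℝ) + 1) ^ 19 ≤ (2 * (q : ℝ)) ^ 19 :=
    pow_le_pow_left₀ (by positivity) (by linarith) 19
  rw [mul_pow] at h6
  have h7 : Real.exp (-(c' * q)) = 1 / Real.exp (c' * q) := by rw [Real.exp_neg, one_div]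
  rw [h7]
  have hE := Real.exp_pos (c' * q)
  calc 9 * ((q : ℝ) + 1) ^ 19 * (1 / Real.exp (c' * q))
      ≤ 9 * (2 ^ 19 * (q : ℝ) ^ 19) * (1 / Real.exp (c' * q)) := by
        apply mul_le_mul_of_nonneg_right _ (by positivity)
        linarith
    _ = 9 * 2 ^ 19 * ((q : ℝ) ^ 19 / Real.exp (c' * q)) := by ring
    _ ≤ 1 / 20 := h5.le

end StC1Aux

open StC1Aux in
/-- `surv` for every `f`, `ε ∈ EC H f`, `k` with `γ = (H f, ε)`, `A = EC H`, `B = VA S f γ k`,
`K g η = ∅` if `g = f`, otherwise the `x` such that `x` or a point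
`meet (thr (γ.2 (s,k)) x) (ml γ (s,i))`, `i ≠ k`, is on a line `thr (η y) (H g y.1)`.  These lines are
different from `l_f` and the moved lines of `γ` (they contain a hub of `g`; hubs of `g` are not on `l_f`
as they are in `Sim`, and not on moved lines of `γ` by `Free`), so `κ = 306`; the points are not hubs of
`g`, so by `EC_marg` `τ = 306 kC`.  `β = e^{-17}/4`.  Then `Valid (mk H e) f k` contains the survivors
for `ε = e f` except at most `146` points (hubs of `f`, points with
`meet (thr (γ.2 (s,k)) x) (ml γ (s,i)) ∈ pts (ml γ (!s,i'))`). -/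
theorem stC1 : ∃ a > 0, ∃ q₀ : ℕ, ∀ q ≥ q₀, ∀ [Fact q.Prime], ∀ S : Dir q → ZMod q, GA1 S → GA2 S →
    ∀ H ∈ OB S, GB S H →
    avg (OC H) (fun e => ind (¬ ∀ f k, a * q ≤ ((Valid (mk H e) f k).card : ℝ))) ≤ 1 / 20 := by
  have hcF := cF_pos
  have hkC := kC_pos
  set β : ℝ := Real.exp (-17) / 4 with hβ
  have hβ0 : 0 < β := by positivity
  obtain ⟨c', hc', q₁, hsurv⟩ := surv (342 * kC) 342 β (by positivity) (by norm_num) hβ0
  obtain ⟨q₂, hasym⟩ := asym c' hc'
  set b : ℝ := Real.exp (-(342 * kC)) / 4 * β with hb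
  have hb0 : 0 < b := by positivity
  refine ⟨b / 2, by positivity, max (max q₁ q₂) (max ⌈36 / cF⌉₊ ⌈400 / b⌉₊), ?_⟩
  intro q hq _ S hA1 hA2 H hH hGB
  have hq1 : q₁ ≤ q := (le_max_left _ _).trans ((le_max_left _ _).trans hq)
  have hq2 : q₂ ≤ q := (le_max_right _ _).trans ((le_max_left _ _).trans hq)
  have hq3 : 36 / cF ≤ q := (Nat.le_ceil _).trans
    (by exact_mod_cast (le_max_left _ _).trans ((le_max_right _ _).trans hq))
  have hq4 : 400 / b ≤ q := (Nat.le_ceil _).trans
    (by exact_mod_cast (le_max_right _ _).trans ((le_max_right _ _).trans hq))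
  have hq5 : 200 ≤ b / 2 * q := by
    rw [div_le_iff₀ hb0] at hq4
    linarith
  have hEC : ∀ g, (EC H g).Nonempty := by
    intro g
    rw [← card_pos]
    have h1 := card_EC_ge hq3 H g
    have hq0 : (0 : ℝ) < q := lt_of_lt_of_le (by positivity) hq3
    have h2 : (0 : ℝ) < ((EC H g).card : ℝ) := lt_of_lt_of_le (by positivity) h1
    exact_mod_cast h2
  have hOC : (OC H).Nonempty := by
    unfold OC
    rw [Fintype.piFinset_nonempty]
    exact hEC
  have hOC0 : (0 : ℝ) < ((OC H).card : ℝ) := by exact_mod_cast hOC.card_pos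
  -- the bad sets
  have hbad : ∀ f, ∀ ε ∈ EC H f, ∀ k,
      (((OC H).filter fun w => (((VA S f (H f, ε) k).filter fun x =>
        ∀ g, x ∉ KC H f ε k g (w g)).card : ℝ) < b * q).card : ℝ) ≤
      Real.exp (-(c' * q)) * (OC H).card := by
    intro f ε hε k
    have hf : HubFacts S H f ε := hubFacts hA1 hH hGB hε
    have hγ : ((H f, ε) : Gd q) ∈ GadSet q f := mk_mem_GadSet hH hε
    have hVA : β * q ≤ ((VA S f (H f, ε) k).card : ℝ) := hA2 f _ hγ k
    have hlf : lf f ((H f, ε) : Gd q) = (f, S f) := lf_mk hH (fun _ => ε) f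
    have h1 := hsurv q hq1 (ι := Dir q) (α := Bool × Fin 9 → Dir q) (X := Pt q)
      (le_of_eq card_Dir) (EC H) hEC (VA S f (H f, ε) k) (fun g η => KC H f ε k g η) hVA
      (by
        intro g η _
        have h2 := card_KC_le hf k g η
        have h3 : (VA S f (H f, ε) k) ∩ KC H f ε k g η ⊆
            (pts ((f, S f) : Ln q)).filter fun x => x ∈ KC H f ε k g η := by
          intro x hx
          rw [mem_inter, VA, mem_filter, hlf] at hx
          rw [mem_filter]
          exact ⟨hx.1.1, hx.2⟩
        have h4 := (card_le_card h3).trans h2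
        have h5 : (((VA S f (H f, ε) k) ∩ KC H f ε k g η).card : ℝ) ≤ 342 := by
          exact_mod_cast h4
        refine le_trans (le_of_eq ?_) h5
        refine congrArg (fun z : ℕ => (z : ℝ)) (congrArg Finset.card ?_)
        ext x
        simp only [mem_inter])
      (by
        intro g x hx
        have h2 := prob_KC_le hq3 hf k g hx
        refine le_trans (le_of_eq ?_) h2
        refine congrArg (fun z : ℕ => (z : ℝ)) (congrArg Finset.card ?_)
        ext x
        simp only [mem_filter])
    have h6 : ((OC H).filter fun w => (((VA S f (H f, ε) k).filter fun x =>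
        ∀ g, x ∉ KC H f ε k g (w g)).card : ℝ) < b * q) ⊆
        (OC H).filter fun w => (((VA S f (H f, ε) k).filter fun x =>
        ∀ g, x ∉ KC H f ε k g (w g)).card : ℝ) <
          Real.exp (-(342 * kC)) / 4 * (VA S f (H f, ε) k).card := by
      intro w hw
      rw [mem_filter] at hw ⊢
      refine ⟨hw.1, hw.2.trans_le ?_⟩
      rw [hb, mul_assoc]
      exact mul_le_mul_of_nonneg_left hVA (by positivity)
    refine le_trans (Nat.cast_le.2 (card_le_card h6)) ?_
    refine (le_of_eq ?_).trans (h1.trans (le_of_eq ?_))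
    · unfold OC
      refine congrArg (fun z : ℕ => (z : ℝ)) (congrArg Finset.card ?_)
      ext e
      simp only [mem_filter, Fintype.mem_piFinset]
      refine and_congr Iff.rfl ?_
      apply iff_of_eq
      refine congrArg (fun z : ℕ => (z : ℝ) < Real.exp (-(342 * kC)) / 4 *
        ((VA S f (H f, ε) k).card : ℝ)) (congrArg Finset.card ?_)
      ext x
      simp only [mem_filter]
    · unfold OC
      refine congrArg (fun z : ℕ => Real.exp (-(c' * (q : ℝ))) * (z : ℝ)) (congrArg Finset.card ?_)
      ext e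
      simp only [Fintype.mem_piFinset]
  -- union bound
  have hsub : ((OC H).filter fun e => ¬ ∀ f k, b / 2 * q ≤ ((Valid (mk H e) f k).card : ℝ)) ⊆
      (univ : Finset (Dir q)).biUnion fun f => (EC H f).biUnion fun ε =>
        (univ : Finset (Fin 9)).biUnion fun k => (OC H).filter fun w =>
          (((VA S f (H f, ε) k).filter fun x => ∀ g, x ∉ KC H f ε k g (w g)).card : ℝ) < b * q := by
    intro e he
    rw [mem_filter] at he
    obtain ⟨heO, hne⟩ := he
    push Not at hne
    obtain ⟨f, k, hfk⟩ := hne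
    have hef : e f ∈ EC H f := Fintype.mem_piFinset.1 heO f
    rw [mem_biUnion]
    refine ⟨f, mem_univ _, ?_⟩
    rw [mem_biUnion]
    refine ⟨e f, hef, ?_⟩
    rw [mem_biUnion]
    refine ⟨k, mem_univ _, ?_⟩
    rw [mem_filter]
    refine ⟨heO, ?_⟩
    have h1 := card_survivors_le hH (hubFacts hA1 hH hGB hef) k
    have h2 : (((VA S f (H f, e f) k).filter fun x =>
        ∀ g, x ∉ KC H f (e f) k g (e g)).card : ℝ) ≤ ((Valid (mk H e) f k).card : ℝ) + 200 := by
      exact_mod_cast h1
    linarith
  have hcard : (((OC H).filter fun e => ¬ ∀ f k,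
      b / 2 * q ≤ ((Valid (mk H e) f k).card : ℝ)).card : ℝ) ≤
      9 * ((q : ℝ) + 1) ^ 19 * (Real.exp (-(c' * q)) * (OC H).card) := by
    set Z : ℝ := Real.exp (-(c' * q)) * (OC H).card with hZ
    have hZ0 : 0 ≤ Z := by positivity
    have hECc : ∀ f, ((EC H f).card : ℝ) ≤ ((q : ℝ) + 1) ^ 18 := by
      intro f
      have h1 : (EC H f).card ≤ (univ : Finset (Bool × Fin 9 → Dir q)).card := card_le_univ _
      rw [card_univ, Fintype.card_fun, card_Dir, Fintype.card_prod, Fintype.card_bool,
        Fintype.card_fin] at h1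
      exact_mod_cast h1
    calc _ ≤ ∑ f : Dir q, ∑ ε ∈ EC H f, ∑ k : Fin 9, (((OC H).filter fun w =>
          (((VA S f (H f, ε) k).filter fun x =>
            ∀ g, x ∉ KC H f ε k g (w g)).card : ℝ) < b * q).card : ℝ) := by
          have h1 : ((OC H).filter fun e => ¬ ∀ f k,
              b / 2 * q ≤ ((Valid (mk H e) f k).card : ℝ)).card ≤
              ∑ f : Dir q, ∑ ε ∈ EC H f, ∑ k : Fin 9, ((OC H).filter fun w =>
              (((VA S f (H f, ε) k).filter fun x =>
              ∀ g, x ∉ KC H f ε k g (w g)).card : ℝ) < b * q).card := by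
            refine (card_le_card hsub).trans (card_biUnion_le.trans ?_)
            refine sum_le_sum fun f _ => card_biUnion_le.trans ?_
            exact sum_le_sum fun ε _ => card_biUnion_le
          exact_mod_cast h1
      _ ≤ ∑ f : Dir q, ∑ ε ∈ EC H f, ∑ k : Fin 9, Z :=
          sum_le_sum fun f _ => sum_le_sum fun ε hε => sum_le_sum fun k _ => hbad f ε hε k
      _ = ∑ f : Dir q, ((EC H f).card : ℝ) * (9 * Z) := by
          refine sum_congr rfl fun f _ => ?_
          rw [sum_const, sum_const, card_univ, Fintype.card_fin, nsmul_eq_mul, nsmul_eq_mul]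
          norm_num
      _ ≤ ∑ f : Dir q, ((q : ℝ) + 1) ^ 18 * (9 * Z) :=
          sum_le_sum fun f _ => mul_le_mul_of_nonneg_right (hECc f) (by positivity)
      _ = 9 * ((q : ℝ) + 1) ^ 19 * Z := by
          rw [sum_const, card_univ, card_Dir, nsmul_eq_mul]
          push_cast
          ring
  have h7 : avg (OC H) (fun e => ind (¬ ∀ f k, b / 2 * q ≤ ((Valid (mk H e) f k).card : ℝ))) =
      (((OC H).filter fun e => ¬ ∀ f k,
        b / 2 * q ≤ ((Valid (mk H e) f k).card : ℝ)).card : ℝ) / (OC H).card := by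
    rw [avg_ind]
    refine congrArg (fun z : ℕ => (z : ℝ) / (OC H).card) (congrArg Finset.card ?_)
    ext e
    simp only [mem_filter]
  rw [h7, div_le_iff₀ hOC0]
  refine hcard.trans ?_
  rw [← mul_assoc]
  exact mul_le_mul_of_nonneg_right (hasym q hq2) hOC0.le

end P045
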