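import Vale.Agent.P045R.StDefs

/-!
# P045R, module STC2: stage C, lines outside `R` are rich in points of `W`
-/

namespace P045

open Finset
open scoped Classical

/-- for large `q` the union bound over all lines is small -/
theorem stc2_small {c' : ℝ} (hc : 0 < c') : ∃ q₀ : ℕ, ∀ q : ℕ, q₀ ≤ q →
    ((q : ℝ) + 1) * q * Real.exp (-(c' * q)) ≤ 1 / 20 := by
  have h1 := Real.tendsto_pow_mul_exp_neg_atTop_nhds_zero 2
  have h2 : Filter.Tendsto (fun q : ℕ => c' * (q : ℝ)) Filter.atTop Filter.atTop :=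
    Filter.Tendsto.const_mul_atTop hc tendsto_natCast_atTop_atTop
  have h3 := h1.comp h2
  have h4 : ∀ᶠ q : ℕ in Filter.atTop, (c' * (q : ℝ)) ^ 2 * Real.exp (-(c' * q)) < c' ^ 2 / 40 :=
    h3.eventually (gt_mem_nhds (by positivity))
  obtain ⟨q₁, hq₁⟩ := Filter.eventually_atTop.1 h4
  refine ⟨max q₁ 1, fun q hq => ?_⟩
  have h5 := hq₁ q (le_of_max_le_left hq)
  have h6 : (1 : ℝ) ≤ q := by exact_mod_cast le_of_max_le_right hq
  have h7 : (q : ℝ) ^ 2 * Real.exp (-(c' * q)) < 1 / 40 := by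
    have h8 : (c' * (q : ℝ)) ^ 2 * Real.exp (-(c' * q)) =
        c' ^ 2 * ((q : ℝ) ^ 2 * Real.exp (-(c' * q))) := by ring
    rw [h8] at h5
    have h9 : c' ^ 2 * ((q : ℝ) ^ 2 * Real.exp (-(c' * q))) < c' ^ 2 * (1 / 40) := by
      linarith
    exact lt_of_mul_lt_mul_left h9 (by positivity)
  have h10 : ((q : ℝ) + 1) * q ≤ 2 * (q : ℝ) ^ 2 := by nlinarith
  have h11 := Real.exp_pos (-(c' * q))
  calc ((q : ℝ) + 1) * q * Real.exp (-(c' * q)) ≤ 2 * (q : ℝ) ^ 2 * Real.exp (-(c' * q)) :=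
        mul_le_mul_of_nonneg_right h10 h11.le
    _ = 2 * ((q : ℝ) ^ 2 * Real.exp (-(c' * q))) := by ring
    _ ≤ 1 / 20 := by linarith

section
variable {q : ℕ} [Fact q.Prime]

/-- points of `k` on a moved line different from `k` -/
noncomputable def stc2K (H : Dir q → Bool → Pt q) (k : Ln q) (g : Dir q)
    (η : Bool × Fin 9 → Dir q) : Finset (Pt q) :=
  (pts k).filter fun x => ∃ y : Bool × Fin 9, thr (η y) (H g y.1) ≠ k ∧
    x ∈ pts (thr (η y) (H g y.1))

/-- a line not among the `l_g` misses `l_g` in its own direction -/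
theorem stc2_lf {S : Dir q → ZMod q} {k : Ln q} (hk : k ≠ (k.1, S k.1)) {x : Pt q}
    (hx : x ∈ Sim S k) (g : Dir q) : x ∉ pts (g, S g) := by
  unfold Sim at hx
  rw [mem_filter] at hx
  by_cases hg : g = k.1
  · subst hg
    exact not_mem_of_parallel hk rfl hx.1
  · exact hx.2 g hg

theorem stc2_hub {S : Dir q → ZMod q} {H : Dir q → Bool → Pt q} (hH : H ∈ OB S) (g : Dir q)
    (s : Bool) : H g s ∈ pts (g, S g) := by
  unfold OB at hH
  rw [Fintype.mem_piFinset] at hH
  have h1 := hH g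
  unfold HB at h1
  rw [mem_filter] at h1
  exact Sim'_subset S g (h1.2.1 s)

theorem stc2_card (H : Dir q → Bool → Pt q) (k : Ln q) (g : Dir q)
    (η : Bool × Fin 9 → Dir q) (B : Finset (Pt q)) : ((B ∩ stc2K H k g η).card : ℝ) ≤ 18 := by
  have h1 : stc2K H k g η ⊆ (univ : Finset (Bool × Fin 9)).biUnion fun y =>
      (pts k).filter fun x => thr (η y) (H g y.1) ≠ k ∧ x ∈ pts (thr (η y) (H g y.1)) := by
    intro x hx
    unfold stc2K at hx
    rw [mem_filter] at hx
    obtain ⟨hxk, y, hy⟩ := hx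
    rw [mem_biUnion]
    exact ⟨y, mem_univ _, mem_filter.2 ⟨hxk, hy⟩⟩
  have h2 : ∀ y ∈ (univ : Finset (Bool × Fin 9)), ((pts k).filter fun x =>
      thr (η y) (H g y.1) ≠ k ∧ x ∈ pts (thr (η y) (H g y.1))).card ≤ 1 := by
    intro y _
    rw [card_le_one]
    intro a ha b hb
    rw [mem_filter] at ha hb
    exact eq_of_mem_pts ha.2.1 ha.2.2 ha.1 hb.2.2 hb.1
  have h3 : (B ∩ stc2K H k g η).card ≤ 18 := by
    calc (B ∩ stc2K H k g η).card ≤ (stc2K H k g η).card := card_le_card inter_subset_right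
      _ ≤ _ := card_le_card h1
      _ ≤ ∑ y : Bool × Fin 9, ((pts k).filter fun x =>
          thr (η y) (H g y.1) ≠ k ∧ x ∈ pts (thr (η y) (H g y.1))).card := card_biUnion_le
      _ ≤ ∑ _y : Bool × Fin 9, 1 := sum_le_sum h2
      _ = 18 := by simp
  exact_mod_cast h3

/-- the number of tuples killing a point -/
theorem stc2_kill (hq : 36 / cF ≤ q) {S : Dir q → ZMod q} {H : Dir q → Bool → Pt q}
    (hH : H ∈ OB S) {k : Ln q} (hk : k ≠ (k.1, S k.1)) (g : Dir q) {x : Pt q}
    (hx : x ∈ Sim S k) :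
    (((EC H g).filter fun η => x ∈ stc2K H k g η).card : ℝ) ≤ 18 * kC / q * (EC H g).card := by
  have hxg : ∀ s, x ≠ H g s := by
    intro s hxs
    exact stc2_lf hk hx g (hxs ▸ stc2_hub hH g s)
  have h1 : ((EC H g).filter fun η => x ∈ stc2K H k g η) ⊆
      (univ : Finset (Bool × Fin 9)).biUnion fun y =>
        (EC H g).filter fun η => x ∈ pts (thr (η y) (H g y.1)) := by
    intro η hη
    rw [mem_filter] at hη
    obtain ⟨hη1, hη2⟩ := hη
    unfold stc2K at hη2
    rw [mem_filter] at hη2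
    obtain ⟨-, y, -, hy⟩ := hη2
    rw [mem_biUnion]
    exact ⟨y, mem_univ _, mem_filter.2 ⟨hη1, hy⟩⟩
  have h2 : ∀ y ∈ (univ : Finset (Bool × Fin 9)),
      ((((EC H g).filter fun η => x ∈ pts (thr (η y) (H g y.1))).card : ℕ) : ℝ) ≤
        kC / q * (EC H g).card := by
    intro y _
    obtain ⟨l, hl, hu⟩ := exists_unique_line (hxg y.1)
    refine le_trans ?_ (EC_marg hq H g y l.1)
    have h3 : ((EC H g).filter fun η => x ∈ pts (thr (η y) (H g y.1))) ⊆
        (EC H g).filter fun e => e y = l.1 := by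
      intro η hη
      rw [mem_filter] at hη ⊢
      refine ⟨hη.1, ?_⟩
      have h4 := hu (thr (η y) (H g y.1)) ⟨hη.2, mem_pts_thr _ _⟩
      exact congrArg Prod.fst h4
    exact_mod_cast card_le_card h3
  calc (((EC H g).filter fun η => x ∈ stc2K H k g η).card : ℝ)
      ≤ (((univ : Finset (Bool × Fin 9)).biUnion fun y =>
        (EC H g).filter fun η => x ∈ pts (thr (η y) (H g y.1))).card : ℝ) := by
        exact_mod_cast card_le_card h1
    _ ≤ ((∑ y : Bool × Fin 9,
        ((EC H g).filter fun η => x ∈ pts (thr (η y) (H g y.1))).card : ℕ) : ℝ) := by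
        exact_mod_cast card_biUnion_le
    _ = ∑ y : Bool × Fin 9,
        ((((EC H g).filter fun η => x ∈ pts (thr (η y) (H g y.1))).card : ℕ) : ℝ) := by
        push_cast
        rfl
    _ ≤ ∑ _y : Bool × Fin 9, kC / q * (EC H g).card := sum_le_sum h2
    _ = 18 * kC / q * (EC H g).card := by
        rw [sum_const]
        simp
        ring

/-- the survivors of a line outside `R` lie in `W` -/
theorem stc2_rich {S : Dir q → ZMod q} {H : Dir q → Bool → Pt q} (hH : H ∈ OB S)
    (e : Dir q → Bool × Fin 9 → Dir q) {l : Ln q} (hl : l ∉ Rl (mk H e)) :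
    l ≠ (l.1, S l.1) ∧ ((Sim S l).filter fun x => ∀ g, x ∉ stc2K H l g (e g)) ⊆
      pts l ∩ Wp (mk H e) := by
  have hl1 : ∀ g, (g, S g) ∈ Rl (mk H e) := by
    intro g
    unfold Rl
    rw [mem_biUnion]
    refine ⟨g, mem_univ _, ?_⟩
    unfold gl
    rw [mem_insert]
    left
    exact (lf_mk hH e g).symm
  have hne : l ≠ (l.1, S l.1) := by
    intro h
    apply hl
    rw [h]
    exact hl1 l.1
  refine ⟨hne, ?_⟩
  intro x hx
  rw [mem_filter] at hx
  obtain ⟨hx1, hx2⟩ := hx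
  have hxl : x ∈ pts l := by
    unfold Sim at hx1
    rw [mem_filter] at hx1
    exact hx1.1
  rw [mem_inter]
  refine ⟨hxl, ?_⟩
  unfold Wp
  rw [mem_unc]
  intro r hr hxr
  have hr' := hr
  unfold Rl at hr
  rw [mem_biUnion] at hr
  obtain ⟨g, -, hg⟩ := hr
  unfold gl at hg
  rw [mem_insert, mem_image] at hg
  rcases hg with hg | ⟨y, -, hy⟩
  · rw [lf_mk hH e g] at hg
    rw [hg] at hxr
    exact stc2_lf hne hx1 g hxr
  · apply hx2 g
    unfold stc2K
    rw [mem_filter]
    refine ⟨hxl, y, ?_, ?_⟩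
    · intro h
      apply hl
      have h2 : r = l := by
        rw [← hy]
        exact h
      rw [← h2]
      exact hr'
    · have h2 : r = thr (e g y) (H g y.1) := hy.symm
      rw [← h2]
      exact hxr

end

/-- the bad event of one line -/
def Stc2Bad {q : ℕ} [Fact q.Prime] (S : Dir q → ZMod q) (H : Dir q → Bool → Pt q) (τ : ℝ)
    (k : Ln q) (w : Dir q → Bool × Fin 9 → Dir q) : Prop :=
  (((Sim S k).filter fun x => ∀ g, x ∉ stc2K H k g (w g)).card : ℝ) <
    Real.exp (-τ) / 4 * (Sim S k).card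

theorem stc2_bad {q : ℕ} [Fact q.Prime] {c' : ℝ}
    (hsurv : ∀ {ι α X : Type} [Fintype ι], Fintype.card ι ≤ q + 1 →
      ∀ (A : ι → Finset α), (∀ i, (A i).Nonempty) → ∀ (B : Finset X) (K : ι → α → Finset X),
      (1 / 16 : ℝ) * q ≤ B.card → (∀ i, ∀ a ∈ A i, ((B ∩ K i a).card : ℝ) ≤ 18) →
      (∀ i, ∀ x ∈ B, (((A i).filter fun a => x ∈ K i a).card : ℝ) ≤
        (18 * kC) / q * (A i).card) →
      (((Fintype.piFinset A).filter fun w =>
        ((B.filter fun x => ∀ i, x ∉ K i (w i)).card : ℝ) <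
          Real.exp (-(18 * kC)) / 4 * B.card).card : ℝ) ≤
        Real.exp (-(c' * q)) * (Fintype.piFinset A).card)
    (hqF : 36 / cF ≤ q) {S : Dir q → ZMod q} (hS : GA1 S) {H : Dir q → Bool → Pt q}
    (hH : H ∈ OB S) (hEC : ∀ g, (EC H g).Nonempty) {k : Ln q} (hk : k ≠ (k.1, S k.1)) :
    avg (OC H) (fun e => ind (Stc2Bad S H (18 * kC) k e)) ≤ Real.exp (-(c' * q)) := by
  have ha1 : (1 / 16 : ℝ) * q ≤ (Sim S k).card := by
    have := hS k
    linarith
  have ha2 : ∀ g, ∀ η ∈ EC H g, ((Sim S k ∩ stc2K H k g η).card : ℝ) ≤ 18 := by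
    intro g η _
    exact stc2_card H k g η _
  have ha3 : ∀ g, ∀ x ∈ Sim S k, (((EC H g).filter fun η => x ∈ stc2K H k g η).card : ℝ) ≤
      (18 * kC) / q * (EC H g).card := fun g x hx => stc2_kill hqF hH hk g hx
  have h1 := hsurv (ι := Dir q) (α := Bool × Fin 9 → Dir q) (X := Pt q) (le_of_eq card_Dir)
    (EC H) hEC (Sim S k) (fun g η => stc2K H k g η) ha1
    (by
      intro i a ha
      refine le_trans (le_of_eq ?_) (ha2 i a ha)
      refine congrArg (fun z : ℕ => (z : ℝ)) (congrArg Finset.card ?_)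
      ext x
      simp only [mem_inter])
    (by
      intro i x hx
      refine le_trans (le_of_eq ?_) (ha3 i x hx)
      refine congrArg (fun z : ℕ => (z : ℝ)) (congrArg Finset.card ?_)
      ext x
      simp only [mem_filter])
  have hpos : (0 : ℝ) < ((OC H).card : ℝ) := by
    have : (OC H).Nonempty := Fintype.piFinset_nonempty.2 hEC
    exact_mod_cast this.card_pos
  unfold avg
  rw [div_le_iff₀ hpos]
  have h2 : ∑ e ∈ OC H, ind (Stc2Bad S H (18 * kC) k e) =
      (((OC H).filter fun e => Stc2Bad S H (18 * kC) k e).card : ℝ) := by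
    unfold ind
    rw [← sum_filter, sum_const, nsmul_eq_mul, mul_one]
  rw [h2]
  refine le_trans (le_of_eq ?_) (h1.trans (le_of_eq ?_))
  · unfold Stc2Bad OC
    refine congrArg (fun z : ℕ => (z : ℝ)) (congrArg Finset.card ?_)
    ext e
    simp only [mem_filter, Fintype.mem_piFinset]
    refine and_congr Iff.rfl ?_
    apply iff_of_eq
    refine congrArg (fun z : ℕ => (z : ℝ) < Real.exp (-(18 * kC)) / 4 * ((Sim S k).card : ℝ))
      (congrArg Finset.card ?_)
    ext x
    simp only [mem_filter]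
  · unfold OC
    refine congrArg (fun z : ℕ => Real.exp (-(c' * (q : ℝ))) * (z : ℝ)) (congrArg Finset.card ?_)
    ext e
    simp only [Fintype.mem_piFinset]

/-- `surv` for every line `k ≠ l_{k.1}`, `A = EC H`, `B = Sim S k`, `K g η` = the points of `k` on a line
`thr (η y) (H g y.1) ≠ k`: `κ = 18`; the points of `Sim S k` are no hubs, so by `EC_marg` `τ = 18 kC`;
`β = 1/16`.  If `k ∉ Rl (mk H e)` then the survivors are in `Wp (mk H e)`. -/
theorem stC2 : ∃ a > 0, ∃ q₀ : ℕ, ∀ q ≥ q₀, ∀ [Fact q.Prime], ∀ S : Dir q → ZMod q, GA1 S →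
    ∀ H ∈ OB S, GB S H →
    avg (OC H) (fun e => ind (¬ Rich (mk H e) (a * q))) ≤ 1 / 20 := by
  have hcF : 0 < cF := by
    unfold cF
    positivity
  have hkC : 0 < kC := by
    unfold kC
    positivity
  set τ : ℝ := 18 * kC with hτ
  have hτp : 0 < τ := by positivity
  obtain ⟨c', hc', q₁, hsurv⟩ := surv τ 18 (1 / 16) hτp (by norm_num) (by norm_num)
  obtain ⟨q₂, hq₂⟩ := stc2_small hc'
  obtain ⟨q₃, hq₃⟩ := exists_nat_ge (36 / cF)
  refine ⟨Real.exp (-τ) / 64, by positivity, max q₁ (max q₂ q₃), ?_⟩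
  intro q hq _ S hS H hH _
  have hqq1 : q₁ ≤ q := le_of_max_le_left hq
  have hqq2 : q₂ ≤ q := le_of_max_le_left (le_of_max_le_right hq)
  have hqq3 : q₃ ≤ q := le_of_max_le_right (le_of_max_le_right hq)
  have hqF : 36 / cF ≤ q := hq₃.trans (by exact_mod_cast hqq3)
  have hq0 : (0 : ℝ) < q := lt_of_lt_of_le (by positivity) hqF
  have hEC : ∀ g, (EC H g).Nonempty := by
    intro g
    rw [← card_pos]
    have h1 := card_EC_ge hqF H g
    have h2 : (0 : ℝ) < (cF * q / 2) ^ 18 := by positivity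
    exact_mod_cast h2.trans_le h1
  have hbad : ∀ k : Ln q, k ≠ (k.1, S k.1) → avg (OC H) (fun e => ind (Stc2Bad S H τ k e)) ≤
      Real.exp (-(c' * q)) := fun k hk => stc2_bad (hsurv q hqq1) hqF hS hH hEC hk
  -- union bound
  have hunion : ∀ e ∈ OC H, ind (¬ Rich (mk H e) (Real.exp (-τ) / 64 * q)) ≤
      ∑ k ∈ (univ : Finset (Ln q)).filter (fun k => k ≠ (k.1, S k.1)), ind (Stc2Bad S H τ k e) := by
    intro e _
    by_cases hR : Rich (mk H e) (Real.exp (-τ) / 64 * q)
    · have h1 : ind (¬ Rich (mk H e) (Real.exp (-τ) / 64 * q)) = 0 := by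
        unfold ind
        rw [if_neg (not_not.2 hR)]
      rw [h1]
      exact sum_nonneg fun k _ => ind_nonneg _
    · have hR' := hR
      unfold Rich at hR'
      push Not at hR'
      obtain ⟨l, hl, hl2⟩ := hR'
      obtain ⟨hne, hsub⟩ := stc2_rich hH e hl
      have hb : Stc2Bad S H τ l e := by
        show (((Sim S l).filter fun x => ∀ g, x ∉ stc2K H l g (e g)).card : ℝ) <
          Real.exp (-τ) / 4 * (Sim S l).card
        have h3 : (((Sim S l).filter fun x => ∀ g, x ∉ stc2K H l g (e g)).card : ℝ) ≤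
            ((pts l ∩ Wp (mk H e)).card : ℝ) := by exact_mod_cast card_le_card hsub
        have h4 := hS l
        have h5 := Real.exp_pos (-τ)
        have h6 : Real.exp (-τ) / 64 * q ≤ Real.exp (-τ) / 4 * (Sim S l).card := by
          have : Real.exp (-τ) / 64 * q = Real.exp (-τ) / 4 * (q / 16) := by ring
          rw [this]
          exact mul_le_mul_of_nonneg_left h4 (by positivity)
        linarith
      calc ind (¬ Rich (mk H e) (Real.exp (-τ) / 64 * q)) ≤ 1 := ind_le_one _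
        _ = ind (Stc2Bad S H τ l e) := by
            unfold ind
            rw [if_pos hb]
        _ ≤ _ := single_le_sum (f := fun k => ind (Stc2Bad S H τ k e)) (fun k _ => ind_nonneg _)
            (mem_filter.2 ⟨mem_univ l, hne⟩)
  calc avg (OC H) (fun e => ind (¬ Rich (mk H e) (Real.exp (-τ) / 64 * q)))
      ≤ avg (OC H) (fun e => ∑ k ∈ (univ : Finset (Ln q)).filter (fun k => k ≠ (k.1, S k.1)),
          ind (Stc2Bad S H τ k e)) := avg_mono _ hunion
    _ = ∑ k ∈ (univ : Finset (Ln q)).filter (fun k => k ≠ (k.1, S k.1)),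
          avg (OC H) (fun e => ind (Stc2Bad S H τ k e)) := avg_sum _ _ _
    _ ≤ ∑ _k ∈ (univ : Finset (Ln q)).filter (fun k => k ≠ (k.1, S k.1)),
          Real.exp (-(c' * q)) := sum_le_sum fun k hk => hbad k (mem_filter.1 hk).2
    _ ≤ ∑ _k : Ln q, Real.exp (-(c' * q)) :=
        sum_le_sum_of_subset_of_nonneg (filter_subset _ _) fun _ _ _ => (Real.exp_pos _).le
    _ = ((q : ℝ) + 1) * q * Real.exp (-(c' * q)) := by
        rw [sum_const, nsmul_eq_mul, card_univ, card_Ln]
        push_cast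
        ring
    _ ≤ 1 / 20 := hq₂ q hqq2

end P045
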