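import Vale.Agent.P045R.SepM
import Vale.Agent.P045R.StA1
import Vale.Agent.P045R.StA2
import Vale.Agent.P045R.StB
import Vale.Agent.P045R.StC1
import Vale.Agent.P045R.StC2
import Vale.Agent.P045R.Ghb
import Vale.Agent.P045R.Bad2
import Vale.Agent.P045R.Mom
import Vale.Agent.P045R.B1

/-!
# P045R, module ASM: existence of a good configuration (three random stages)
-/

namespace P045

open Finset
open scoped Classical

section
variable {q : ℕ} [Fact q.Prime]

/-- Average over the three stages. -/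
noncomputable def asmE
    (X : (Dir q → ZMod q) → (Dir q → Bool → Pt q) → (Dir q → Bool × Fin 9 → Dir q) → ℝ) : ℝ :=
  avg (univ : Finset (Dir q → ZMod q)) fun S => avg (OB S) fun H => avg (OC H) fun e => X S H e

theorem asmE_add
    (X Y : (Dir q → ZMod q) → (Dir q → Bool → Pt q) → (Dir q → Bool × Fin 9 → Dir q) → ℝ) :
    asmE (fun S H e => X S H e + Y S H e) = asmE X + asmE Y := by
  unfold asmE
  simp only [avg_add]

theorem asmE_mono
    {X Y : (Dir q → ZMod q) → (Dir q → Bool → Pt q) → (Dir q → Bool × Fin 9 → Dir q) → ℝ}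
    (h : ∀ S, ∀ H ∈ OB S, ∀ e ∈ OC H, X S H e ≤ Y S H e) : asmE X ≤ asmE Y := by
  unfold asmE
  exact avg_mono _ fun S _ => avg_mono _ fun H hH => avg_mono _ fun e he => h S H hH e he

theorem asm_OB_nonempty (hq : 32 ≤ q) (S : Dir q → ZMod q) : (OB S).Nonempty := by
  unfold OB
  rw [Fintype.piFinset_nonempty]
  intro f
  rw [← card_pos]
  have h1 := card_HB_ge hq S f
  have h2 : (0 : ℝ) < (q : ℝ) ^ 2 / 512 := by
    have : (0 : ℝ) < q := by exact_mod_cast (by omega : 0 < q)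
    positivity
  exact_mod_cast h2.trans_le h1

theorem asm_OC_nonempty (hq : 36 / cF ≤ q) (H : Dir q → Bool → Pt q) : (OC H).Nonempty := by
  have hcF : 0 < cF := by unfold cF; positivity
  unfold OC
  rw [Fintype.piFinset_nonempty]
  intro f
  rw [← card_pos]
  have h1 := card_EC_ge hq H f
  have h2 : (0 : ℝ) < (cF * q / 2) ^ 18 := by
    have : (0 : ℝ) < q := lt_of_lt_of_le (by positivity) hq
    positivity
  exact_mod_cast h2.trans_le h1

theorem asmE_le_A {c : ℝ} (hc : 0 ≤ c)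
    {X : (Dir q → ZMod q) → (Dir q → Bool → Pt q) → (Dir q → Bool × Fin 9 → Dir q) → ℝ}
    {Y : (Dir q → ZMod q) → ℝ} (hY : ∀ S, 0 ≤ Y S)
    (h : ∀ S, ∀ H ∈ OB S, ∀ e ∈ OC H, X S H e ≤ Y S)
    (hA : avg (univ : Finset (Dir q → ZMod q)) Y ≤ c) : asmE X ≤ c := by
  refine le_trans ?_ hA
  unfold asmE
  exact avg_mono _ fun S _ => avg_le_of_le (hY S) fun H hH => avg_le_of_le (hY S) fun e he =>
    h S H hH e he

theorem asmE_le_B {c : ℝ} (hc : 0 ≤ c)
    {X : (Dir q → ZMod q) → (Dir q → Bool → Pt q) → (Dir q → Bool × Fin 9 → Dir q) → ℝ}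
    {Y : (Dir q → ZMod q) → (Dir q → Bool → Pt q) → ℝ} (hY : ∀ S H, 0 ≤ Y S H)
    (h : ∀ S, ∀ H ∈ OB S, ∀ e ∈ OC H, X S H e ≤ Y S H)
    (hA : ∀ S, avg (OB S) (Y S) ≤ c) : asmE X ≤ c := by
  unfold asmE
  refine avg_le_of_le hc fun S _ => le_trans ?_ (hA S)
  exact avg_mono _ fun H hH => avg_le_of_le (hY S H) fun e he => h S H hH e he

theorem asmE_le_C {c : ℝ} (hc : 0 ≤ c)
    {X : (Dir q → ZMod q) → (Dir q → Bool → Pt q) → (Dir q → Bool × Fin 9 → Dir q) → ℝ}
    (h : ∀ S, ∀ H ∈ OB S, avg (OC H) (X S H) ≤ c) : asmE X ≤ c := by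
  unfold asmE
  exact avg_le_of_le hc fun S _ => avg_le_of_le hc fun H hH => h S H hH

theorem asm_ind_false {p : Prop} (h : ¬ p) : ind p = 0 := by
  unfold ind
  rw [if_neg h]

theorem asm_ind_true {p : Prop} (h : p) : ind p = 1 := by
  unfold ind
  rw [if_pos h]

theorem asm_ind_mono {p r : Prop} (h : p → r) : ind p ≤ ind r := by
  by_cases hp : p
  · rw [asm_ind_true hp, asm_ind_true (h hp)]
  · rw [asm_ind_false hp]
    exact ind_nonneg _

end

/-- Module ASM.  If every `c` is bad then `1 = Enu 1` is at most the sum of the failure probabilities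
(`stA1`, `stA2`, `stB` given `GA1`, `stC1`, `stC2` given `GA1, GA2, GB`, `ghb`, `bad2`, `mom`, `bad1`),
`9/20 < 1`.  (`Rich` and the bound for `Valid` are monotone in `a`; take `a = min`.) -/
theorem exist1 : ∃ a > 0, ∃ C : ℝ, ∃ q₀ : ℕ, ∀ q ≥ q₀, ∀ [Fact q.Prime],
    ∃ c : Dir q → Gd q, Good a C c := by
  obtain ⟨q1, h1⟩ := stA1
  obtain ⟨q2, h2⟩ := stA2
  obtain ⟨q3, h3⟩ := stB
  obtain ⟨a1, ha1, q4, h4⟩ := stC1
  obtain ⟨a2, ha2, q5, h5⟩ := stC2
  obtain ⟨q6, h6⟩ := ghb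
  obtain ⟨q7, h7⟩ := bad1
  obtain ⟨q8, h8⟩ := bad2
  obtain ⟨C, q9, h9⟩ := mom
  obtain ⟨q10, h10⟩ := exists_nat_ge (36 / cF)
  refine ⟨min a1 a2, lt_min ha1 ha2, C, q1 + q2 + q3 + q4 + q5 + q6 + q7 + q8 + q9 + q10 + 32, ?_⟩
  intro q hq _
  have hq32 : 32 ≤ q := by omega
  have hqc : 36 / cF ≤ (q : ℝ) := h10.trans (by exact_mod_cast (by omega : q10 ≤ q))
  have hq0 : (0 : ℝ) ≤ q := Nat.cast_nonneg _
  have hc : (0 : ℝ) ≤ 1 / 20 := by norm_num
  by_contra hcon
  push Not at hcon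
  have hone : asmE (q := q) (fun _ _ _ => (1 : ℝ)) = 1 := by
    unfold asmE
    have e1 : ∀ S : Dir q → ZMod q,
        (avg (OB S) fun H => avg (OC H) fun _ => (1 : ℝ)) = 1 := by
      intro S
      have e2 : (fun H : Dir q → Bool → Pt q => avg (OC H) fun _ => (1 : ℝ)) = fun _ => 1 := by
        funext H
        exact avg_const (asm_OC_nonempty hqc H) 1
      rw [e2]
      exact avg_const (asm_OB_nonempty hq32 S) 1
    simp only [e1]
    exact avg_const univ_nonempty 1
  have key : ∀ S : Dir q → ZMod q, ∀ H ∈ OB S, ∀ e ∈ OC H, (1 : ℝ) ≤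
      ind (¬ GA1 S) + (ind (¬ GA2 S) + (ind (GA1 S ∧ ¬ GB S H) +
      (ind (GA1 S ∧ GA2 S ∧ GB S H ∧
        ¬ ∀ f k, a1 * q ≤ ((Valid (mk H e) f k).card : ℝ)) +
      (ind (GA1 S ∧ GB S H ∧ ¬ Rich (mk H e) (a2 * q)) +
      (ind (¬ GHp (mk H e)) + (ind (¬ P1p (mk H e)) + (ind (¬ P2p (mk H e)) +
      ind (¬ Mom (mk H e) C)))))))) := by
    intro S H hH e he
    by_contra hlt
    rw [not_le] at hlt
    have n1 := ind_nonneg (¬ GA1 S)
    have n2 := ind_nonneg (¬ GA2 S)
    have n3 := ind_nonneg (GA1 S ∧ ¬ GB S H)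
    have n4 := ind_nonneg (GA1 S ∧ GA2 S ∧ GB S H ∧
        ¬ ∀ f k, a1 * q ≤ ((Valid (mk H e) f k).card : ℝ))
    have n5 := ind_nonneg (GA1 S ∧ GB S H ∧ ¬ Rich (mk H e) (a2 * q))
    have n6 := ind_nonneg (¬ GHp (mk H e))
    have n7 := ind_nonneg (¬ P1p (mk H e))
    have n8 := ind_nonneg (¬ P2p (mk H e))
    have n9 := ind_nonneg (¬ Mom (mk H e) C)
    have g1 : GA1 S := by
      by_contra hn
      have := asm_ind_true hn
      linarith
    have g2 : GA2 S := by
      by_contra hn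
      have := asm_ind_true hn
      linarith
    have g3 : GB S H := by
      by_contra hn
      have := asm_ind_true (And.intro g1 hn)
      linarith
    have g4 : ∀ f k, a1 * q ≤ ((Valid (mk H e) f k).card : ℝ) := by
      by_contra hn
      have := asm_ind_true (And.intro g1 (And.intro g2 (And.intro g3 hn)))
      linarith
    have g5 : Rich (mk H e) (a2 * q) := by
      by_contra hn
      have := asm_ind_true (And.intro g1 (And.intro g3 hn))
      linarith
    have g6 : GHp (mk H e) := by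
      by_contra hn
      have := asm_ind_true hn
      linarith
    have g7 : P1p (mk H e) := by
      by_contra hn
      have := asm_ind_true hn
      linarith
    have g8 : P2p (mk H e) := by
      by_contra hn
      have := asm_ind_true hn
      linarith
    have g9 : Mom (mk H e) C := by
      by_contra hn
      have := asm_ind_true hn
      linarith
    refine hcon (mk H e) ⟨sep_mk g1 hH g3 he, fun f k => ?_, fun l hl => ?_, g6, g7, g8, g9⟩
    · exact (mul_le_mul_of_nonneg_right (min_le_left a1 a2) hq0).trans (g4 f k)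
    · exact (mul_le_mul_of_nonneg_right (min_le_right a1 a2) hq0).trans (g5 l hl)
  have hsum := asmE_mono key
  rw [hone] at hsum
  simp only [asmE_add] at hsum
  have b1 : asmE (q := q) (fun S _ _ => ind (¬ GA1 S)) ≤ 1 / 20 :=
    asmE_le_A hc (fun S => ind_nonneg _) (fun S H _ e _ => le_rfl) (h1 q (by omega))
  have b2 : asmE (q := q) (fun S _ _ => ind (¬ GA2 S)) ≤ 1 / 20 :=
    asmE_le_A hc (fun S => ind_nonneg _) (fun S H _ e _ => le_rfl) (h2 q (by omega))
  have b3 : asmE (q := q) (fun S H _ => ind (GA1 S ∧ ¬ GB S H)) ≤ 1 / 20 := by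
    refine asmE_le_B hc (fun S H => ind_nonneg _) (fun S H _ e _ => le_rfl) fun S => ?_
    by_cases g1 : GA1 S
    · refine le_trans (avg_mono _ fun H _ => ?_) (h3 q (by omega) S g1)
      exact asm_ind_mono And.right
    · refine avg_le_of_le hc fun H _ => ?_
      rw [asm_ind_false fun h => g1 h.1]
      exact hc
  have b4 : asmE (q := q) (fun S H e => ind (GA1 S ∧ GA2 S ∧ GB S H ∧
        ¬ ∀ f k, a1 * q ≤ ((Valid (mk H e) f k).card : ℝ))) ≤ 1 / 20 := by
    refine asmE_le_C hc fun S H hH => ?_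
    by_cases g : GA1 S ∧ GA2 S ∧ GB S H
    · refine le_trans (avg_mono _ fun e _ => ?_) (h4 q (by omega) S g.1 g.2.1 H hH g.2.2)
      exact asm_ind_mono fun h => h.2.2.2
    · refine avg_le_of_le hc fun e _ => ?_
      rw [asm_ind_false fun h => g ⟨h.1, h.2.1, h.2.2.1⟩]
      exact hc
  have b5 : asmE (q := q) (fun S H e => ind (GA1 S ∧ GB S H ∧ ¬ Rich (mk H e) (a2 * q))) ≤
      1 / 20 := by
    refine asmE_le_C hc fun S H hH => ?_
    by_cases g : GA1 S ∧ GB S H
    · refine le_trans (avg_mono _ fun e _ => ?_) (h5 q (by omega) S g.1 H hH g.2)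
      exact asm_ind_mono fun h => h.2.2
    · refine avg_le_of_le hc fun e _ => ?_
      rw [asm_ind_false fun h => g ⟨h.1, h.2.1⟩]
      exact hc
  have b6 : asmE (q := q) (fun _ H e => ind (¬ GHp (mk H e))) ≤ 1 / 20 := h6 q (by omega)
  have b7 : asmE (q := q) (fun _ H e => ind (¬ P1p (mk H e))) ≤ 1 / 20 := h7 q (by omega)
  have b8 : asmE (q := q) (fun _ H e => ind (¬ P2p (mk H e))) ≤ 1 / 20 := h8 q (by omega)
  have b9 : asmE (q := q) (fun _ H e => ind (¬ Mom (mk H e) C)) ≤ 1 / 20 := h9 q (by omega)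
  linarith

end P045
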