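import Vale.Agent.P045R.Hyper
import Vale.Agent.P045R.DT

/-!
# P045R, module FIN1: the hypergraph of a configuration
-/

namespace P045

open Finset
open scoped Classical

/-- Module FIN1: from `edges_partite`, `edges_inter`, `edges_cover` (transport `Dir q ≃ Fin (q+1)`). -/
theorem hyper_of_config_proved {q : ℕ} [Fact q.Prime] {c : Dir q → Gd q}
    {b : Dir q → Fin 9 → Pt q}
    (hc : Sep c) (hb : ∀ f, b f ∈ Bset c f) (hf : Few c b) (hp : Pencil c) :
    ∃ (V : Type) (_ : Fintype V) (part : V → Fin (q + 1)) (H : Finset (Finset V)),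
      IsPartiteUniform (q + 1) part H ∧ IsIntersecting H ∧ tau H = q + 1 := by
  have hcard : Fintype.card (Dir q) = q + 1 := card_Dir
  obtain ⟨φ⟩ : Nonempty (Dir q ≃ Fin (q + 1)) := by
    refine ⟨Fintype.equivOfCardEq ?_⟩
    rw [hcard, Fintype.card_fin]
  have hmem : ∀ f s, eH c b f s ∈ Edges c b := by
    intro f s
    unfold Edges
    exact mem_union_right _ (mem_image.2 ⟨(f, s), mem_univ _, rfl⟩)
  have hint : ∀ e ∈ Edges c b, ∀ e' ∈ Edges c b, ∃ v, v ∈ e ∧ v ∈ e' := by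
    intro e he e' he'
    obtain ⟨v, hv⟩ := edges_inter hc hb e he e' he'
    rw [mem_inter] at hv
    exact ⟨v, hv.1, hv.2⟩
  refine ⟨Vx q, inferInstance, fun x => φ x.1, Edges c b, ?_, ⟨⟨_, hmem none true⟩, hint⟩, ?_⟩
  · intro e he i
    obtain ⟨x, ⟨hx1, hx2⟩, hx3⟩ := edges_partite c b e he (φ.symm i)
    refine ⟨x, ⟨hx1, ?_⟩, ?_⟩
    · show φ x.1 = i
      rw [hx2, Equiv.apply_symm_apply]
    · rintro y ⟨hy1, hy2⟩
      refine hx3 y ⟨hy1, ?_⟩
      rw [← hy2, Equiv.symm_apply_apply]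
  · have hcov : IsCover (Edges c b) (eH c b none true) := fun e he =>
      hint e he _ (hmem none true)
    have hc1 : (eH c b none true).card = q + 1 := by
      unfold eH
      rw [card_image_of_injective, card_univ, hcard]
      intro g g' h
      exact congrArg Prod.fst h
    unfold tau
    refine IsLeast.csInf_eq ⟨⟨_, hcov, hc1⟩, ?_⟩
    rintro n ⟨X, hX, rfl⟩
    refine edges_cover hc hb hf hp X fun e he => ?_
    obtain ⟨v, hv1, hv2⟩ := hX e he
    exact ⟨v, mem_inter.2 ⟨hv1, hv2⟩⟩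

end P045
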