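import Vale.Agent.P045R.Hyper

/-!
# P045R, module FIN3: the matching number of an intersecting hypergraph
-/

namespace P045

/-- Module FIN3: `nu H = 1` for an intersecting hypergraph. -/
theorem nu_eq_one_proved {V : Type} {H : Finset (Finset V)} (h : IsIntersecting H) : nu H = 1 := by
  obtain ⟨⟨e, he⟩, hint⟩ := h
  unfold nu
  refine IsGreatest.csSup_eq ⟨⟨{e}, ⟨?_, ?_⟩, Finset.card_singleton e⟩, ?_⟩
  · intro x hx
    rw [Finset.mem_singleton] at hx
    rw [hx]
    exact he
  · intro x hx y hy hxy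
    rw [Finset.mem_singleton] at hx hy
    exact absurd (hx.trans hy.symm) hxy
  · rintro n ⟨M, ⟨hMH, hM⟩, rfl⟩
    rw [Finset.card_le_one]
    intro a ha b hb
    by_contra hab
    obtain ⟨v, hv1, hv2⟩ := hint a (hMH ha) b (hMH hb)
    exact Finset.disjoint_left.1 (hM a ha b hb hab) hv1 hv2

end P045
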