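import Vale.Agent.P045R.Events

/-!
# P045R, module NP: near pencils
-/

namespace P045

open Finset
open scoped Classical

section
variable {q : ℕ} [Fact q.Prime]

/-- Number of lines of direction `d` in `L`. -/
noncomputable def npNd (L : Finset (Ln q)) (d : Dir q) : ℕ := (L.filter fun l => l.1 = d).card

theorem np_sum_nd (L : Finset (Ln q)) : ∑ d : Dir q, npNd L d = L.card := by
  unfold npNd
  exact (card_eq_sum_card_fiberwise (f := fun l : Ln q => l.1) (t := univ)
    (fun _ _ => mem_coe.2 (mem_univ _))).symm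

theorem np_pairs (L : Finset (Ln q)) : L.offDiag.card ≤
    ∑ v : Pt q, (L.filter fun l => v ∈ pts l).offDiag.card +
      ∑ d : Dir q, (L.filter fun l => l.1 = d).offDiag.card := by
  have h1 : L.offDiag ⊆ (univ.biUnion fun v : Pt q => (L.filter fun l => v ∈ pts l).offDiag) ∪
      (univ.biUnion fun d : Dir q => (L.filter fun l => l.1 = d).offDiag) := by
    intro x hx
    rw [mem_offDiag] at hx
    rw [mem_union, mem_biUnion, mem_biUnion]
    by_cases hd : x.1.1 = x.2.1
    · right
      refine ⟨x.1.1, mem_univ _, ?_⟩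
      rw [mem_offDiag, mem_filter, mem_filter]
      exact ⟨⟨hx.1, rfl⟩, ⟨hx.2.1, hd.symm⟩, hx.2.2⟩
    · left
      have h2 := meet_spec hd
      refine ⟨meet x.1 x.2, mem_univ _, ?_⟩
      rw [mem_offDiag, mem_filter, mem_filter]
      exact ⟨⟨hx.1, h2.1⟩, ⟨hx.2.1, h2.2⟩, hx.2.2⟩
  refine (card_le_card h1).trans ((card_union_le _ _).trans (add_le_add ?_ ?_))
  · exact card_biUnion_le
  · exact card_biUnion_le

/-- The count of pairs. -/
theorem np_bound {L : Finset (Ln q)} (hL : L.card = q) {B : ℝ}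
    (hv : ∀ v, (mlt L v : ℝ) ≤ B) (hd : ∀ d, (npNd L d : ℝ) ≤ B) :
    (q : ℝ) ^ 2 ≤ B * ((unc L).card + q) := by
  have h1 := np_pairs L
  have hB0 : 0 ≤ B := (Nat.cast_nonneg _).trans (hv 0)
  have h2 : ((L.offDiag.card : ℕ) : ℝ) ≤
      ∑ v : Pt q, (((L.filter fun l => v ∈ pts l).offDiag.card : ℕ) : ℝ) +
      ∑ d : Dir q, (((L.filter fun l => l.1 = d).offDiag.card : ℕ) : ℝ) := by
    exact_mod_cast h1
  have hoff : ∀ s : Finset (Ln q), ((s.offDiag.card : ℕ) : ℝ) = (s.card : ℝ) ^ 2 - s.card := by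
    intro s
    rw [offDiag_card, Nat.cast_sub (Nat.le_mul_self _)]
    push_cast
    ring
  simp only [hoff] at h2
  rw [hL] at h2
  have h3 : ∑ v : Pt q, ((((L.filter fun l => v ∈ pts l).card : ℕ) : ℝ) ^ 2 -
      ((L.filter fun l => v ∈ pts l).card : ℕ)) ≤ B * (unc L).card := by
    have h4 : ∀ v : Pt q, ((((L.filter fun l => v ∈ pts l).card : ℕ) : ℝ) ^ 2 -
        ((L.filter fun l => v ∈ pts l).card : ℕ)) ≤
        B * ((mlt L v : ℝ) - if v ∈ cov L then 1 else 0) := by
      intro v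
      change ((mlt L v : ℕ) : ℝ) ^ 2 - (mlt L v : ℕ) ≤ _
      by_cases hc : v ∈ cov L
      · rw [if_pos hc]
        have h5 : (1 : ℝ) ≤ mlt L v := by exact_mod_cast (mlt_pos.2 hc)
        have h6 := hv v
        nlinarith
      · rw [if_neg hc]
        have h5 : mlt L v = 0 := by
          by_contra h
          exact hc (mlt_pos.1 (Nat.pos_of_ne_zero h))
        rw [h5]
        simp
    refine (sum_le_sum fun v _ => h4 v).trans ?_
    rw [← mul_sum, sum_sub_distrib]
    have h5 : ∑ v : Pt q, (mlt L v : ℝ) = (q : ℝ) ^ 2 := by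
      have := sum_mlt L
      rw [hL] at this
      rw [sq]
      exact_mod_cast this
    have h6 : ∑ v : Pt q, (if v ∈ cov L then (1 : ℝ) else 0) = (cov L).card := by
      rw [sum_ite_mem, univ_inter, sum_const, nsmul_eq_mul, mul_one]
    have h7 := card_unc_add_card_cov L
    have h8 : ((unc L).card : ℝ) + (cov L).card = (q : ℝ) ^ 2 := by exact_mod_cast h7
    rw [h5, h6]
    apply le_of_eq
    congr 1
    linarith
  have h4 : ∑ d : Dir q, ((((L.filter fun l => l.1 = d).card : ℕ) : ℝ) ^ 2 -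
      ((L.filter fun l => l.1 = d).card : ℕ)) ≤ B * q - q := by
    have h5 : ∀ d : Dir q, ((((L.filter fun l => l.1 = d).card : ℕ) : ℝ) ^ 2 -
        ((L.filter fun l => l.1 = d).card : ℕ)) ≤ (B - 1) * (npNd L d : ℝ) := by
      intro d
      change ((npNd L d : ℕ) : ℝ) ^ 2 - (npNd L d : ℕ) ≤ _
      have h6 := hd d
      have h7 : (0 : ℝ) ≤ npNd L d := Nat.cast_nonneg _
      nlinarith
    refine (sum_le_sum fun d _ => h5 d).trans ?_
    rw [← mul_sum]
    have h6 : ∑ d : Dir q, (npNd L d : ℝ) = q := by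
      have := np_sum_nd L
      rw [hL] at this
      exact_mod_cast this
    rw [h6]
    linarith
  linarith

theorem np_inter_le {l k : Ln q} (h : l ≠ k) : (pts l ∩ pts k).card ≤ 1 := by
  rw [card_le_one]
  intro v hv w hw
  rw [mem_inter] at hv hw
  exact eq_of_mem_pts h hv.1 hv.2 hw.1 hw.2

/-- Covered points on a line through a heavy point. -/
theorem np_cov_point {L : Finset (Ln q)} (hL : L.card = q) {k : Ln q} (hk : k ∉ L) {v : Pt q}
    (hv : v ∈ pts k) : (pts k ∩ cov L).card + mlt L v ≤ q + 1 := by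
  have h1 : (pts k ∩ cov L).erase v ⊆
      (L.filter fun l => v ∉ pts l).biUnion fun l => pts l ∩ pts k := by
    intro w hw
    rw [mem_erase, mem_inter, mem_cov] at hw
    obtain ⟨hwv, hwk, l, hl, hwl⟩ := hw
    rw [mem_biUnion]
    have hlk : l ≠ k := fun h => hk (h ▸ hl)
    refine ⟨l, ?_, mem_inter.2 ⟨hwl, hwk⟩⟩
    rw [mem_filter]
    refine ⟨hl, fun hvl => hwv ?_⟩
    exact eq_of_mem_pts hlk hwl hwk hvl hv
  have h2 := (card_le_card h1).trans (card_biUnion_le_card_mul _ _ 1 fun l hl => by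
    rw [mem_filter] at hl
    exact np_inter_le fun h => hk (h ▸ hl.1))
  rw [mul_one] at h2
  have h3 : (L.filter fun l => v ∈ pts l).card + (L.filter fun l => v ∉ pts l).card = q := by
    rw [card_filter_add_card_filter_not, hL]
  have h4 := pred_card_le_card_erase (s := pts k ∩ cov L) (a := v)
  have h5 : mlt L v = (L.filter fun l => v ∈ pts l).card := rfl
  omega

/-- Covered points on a line parallel to many lines of `L`. -/
theorem np_cov_par {L : Finset (Ln q)} (hL : L.card = q) {k : Ln q} (hk : k ∉ L) :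
    (pts k ∩ cov L).card + npNd L k.1 ≤ q + 1 := by
  have h1 : pts k ∩ cov L ⊆
      (L.filter fun l => ¬ l.1 = k.1).biUnion fun l => pts l ∩ pts k := by
    intro w hw
    rw [mem_inter, mem_cov] at hw
    obtain ⟨hwk, l, hl, hwl⟩ := hw
    rw [mem_biUnion]
    have hlk : l ≠ k := fun h => hk (h ▸ hl)
    refine ⟨l, ?_, mem_inter.2 ⟨hwl, hwk⟩⟩
    rw [mem_filter]
    exact ⟨hl, fun h => not_mem_of_parallel hlk h hwl hwk⟩
  have h2 := (card_le_card h1).trans (card_biUnion_le_card_mul _ _ 1 fun l hl => by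
    rw [mem_filter] at hl
    exact np_inter_le fun h => hk (h ▸ hl.1))
  rw [mul_one] at h2
  have h3 : (L.filter fun l => l.1 = k.1).card + (L.filter fun l => ¬ l.1 = k.1).card = q := by
    rw [card_filter_add_card_filter_not, hL]
  have h5 : npNd L k.1 = (L.filter fun l => l.1 = k.1).card := rfl
  omega

theorem np_rpow (q : ℕ) : (q : ℝ) ^ (3 / 2 : ℝ) = q * Real.sqrt q := by
  have h0 : (0 : ℝ) ≤ q := Nat.cast_nonneg q
  rw [Real.sqrt_eq_rpow]
  rcases eq_or_lt_of_le h0 with h | h
  · rw [← h, Real.zero_rpow (by norm_num)]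
    simp
  · conv_rhs => rw [← Real.rpow_one (q : ℝ)]
    rw [Real.rpow_one, ← Real.rpow_one_add' h0 (by norm_num)]
    norm_num

/-- A line with few covered points and many uncovered points is special. -/
theorem np_contra {c : Dir q → Gd q} {L : Finset (Ln q)} (hL : L.card = q) (hW : Wp c ⊆ cov L)
    (hR : Rich c (Real.sqrt q)) (hN : ((unc L).card : ℝ) ≤ (q : ℝ) ^ (3 / 2 : ℝ) / 4)
    (hq : 12 < Real.sqrt q) {k : Ln q} (hkR : k ∉ Rl c)
    (hk : ((pts k ∩ cov L).card : ℝ) + 3 * Real.sqrt q ≤ q + 1) : False := by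
  set s := Real.sqrt q with hs
  have hs2 : s ^ 2 = q := Real.sq_sqrt (Nat.cast_nonneg q)
  rw [np_rpow, ← hs] at hN
  have hq0 : (0 : ℝ) < q := by rw [← hs2]; positivity
  have hsplit : ((pts k ∩ unc L).card : ℝ) + (pts k ∩ cov L).card = q := by
    have h1 : (pts k ∩ unc L).card + (pts k ∩ cov L).card = (pts k).card := by
      rw [unc_eq_compl, ← sdiff_eq_inter_compl]
      exact card_sdiff_add_card_inter _ _
    rw [card_pts] at h1
    exact_mod_cast h1
  have h2N : 2 * ((unc L).card : ℝ) / q ≤ s / 2 := by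
    rw [div_le_iff₀ hq0]
    nlinarith
  have hU : 4 * (unc L).card ≤ q ^ 2 := by
    have h1 : 4 * ((unc L).card : ℝ) ≤ (q : ℝ) ^ 2 := by
      have h2 : s ≤ q := by rw [← hs2]; nlinarith
      nlinarith
    exact_mod_cast h1
  have hlarge : Large L k := by
    rcases small_or_large hL hU k with h | h
    · exfalso
      unfold Small at h
      linarith
    · exact h
  unfold Large at hlarge
  have h3 : ((pts k ∩ Wp c).card : ℝ) ≤ (pts k ∩ cov L).card := by
    exact_mod_cast card_le_card (inter_subset_inter_left hW)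
  have h4 := hR k hkR
  linarith

end

/-- Module NP.  `|unc L| ≤ q^{3/2}/4`.  Counting pairs of lines of `L` (each pair meets in one point or
is parallel): with `μ` the largest multiplicity of an affine or infinite point, `q² ≤ μ (N + q)`,
so `μ ≥ 3 √q`.  A line `k ∉ L` through the heaviest point has at least `μ - 1 > 2 N / q` uncovered
points, so it is large (`small_or_large`); if `k` is not special it has more than `2N/q` points in
`W ⊆ cov L`, contradiction. -/
theorem np : ∃ q₀ : ℕ, ∀ q ≥ q₀, ∀ [Fact q.Prime], ∀ (c : Dir q → Gd q) (L : Finset (Ln q)),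
    L.card = q → Wp c ⊆ cov L → Rich c (Real.sqrt q) →
    ((unc L).card : ℝ) ≤ (q : ℝ) ^ (3 / 2 : ℝ) / 4 →
    (∃ v : Pt q, ∀ l, v ∈ pts l → l ∉ Rl c → l ∈ L) ∨
      ∃ d : Dir q, ∀ l : Ln q, l.1 = d → l ∉ Rl c → l ∈ L := by
  refine ⟨145, fun q hq hprime c L hL hW hR hN => ?_⟩
  have hs12 : 12 < Real.sqrt q := by
    rw [Real.lt_sqrt (by norm_num)]
    have : (145 : ℝ) ≤ q := by exact_mod_cast hq
    linarith
  by_cases hv : ∃ v, 3 * Real.sqrt q ≤ (mlt L v : ℝ)
  · obtain ⟨v, hv⟩ := hv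
    left
    refine ⟨v, fun k hk hkR => ?_⟩
    by_contra hkL
    refine np_contra hL hW hR hN hs12 hkR ?_
    have h1 := np_cov_point hL hkL hk
    have h2 : ((pts k ∩ cov L).card : ℝ) + mlt L v ≤ q + 1 := by exact_mod_cast h1
    linarith
  · by_cases hd : ∃ d, 3 * Real.sqrt q ≤ (npNd L d : ℝ)
    · obtain ⟨d, hd⟩ := hd
      right
      refine ⟨d, fun k hk hkR => ?_⟩
      by_contra hkL
      refine np_contra hL hW hR hN hs12 hkR ?_
      have h1 := np_cov_par hL hkL
      rw [hk] at h1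
      have h2 : ((pts k ∩ cov L).card : ℝ) + npNd L d ≤ q + 1 := by exact_mod_cast h1
      linarith
    · exfalso
      push Not at hv hd
      have h1 := np_bound hL (fun v => (hv v).le) (fun d => (hd d).le)
      set s := Real.sqrt q with hs
      have hs2 : s ^ 2 = q := Real.sq_sqrt (Nat.cast_nonneg q)
      rw [np_rpow, ← hs, ← hs2] at hN
      rw [← hs2] at h1
      have h2 : (s ^ 2) ^ 2 ≤ 3 * s * (s ^ 2 * s / 4 + s ^ 2) :=
        h1.trans (mul_le_mul_of_nonneg_left (by linarith) (by positivity))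
      have h3 : 3 * s * (s ^ 2 * s / 4 + s ^ 2) = s ^ 3 * (3 / 4 * s + 3) := by ring
      have h4 : (s ^ 2) ^ 2 = s ^ 3 * s := by ring
      rw [h3, h4] at h2
      have h5 : 0 < s ^ 3 := by positivity
      have h6 := le_of_mul_le_mul_left h2 h5
      linarith

end P045
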