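import Vale.Agent.P045R.P2E
import Vale.Agent.P045R.NP

/-!
# P045R, module GLOBAL: `q` lines covering `W` contain a pencil up to special lines
-/

namespace P045

open Finset
open scoped Classical

/-- From `np`, `p2e`, `GHp`, `P1p`, `P2p`: if `|unc L| > q^{3/2}/4` then it is in the middle range
(`GHp`), `unc L ⊆ cov (Rl c)` since `Wp c ⊆ cov L`, so `X = {special large lines}` has at least
`c3 N / q` elements (`P1p`), while `p2e` and `P2p` give `|X| ≤ 2 c3 N / (4q)`. -/
theorem global (a : ℝ) (ha : 0 < a) : ∃ q₀ : ℕ, ∀ q ≥ q₀, ∀ [Fact q.Prime],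
    ∀ c : Dir q → Gd q, Rich c (a * q) → GHp c → P1p c → P2p c → Pencil c := by
  obtain ⟨q₁, hnp⟩ := np
  obtain ⟨q₂, hp2e⟩ := p2e
  obtain ⟨q₃, hq₃⟩ := exists_nat_ge (1 / a ^ 2)
  refine ⟨max q₁ (max q₂ q₃), fun q hq hp c hrich hgh hp1 hp2 L hL hW => ?_⟩
  have hq1 : q₁ ≤ q := (le_max_left _ _).trans hq
  have hq2 : q₂ ≤ q := (le_max_left _ _).trans ((le_max_right _ _).trans hq)
  have hq3 : q₃ ≤ q := (le_max_right _ _).trans ((le_max_right _ _).trans hq)
  have hqpos : (0 : ℝ) < q := by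
    have := hp.out.pos
    exact_mod_cast this
  rcases le_or_gt ((unc L).card : ℝ) ((q : ℝ) ^ (3 / 2 : ℝ) / 4) with hle | hgt
  · refine hnp q hq1 c L hL hW ?_ hle
    have h1 : Real.sqrt q ≤ a * q := by
      have h2 : 1 / a ^ 2 ≤ (q : ℝ) := hq₃.trans (by exact_mod_cast hq3)
      rw [div_le_iff₀ (by positivity)] at h2
      rw [Real.sqrt_le_left (by positivity)]
      have : (q : ℝ) * 1 ≤ q * (q * a ^ 2) := mul_le_mul_of_nonneg_left h2 hqpos.le
      nlinarith
    exact fun l hl => h1.trans (hrich l hl)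
  · exfalso
    have hmid : Mid q (unc L).card := ⟨hgt, hgh L hL hW⟩
    have hsub : unc L ⊆ cov (Rl c) := by
      intro v hv
      by_contra hcon
      have : v ∈ Wp c := by
        unfold Wp
        rw [unc_eq_compl, mem_compl]
        exact hcon
      have h2 := hW this
      rw [unc_eq_compl, mem_compl] at hv
      exact hv h2
    have h1 := hp1 L hL hmid hsub
    obtain ⟨S, hSL, hS, hR, hX⟩ := hp2e q hq2 L hL hmid ((Rl c).filter (Large L))
      (fun k hk => (mem_filter.1 hk).2)
    have h2 := hp2 (unc L).card hmid S hS hR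
    have h3 : (((Rl c).filter (Large L) ∩ Ronce (unc L).card S).card : ℝ) ≤
        ((Rl c ∩ Ronce (unc L).card S).card : ℝ) := by
      exact_mod_cast card_le_card (inter_subset_inter_right (filter_subset _ _))
    have hN : (0 : ℝ) < (unc L).card := lt_of_le_of_lt (by positivity) hgt
    have h4 : 0 < c3 * (unc L).card / q := div_pos (mul_pos c3_pos hN) hqpos
    have h5 : c3 * ((unc L).card : ℝ) / (4 * q) = (c3 * (unc L).card / q) / 4 := by
      rw [mul_comm 4 (q : ℝ), ← div_div]
    rw [h5] at h2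
    linarith

end P045
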