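import Vale.Agent.P045R.Events

/-!
# P045R, module STAGED: choice of the points `b`
-/

namespace P045

open Finset
open scoped Classical

section sd
variable {q : ℕ} [Fact q.Prime]

/-- the line `l_f` or `m_{f,s,i}` -/
def sdL (c : Dir q → Gd q) (f : Dir q) (s : Bool) : Option (Fin 9) → Ln q
  | none => lf f (c f)
  | some i => ml (c f) (s, i)

/-- the planted point of index `k` on the line `x` is on `t` -/
def sdH (c : Dir q → Gd q) (f : Dir q) (s : Bool) (t : Ln q) (k : Fin 9) (y : Pt q) :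
    Option (Fin 9) → Prop
  | none => y ∈ pts t
  | some i => i ≠ k ∧ meet (thr ((c f).2 (s, k)) y) (ml (c f) (s, i)) ∈ pts t

theorem sd_hub {c : Dir q → Gd q} (hc : c ∈ All q) (f : Dir q) (s : Bool) :
    (c f).1 s ∈ pts (lf f (c f)) := by
  have h := mem_GadSet.1 (mem_All.1 hc f)
  cases s
  · exact h.1
  · exact mem_pts_thr _ _

theorem sd_hubL {c : Dir q → Gd q} (hc : c ∈ All q) (f : Dir q) (s : Bool)
    (x : Option (Fin 9)) : (c f).1 s ∈ pts (sdL c f s x) := by
  cases x with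
  | none => exact sd_hub hc f s
  | some i => exact mem_pts_thr _ _

theorem sd_dir {c : Dir q → Gd q} (hc : c ∈ All q) (f : Dir q) (s : Bool) {i k : Fin 9}
    (h : i ≠ k) (y : Pt q) :
    (thr ((c f).2 (s, k)) y).1 ≠ (ml (c f) (s, i)).1 := by
  have h1 := mem_GadSet.1 (mem_All.1 hc f)
  intro h2
  have h3 : (c f).2 (s, k) = (c f).2 (s, i) := h2
  have h4 := h1.2.2.1 h3
  rw [Prod.mk.injEq] at h4
  exact h h4.2.symm

theorem sd_lf_ne {c : Dir q → Gd q} (hc : c ∈ All q) (f : Dir q) (x : Bool × Fin 9)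
    (y : Pt q) : lf f (c f) ≠ thr ((c f).2 x) y := by
  have h1 := mem_GadSet.1 (mem_All.1 hc f)
  intro h
  have h2 : f = (c f).2 x := congrArg Prod.fst h
  exact h1.2.2.2 x h2.symm

/-- the point `b_{f,k}` is determined by a hit -/
theorem sd_uniq {c : Dir q → Gd q} (hc : c ∈ All q) (f : Dir q) (s : Bool) (x : Option (Fin 9))
    (k : Fin 9) (t : Ln q) (ht : t ≠ sdL c f s x) :
    ∃ y₀, ∀ y ∈ pts (lf f (c f)), sdH c f s t k y x → y = y₀ := by
  have key : ∀ y ∈ pts (lf f (c f)), ∀ y' ∈ pts (lf f (c f)), sdH c f s t k y x →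
      sdH c f s t k y' x → y = y' := by
    intro y hy y' hy' h h'
    cases x with
    | none => exact eq_of_mem_pts ht h hy h' hy'
    | some i =>
      obtain ⟨hik, h⟩ := h
      obtain ⟨-, h'⟩ := h'
      have h1 := meet_spec (sd_dir hc f s hik y)
      have h2 := meet_spec (sd_dir hc f s hik y')
      have h3 := eq_of_mem_pts ht h h1.2 h' h2.2
      have h4 := mem_pts_iff_thr.1 h1.1
      have h5 := mem_pts_iff_thr.1 h2.1
      have h6 : thr ((c f).2 (s, k)) y = thr ((c f).2 (s, k)) y' := by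
        rw [h4, h5, h3]
        rfl
      refine eq_of_mem_pts (sd_lf_ne hc f (s, k) y) hy (mem_pts_thr _ _) hy' ?_
      rw [h6]
      exact mem_pts_thr _ _
  by_cases hex : ∃ y ∈ pts (lf f (c f)), sdH c f s t k y x
  · obtain ⟨y₀, hy₀, h₀⟩ := hex
    exact ⟨y₀, fun y hy h => key y hy y₀ hy₀ h h₀⟩
  · exact ⟨0, fun y hy h => absurd ⟨y, hy, h⟩ hex⟩

/-- two hits with the same index `k` -/
theorem sd_same {c : Dir q → Gd q} (hc : c ∈ All q) (f : Dir q) (s : Bool) {x x' : Option (Fin 9)}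
    (hx : x ≠ x') (k : Fin 9) (t : Ln q) (ht : (c f).1 s ∉ pts t) (y : Pt q)
    (hy : y ∈ pts (lf f (c f))) (hys : y ≠ (c f).1 s) (h : sdH c f s t k y x)
    (h' : sdH c f s t k y x') : t = thr ((c f).2 (s, k)) y := by
  -- one of the two is `none`
  have key1 : ∀ i : Fin 9, sdH c f s t k y none → sdH c f s t k y (some i) →
      t = thr ((c f).2 (s, k)) y := by
    rintro i h ⟨hik, h'⟩
    by_contra hne
    have h1 := meet_spec (sd_dir hc f s hik y)
    have h2 : y = meet (thr ((c f).2 (s, k)) y) (ml (c f) (s, i)) :=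
      eq_of_mem_pts hne h (mem_pts_thr _ _) h' h1.1
    have h3 : y ∈ pts (ml (c f) (s, i)) := by
      rw [h2]
      exact h1.2
    exact hys (eq_of_mem_pts (sd_lf_ne hc f (s, i) _) hy h3 (sd_hub hc f s) (mem_pts_thr _ _))
  have key2 : ∀ i i' : Fin 9, i ≠ i' → sdH c f s t k y (some i) → sdH c f s t k y (some i') →
      t = thr ((c f).2 (s, k)) y := by
    rintro i i' hii ⟨hik, h⟩ ⟨hik', h'⟩
    by_contra hne
    have h1 := meet_spec (sd_dir hc f s hik y)
    have h2 := meet_spec (sd_dir hc f s hik' y)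
    have h3 := eq_of_mem_pts hne h h1.1 h' h2.1
    have hml : ml (c f) (s, i) ≠ ml (c f) (s, i') := by
      intro h4
      exact sd_dir hc f s hii y (congrArg Prod.fst h4).symm
    have h5 := h1.2
    have h6 := h2.2
    rw [← h3] at h6
    have h7 := eq_of_mem_pts hml h5 h6 (mem_pts_thr _ _) (mem_pts_thr _ _)
    rw [h7] at h
    exact ht h
  cases x with
  | none =>
    cases x' with
    | none => exact absurd rfl hx
    | some i => exact key1 i h h'
  | some i =>
    cases x' with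
    | none => exact key1 i h' h
    | some i' => exact key2 i i' (fun h => hx (by rw [h])) h h'

omit [Fact q.Prime] in
/-- counting tuples with prescribed entries -/
theorem sd_card (A : Finset (Pt q)) (hA : A.card = q) (S : Finset (Fin 9))
    (x : Fin 9 → Pt q) (B : Finset (Fin 9 → Pt q))
    (hB : ∀ β ∈ B, (∀ j, β j ∈ A) ∧ ∀ k ∈ S, β k = x k) : B.card ≤ q ^ (9 - S.card) := by
  have h1 : B ⊆ Fintype.piFinset (fun j => if j ∈ S then {x j} else A) := by
    intro β hβ
    rw [Fintype.mem_piFinset]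
    intro j
    split_ifs with hj
    · rw [mem_singleton]
      exact (hB β hβ).2 j hj
    · exact (hB β hβ).1 j
  refine (card_le_card h1).trans ?_
  rw [Fintype.card_piFinset]
  have h2 : ∀ j : Fin 9, (if j ∈ S then {x j} else A).card = if j ∈ S then 1 else q := by
    intro j
    split_ifs
    · exact card_singleton _
    · exact hA
  rw [prod_congr rfl fun j _ => h2 j, prod_ite, prod_const_one, one_mul, prod_const]
  refine le_of_eq (congrArg _ ?_)
  rw [filter_not, filter_mem_eq_inter, univ_inter, card_univ_sdiff, Fintype.card_fin]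

/-- the tuples with a hit -/
noncomputable def sdE (c : Dir q → Gd q) (f : Dir q) (t : Ln q) : Finset (Fin 9 → Pt q) :=
  (Bset c f).filter fun β => ∃ s x k, t ≠ sdL c f s x ∧ sdH c f s t k (β k) x

theorem sd_Bset_mem {c : Dir q → Gd q} {f : Dir q} {β : Fin 9 → Pt q} (h : β ∈ Bset c f)
    (k : Fin 9) : β k ∈ pts (lf f (c f)) ∧ ∀ s, β k ≠ (c f).1 s := by
  unfold Bset at h
  rw [mem_filter] at h
  have h1 := h.2.1 k
  unfold Valid at h1
  rw [mem_filter] at h1
  exact ⟨h1.1, h1.2.1⟩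

theorem sd_E_card {c : Dir q → Gd q} (hc : c ∈ All q) (f : Dir q) (t : Ln q) :
    (sdE c f t).card ≤ 180 * q ^ 8 := by
  have h1 : sdE c f t ⊆ (univ : Finset (Bool × Option (Fin 9) × Fin 9)).biUnion fun z =>
      (Bset c f).filter fun β => t ≠ sdL c f z.1 z.2.1 ∧ sdH c f z.1 t z.2.2 (β z.2.2) z.2.1 := by
    intro β hβ
    unfold sdE at hβ
    rw [mem_filter] at hβ
    obtain ⟨hβ, s, x, k, h⟩ := hβ
    rw [mem_biUnion]
    exact ⟨(s, x, k), mem_univ _, mem_filter.2 ⟨hβ, h⟩⟩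
  refine (card_le_card h1).trans ?_
  have h2 : (univ : Finset (Bool × Option (Fin 9) × Fin 9)).card = 180 := by
    rw [card_univ]
    simp
  rw [← h2]
  refine card_biUnion_le_card_mul _ _ _ ?_
  rintro ⟨s, x, k⟩ _
  by_cases ht : t = sdL c f s x
  · have h3 : ((Bset c f).filter fun β => t ≠ sdL c f s x ∧ sdH c f s t k (β k) x) = ∅ := by
      rw [filter_eq_empty_iff]
      intro β _ h
      exact h.1 ht
    show ((Bset c f).filter fun β => t ≠ sdL c f s x ∧ sdH c f s t k (β k) x).card ≤ q ^ 8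
    rw [h3, card_empty]
    exact Nat.zero_le _
  · obtain ⟨y₀, hy₀⟩ := sd_uniq hc f s x k t ht
    refine sd_card (pts (lf f (c f))) (card_pts _) {k} (fun _ => y₀) _ ?_
    intro β hβ
    rw [mem_filter] at hβ
    refine ⟨fun j => (sd_Bset_mem hβ.1 j).1, fun k' hk' => ?_⟩
    rw [mem_singleton] at hk'
    subst hk'
    exact hy₀ _ (sd_Bset_mem hβ.1 _).1 hβ.2.2

/-- the tuples with four hits -/
noncomputable def sdF (c : Dir q → Gd q) (f : Dir q) (s : Bool) (t : Ln q) :
    Finset (Fin 9 → Pt q) :=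
  (Bset c f).filter fun β => (c f).1 s ∉ pts t ∧ (∀ k, t ≠ thr ((c f).2 (s, k)) (β k)) ∧
    4 ≤ (univ.filter fun x => ∃ k, sdH c f s t k (β k) x).card

theorem sd_F_card {c : Dir q → Gd q} (hc : c ∈ All q) (f : Dir q) (s : Bool) (t : Ln q) :
    (sdF c f s t).card ≤ 65610000 * q ^ 5 := by
  have h1 : sdF c f s t ⊆ (univ : Finset (Fin 4 → Option (Fin 9) × Fin 9)).biUnion fun π =>
      (Bset c f).filter fun β => (c f).1 s ∉ pts t ∧ (Function.Injective fun j => (π j).2) ∧
        ∀ j, sdH c f s t (π j).2 (β (π j).2) (π j).1 := by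
    intro β hβ
    unfold sdF at hβ
    rw [mem_filter] at hβ
    have hst := hβ.2.1
    have hL := hβ.2.2.1
    have h4 := hβ.2.2.2
    replace hβ := hβ.1
    have hex := Finset.exists_subset_card_eq (n := 4)
      (s := univ.filter fun x => ∃ k, sdH c f s t k (β k) x) h4
    set T := hex.choose
    have hT : T ⊆ univ.filter fun x => ∃ k, sdH c f s t k (β k) x := hex.choose_spec.1
    have hT4 : T.card = 4 := hex.choose_spec.2
    let e := (T.equivFinOfCardEq hT4).symm
    have hk : ∀ j : Fin 4, ∃ k, sdH c f s t k (β k) (e j).1 := fun j =>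
      (mem_filter.1 (hT (e j).2)).2
    choose k hk using hk
    simp only [mem_biUnion, mem_univ, true_and]
    refine ⟨fun j => ((e j).1, k j), mem_filter.2 ⟨hβ, hst, ?_, hk⟩⟩
    intro j j' hjj
    have hjj' : k j = k j' := hjj
    by_contra hne
    have hx : (e j).1 ≠ (e j').1 := fun h => hne (e.injective (Subtype.ext h))
    have h5 := hk j
    have h6 := hk j'
    rw [← hjj'] at h6
    exact hL (k j) (sd_same hc f s hx (k j) t hst (β (k j)) (sd_Bset_mem hβ _).1
      ((sd_Bset_mem hβ _).2 s) h5 h6)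
  refine (card_le_card h1).trans ?_
  have h2 : (univ : Finset (Fin 4 → Option (Fin 9) × Fin 9)).card = 65610000 := by
    rw [card_univ, Fintype.card_fun, Fintype.card_prod, Fintype.card_option, Fintype.card_fin,
      Fintype.card_fin]
    norm_num
  refine le_of_le_of_eq (card_biUnion_le_card_mul _ _ (q ^ 5) ?_) (by rw [h2])
  intro π _
  by_cases hcond : (c f).1 s ∉ pts t ∧ Function.Injective fun j => (π j).2
  · obtain ⟨hst, hinj⟩ := hcond
    have hne : ∀ x, t ≠ sdL c f s x := by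
      rintro x rfl
      exact hst (sd_hubL hc f s x)
    choose y₀ hy₀ using fun j : Fin 4 => sd_uniq hc f s (π j).1 (π j).2 t (hne _)
    have h3 : (univ.image fun j => (π j).2).card = 4 := by
      rw [card_image_of_injective _ hinj, card_univ, Fintype.card_fin]
    have h4 := sd_card (pts (lf f (c f))) (card_pts _) (univ.image fun j => (π j).2)
      (fun k => if h : ∃ j, (π j).2 = k then y₀ h.choose else 0)
      ((Bset c f).filter fun β => (c f).1 s ∉ pts t ∧ (Function.Injective fun j => (π j).2) ∧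
        ∀ j, sdH c f s t (π j).2 (β (π j).2) (π j).1) (by
        intro β hβ
        rw [mem_filter] at hβ
        refine ⟨fun j => (sd_Bset_mem hβ.1 j).1, fun k hk => ?_⟩
        obtain ⟨j, -, rfl⟩ := mem_image.1 hk
        have hex : ∃ j', (π j').2 = (π j).2 := ⟨j, rfl⟩
        rw [dif_pos hex]
        have h5 : hex.choose = j := hinj hex.choose_spec
        rw [h5]
        exact hy₀ j _ (sd_Bset_mem hβ.1 _).1 (hβ.2.2.2 j))
    rw [h3] at h4
    exact h4
  · have h3 : ((Bset c f).filter fun β => (c f).1 s ∉ pts t ∧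
        (Function.Injective fun j => (π j).2) ∧
        ∀ j, sdH c f s t (π j).2 (β (π j).2) (π j).1) = ∅ := by
      rw [filter_eq_empty_iff]
      intro β _ h
      exact hcond ⟨h.1, h.2.1⟩
    rw [h3, card_empty]
    exact Nat.zero_le _

/-- independence -/
theorem sd_indep (B : Dir q → Finset (Fin 9 → Pt q)) (E : Dir q → Finset (Fin 9 → Pt q))
    (T : Finset (Dir q)) {δ : ℝ} (_hδ : 0 ≤ δ)
    (hE : ∀ f ∈ T, ((E f).card : ℝ) ≤ δ * (B f).card) :
    (((Fintype.piFinset B).filter fun b => ∀ f ∈ T, b f ∈ E f).card : ℝ) ≤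
      δ ^ T.card * ((Fintype.piFinset B).card : ℝ) := by
  have h1 : ((Fintype.piFinset B).filter fun b => ∀ f ∈ T, b f ∈ E f) ⊆
      Fintype.piFinset (fun f => if f ∈ T then E f else B f) := by
    intro b hb
    rw [mem_filter, Fintype.mem_piFinset] at hb
    rw [Fintype.mem_piFinset]
    intro f
    split_ifs with hf
    · exact hb.2 f hf
    · exact hb.1 f
  have h2 : (((Fintype.piFinset B).filter fun b => ∀ f ∈ T, b f ∈ E f).card : ℝ) ≤
      ((Fintype.piFinset (fun f => if f ∈ T then E f else B f)).card : ℝ) := by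
    exact_mod_cast card_le_card h1
  refine h2.trans ?_
  rw [Fintype.card_piFinset, Fintype.card_piFinset]
  push_cast
  have h3 : ∀ f : Dir q, (((if f ∈ T then E f else B f).card : ℕ) : ℝ) ≤
      (if f ∈ T then δ else 1) * ((B f).card : ℝ) := by
    intro f
    split_ifs with hf
    · exact hE f hf
    · rw [one_mul]
  refine (prod_le_prod (fun f _ => Nat.cast_nonneg _) fun f _ => h3 f).trans ?_
  rw [prod_mul_distrib]
  refine le_of_eq ?_
  congr 1
  rw [prod_ite, prod_const_one, mul_one, prod_const, filter_mem_eq_inter, univ_inter]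

theorem sd_hitA {c : Dir q → Gd q} {b : Dir q → Fin 9 → Pt q} {f : Dir q}
    (hb : b f ∈ Bset c f) {v : Pt q} {t : Ln q} (hv : v ∉ pts t) (h : HitA c b f v t) :
    b f ∈ sdE c f t ∧ ∃ k ∈ gl f (c f), k ∈ pen v := by
  rcases h with ⟨h1, k, h2⟩ | ⟨s, i, k, h1, h2, h3⟩
  · refine ⟨mem_filter.2 ⟨hb, true, none, k, ?_, h2⟩, lf f (c f), mem_insert_self _ _,
      mem_filter.2 ⟨mem_univ _, h1⟩⟩
    rintro rfl
    exact hv h1
  · refine ⟨mem_filter.2 ⟨hb, s, some i, k, ?_, h1, h3⟩, ml (c f) (s, i),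
      mem_insert_of_mem (mem_image_of_mem _ (mem_univ _)), mem_filter.2 ⟨mem_univ _, h2⟩⟩
    rintro rfl
    exact hv h2

theorem sd_hitI {c : Dir q → Gd q} {b : Dir q → Fin 9 → Pt q} {f : Dir q}
    (hb : b f ∈ Bset c f) {d : Dir q} {t : Ln q} (hv : t.1 ≠ d) (h : HitI c b f d t) :
    b f ∈ sdE c f t ∧ ∃ k ∈ gl f (c f), k ∈ par d := by
  rcases h with ⟨h1, k, h2⟩ | ⟨s, i, k, h1, h2, h3⟩
  · refine ⟨mem_filter.2 ⟨hb, true, none, k, ?_, h2⟩, lf f (c f), mem_insert_self _ _,
      mem_filter.2 ⟨mem_univ _, h1⟩⟩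
    rintro rfl
    exact hv h1
  · refine ⟨mem_filter.2 ⟨hb, s, some i, k, ?_, h1, h3⟩, ml (c f) (s, i),
      mem_insert_of_mem (mem_image_of_mem _ (mem_univ _)), mem_filter.2 ⟨mem_univ _, h2⟩⟩
    rintro rfl
    exact hv h2

theorem sd_hitH {c : Dir q → Gd q} {b : Dir q → Fin 9 → Pt q} {f : Dir q} {s : Bool}
    {t : Ln q} {x : Option (Fin 9)} (h : HitH c b f s t x) : ∃ k, sdH c f s t k (b f k) x := by
  cases x with
  | none =>
    obtain ⟨k, hk⟩ := h
    exact ⟨k, hk⟩
  | some i =>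
    obtain ⟨k, hk, h⟩ := h
    exact ⟨k, hk, h⟩

/-- real version of `card_biUnion_le` with a uniform bound -/
theorem sd_union {α β : Type*} [DecidableEq β] (s : Finset α) (g : α → Finset β) (M : α → ℝ)
    (h : ∀ x ∈ s, ((g x).card : ℝ) ≤ M x) :
    ((s.biUnion g).card : ℝ) ≤ ∑ x ∈ s, M x := by
  have h1 : ((s.biUnion g).card : ℝ) ≤ ∑ x ∈ s, ((g x).card : ℝ) := by
    exact_mod_cast card_biUnion_le
  exact h1.trans (sum_le_sum h)

/-- the number of bad tuples, third kind -/
theorem sd_B3 {a : ℝ} (ha : 0 < a) {c : Dir q → Gd q} (hc : c ∈ All q)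
    (hB : ∀ f, a * (q : ℝ) ^ 9 ≤ ((Bset c f).card : ℝ)) :
    (((univ : Finset (Dir q × Bool × Ln q)).biUnion fun z =>
      (Fintype.piFinset fun f => Bset c f).filter fun b =>
        ∀ f ∈ ({z.1} : Finset (Dir q)), b f ∈ sdF c z.1 z.2.1 z.2.2).card : ℝ) ≤
      8 * (q:ℝ) ^ 3 * (65610000 / (a * (q:ℝ) ^ 4) *
        ((Fintype.piFinset fun f => Bset c f).card : ℝ)) := by
  have hqpos : (0:ℝ) < q := by exact_mod_cast (Fact.out : q.Prime).pos
  have hq1 : (1:ℝ) ≤ q := by exact_mod_cast (Fact.out : q.Prime).one_lt.le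
  have hε0 : (0:ℝ) ≤ 65610000 / (a * (q:ℝ) ^ 4) := by positivity
  have hF : ∀ z : Dir q × Bool × Ln q, ((sdF c z.1 z.2.1 z.2.2).card : ℝ) ≤
      65610000 / (a * (q:ℝ) ^ 4) * ((Bset c z.1).card : ℝ) := by
    intro z
    have h3 : ((sdF c z.1 z.2.1 z.2.2).card : ℝ) ≤ 65610000 * (q:ℝ) ^ 5 := by
      exact_mod_cast sd_F_card hc z.1 z.2.1 z.2.2
    refine h3.trans ?_
    calc 65610000 * (q:ℝ) ^ 5 = 65610000 / (a * (q:ℝ) ^ 4) * (a * (q:ℝ) ^ 9) := by
          field_simp
      _ ≤ _ := mul_le_mul_of_nonneg_left (hB z.1) hε0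
  have h1 := sd_union (univ : Finset (Dir q × Bool × Ln q)) (fun z =>
      (Fintype.piFinset fun f => Bset c f).filter fun b =>
        ∀ f ∈ ({z.1} : Finset (Dir q)), b f ∈ sdF c z.1 z.2.1 z.2.2)
      (fun _ => 65610000 / (a * (q:ℝ) ^ 4) *
        ((Fintype.piFinset fun f => Bset c f).card : ℝ)) (by
      intro z _
      have h2 := sd_indep (fun f => Bset c f) (fun _ => sdF c z.1 z.2.1 z.2.2) {z.1} hε0
        (by
          intro f hf
          rw [mem_singleton] at hf
          rw [hf]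
          exact hF z)
      rw [card_singleton, pow_one] at h2
      exact h2)
  refine h1.trans ?_
  rw [sum_const, nsmul_eq_mul]
  refine mul_le_mul_of_nonneg_right ?_ (mul_nonneg hε0 (Nat.cast_nonneg _))
  rw [card_univ, Fintype.card_prod, Fintype.card_prod, card_Dir, card_Ln, Fintype.card_bool]
  push_cast
  nlinarith [mul_nonneg hqpos.le hqpos.le, mul_nonneg (mul_nonneg hqpos.le hqpos.le) hqpos.le,
    mul_nonneg (mul_nonneg hqpos.le hqpos.le) (sub_nonneg.2 hq1),
    mul_nonneg hqpos.le (sub_nonneg.2 hq1)]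

/-- the number of bad tuples, first and second kind -/
theorem sd_B12 {c : Dir q → Gd q} {δ : ℝ} (hδ0 : 0 ≤ δ)
    (hE : ∀ (f : Dir q) (t : Ln q), ((sdE c f t).card : ℝ) ≤ δ * (Bset c f).card)
    {ι : Type*} [Fintype ι] (m : ℕ) (H : ι → Finset (Dir q)) (M : ℝ)
    (hM : ∑ v : ι, (((H v).card.choose m : ℕ) : ℝ) ≤ M) :
    (((univ : Finset ι).biUnion fun v => (univ : Finset (Ln q)).biUnion fun t =>
      (powersetCard m (H v)).biUnion fun T =>
      (Fintype.piFinset fun f => Bset c f).filter fun b => ∀ f ∈ T, b f ∈ sdE c f t).card : ℝ) ≤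
      2 * (q:ℝ) ^ 2 * M * (δ ^ m * ((Fintype.piFinset fun f => Bset c f).card : ℝ)) := by
  have hqpos : (0:ℝ) < q := by exact_mod_cast (Fact.out : q.Prime).pos
  have hq1 : (1:ℝ) ≤ q := by exact_mod_cast (Fact.out : q.Prime).one_lt.le
  have hLn : ((univ : Finset (Ln q)).card : ℝ) ≤ 2 * (q:ℝ) ^ 2 := by
    rw [card_univ, card_Ln]
    push_cast
    nlinarith
  have h1 := sd_union (univ : Finset ι) (fun v => (univ : Finset (Ln q)).biUnion fun t =>
      (powersetCard m (H v)).biUnion fun T =>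
      (Fintype.piFinset fun f => Bset c f).filter fun b => ∀ f ∈ T, b f ∈ sdE c f t)
      (fun v => ∑ _t : Ln q, ∑ _T ∈ powersetCard m (H v),
        (δ ^ m * ((Fintype.piFinset fun f => Bset c f).card : ℝ)))
      (fun v _ => sd_union _ _ _ fun t _ => sd_union _ _ _ fun T hT => by
        have h2 := sd_indep (fun f => Bset c f) (fun f => sdE c f t) T hδ0 fun f _ => hE f t
        rw [(mem_powersetCard.1 hT).2] at h2
        exact h2)
  refine h1.trans ?_
  have h3 : ∀ v : ι, ∑ _t : Ln q, ∑ _T ∈ powersetCard m (H v),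
      (δ ^ m * ((Fintype.piFinset fun f => Bset c f).card : ℝ)) =
      ((univ : Finset (Ln q)).card : ℝ) * (((H v).card.choose m : ℕ) : ℝ) *
        (δ ^ m * ((Fintype.piFinset fun f => Bset c f).card : ℝ)) := by
    intro v
    rw [sum_const, sum_const, card_powersetCard, nsmul_eq_mul, nsmul_eq_mul, ← mul_assoc]
  rw [sum_congr rfl fun v _ => h3 v, ← sum_mul, ← mul_sum]
  have h4 : 0 ≤ δ ^ m * ((Fintype.piFinset fun f => Bset c f).card : ℝ) := by positivity
  refine mul_le_mul_of_nonneg_right ?_ h4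
  exact mul_le_mul hLn hM (sum_nonneg fun v _ => Nat.cast_nonneg _) (by positivity)

/-- bad tuples -/
theorem sd_cover {c : Dir q → Gd q}
    (hcon : ∀ b : Dir q → Fin 9 → Pt q, (∀ f, b f ∈ Bset c f) → ¬ Few c b) :
    (Fintype.piFinset fun f => Bset c f) ⊆
      ((univ : Finset (Pt q)).biUnion fun v => (univ : Finset (Ln q)).biUnion fun t =>
        (powersetCard 5 (univ.filter fun f => ∃ k ∈ gl f (c f), k ∈ pen v)).biUnion fun T =>
        (Fintype.piFinset fun f => Bset c f).filter fun b => ∀ f ∈ T, b f ∈ sdE c f t) ∪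
      (((univ : Finset (Dir q)).biUnion fun v => (univ : Finset (Ln q)).biUnion fun t =>
        (powersetCard 4 (univ.filter fun f => ∃ k ∈ gl f (c f), k ∈ par v)).biUnion fun T =>
        (Fintype.piFinset fun f => Bset c f).filter fun b => ∀ f ∈ T, b f ∈ sdE c f t) ∪
      ((univ : Finset (Dir q × Bool × Ln q)).biUnion fun z =>
        (Fintype.piFinset fun f => Bset c f).filter fun b =>
          ∀ f ∈ ({z.1} : Finset (Dir q)), b f ∈ sdF c z.1 z.2.1 z.2.2)) := by
  intro b hb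
  have hbB : ∀ f, b f ∈ Bset c f := Fintype.mem_piFinset.1 hb
  by_contra hnot
  rw [mem_union, mem_union, not_or, not_or] at hnot
  obtain ⟨hn1, hn2, hn3⟩ := hnot
  refine hcon b hbB ⟨?_, ?_, ?_⟩
  · intro v _ t hvt
    by_contra hlt
    push Not at hlt
    obtain ⟨T, hT, hT5⟩ := exists_subset_card_eq (Nat.succ_le_of_lt hlt)
    apply hn1
    rw [mem_biUnion]
    refine ⟨v, mem_univ _, ?_⟩
    rw [mem_biUnion]
    refine ⟨t, mem_univ _, ?_⟩
    rw [mem_biUnion]
    refine ⟨T, mem_powersetCard.2 ⟨fun f hf => ?_, hT5⟩, mem_filter.2 ⟨hb, fun f hf => ?_⟩⟩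
    · exact mem_filter.2 ⟨mem_univ _, (sd_hitA (hbB f) hvt (mem_filter.1 (hT hf)).2).2⟩
    · exact (sd_hitA (hbB f) hvt (mem_filter.1 (hT hf)).2).1
  · intro d t htd
    by_contra hlt
    push Not at hlt
    obtain ⟨T, hT, hT5⟩ := exists_subset_card_eq (Nat.succ_le_of_lt hlt)
    apply hn2
    rw [mem_biUnion]
    refine ⟨d, mem_univ _, ?_⟩
    rw [mem_biUnion]
    refine ⟨t, mem_univ _, ?_⟩
    rw [mem_biUnion]
    refine ⟨T, mem_powersetCard.2 ⟨fun f hf => ?_, hT5⟩, mem_filter.2 ⟨hb, fun f hf => ?_⟩⟩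
    · exact mem_filter.2 ⟨mem_univ _, (sd_hitI (hbB f) htd (mem_filter.1 (hT hf)).2).2⟩
    · exact (sd_hitI (hbB f) htd (mem_filter.1 (hT hf)).2).1
  · intro f s t hst hL
    by_contra hlt
    push Not at hlt
    apply hn3
    rw [mem_biUnion]
    refine ⟨(f, s, t), mem_univ _, mem_filter.2 ⟨hb, fun f' hf' => ?_⟩⟩
    rw [mem_singleton] at hf'
    have hf'' : f' = f := hf'
    rw [hf'']
    refine mem_filter.2 ⟨hbB _, hst, hL, ?_⟩
    refine (Nat.succ_le_of_lt hlt).trans (card_le_card ?_)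
    intro x hx
    rw [mem_filter] at hx ⊢
    exact ⟨hx.1, sd_hitH hx.2⟩

end sd

/-- Module STAGED.  `b_f` uniform in `Bset c f`, independent.  Every point `x` of `l_f` is `b_{f,k}` with
probability at most `C/q`, and four different points have prescribed values with probability at most
`C/q⁴`; `P_{f,s,k,i} ∈ t` prescribes `b_{f,k}`.
(h1) `v` not a hub, `t ∌ v`, a 5-set of gadgets with a line through `v`: probability `≤ (C/q)⁵`; the
number of `(v, t, 5-set)` is `≤ 2q² ∑_v choose(hits c (pen v)) 5 ≤ 2 C q⁴`.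
(h2) `d`, `t` not of direction `d`, a 4-set of gadgets with a line of direction `d`: `≤ (C/q)⁴`, number
`≤ 2q² · C q`.
(h3) `f, s, t`: four hits need four different indices `k` (two hits with the same `k` give
`t = L_{f,s,k}`), probability `≤ C/q⁴`, number `≤ C q³`. -/
theorem stageD (a C : ℝ) (ha : 0 < a) : ∃ q₀ : ℕ, ∀ q ≥ q₀, ∀ [Fact q.Prime],
    ∀ c : Dir q → Gd q, Sep c → (∀ f, a * (q : ℝ) ^ 9 ≤ ((Bset c f).card : ℝ)) → Mom c C →
      ∃ b : Dir q → Fin 9 → Pt q, (∀ f, b f ∈ Bset c f) ∧ Few c b := by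
  obtain ⟨q₀, hq₀⟩ := exists_nat_gt
    (2 * C * (180 / a) ^ 5 + 2 * C * (180 / a) ^ 4 + 8 * 65610000 / a)
  refine ⟨q₀, fun q hq _ c hsep hB hmom => ?_⟩
  have hqpos : (0:ℝ) < q := by exact_mod_cast (Fact.out : q.Prime).pos
  have hK : 2 * C * (180 / a) ^ 5 + 2 * C * (180 / a) ^ 4 + 8 * 65610000 / a < q :=
    hq₀.trans_le (by exact_mod_cast hq)
  have hc := hsep.mem
  by_contra hcon
  push Not at hcon
  have hΩ0 : (0:ℝ) < ((Fintype.piFinset fun f => Bset c f).card : ℝ) := by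
    rw [Fintype.card_piFinset]
    push_cast
    refine prod_pos fun f _ => ?_
    have : 0 < a * (q:ℝ) ^ 9 := by positivity
    linarith [hB f]
  have hδ0 : (0:ℝ) ≤ 180 / (a * q) := by positivity
  have hE : ∀ (f : Dir q) (t : Ln q), ((sdE c f t).card : ℝ) ≤
      180 / (a * q) * (Bset c f).card := by
    intro f t
    have h1 : ((sdE c f t).card : ℝ) ≤ 180 * (q:ℝ) ^ 8 := by exact_mod_cast sd_E_card hc f t
    refine h1.trans ?_
    calc 180 * (q:ℝ) ^ 8 = 180 / (a * q) * (a * (q:ℝ) ^ 9) := by field_simp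
      _ ≤ 180 / (a * q) * (Bset c f).card := mul_le_mul_of_nonneg_left (hB f) hδ0
  have hB1 := sd_B12 hδ0 hE 5
    (fun v : Pt q => univ.filter fun f => ∃ k ∈ gl f (c f), k ∈ pen v) _ hmom.1
  have hB2 := sd_B12 hδ0 hE 4
    (fun d : Dir q => univ.filter fun f => ∃ k ∈ gl f (c f), k ∈ par d) _ hmom.2
  have hB3 := sd_B3 ha hc hB
  have htot := (card_le_card (sd_cover hcon)).trans ((card_union_le _ _).trans
        (Nat.add_le_add_left (card_union_le _ _) _))
  rw [← Nat.cast_le (α := ℝ)] at htot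
  push_cast at htot
  have e1 : 2 * (q:ℝ) ^ 2 * (C * (q:ℝ) ^ 2) * ((180 / (a * q)) ^ 5 *
      ((Fintype.piFinset fun f => Bset c f).card : ℝ)) =
      2 * C * (180 / a) ^ 5 / q * ((Fintype.piFinset fun f => Bset c f).card : ℝ) := by
    field_simp
  have e2 : 2 * (q:ℝ) ^ 2 * (C * (q:ℝ)) * ((180 / (a * q)) ^ 4 *
      ((Fintype.piFinset fun f => Bset c f).card : ℝ)) =
      2 * C * (180 / a) ^ 4 / q * ((Fintype.piFinset fun f => Bset c f).card : ℝ) := by
    field_simp
  have e3 : 8 * (q:ℝ) ^ 3 * (65610000 / (a * (q:ℝ) ^ 4) *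
      ((Fintype.piFinset fun f => Bset c f).card : ℝ)) =
      (8 * 65610000 / a) / q * ((Fintype.piFinset fun f => Bset c f).card : ℝ) := by
    field_simp
  rw [e1] at hB1
  rw [e2] at hB2
  rw [e3] at hB3
  have hfin : ((Fintype.piFinset fun f => Bset c f).card : ℝ) ≤
      (2 * C * (180 / a) ^ 5 + 2 * C * (180 / a) ^ 4 +
      8 * 65610000 / a) / q * ((Fintype.piFinset fun f => Bset c f).card : ℝ) := by
    refine htot.trans ((add_le_add hB1 (add_le_add hB2 hB3)).trans (le_of_eq ?_))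
    ring
  have hlt : (2 * C * (180 / a) ^ 5 + 2 * C * (180 / a) ^ 4 + 8 * 65610000 / a) / q < 1 := by
    rw [div_lt_one hqpos]
    exact hK
  nlinarith

end P045
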