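import Vale.Agent.P045R.Hyper
import Vale.Agent.P045R.FinA
import Vale.Agent.P045R.FinB
import Vale.Agent.P045R.DT
import Vale.Agent.P045R.Global
import Vale.Agent.P045R.Exist
import Vale.Agent.P045R.BCard
import Vale.Agent.P045R.StageD

/-!
# P045R, module FINAL: Ryser's conjecture is false
-/

namespace P045

open Finset
open scoped Classical

/-- Module FIN1: from `edges_partite`, `edges_inter`, `edges_cover` (transport `Dir q ≃ Fin (q+1)`). -/
theorem hyper_of_config {q : ℕ} [Fact q.Prime] {c : Dir q → Gd q} {b : Dir q → Fin 9 → Pt q}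
    (hc : Sep c) (hb : ∀ f, b f ∈ Bset c f) (hf : Few c b) (hp : Pencil c) :
    ∃ (V : Type) (_ : Fintype V) (part : V → Fin (q + 1)) (H : Finset (Finset V)),
      IsPartiteUniform (q + 1) part H ∧ IsIntersecting H ∧ tau H = q + 1 :=
  hyper_of_config_proved hc hb hf hp

/-- Module FIN2. -/
theorem exists_hyper : ∃ q₀ : ℕ, ∀ q ≥ q₀, q.Prime →
    ∃ (V : Type) (_ : Fintype V) (part : V → Fin (q + 1)) (H : Finset (Finset V)),
      IsPartiteUniform (q + 1) part H ∧ IsIntersecting H ∧ tau H = q + 1 := by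
  obtain ⟨a, ha, C, q₁, h1⟩ := exist1
  obtain ⟨a', ha', q₂, h2⟩ := card_Bset_ge a ha
  obtain ⟨q₃, h3⟩ := stageD a' C ha'
  obtain ⟨q₄, h4⟩ := global a ha
  refine ⟨max (max q₁ q₂) (max q₃ q₄), ?_⟩
  intro q hq hp
  haveI : Fact q.Prime := ⟨hp⟩
  have hq1 : q₁ ≤ q := le_trans (le_trans (le_max_left _ _) (le_max_left _ _)) hq
  have hq2 : q₂ ≤ q := le_trans (le_trans (le_max_right _ _) (le_max_left _ _)) hq
  have hq3 : q₃ ≤ q := le_trans (le_trans (le_max_left _ _) (le_max_right _ _)) hq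
  have hq4 : q₄ ≤ q := le_trans (le_trans (le_max_right _ _) (le_max_right _ _)) hq
  obtain ⟨c, hc⟩ := h1 q hq1
  obtain ⟨b, hb, hf⟩ := h3 q hq3 c hc.sep (h2 q hq2 c hc.sep hc.valid) hc.mom
  exact hyper_of_config hc.sep hb hf (h4 q hq4 c hc.rich hc.gh hc.p1 hc.p2)

/-- Module FIN3: `nu H = 1` for an intersecting hypergraph. -/
theorem nu_eq_one {V : Type} {H : Finset (Finset V)} (h : IsIntersecting H) : nu H = 1 :=
  nu_eq_one_proved h

theorem not_ryser : ¬ RyserConjecture := by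
  intro hR
  obtain ⟨q₀, h⟩ := exists_hyper
  obtain ⟨p, hp, hpp⟩ := Nat.exists_infinite_primes (max q₀ 2)
  obtain ⟨V, hV, part, H, h1, h2, h3⟩ := h p (le_trans (le_max_left _ _) hp) hpp
  have h4 := hR (p + 1) (by have := hpp.two_le; omega) V part H h1
  rw [h3, nu_eq_one h2] at h4
  omega

end P045
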