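import Vale.Agent.P045R.Model

/-!
# P045R, module GADCARD: counting in the uniform model
-/

namespace P045

open Finset
open scoped Classical

/-- Number of gadgets of a given direction. -/
def gadN (q : ℕ) : ℕ := q ^ 2 * (q - 1) * q.descFactorial 18

/-- pairs of hubs of direction `f` -/
private noncomputable def gcH (q : ℕ) [NeZero q] (f : Dir q) : Finset (Bool → Pt q) :=
  univ.filter fun u => u false ∈ pts (thr f (u true)) ∧ u false ≠ u true

/-- direction tuples avoiding `f` -/
private noncomputable def gcE (q : ℕ) [NeZero q] (f : Dir q) : Finset (Bool × Fin 9 → Dir q) :=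
  univ.filter fun e => Function.Injective e ∧ ∀ x, e x ≠ f

private theorem gc_GadSet (q : ℕ) [NeZero q] (f : Dir q) : GadSet q f = gcH q f ×ˢ gcE q f := by
  ext g
  simp only [mem_GadSet, mem_product, gcH, gcE, mem_filter, mem_univ, true_and, lf]
  tauto

private theorem gc_card_E {q : ℕ} [Fact q.Prime] (f : Dir q) :
    (gcE q f).card = q.descFactorial 18 := by
  have h1 : (gcE q f).card = Fintype.card (Bool × Fin 9 ↪ {d : Dir q // d ≠ f}) := by
    rw [← card_univ]
    symm
    apply card_bij (fun (e : Bool × Fin 9 ↪ {d : Dir q // d ≠ f}) _ x => (e x : Dir q))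
    · intro e _
      simp only [gcE, mem_filter, mem_univ, true_and]
      refine ⟨fun x y hxy => e.injective (Subtype.ext hxy), fun x => (e x).2⟩
    · intro e _ e' _ h
      exact DFunLike.ext _ _ fun x => Subtype.ext (congrFun h x)
    · intro e he
      simp only [gcE, mem_filter, mem_univ, true_and] at he
      exact ⟨⟨fun x => ⟨e x, he.2 x⟩, fun x y hxy => he.1 (congrArg Subtype.val hxy)⟩,
        mem_univ _, rfl⟩
  have h2 : Fintype.card {d : Dir q // d ≠ f} = q := by
    have h3 : Fintype.card {d : Dir q // d = f} = 1 := Fintype.card_subtype_eq f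
    have h4 := Fintype.card_subtype_compl (fun d : Dir q => d = f)
    rw [h3, card_Dir] at h4
    exact h4
  rw [h1, Fintype.card_embedding_eq, h2]
  congr 1

/-- number of direction tuples with a given value -/
private theorem gc_card_E_eq {q : ℕ} [Fact q.Prime] (f : Dir q) (x : Bool × Fin 9) (d : Dir q)
    (hd : d ≠ f) : ((gcE q f).filter fun e => e x = d).card * q = q.descFactorial 18 := by
  have hsym : ∀ d' : Dir q, d' ≠ f → ((gcE q f).filter fun e => e x = d').card =
      ((gcE q f).filter fun e => e x = d).card := by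
    intro d' hd'
    apply card_bij (fun e _ y => Equiv.swap d d' (e y))
    · intro e he
      simp only [gcE, mem_filter, mem_univ, true_and] at he ⊢
      refine ⟨⟨fun y z hyz => he.1.1 ((Equiv.swap d d').injective hyz), fun y hy => ?_⟩, ?_⟩
      · have h1 : e y = Equiv.swap d d' f := by
          rw [← hy, Equiv.swap_apply_self]
        rw [Equiv.swap_apply_of_ne_of_ne hd.symm hd'.symm] at h1
        exact he.1.2 y h1
      · rw [he.2, Equiv.swap_apply_right]
    · intro e _ e' _ h
      funext y
      exact (Equiv.swap d d').injective (congrFun h y)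
    · intro e he
      simp only [gcE, mem_filter, mem_univ, true_and] at he
      refine ⟨fun y => Equiv.swap d d' (e y), ?_, ?_⟩
      · simp only [gcE, mem_filter, mem_univ, true_and]
        refine ⟨⟨fun y z hyz => he.1.1 ((Equiv.swap d d').injective hyz), fun y hy => ?_⟩, ?_⟩
        · have h1 : e y = Equiv.swap d d' f := by
            rw [← hy, Equiv.swap_apply_self]
          rw [Equiv.swap_apply_of_ne_of_ne hd.symm hd'.symm] at h1
          exact he.1.2 y h1
        · rw [he.2, Equiv.swap_apply_left]
      · funext y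
        exact Equiv.swap_apply_self d d' (e y)
  have h1 : (gcE q f).card = ∑ d' ∈ univ.erase f, ((gcE q f).filter fun e => e x = d').card := by
    apply card_eq_sum_card_fiberwise
    intro e he
    have he' : e ∈ gcE q f := he
    simp only [gcE, mem_filter, mem_univ, true_and] at he'
    simp only [coe_erase, coe_univ, Set.mem_sdiff, Set.mem_univ, Set.mem_singleton_iff, true_and]
    exact he'.2 x
  rw [sum_congr rfl fun d' hd' => hsym d' (ne_of_mem_erase hd'), sum_const,
    card_erase_of_mem (mem_univ f), card_univ, card_Dir, Nat.add_sub_cancel, smul_eq_mul,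
    gc_card_E] at h1
  rw [h1, mul_comm]

/-- pairs of hubs, one of which is on `k` -/
private theorem gc_card_H_mem {q : ℕ} [Fact q.Prime] (f : Dir q) (s : Bool)
    (A : Finset (Pt q)) :
    ((gcH q f).filter fun u => u s ∈ A).card = A.card * (q - 1) := by
  have hsymm : ∀ u : Bool → Pt q, u false ∈ pts (thr f (u true)) ↔
      u (!s) ∈ pts (thr f (u s)) := by
    intro u
    cases s
    · rw [mem_pts, mem_pts]
      exact eq_comm
    · rfl
  have hne : ∀ u : Bool → Pt q, u false ≠ u true ↔ u (!s) ≠ u s := by
    intro u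
    cases s
    · exact ne_comm
    · rfl
  have h1 : ((gcH q f).filter fun u => u s ∈ A).card =
      (A.sigma fun a => (pts (thr f a)).erase a).card := by
    apply card_bij (fun u _ => (⟨u s, u (!s)⟩ : Σ _ : Pt q, Pt q))
    · intro u hu
      simp only [gcH, mem_filter, mem_univ, true_and] at hu
      simp only [mem_sigma, mem_erase]
      exact ⟨hu.2, (hne u).1 hu.1.2, (hsymm u).1 hu.1.1⟩
    · intro u _ u' _ h
      simp only [Sigma.mk.injEq, heq_eq_eq] at h
      funext t
      by_cases ht : t = s
      · rw [ht]; exact h.1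
      · have : t = !s := by
          cases t <;> cases s <;> simp_all
        rw [this]; exact h.2
    · rintro ⟨a, b⟩ hab
      simp only [mem_sigma, mem_erase] at hab
      let u : Bool → Pt q := fun t => if t = s then a else b
      have hus : u s = a := if_pos rfl
      have hus' : u (!s) = b := if_neg (by cases s <;> simp)
      refine ⟨u, ?_, ?_⟩
      · simp only [gcH, mem_filter, mem_univ, true_and]
        refine ⟨⟨(hsymm u).2 ?_, (hne u).2 ?_⟩, ?_⟩
        · rw [hus, hus']; exact hab.2.2
        · rw [hus, hus']; exact hab.2.1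
        · rw [hus]; exact hab.1
      · simp only [hus, hus']
  rw [h1, card_sigma, sum_congr rfl (g := fun _ => q - 1), sum_const, smul_eq_mul]
  intro a _
  rw [card_erase_of_mem (mem_pts_thr f a), card_pts]

private theorem gc_card_H {q : ℕ} [Fact q.Prime] (f : Dir q) :
    (gcH q f).card = q ^ 2 * (q - 1) := by
  have h1 := gc_card_H_mem f true (univ : Finset (Pt q))
  rw [filter_true_of_mem (fun u _ => mem_univ _), card_univ, card_Pt] at h1
  exact h1

theorem card_GadSet {q : ℕ} [Fact q.Prime] (f : Dir q) : (GadSet q f).card = gadN q := by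
  rw [gc_GadSet, card_product, gc_card_H, gc_card_E]
  rfl

/-- `G/q` gadgets of direction `f` have `lf = k` (`k` of direction `f`). -/
theorem card_GadSet_lf {q : ℕ} [Fact q.Prime] (f : Dir q) (k : Ln q) :
    ((GadSet q f).filter fun g => lf f g = k).card * q ≤ if k.1 = f then gadN q else 0 := by
  split_ifs with hk
  · have h1 : ((GadSet q f).filter fun g => lf f g = k) ⊆
        ((gcH q f).filter fun u => u true ∈ pts k) ×ˢ gcE q f := by
      intro g hg
      rw [mem_filter, gc_GadSet, mem_product] at hg
      rw [mem_product, mem_filter]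
      refine ⟨⟨hg.1.1, ?_⟩, hg.1.2⟩
      rw [← hg.2]
      exact mem_pts_thr f _
    have h2 := card_le_card h1
    rw [card_product, gc_card_H_mem, card_pts, gc_card_E] at h2
    calc _ ≤ (q * (q - 1) * q.descFactorial 18) * q := Nat.mul_le_mul_right q h2
      _ = gadN q := by unfold gadN; ring
  · have h1 : ((GadSet q f).filter fun g => lf f g = k) = ∅ := by
      apply filter_false_of_mem
      intro g _ h
      exact hk (by rw [← h]; rfl)
    rw [h1, card_empty, zero_mul]

/-- `G/q²` gadgets of direction `f` have `ml x = k`: the hub `x.1` is uniform among the `q²` points, the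
direction `x` is uniform among the `q` directions different from `f` and independent of the hub. -/
theorem card_GadSet_ml {q : ℕ} [Fact q.Prime] (f : Dir q) (x : Bool × Fin 9) (k : Ln q) :
    ((GadSet q f).filter fun g => ml g x = k).card * q ^ 2 ≤ gadN q := by
  by_cases hk : k.1 = f
  · have h1 : ((GadSet q f).filter fun g => ml g x = k) = ∅ := by
      apply filter_false_of_mem
      intro g hg h
      exact (mem_GadSet.1 hg).2.2.2 x (by rw [← hk, ← h]; rfl)
    rw [h1, card_empty, zero_mul]
    exact Nat.zero_le _
  · have h1 : ((GadSet q f).filter fun g => ml g x = k) ⊆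
        ((gcH q f).filter fun u => u x.1 ∈ pts k) ×ˢ ((gcE q f).filter fun e => e x = k.1) := by
      intro g hg
      rw [mem_filter, gc_GadSet, mem_product] at hg
      rw [mem_product, mem_filter, mem_filter]
      refine ⟨⟨hg.1.1, ?_⟩, hg.1.2, ?_⟩
      · rw [← hg.2]
        exact mem_pts_thr _ _
      · rw [← hg.2]
        rfl
    have h2 := card_le_card h1
    rw [card_product, gc_card_H_mem, card_pts] at h2
    calc _ ≤ (q * (q - 1) * ((gcE q f).filter fun e => e x = k.1).card) * q ^ 2 :=
          Nat.mul_le_mul_right _ h2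
      _ = q ^ 2 * (q - 1) * (((gcE q f).filter fun e => e x = k.1).card * q) := by ring
      _ = gadN q := by rw [gc_card_E_eq f x k.1 hk]; rfl

private theorem gc_arith (G q : ℝ) (hG : 0 ≤ G) (hq0 : 0 < q) (hq : 18 ≤ q) :
    G / q + (q + 1) * (18 * (G / q ^ 2)) ≤ 20 * G / q := by
  have h3 : G / q + (q + 1) * (18 * (G / q ^ 2)) = G / q * (1 + 18 * (q + 1) / q) := by
    field_simp
  have h4 : 20 * G / q = G / q * 20 := by ring
  rw [h3, h4]
  apply mul_le_mul_of_nonneg_left _ (div_nonneg hG hq0.le)
  have h5 : 18 * (q + 1) / q ≤ 19 := by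
    rw [div_le_iff₀ hq0]
    linarith
  linarith

/-- Gadgets that contain a line of a given set of lines. -/
theorem sum_card_GadSet_meet {q : ℕ} [Fact q.Prime] (hq : 18 ≤ q) (Λ : Finset (Ln q)) :
    ∑ f : Dir q, (((GadSet q f).filter fun g => ∃ k ∈ gl f g, k ∈ Λ).card : ℝ) ≤
      20 * Λ.card / q * gadN q := by
  have hq0 : (0 : ℝ) < q := by
    have : 0 < q := by omega
    exact_mod_cast this
  have hq18 : (18 : ℝ) ≤ q := by exact_mod_cast hq
  have hN0 : (0 : ℝ) ≤ gadN q := Nat.cast_nonneg _
  have h1 : ∀ f : Dir q, (((GadSet q f).filter fun g => ∃ k ∈ gl f g, k ∈ Λ).card : ℝ) ≤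
      ∑ k ∈ Λ, ((if k.1 = f then (gadN q : ℝ) / q else 0) + 18 * ((gadN q : ℝ) / q ^ 2)) := by
    intro f
    have h2 : ((GadSet q f).filter fun g => ∃ k ∈ gl f g, k ∈ Λ) ⊆
        Λ.biUnion fun k => ((GadSet q f).filter fun g => lf f g = k) ∪
          univ.biUnion fun x : Bool × Fin 9 => (GadSet q f).filter fun g => ml g x = k := by
      intro g hg
      rw [mem_filter] at hg
      obtain ⟨hg, k, hk, hkΛ⟩ := hg
      rw [mem_biUnion]
      refine ⟨k, hkΛ, ?_⟩
      rw [mem_union]
      rw [gl, mem_insert, mem_image] at hk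
      rcases hk with hk | ⟨x, _, hk⟩
      · left
        rw [mem_filter]
        exact ⟨hg, hk.symm⟩
      · right
        rw [mem_biUnion]
        exact ⟨x, mem_univ _, by rw [mem_filter]; exact ⟨hg, hk⟩⟩
    have h3 : ((GadSet q f).filter fun g => ∃ k ∈ gl f g, k ∈ Λ).card ≤
        ∑ k ∈ Λ, (((GadSet q f).filter fun g => lf f g = k).card +
          ∑ x : Bool × Fin 9, ((GadSet q f).filter fun g => ml g x = k).card) := by
      refine (card_le_card h2).trans (card_biUnion_le.trans (sum_le_sum fun k _ => ?_))
      exact (card_union_le _ _).trans (Nat.add_le_add_left card_biUnion_le _)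
    have h4 : (((GadSet q f).filter fun g => ∃ k ∈ gl f g, k ∈ Λ).card : ℝ) ≤
        ∑ k ∈ Λ, ((((GadSet q f).filter fun g => lf f g = k).card : ℝ) +
          ∑ x : Bool × Fin 9, (((GadSet q f).filter fun g => ml g x = k).card : ℝ)) := by
      exact_mod_cast h3
    refine h4.trans (sum_le_sum fun k _ => add_le_add ?_ ?_)
    · have h5 := card_GadSet_lf f k
      split_ifs at h5 ⊢ with hk
      · rw [le_div_iff₀ hq0]
        exact_mod_cast h5
      · have h6 : ((GadSet q f).filter fun g => lf f g = k).card = 0 := by
          have h7 : ((GadSet q f).filter fun g => lf f g = k).card * q = 0 := by omega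
          rcases Nat.mul_eq_zero.1 h7 with h8 | h8
          · exact h8
          · omega
        rw [h6, Nat.cast_zero]
    · have h5 : ∀ x ∈ (univ : Finset (Bool × Fin 9)),
          (((GadSet q f).filter fun g => ml g x = k).card : ℝ) ≤ (gadN q : ℝ) / q ^ 2 := by
        intro x _
        rw [le_div_iff₀ (pow_pos hq0 2)]
        exact_mod_cast card_GadSet_ml f x k
      refine (sum_le_sum h5).trans ?_
      have h9 : (univ : Finset (Bool × Fin 9)).card = 18 := rfl
      rw [sum_const, h9, nsmul_eq_mul]
      exact le_of_eq rfl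
  refine (sum_le_sum fun f _ => h1 f).trans ?_
  rw [sum_comm]
  have h2 : ∀ k ∈ Λ, ∑ f : Dir q,
      ((if k.1 = f then (gadN q : ℝ) / q else 0) + 18 * ((gadN q : ℝ) / q ^ 2)) ≤
        20 * (gadN q : ℝ) / q := by
    intro k _
    rw [sum_add_distrib, sum_ite_eq, if_pos (mem_univ _), sum_const, card_univ, card_Dir,
      nsmul_eq_mul]
    have h6 := gc_arith (gadN q : ℝ) q hN0 hq0 hq18
    rw [Nat.cast_add, Nat.cast_one]
    exact h6
  refine (sum_le_sum h2).trans ?_
  rw [sum_const, nsmul_eq_mul]
  apply le_of_eq
  generalize (gadN q : ℝ) = G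
  ring

end P045
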