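import Vale.Agent.P045R.Nu

/-!
# P045R, module MARG: marginals of the stages
-/

namespace P045

open Finset
open scoped Classical

/-- Greedy count of injective choice functions on `Fin n`. -/
theorem card_inj_fin {α : Type*} [Fintype α] (n : ℕ) (N : ℕ) (A : Fin n → Finset α)
    (hA : ∀ i, N + n ≤ (A i).card) :
    N ^ n ≤ (univ.filter fun e : Fin n → α => Function.Injective e ∧ ∀ i, e i ∈ A i).card := by
  induction n with
  | zero =>
    simp only [pow_zero]
    apply Nat.succ_le_of_lt
    rw [card_pos]
    refine ⟨fun i => i.elim0, ?_⟩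
    simp only [mem_filter, mem_univ, true_and]
    exact ⟨fun i => i.elim0, fun i => i.elim0⟩
  | succ n ih =>
    have ih' := ih (fun i => A i.succ) (fun i => by have := hA i.succ; omega)
    set T : Finset (Fin n → α) :=
      univ.filter fun e : Fin n → α => Function.Injective e ∧ ∀ i, e i ∈ A i.succ with hT
    set U : Finset (Fin (n + 1) → α) :=
      univ.filter fun e : Fin (n + 1) → α => Function.Injective e ∧ ∀ i, e i ∈ A i with hU
    have h1 : (T.sigma fun e => A 0 \ univ.image e).card ≤ U.card := by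
      apply card_le_card_of_injOn (fun p => (Fin.cons p.2 p.1 : Fin (n + 1) → α))
      · rintro ⟨e, a⟩ hp
        simp only [coe_sigma, Set.mem_sigma_iff, mem_coe, mem_sdiff, mem_image, mem_univ,
          true_and, not_exists] at hp
        obtain ⟨he, ha, hne⟩ := hp
        rw [hT, mem_filter] at he
        obtain ⟨-, hinj, hmem⟩ := he
        simp only [hU, coe_filter, mem_univ, true_and, Set.mem_ofPred_eq]
        refine ⟨?_, ?_⟩
        · rw [Fin.cons_injective_iff]
          refine ⟨?_, hinj⟩
          rintro ⟨x, hx⟩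
          exact hne x hx
        · intro i
          refine Fin.cases ?_ ?_ i
          · simpa using ha
          · intro j
            simpa using hmem j
      · rintro ⟨e, a⟩ _ ⟨e', a'⟩ _ h
        simp only at h
        have h0 := Fin.cons_injective2 h
        obtain ⟨h2, h3⟩ := h0
        subst h2
        subst h3
        rfl
    rw [card_sigma] at h1
    have h2 : ∀ e ∈ T, N ≤ (A 0 \ univ.image e).card := by
      intro e _
      have h3 : (univ.image e).card ≤ n := card_image_le.trans (by simp)
      have h4 := le_card_sdiff (univ.image e) (A 0)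
      have h5 := hA 0
      omega
    calc N ^ (n + 1) = N ^ n * N := pow_succ N n
      _ ≤ T.card * N := Nat.mul_le_mul_right _ ih'
      _ = ∑ e ∈ T, N := by rw [sum_const, smul_eq_mul]
      _ ≤ ∑ e ∈ T, (A 0 \ univ.image e).card := sum_le_sum h2
      _ ≤ U.card := h1

/-- The same for a general index type. -/
theorem card_inj_general {ι α : Type*} [Fintype ι] [Fintype α] (n : ℕ) (hn : Fintype.card ι = n)
    (N : ℕ) (A : ι → Finset α) (hA : ∀ i, N + n ≤ (A i).card) :
    N ^ n ≤ (univ.filter fun e : ι → α => Function.Injective e ∧ ∀ i, e i ∈ A i).card := by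
  obtain ⟨φ⟩ : Nonempty (Fin n ≃ ι) := ⟨(Fintype.equivFinOfCardEq hn).symm⟩
  have h := card_inj_fin n N (fun i => A (φ i)) (fun i => hA (φ i))
  refine h.trans ?_
  apply card_le_card_of_injOn (fun e => e ∘ φ.symm)
  · intro e he
    simp only [coe_filter, mem_univ, true_and, Set.mem_ofPred_eq] at he ⊢
    refine ⟨he.1.comp φ.symm.injective, ?_⟩
    intro i
    have := he.2 (φ.symm i)
    simpa using this
  · intro e _ e' _ hee
    funext i
    have := congrFun hee (φ i)
    simpa using this

section
variable {q : ℕ} [Fact q.Prime]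

theorem Sim_subset (S : Dir q → ZMod q) (k : Ln q) : Sim S k ⊆ pts k := by
  unfold Sim
  exact filter_subset _ _

theorem Sim'_subset (S : Dir q → ZMod q) (f : Dir q) : Sim' S f ⊆ pts (f, S f) := by
  unfold Sim'
  split_ifs
  · exact Sim_subset S _
  · exact Subset.refl _

theorem card_Sim'_ge (S : Dir q → ZMod q) (f : Dir q) : (q : ℝ) / 16 ≤ ((Sim' S f).card : ℝ) := by
  unfold Sim'
  split_ifs with h
  · exact h
  · rw [card_pts]
    have : (0 : ℝ) ≤ q := Nat.cast_nonneg q
    linarith

theorem Free'_ne {H : Dir q → Bool → Pt q} {f : Dir q} {s : Bool} {d : Dir q}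
    (h : d ∈ Free' H f s) : d ≠ f := by
  unfold Free' at h
  split_ifs at h with h1
  · unfold Free at h
    rw [mem_filter] at h
    exact h.2.1
  · exact (mem_erase.mp h).1

theorem cF_pos : 0 < cF := by
  unfold cF
  positivity

theorem cF_le_one : cF ≤ 1 := by
  unfold cF
  have : Real.exp (-32) ≤ 1 := Real.exp_le_one_iff.mpr (by norm_num)
  linarith

theorem card_Free'_ge (H : Dir q → Bool → Pt q) (f : Dir q) (s : Bool) :
    cF * q ≤ ((Free' H f s).card : ℝ) := by
  unfold Free'
  split_ifs with h
  · exact h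
  · rw [card_erase_of_mem (mem_univ _), card_univ, card_Dir, Nat.add_sub_cancel]
    have h1 : (0 : ℝ) ≤ q := Nat.cast_nonneg q
    have h2 := cF_le_one
    nlinarith

theorem card_HB_eq (S : Dir q → ZMod q) (f : Dir q) :
    (HB S f).card = (Sim' S f).card * (Sim' S f).card - (Sim' S f).card := by
  rw [← offDiag_card]
  apply card_bij (fun h _ => (h false, h true))
  · intro h hh
    unfold HB at hh
    rw [mem_filter] at hh
    rw [mem_offDiag]
    exact ⟨hh.2.1 false, hh.2.1 true, hh.2.2⟩
  · intro h _ h' _ e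
    simp only [Prod.mk.injEq] at e
    funext s
    cases s
    · exact e.1
    · exact e.2
  · intro p hp
    rw [mem_offDiag] at hp
    refine ⟨fun s => if s then p.2 else p.1, ?_, ?_⟩
    · unfold HB
      rw [mem_filter]
      refine ⟨mem_univ _, ?_, ?_⟩
      · intro s
        cases s
        · simpa using hp.1
        · simpa using hp.2.1
      · simpa using hp.2.2
    · simp

theorem card_Sim'_ge_two (hq : 32 ≤ q) (S : Dir q → ZMod q) (f : Dir q) :
    2 ≤ (Sim' S f).card := by
  have h1 := card_Sim'_ge S f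
  have h2 : (32 : ℝ) ≤ q := by exact_mod_cast hq
  have h3 : (2 : ℝ) ≤ ((Sim' S f).card : ℝ) := by linarith
  exact_mod_cast h3

theorem card_HB_cast (hq : 32 ≤ q) (S : Dir q → ZMod q) (f : Dir q) :
    ((HB S f).card : ℝ) = ((Sim' S f).card : ℝ) * (((Sim' S f).card : ℝ) - 1) := by
  have h2 := card_Sim'_ge_two hq S f
  rw [card_HB_eq, Nat.cast_sub (by nlinarith)]
  push_cast
  ring

theorem card_HB_ge (hq : 32 ≤ q) (S : Dir q → ZMod q) (f : Dir q) :
    (q : ℝ) ^ 2 / 512 ≤ ((HB S f).card : ℝ) := by
  rw [card_HB_cast hq]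
  have h1 := card_Sim'_ge S f
  have h2 : (2 : ℝ) ≤ ((Sim' S f).card : ℝ) := by exact_mod_cast card_Sim'_ge_two hq S f
  have h3 : (0 : ℝ) ≤ q := Nat.cast_nonneg q
  have h4 : ((Sim' S f).card : ℝ) / 2 ≤ ((Sim' S f).card : ℝ) - 1 := by linarith
  have h5 : ((Sim' S f).card : ℝ) * (((Sim' S f).card : ℝ) / 2) ≤
      ((Sim' S f).card : ℝ) * (((Sim' S f).card : ℝ) - 1) :=
    mul_le_mul_of_nonneg_left h4 (by linarith)
  refine le_trans ?_ h5
  have h6 : ((q : ℝ) / 16) ^ 2 ≤ ((Sim' S f).card : ℝ) ^ 2 := by
    apply pow_le_pow_left₀ (by positivity) h1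
  nlinarith

/-- Marginal of a hub. -/
theorem HB_marg (hq : 32 ≤ q) (S : Dir q → ZMod q) (f : Dir q) (s : Bool) (x : Pt q) :
    (((HB S f).filter fun h => h s = x).card : ℝ) ≤ 16 / q * (HB S f).card := by
  have hq0 : (0 : ℝ) < q := by
    have : (32 : ℝ) ≤ q := by exact_mod_cast hq
    linarith
  have h2 := card_Sim'_ge_two hq S f
  have h1 := card_Sim'_ge S f
  have hcard : ((HB S f).filter fun h => h s = x).card ≤ (Sim' S f).card - 1 := by
    by_cases hx : x ∈ Sim' S f
    · rw [← card_erase_of_mem hx]
      apply card_le_card_of_injOn (fun h => h (!s))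
      · intro h hh
        simp only [coe_filter, Set.mem_ofPred_eq] at hh
        obtain ⟨hh, hs⟩ := hh
        unfold HB at hh
        rw [mem_filter] at hh
        obtain ⟨-, h3, h4⟩ := hh
        simp only [coe_erase, Set.mem_sdiff, mem_coe, Set.mem_singleton_iff]
        refine ⟨h3 _, ?_⟩
        rw [← hs]
        cases s
        · exact fun e => h4 e.symm
        · exact h4
      · intro h hh h' hh' e
        simp only [coe_filter, Set.mem_ofPred_eq] at hh hh'
        have e' : h (!s) = h' (!s) := e
        funext t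
        by_cases ht : t = s
        · rw [ht, hh.2, hh'.2]
        · have : t = !s := by
            cases s <;> cases t <;> simp_all
          rw [this, e']
    · have : ((HB S f).filter fun h => h s = x) = ∅ := by
        rw [filter_eq_empty_iff]
        intro h hh e
        unfold HB at hh
        rw [mem_filter] at hh
        exact hx (e ▸ hh.2.1 s)
      rw [this, card_empty]
      exact Nat.zero_le _
  have h3 : (((HB S f).filter fun h => h s = x).card : ℝ) ≤ ((Sim' S f).card : ℝ) - 1 := by
    have : (((HB S f).filter fun h => h s = x).card : ℝ) ≤ (((Sim' S f).card - 1 : ℕ) : ℝ) := by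
      exact_mod_cast hcard
    rwa [Nat.cast_sub (by omega), Nat.cast_one] at this
  rw [card_HB_cast hq]
  refine h3.trans ?_
  have h4 : (0 : ℝ) ≤ ((Sim' S f).card : ℝ) - 1 := by
    have : (2 : ℝ) ≤ ((Sim' S f).card : ℝ) := by exact_mod_cast h2
    linarith
  have h5 : 1 ≤ 16 / (q : ℝ) * ((Sim' S f).card : ℝ) := by
    rw [div_mul_eq_mul_div, le_div_iff₀ hq0]
    linarith
  calc ((Sim' S f).card : ℝ) - 1 = 1 * (((Sim' S f).card : ℝ) - 1) := (one_mul _).symm
    _ ≤ 16 / (q : ℝ) * ((Sim' S f).card : ℝ) * (((Sim' S f).card : ℝ) - 1) :=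
        mul_le_mul_of_nonneg_right h5 h4
    _ = 16 / (q : ℝ) * (((Sim' S f).card : ℝ) * (((Sim' S f).card : ℝ) - 1)) := by ring

/-- Constant for the marginal of a direction. -/
noncomputable def kC : ℝ := (2 / cF) ^ 18

theorem kC_pos : 0 < kC := by
  unfold kC
  have := cF_pos
  positivity

theorem card_EC_ge (hq : 36 / cF ≤ q) (H : Dir q → Bool → Pt q) (f : Dir q) :
    (cF * q / 2) ^ 18 ≤ ((EC H f).card : ℝ) := by
  have hc := cF_pos
  have h36 : 36 ≤ cF * q := by
    rw [div_le_iff₀ hc] at hq
    linarith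
  set N : ℕ := ⌈cF * q / 2⌉₊ with hN
  have hN1 : cF * q / 2 ≤ N := Nat.le_ceil _
  have hN2 : (N : ℝ) < cF * q / 2 + 1 := Nat.ceil_lt_add_one (by positivity)
  have hmain : N ^ 18 ≤ (EC H f).card := by
    have h := card_inj_general (ι := Bool × Fin 9) (α := Dir q) 18 (by simp) N
      (fun x => Free' H f x.1) ?_
    · unfold EC
      refine h.trans (le_of_eq ?_)
      refine congrArg Finset.card ?_
      ext e
      simp only [mem_filter, mem_univ, true_and]
    · intro x
      have h1 := card_Free'_ge H f x.1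
      have h2 : ((N + 18 : ℕ) : ℝ) < ((Free' H f x.1).card : ℝ) + 1 := by
        push_cast
        linarith
      have h3 : N + 18 < (Free' H f x.1).card + 1 := by exact_mod_cast h2
      omega
  calc (cF * q / 2) ^ 18 ≤ (N : ℝ) ^ 18 := pow_le_pow_left₀ (by positivity) hN1 18
    _ ≤ ((EC H f).card : ℝ) := by exact_mod_cast hmain

/-- Marginal of a direction: at most `q^17` tuples have `e y = d`. -/
theorem EC_marg (hq : 36 / cF ≤ q) (H : Dir q → Bool → Pt q) (f : Dir q) (y : Bool × Fin 9)
    (d : Dir q) :
    (((EC H f).filter fun e => e y = d).card : ℝ) ≤ kC / q * (EC H f).card := by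
  have hc := cF_pos
  have hq0 : (0 : ℝ) < q := lt_of_lt_of_le (by positivity) hq
  have h1 := card_EC_ge hq H f
  have h2 : ((EC H f).filter fun e => e y = d).card ≤ q ^ 17 := by
    have h3 : ((EC H f).filter fun e => e y = d).card ≤
        (Fintype.piFinset fun x : Bool × Fin 9 => if x = y then {d} else univ.erase f).card := by
      apply card_le_card
      intro e he
      rw [mem_filter] at he
      obtain ⟨he, hy⟩ := he
      unfold EC at he
      rw [mem_filter] at he
      rw [Fintype.mem_piFinset]
      intro x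
      split_ifs with hx
      · rw [hx, hy]
        exact mem_singleton_self _
      · rw [mem_erase]
        exact ⟨Free'_ne (he.2.2 x), mem_univ _⟩
    refine h3.trans ?_
    rw [Fintype.card_piFinset]
    have h4 : ∀ x : Bool × Fin 9, (if x = y then ({d} : Finset (Dir q)) else univ.erase f).card =
        if x = y then 1 else q := by
      intro x
      split_ifs
      · exact card_singleton _
      · rw [card_erase_of_mem (mem_univ _), card_univ, card_Dir, Nat.add_sub_cancel]
    rw [prod_congr rfl (fun x _ => h4 x)]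
    rw [prod_ite]
    simp only [prod_const_one, one_mul, prod_const]
    apply Nat.pow_le_pow_right (by
      have : (0 : ℝ) < q := hq0
      exact_mod_cast this)
    have h5 : (univ.filter fun x : Bool × Fin 9 => ¬ x = y) = univ.erase y := by
      ext x
      simp
    rw [h5, card_erase_of_mem (mem_univ _)]
    simp
  have h3 : (((EC H f).filter fun e => e y = d).card : ℝ) ≤ (q : ℝ) ^ 17 := by exact_mod_cast h2
  refine h3.trans ?_
  have h4 : kC / q * (cF * q / 2) ^ 18 ≤ kC / q * ((EC H f).card : ℝ) := by
    apply mul_le_mul_of_nonneg_left h1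
    have := kC_pos
    positivity
  refine le_trans (le_of_eq ?_) h4
  unfold kC
  field_simp

theorem lf_mk {S : Dir q → ZMod q} {H : Dir q → Bool → Pt q} (hH : H ∈ OB S)
    (e : Dir q → Bool × Fin 9 → Dir q) (f : Dir q) : lf f (mk H e f) = (f, S f) := by
  unfold OB at hH
  rw [Fintype.mem_piFinset] at hH
  have h1 := hH f
  unfold HB at h1
  rw [mem_filter] at h1
  have h2 := Sim'_subset S f (h1.2.1 true)
  rw [mem_pts] at h2
  unfold lf mk thr
  exact Prod.ext rfl h2

theorem mk_mem_GadSet {S : Dir q → ZMod q} {H : Dir q → Bool → Pt q} (hH : H ∈ OB S) {f : Dir q}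
    {ε : Bool × Fin 9 → Dir q} (he : ε ∈ EC H f) : ((H f, ε) : Gd q) ∈ GadSet q f := by
  rw [mem_GadSet]
  have hl : lf f ((H f, ε) : Gd q) = (f, S f) := lf_mk hH (fun _ => ε) f
  unfold OB at hH
  rw [Fintype.mem_piFinset] at hH
  have h1 := hH f
  unfold HB at h1
  rw [mem_filter] at h1
  unfold EC at he
  rw [mem_filter] at he
  refine ⟨?_, h1.2.2, he.2.1, fun x => Free'_ne (he.2.2 x)⟩
  rw [hl]
  exact Sim'_subset S f (h1.2.1 false)

theorem mk_mem_All {S : Dir q → ZMod q} {H : Dir q → Bool → Pt q} (hH : H ∈ OB S)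
    {e : Dir q → Bool × Fin 9 → Dir q} (he : e ∈ OC H) : mk H e ∈ All q := by
  rw [mem_All]
  intro f
  unfold OC at he
  rw [Fintype.mem_piFinset] at he
  exact mk_mem_GadSet hH (he f)

end

end P045
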