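import Vale.Agent.P045R.Tools
import Vale.Agent.P045R.Marg

/-!
# P045R, module HIT: number of gadgets meeting a given set of lines
-/

namespace P045

open Finset
open scoped Classical

namespace Hit

section
variable {q : ℕ} [Fact q.Prime]

/-- lines of `Λ` through `p`, not of direction `f` -/
noncomputable def Nf (Λ : Finset (Ln q)) (f : Dir q) (p : Pt q) : ℝ :=
  ((Λ.filter fun l => l.1 ≠ f ∧ p ∈ pts l).card : ℝ)

theorem sum_ind {α : Type*} (s : Finset α) (P : α → Prop) [DecidablePred P] :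
    ∑ a ∈ s, ind (P a) = ((s.filter P).card : ℝ) := by
  unfold ind
  rw [Finset.card_filter]
  push_cast
  refine Finset.sum_congr rfl fun a _ => ?_
  by_cases h : P a
  · rw [if_pos h, if_pos h]
  · rw [if_neg h, if_neg h]

theorem avg_ind {α : Type*} (s : Finset α) (P : α → Prop) [DecidablePred P] :
    avg s (fun a => ind (P a)) = ((s.filter P).card : ℝ) / s.card := by
  unfold avg
  rw [sum_ind]

theorem avg_pi_prod' {ι α : Type*} [Fintype ι] [inst : DecidableEq ι] (A : ι → Finset α)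
    (hA : ∀ i, (A i).Nonempty) (M : Finset ι) (F : ι → α → ℝ) :
    avg (Fintype.piFinset A) (fun w => ∏ i ∈ M, F i (w i)) = ∏ i ∈ M, avg (A i) (F i) := by
  have h := avg_pi_prod A hA M F
  have hd : inst = (fun a b => Classical.propDecidable (a = b)) := Subsingleton.elim _ _
  subst hd
  exact h

theorem avg_ind_le {α : Type*} (s : Finset α) (P : α → Prop) [DecidablePred P] {c : ℝ}
    (hc : 0 ≤ c)
    (h : ((s.filter P).card : ℝ) ≤ c * s.card) : avg s (fun a => ind (P a)) ≤ c := by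
  rw [avg_ind]
  rcases Nat.eq_zero_or_pos s.card with h0 | h0
  · rw [h0, Nat.cast_zero, div_zero]
    exact hc
  · rw [div_le_iff₀ (by exact_mod_cast h0)]
    exact h

theorem ind_le_sum {α : Type*} (s : Finset α) (P : Prop) (Q : α → Prop)
    (h : P → ∃ a ∈ s, Q a) : ind P ≤ ∑ a ∈ s, ind (Q a) := by
  by_cases hP : P
  · obtain ⟨a, ha, hQ⟩ := h hP
    calc ind P ≤ ind (Q a) := by
          unfold ind
          rw [if_pos hP, if_pos hQ]
      _ ≤ ∑ a ∈ s, ind (Q a) :=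
          Finset.single_le_sum (f := fun a => ind (Q a)) (fun _ _ => ind_nonneg _) ha
  · unfold ind
    rw [if_neg hP]
    exact Finset.sum_nonneg fun a _ => by split_ifs <;> norm_num

/-- stage C, one direction -/
theorem stageC (hq : 36 / cF ≤ q) (Λ : Finset (Ln q)) (H : Dir q → Bool → Pt q) (f : Dir q)
    (y : Bool × Fin 9) (p : Pt q) :
    avg (EC H f) (fun ε => ind (thr (ε y) p ∈ Λ)) ≤ kC / q * Nf Λ f p := by
  have hkC : 0 ≤ kC / q := by
    unfold kC cF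
    positivity
  have h0 : ∀ ε ∈ EC H f, ind (thr (ε y) p ∈ Λ)
      ≤ ∑ l ∈ Λ.filter (fun l => l.1 ≠ f ∧ p ∈ pts l), ind (ε y = l.1) := by
    intro ε hε
    refine ind_le_sum (Λ.filter (fun l => l.1 ≠ f ∧ p ∈ pts l)) (thr (ε y) p ∈ Λ)
      (fun l => ε y = l.1) ?_
    intro hl
    refine ⟨thr (ε y) p, ?_, rfl⟩
    rw [mem_filter]
    refine ⟨hl, ?_, mem_pts_thr _ _⟩
    have h2 : ε y ∈ Free' H f y.1 := ((mem_filter.1 hε).2).2 y
    exact Free'_ne h2
  have h1 := avg_mono (EC H f) h0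
  refine h1.trans ?_
  rw [avg_sum (EC H f) (Λ.filter (fun l => l.1 ≠ f ∧ p ∈ pts l)) (fun l ε => ind (ε y = l.1))]
  have h3 : ∀ l ∈ Λ.filter (fun l => l.1 ≠ f ∧ p ∈ pts l),
      avg (EC H f) (fun ε => ind (ε y = l.1)) ≤ kC / q := by
    intro l _
    exact avg_ind_le (EC H f) (fun ε => ε y = l.1) hkC (EC_marg hq H f y l.1)
  refine (Finset.sum_le_sum h3).trans ?_
  rw [Finset.sum_const, nsmul_eq_mul, mul_comm]
  exact le_refl _

/-- stage B, one hub -/
theorem stageB (hq : 32 ≤ q) (Λ : Finset (Ln q)) (S : Dir q → ZMod q) (f : Dir q) (s : Bool) :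
    avg (HB S f) (fun h => Nf Λ f (h s)) ≤ 16 / q * Λ.card := by
  have h0 : ∀ p, Nf Λ f p = ∑ l ∈ Λ.filter (fun l => l.1 ≠ f), ind (p ∈ pts l) := by
    intro p
    rw [sum_ind, Finset.filter_filter]
    rfl
  simp only [h0]
  rw [avg_sum]
  have hq0 : (0 : ℝ) ≤ 16 / q := by positivity
  have h1 : ∀ l ∈ Λ.filter (fun l => l.1 ≠ f),
      avg (HB S f) (fun h => ind (h s ∈ pts l)) ≤ 16 / q := by
    intro l hl
    have hlf : l.1 ≠ f := (mem_filter.1 hl).2
    refine avg_ind_le (HB S f) (fun h => h s ∈ pts l) hq0 ?_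
    refine le_trans ?_ (HB_marg hq S f s (meet (f, S f) l))
    norm_cast
    refine Finset.card_le_card fun h hh => ?_
    rw [mem_filter] at hh ⊢
    refine ⟨hh.1, ?_⟩
    have h2 : h s ∈ Sim' S f := ((mem_filter.1 hh.1).2).1 s
    exact eq_meet (l := (f, S f)) (k := l) (Ne.symm hlf) (Sim'_subset S f h2) hh.2
  refine (Finset.sum_le_sum h1).trans ?_
  rw [Finset.sum_const, nsmul_eq_mul, mul_comm]
  refine mul_le_mul_of_nonneg_left ?_ hq0
  exact_mod_cast Finset.card_filter_le _ _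

theorem EC_nonempty (hq : 36 / cF ≤ q) (H : Dir q → Bool → Pt q) (f : Dir q) :
    (EC H f).Nonempty := by
  rw [← Finset.card_pos]
  have h1 := card_EC_ge hq H f
  have hc : 0 < cF := by unfold cF; positivity
  have hq0 : (0 : ℝ) < q := lt_of_lt_of_le (by positivity) hq
  have h2 : (0 : ℝ) < (cF * q / 2) ^ 18 := by positivity
  exact_mod_cast h2.trans_le h1

theorem HB_nonempty (hq : 32 ≤ q) (S : Dir q → ZMod q) (f : Dir q) : (HB S f).Nonempty := by
  rw [← Finset.card_pos]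
  have h1 := card_HB_ge hq S f
  have hq0 : (0 : ℝ) < q := by
    have : (32 : ℝ) ≤ q := by exact_mod_cast hq
    linarith
  have h2 : (0 : ℝ) < (q : ℝ) ^ 2 / 512 := by positivity
  exact_mod_cast h2.trans_le h1

/-- the hit indicator -/
theorem hit_le (Λ : Finset (Ln q)) {S : Dir q → ZMod q} {H : Dir q → Bool → Pt q} (hH : H ∈ OB S)
    (e : Dir q → Bool × Fin 9 → Dir q) (f : Dir q) :
    ind (∃ k ∈ gl f (mk H e f), k ∈ Λ) ≤ ind ((f, S f) ∈ Λ)
      + ∑ y, ind (thr (e f y) (H f y.1) ∈ Λ) := by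
  by_cases h : ∃ k ∈ gl f (mk H e f), k ∈ Λ
  · obtain ⟨k, hk, hkΛ⟩ := h
    unfold gl at hk
    rw [mem_insert, mem_image] at hk
    have hn1 : (0 : ℝ) ≤ ∑ y, ind (thr (e f y) (H f y.1) ∈ Λ) :=
      Finset.sum_nonneg fun _ _ => ind_nonneg _
    have hn2 := ind_nonneg ((f, S f) ∈ Λ)
    have hle := ind_le_one (∃ k ∈ gl f (mk H e f), k ∈ Λ)
    rcases hk with rfl | ⟨y, _, rfl⟩
    · rw [lf_mk hH] at hkΛ
      have : ind ((f, S f) ∈ Λ) = 1 := by
        unfold ind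
        rw [if_pos hkΛ]
      linarith
    · have h1 : thr (e f y) (H f y.1) ∈ Λ := hkΛ
      have h2 : ind (thr (e f y) (H f y.1) ∈ Λ) = 1 := by
        unfold ind
        rw [if_pos h1]
      have h3 : ind (thr (e f y) (H f y.1) ∈ Λ) ≤ ∑ y, ind (thr (e f y) (H f y.1) ∈ Λ) :=
        Finset.single_le_sum (f := fun y => ind (thr (e f y) (H f y.1) ∈ Λ))
          (fun _ _ => ind_nonneg _) (mem_univ y)
      linarith
  · have h0 : ind (∃ k ∈ gl f (mk H e f), k ∈ Λ) = 0 := by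
      unfold ind
      rw [if_neg h]
    rw [h0]
    exact add_nonneg (ind_nonneg _) (Finset.sum_nonneg fun _ _ => ind_nonneg _)

/-- stage C for a product -/
theorem prodC (hq : 36 / cF ≤ q) (Λ : Finset (Ln q)) {S : Dir q → ZMod q}
    {H : Dir q → Bool → Pt q} (hH : H ∈ OB S) (M : Finset (Dir q)) :
    avg (OC H) (fun e => ∏ f ∈ M, ind (∃ k ∈ gl f (mk H e f), k ∈ Λ)) ≤
      ∏ f ∈ M, (ind ((f, S f) ∈ Λ) + 9 * (kC / q) * ∑ s, Nf Λ f (H f s)) := by
  have h1 : avg (OC H) (fun e => ∏ f ∈ M, ind (∃ k ∈ gl f (mk H e f), k ∈ Λ)) ≤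
      avg (OC H) (fun e => ∏ f ∈ M, (ind ((f, S f) ∈ Λ)
        + ∑ y, ind (thr (e f y) (H f y.1) ∈ Λ))) :=
    avg_mono _ fun e _ => Finset.prod_le_prod (fun _ _ => ind_nonneg _) fun f _ => hit_le Λ hH e f
  refine h1.trans ?_
  unfold OC
  rw [avg_pi_prod' (EC H) (EC_nonempty hq H) M
    (fun f ε => ind ((f, S f) ∈ Λ) + ∑ y, ind (thr (ε y) (H f y.1) ∈ Λ))]
  refine Finset.prod_le_prod (fun f _ => avg_nonneg _ fun ε _ =>
    add_nonneg (ind_nonneg _) (Finset.sum_nonneg fun _ _ => ind_nonneg _)) fun f _ => ?_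
  rw [avg_add, avg_const (EC_nonempty hq H f), avg_sum]
  refine add_le_add (le_refl _) ?_
  refine (Finset.sum_le_sum fun y _ => stageC hq Λ H f y (H f y.1)).trans ?_
  rw [Fintype.sum_prod_type]
  simp only [Finset.sum_const, Finset.card_univ, Fintype.card_fin, nsmul_eq_mul]
  rw [Finset.mul_sum]
  refine Finset.sum_le_sum fun s _ => ?_
  push_cast
  linarith

/-- stage B for a product -/
theorem prodB (hq : 32 ≤ q) (Λ : Finset (Ln q)) (S : Dir q → ZMod q) (M : Finset (Dir q))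
    {B : ℝ} (hΛ : (Λ.card : ℝ) ≤ B * q) :
    avg (OB S) (fun H => ∏ f ∈ M, (ind ((f, S f) ∈ Λ) + 9 * (kC / q) * ∑ s, Nf Λ f (H f s))) ≤
      ∏ f ∈ M, (ind ((f, S f) ∈ Λ) + 288 * B * kC / q) := by
  have hkC : 0 ≤ kC := by
    unfold kC cF
    positivity
  have hq0 : (0 : ℝ) < q := by
    have : (32 : ℝ) ≤ q := by exact_mod_cast hq
    linarith
  have hNf : ∀ f p, 0 ≤ Nf Λ f p := fun f p => Nat.cast_nonneg _
  unfold OB
  rw [avg_pi_prod' (HB S) (HB_nonempty hq S) M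
    (fun f h => ind ((f, S f) ∈ Λ) + 9 * (kC / q) * ∑ s, Nf Λ f (h s))]
  refine Finset.prod_le_prod (fun f _ => avg_nonneg _ fun h _ =>
    add_nonneg (ind_nonneg _) (mul_nonneg (by positivity)
      (Finset.sum_nonneg fun _ _ => hNf _ _))) fun f _ => ?_
  rw [avg_add, avg_const (HB_nonempty hq S f), avg_smul, avg_sum]
  refine add_le_add (le_refl _) ?_
  have h1 : ∑ s : Bool, avg (HB S f) (fun h => Nf Λ f (h s)) ≤ 32 * B := by
    have h2 : ∀ s : Bool, avg (HB S f) (fun h => Nf Λ f (h s)) ≤ 16 * B := by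
      intro s
      refine (stageB hq Λ S f s).trans ?_
      calc 16 / (q : ℝ) * Λ.card ≤ 16 / q * (B * q) := by gcongr
        _ = 16 * B := by field_simp
    rw [Fintype.sum_bool]
    linarith [h2 true, h2 false]
  calc 9 * (kC / q) * ∑ s : Bool, avg (HB S f) (fun h => Nf Λ f (h s))
      ≤ 9 * (kC / q) * (32 * B) := by gcongr
    _ = 288 * B * kC / q := by ring

/-- stage A for a product -/
theorem prodA (Λ : Finset (Ln q)) (M : Finset (Dir q)) (D : ℝ) :
    avg (univ : Finset (Dir q → ZMod q)) (fun S => ∏ f ∈ M, (ind ((f, S f) ∈ Λ) + D)) =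
      ∏ f ∈ M, (((univ.filter fun a : ZMod q => (f, a) ∈ Λ).card : ℝ) / q + D) := by
  have h0 : (univ : Finset (Dir q → ZMod q)) = Fintype.piFinset fun _ => univ := by
    rw [Fintype.piFinset_univ]
  rw [h0, avg_pi_prod' (fun _ : Dir q => (univ : Finset (ZMod q))) (fun _ => univ_nonempty) M
    (fun f a => ind ((f, a) ∈ Λ) + D)]
  refine Finset.prod_congr rfl fun f _ => ?_
  rw [avg_add, avg_const univ_nonempty, avg_ind, Finset.card_univ, ZMod.card]

theorem sum_fib (Λ : Finset (Ln q)) :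
    ∑ f : Dir q, (univ.filter fun a : ZMod q => (f, a) ∈ Λ).card = Λ.card := by
  have h1 : ∀ f : Dir q, (univ.filter fun a : ZMod q => (f, a) ∈ Λ).card
      = (Λ.filter fun l => l.1 = f).card := by
    intro f
    refine Finset.card_bij (fun a _ => ((f, a) : Ln q)) ?_ ?_ ?_
    · intro a ha
      rw [mem_filter] at ha ⊢
      exact ⟨ha.2, rfl⟩
    · intro a _ b _ h
      exact congrArg Prod.snd h
    · intro l hl
      rw [mem_filter] at hl
      refine ⟨l.2, ?_, ?_⟩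
      · rw [mem_filter]
        refine ⟨mem_univ _, ?_⟩
        rw [← hl.2]
        exact hl.1
      · rw [← hl.2]
  rw [Finset.sum_congr rfl fun f _ => h1 f]
  exact (Finset.card_eq_sum_card_fiberwise (s := Λ) (t := univ) (f := fun l => l.1)
    (fun _ _ => mem_univ _)).symm

/-- the value of one direction -/
noncomputable def xf (Λ : Finset (Ln q)) (D : ℝ) (f : Dir q) : ℝ :=
  ((univ.filter fun a : ZMod q => (f, a) ∈ Λ).card : ℝ) / q + D

theorem hits_eq (Λ : Finset (Ln q)) (m : ℕ) (c : Dir q → Gd q) :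
    ((hits c Λ).choose m : ℝ) = ∑ M ∈ (univ : Finset (Dir q)).powersetCard m,
      ∏ f ∈ M, ind (∃ k ∈ gl f (c f), k ∈ Λ) := by
  have h := choose_card_eq (fun f => ∃ k ∈ gl f (c f), k ∈ Λ) m
  rw [← h]
  unfold hits
  refine congrArg (fun z : ℕ => ((z.choose m : ℕ) : ℝ)) (congrArg Finset.card ?_)
  ext e
  simp only [mem_filter, mem_univ, true_and]

theorem term_le (hq32 : 32 ≤ q) (hqc : 36 / cF ≤ q) (Λ : Finset (Ln q)) {B : ℝ}
    (hΛ : (Λ.card : ℝ) ≤ B * q) (M : Finset (Dir q)) :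
    Enu (fun c => ∏ f ∈ M, ind (∃ k ∈ gl f (c f), k ∈ Λ))
      ≤ ∏ f ∈ M, xf Λ (288 * B * kC / q) f := by
  have h1 := prodA Λ M (288 * B * kC / q)
  have h2 : (∏ f ∈ M, xf Λ (288 * B * kC / q) f)
      = ∏ f ∈ M, (((univ.filter fun a : ZMod q => (f, a) ∈ Λ).card : ℝ) / q
        + 288 * B * kC / q) := rfl
  rw [h2, ← h1]
  unfold Enu
  refine avg_mono _ fun S _ => ?_
  refine (avg_mono _ fun H hH => prodC hqc Λ hH M).trans ?_
  exact prodB hq32 Λ S M hΛ

theorem sum_xf (hq32 : 32 ≤ q) (Λ : Finset (Ln q)) {B E : ℝ} (hE : 0 ≤ E)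
    (hΛ : (Λ.card : ℝ) ≤ B * q) : ∑ f, xf Λ (E / q) f ≤ B + 2 * E := by
  have hq1 : (32 : ℝ) ≤ q := by exact_mod_cast hq32
  have hq0 : (0 : ℝ) < q := by linarith
  unfold xf
  rw [Finset.sum_add_distrib, ← Finset.sum_div, Finset.sum_const, Finset.card_univ, card_Dir,
    nsmul_eq_mul]
  have h3 : (∑ f : Dir q, ((univ.filter fun a : ZMod q => (f, a) ∈ Λ).card : ℝ)) = Λ.card := by
    exact_mod_cast sum_fib Λ
  rw [h3]
  have h4 : (Λ.card : ℝ) / q ≤ B := by
    rw [div_le_iff₀ hq0]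
    exact hΛ
  have h5 : ((q + 1 : ℕ) : ℝ) * (E / q) ≤ 2 * E := by
    have h6 : ((q + 1 : ℕ) : ℝ) ≤ 2 * q := by
      push_cast
      linarith
    calc ((q + 1 : ℕ) : ℝ) * (E / q) ≤ 2 * q * (E / q) := by gcongr
      _ = 2 * E := by field_simp
  linarith

end

end Hit

open Hit

/-- `choose (hits c Λ) m = ∑_{|M| = m} ∏_{f ∈ M} ind (gadget f hit)` (`choose_card_eq`), and
`ind (hit) ≤ ind (l_f ∈ Λ) + ∑_y ind (thr (e f y) (H f y.1) ∈ Λ)`.  Stage C (`avg_pi_prod`, `EC_marg`):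
the last sum has average `≤ 9 (kC/q) ∑_s #{λ ∈ Λ : λ ≠ l_f, H f s ∈ λ}`; stage B (`HB_marg`): average
`≤ 18 (kC/q)(16/q)|Λ| ≤ C'/q`; stage A: `ind ((f, S f) ∈ Λ)` has average `|Λ_f|/q`, so
`∏_{f ∈ M} (|Λ_f|/q + C'/q)`; `esym_le`. -/
theorem hit (B : ℝ) (hB : 0 < B) : ∃ C > 0, ∃ q₀ : ℕ, ∀ q ≥ q₀, ∀ [Fact q.Prime],
    ∀ Λ : Finset (Ln q), (Λ.card : ℝ) ≤ B * q → ∀ m : ℕ,
      Enu (fun c => ((hits c Λ).choose m : ℝ)) ≤ C ^ m / m.factorial := by
  have hkC : 0 < kC := by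
    unfold kC cF
    positivity
  have hE : 0 < 288 * B * kC := by positivity
  refine ⟨B + 2 * (288 * B * kC), by positivity, max 32 ⌈36 / cF⌉₊, ?_⟩
  intro q hq _ Λ hΛ m
  have hq32 : 32 ≤ q := (le_max_left _ _).trans hq
  have hqc : 36 / cF ≤ q := (Nat.le_ceil _).trans (by exact_mod_cast (le_max_right _ _).trans hq)
  simp only [hits_eq]
  rw [Enu_sum]
  refine (Finset.sum_le_sum fun M _ => term_le hq32 hqc Λ hΛ M).trans ?_
  have hx0 : ∀ f, 0 ≤ xf Λ (288 * B * kC / q) f := fun f => by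
    unfold xf
    exact add_nonneg (by positivity) (div_nonneg hE.le (Nat.cast_nonneg _))
  refine (esym_le (xf Λ (288 * B * kC / q)) hx0 m).trans ?_
  refine div_le_div_of_nonneg_right ?_ (Nat.cast_nonneg _)
  exact pow_le_pow_left₀ (Finset.sum_nonneg fun f _ => hx0 f) (sum_xf hq32 Λ hE.le hΛ) m

end P045
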