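import Mathlib

/-!
# P045R: hypergraphs, covering number, matching number, Ryser's conjecture
-/

namespace P045

open Finset

/-- The hypergraph with edge set `H` on the vertex set `V` is `r`-partite `r`-uniform with parts
`{v | part v = i}`: every edge contains exactly one vertex of each part. -/
def IsPartiteUniform {V : Type} (r : ℕ) (part : V → Fin r) (H : Finset (Finset V)) : Prop :=
  ∀ e ∈ H, ∀ i : Fin r, ∃! v, v ∈ e ∧ part v = i

/-- A set of vertices meeting every edge. -/
def IsCover {V : Type} (H : Finset (Finset V)) (X : Finset V) : Prop :=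
  ∀ e ∈ H, ∃ v ∈ e, v ∈ X

/-- A set of pairwise disjoint edges. -/
def IsMatching {V : Type} (H : Finset (Finset V)) (M : Finset (Finset V)) : Prop :=
  M ⊆ H ∧ ∀ e ∈ M, ∀ e' ∈ M, e ≠ e' → Disjoint e e'

/-- The covering number. -/
noncomputable def tau {V : Type} (H : Finset (Finset V)) : ℕ :=
  sInf {n | ∃ X : Finset V, IsCover H X ∧ X.card = n}

/-- The matching number. -/
noncomputable def nu {V : Type} (H : Finset (Finset V)) : ℕ :=
  sSup {n | ∃ M : Finset (Finset V), IsMatching H M ∧ M.card = n}

/-- At least one edge, and every two edges share a vertex. -/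
def IsIntersecting {V : Type} (H : Finset (Finset V)) : Prop :=
  H.Nonempty ∧ ∀ e ∈ H, ∀ e' ∈ H, ∃ v, v ∈ e ∧ v ∈ e'

/-- Ryser's conjecture (all `r ≥ 2`, all finite `r`-partite `r`-uniform hypergraphs). -/
def RyserConjecture : Prop :=
  ∀ r : ℕ, 2 ≤ r → ∀ (V : Type) [Fintype V] (part : V → Fin r) (H : Finset (Finset V)),
    IsPartiteUniform r part H → tau H ≤ (r - 1) * nu H

/-- The intersecting case. -/
def RyserIntersecting (r : ℕ) : Prop :=
  ∀ (V : Type) [Fintype V] (part : V → Fin r) (H : Finset (Finset V)),
    IsPartiteUniform r part H → IsIntersecting H → tau H ≤ r - 1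

end P045
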