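import Mathlib

/-!
# P045R, module MCD: bounded differences inequality (McDiarmid) on a product of finite sets

Counting form: `A : ι → Finset α`, `f` changes by at most `c i` if coordinate `i` is changed inside
`A i`; then the number of `ω ∈ ∏ A i` with `f ω ≥ mean + t` is at most
`exp (-t² / (2 ∑ c_i²)) |∏ A i|`.
-/

namespace P045

open Finset
open scoped Classical

section mcd

variable {ι α : Type*} [Fintype ι]

/-- The mean of `f` over a finite set. -/
noncomputable def mean {β : Type*} (P : Finset β) (f : β → ℝ) : ℝ := (∑ ω ∈ P, f ω) / P.card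

/-- Averaging over coordinate `i`. -/
noncomputable def avgc (A : ι → Finset α) (i : ι) (f : (ι → α) → ℝ) (ω : ι → α) : ℝ :=
  (∑ x ∈ A i, f (Function.update ω i x)) / (A i).card

theorem mcd_update_mem {A : ι → Finset α} {ω : ι → α} (hω : ω ∈ Fintype.piFinset A) {i : ι} {x : α}
    (hx : x ∈ A i) : Function.update ω i x ∈ Fintype.piFinset A := by
  rw [Fintype.mem_piFinset] at hω ⊢
  intro j
  by_cases h : j = i
  · subst h
    rwa [Function.update_self]
  · rw [Function.update_of_ne h]
    exact hω j

theorem mcd_sum_avgc (A : ι → Finset α) (hA : ∀ i, (A i).Nonempty) (i : ι)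
    (g : (ι → α) → ℝ) :
    ∑ ω ∈ Fintype.piFinset A, avgc A i g ω = ∑ ω ∈ Fintype.piFinset A, g ω := by
  have hc : (0 : ℝ) < ((A i).card : ℝ) := by exact_mod_cast (hA i).card_pos
  unfold avgc
  rw [← sum_div, div_eq_iff hc.ne', ← sum_product' (Fintype.piFinset A) (A i)
    (fun ω x => g (Function.update ω i x))]
  have h1 : ∑ z ∈ Fintype.piFinset A ×ˢ A i, g (Function.update z.1 i z.2) =
      ∑ z ∈ Fintype.piFinset A ×ˢ A i, g z.1 := by
    refine sum_nbij' (fun z => (Function.update z.1 i z.2, z.1 i))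
      (fun z => (Function.update z.1 i z.2, z.1 i)) ?_ ?_ ?_ ?_ ?_
    · intro z hz
      rw [mem_product] at hz ⊢
      exact ⟨mcd_update_mem hz.1 hz.2, Fintype.mem_piFinset.1 hz.1 i⟩
    · intro z hz
      rw [mem_product] at hz ⊢
      exact ⟨mcd_update_mem hz.1 hz.2, Fintype.mem_piFinset.1 hz.1 i⟩
    · intro z _
      simp
    · intro z _
      simp
    · intro z _
      rfl
  rw [h1, sum_product' (Fintype.piFinset A) (A i) (fun ω _ => g ω)]
  simp only [sum_const, nsmul_eq_mul]
  rw [← mul_sum, mul_comm]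

theorem mcd_one {X : Finset α} (hX : X.Nonempty) (g : α → ℝ) {c : ℝ} (hc : 0 ≤ c)
    (hg : ∀ x ∈ X, ∀ y ∈ X, |g x - g y| ≤ c) (s : ℝ) :
    (∑ x ∈ X, Real.exp (s * (g x - (∑ y ∈ X, g y) / X.card))) / X.card ≤
      Real.exp (s ^ 2 * c ^ 2 / 2) := by
  have hn : (0 : ℝ) < (X.card : ℝ) := by exact_mod_cast hX.card_pos
  set m : ℝ := (∑ y ∈ X, g y) / X.card with hm
  have hdev : ∀ x ∈ X, |g x - m| ≤ c := by
    intro x hx
    have e : g x - m = (∑ y ∈ X, (g x - g y)) / X.card := by
      rw [sum_sub_distrib, sum_const, nsmul_eq_mul, hm]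
      field_simp
    rw [e, abs_div, abs_of_pos hn, div_le_iff₀ hn]
    calc |∑ y ∈ X, (g x - g y)| ≤ ∑ y ∈ X, |g x - g y| := abs_sum_le_sum_abs _ _
      _ ≤ ∑ y ∈ X, c := sum_le_sum fun y hy => hg x hx y hy
      _ = c * X.card := by rw [sum_const, nsmul_eq_mul, mul_comm]
  have hzero : ∑ x ∈ X, (g x - m) = 0 := by
    rw [sum_sub_distrib, sum_const, nsmul_eq_mul, hm]
    field_simp
    ring
  rcases hc.eq_or_lt with h0 | hcp
  · rw [div_le_iff₀ hn]
    have h1 : ∀ x ∈ X, Real.exp (s * (g x - m)) = 1 := by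
      intro x hx
      have h2 := hdev x hx
      rw [← h0] at h2
      have h3 : g x - m = 0 := abs_nonpos_iff.1 h2
      rw [h3, mul_zero, Real.exp_zero]
    rw [sum_congr rfl h1, sum_const, nsmul_eq_mul, mul_one, ← h0]
    simp
  · have hconv : ∀ x ∈ X, Real.exp (s * (g x - m)) ≤
        Real.cosh (s * c) + (g x - m) / c * Real.sinh (s * c) := by
      intro x hx
      have h1 := abs_le.1 (hdev x hx)
      set y := g x - m with hy
      have ha : 0 ≤ (c + y) / (2 * c) := div_nonneg (by linarith) (by linarith)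
      have hb : 0 ≤ (c - y) / (2 * c) := div_nonneg (by linarith) (by linarith)
      have hab : (c + y) / (2 * c) + (c - y) / (2 * c) = 1 := by field_simp; ring
      have h2 := convexOn_exp.2 (Set.mem_univ (s * c)) (Set.mem_univ (-(s * c))) ha hb hab
      simp only [smul_eq_mul] at h2
      have e1 : (c + y) / (2 * c) * (s * c) + (c - y) / (2 * c) * -(s * c) = s * y := by
        field_simp
        ring
      rw [e1] at h2
      refine h2.trans (le_of_eq ?_)
      rw [Real.cosh_eq, Real.sinh_eq]
      field_simp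
      ring
    calc (∑ x ∈ X, Real.exp (s * (g x - m))) / X.card
        ≤ (∑ x ∈ X, (Real.cosh (s * c) + (g x - m) / c * Real.sinh (s * c))) / X.card :=
          div_le_div_of_nonneg_right (sum_le_sum hconv) hn.le
      _ = Real.cosh (s * c) := by
          rw [sum_add_distrib, sum_const, nsmul_eq_mul, ← sum_mul, ← sum_div, hzero]
          field_simp
          ring
      _ ≤ Real.exp ((s * c) ^ 2 / 2) := Real.cosh_le_exp_half_sq _
      _ = Real.exp (s ^ 2 * c ^ 2 / 2) := by rw [mul_pow]

/-- moment generating function -/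
theorem mcd_mgf (A : ι → Finset α) (hA : ∀ i, (A i).Nonempty) (c : ι → ℝ) (hc : ∀ i, 0 ≤ c i)
    (s : ℝ) (T : Finset ι) (f : (ι → α) → ℝ)
    (hf : ∀ ω ∈ Fintype.piFinset A, ∀ i, ∀ x ∈ A i, |f (Function.update ω i x) - f ω| ≤ c i)
    (hT : ∀ ω ω' : ι → α, (∀ i ∈ T, ω i = ω' i) → f ω = f ω') :
    ∑ ω ∈ Fintype.piFinset A, Real.exp (s * (f ω - mean (Fintype.piFinset A) f)) ≤
      Real.exp (s ^ 2 * (∑ i ∈ T, c i ^ 2) / 2) * (Fintype.piFinset A).card := by
  have hP : (Fintype.piFinset A).Nonempty := by
    rw [Fintype.piFinset_nonempty]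
    exact hA
  have hPc : (0 : ℝ) < ((Fintype.piFinset A).card : ℝ) := by exact_mod_cast hP.card_pos
  induction T using Finset.induction_on generalizing f with
  | empty =>
    obtain ⟨ω₀, hω₀⟩ := hP
    have h1 : ∀ ω, f ω = f ω₀ := fun ω => hT ω ω₀ (by simp)
    have h2 : mean (Fintype.piFinset A) f = f ω₀ := by
      unfold mean
      rw [sum_congr rfl fun ω _ => h1 ω, sum_const, nsmul_eq_mul]
      field_simp
    rw [h2, sum_congr rfl fun ω _ => by rw [h1 ω, sub_self, mul_zero, Real.exp_zero]]
    simp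
  | insert i T hi ih =>
    have hi' : (0 : ℝ) < ((A i).card : ℝ) := by exact_mod_cast (hA i).card_pos
    set f1 : (ι → α) → ℝ := avgc A i f with hf1
    have hf1u : ∀ ω x, f1 (Function.update ω i x) = f1 ω := by
      intro ω x
      rw [hf1]
      unfold avgc
      simp
    have hmean : mean (Fintype.piFinset A) f1 = mean (Fintype.piFinset A) f := by
      unfold mean
      rw [hf1, mcd_sum_avgc A hA i f]
    have hf1T : ∀ ω ω' : ι → α, (∀ j ∈ T, ω j = ω' j) → f1 ω = f1 ω' := by
      intro ω ω' h
      rw [hf1]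
      unfold avgc
      congr 1
      refine sum_congr rfl fun x _ => hT _ _ fun j hj => ?_
      by_cases hji : j = i
      · subst hji
        rw [Function.update_self, Function.update_self]
      · rw [Function.update_of_ne hji, Function.update_of_ne hji]
        exact h j (mem_of_mem_insert_of_ne hj hji)
    have hf1b : ∀ ω ∈ Fintype.piFinset A, ∀ j, ∀ x ∈ A j,
        |f1 (Function.update ω j x) - f1 ω| ≤ c j := by
      intro ω hω j x hx
      by_cases hji : j = i
      · subst hji
        rw [hf1u, sub_self, abs_zero]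
        exact hc j
      · rw [hf1]
        unfold avgc
        rw [← sub_div, ← sum_sub_distrib, abs_div, abs_of_pos hi', div_le_iff₀ hi']
        calc |∑ y ∈ A i, (f (Function.update (Function.update ω j x) i y) -
              f (Function.update ω i y))|
            ≤ ∑ y ∈ A i, |f (Function.update (Function.update ω j x) i y) -
              f (Function.update ω i y)| := abs_sum_le_sum_abs _ _
          _ ≤ ∑ y ∈ A i, c j := by
              refine sum_le_sum fun y hy => ?_
              rw [Function.update_comm hji]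
              exact hf _ (mcd_update_mem hω hy) j x hx
          _ = c j * (A i).card := by rw [sum_const, nsmul_eq_mul, mul_comm]
    have ih' := ih f1 hf1b hf1T
    rw [hmean] at ih'
    have hstep : ∀ ω ∈ Fintype.piFinset A,
        avgc A i (fun ω => Real.exp (s * (f ω - mean (Fintype.piFinset A) f))) ω ≤
          Real.exp (s ^ 2 * c i ^ 2 / 2) *
            Real.exp (s * (f1 ω - mean (Fintype.piFinset A) f)) := by
      intro ω hω
      have h1 := mcd_one (hA i) (fun x => f (Function.update ω i x)) (hc i) (fun x hx y hy => by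
        have h2 := hf (Function.update ω i y) (mcd_update_mem hω hy) i x hx
        rwa [Function.update_idem] at h2) s
      have h3 : (∑ y ∈ A i, f (Function.update ω i y)) / ((A i).card : ℝ) = f1 ω := rfl
      rw [h3] at h1
      unfold avgc
      have h4 : ∑ x ∈ A i, Real.exp (s * (f (Function.update ω i x) -
          mean (Fintype.piFinset A) f)) = (∑ x ∈ A i, Real.exp (s * (f (Function.update ω i x) -
          f1 ω))) * Real.exp (s * (f1 ω - mean (Fintype.piFinset A) f)) := by
        rw [sum_mul]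
        refine sum_congr rfl fun x _ => ?_
        rw [← Real.exp_add]
        congr 1
        ring
      rw [h4, mul_div_right_comm]
      exact mul_le_mul_of_nonneg_right h1 (Real.exp_pos _).le
    rw [← mcd_sum_avgc A hA i]
    calc ∑ ω ∈ Fintype.piFinset A,
          avgc A i (fun ω => Real.exp (s * (f ω - mean (Fintype.piFinset A) f))) ω
        ≤ ∑ ω ∈ Fintype.piFinset A, Real.exp (s ^ 2 * c i ^ 2 / 2) *
            Real.exp (s * (f1 ω - mean (Fintype.piFinset A) f)) := sum_le_sum hstep
      _ = Real.exp (s ^ 2 * c i ^ 2 / 2) * ∑ ω ∈ Fintype.piFinset A,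
            Real.exp (s * (f1 ω - mean (Fintype.piFinset A) f)) := by rw [mul_sum]
      _ ≤ Real.exp (s ^ 2 * c i ^ 2 / 2) *
            (Real.exp (s ^ 2 * (∑ j ∈ T, c j ^ 2) / 2) * (Fintype.piFinset A).card) :=
          mul_le_mul_of_nonneg_left ih' (Real.exp_pos _).le
      _ = Real.exp (s ^ 2 * (∑ j ∈ insert i T, c j ^ 2) / 2) * (Fintype.piFinset A).card := by
          rw [← mul_assoc, ← Real.exp_add, sum_insert hi]
          congr 2
          ring

/-- Module MCD: upper tail. -/
theorem mcd_upper (A : ι → Finset α) (hA : ∀ i, (A i).Nonempty) (f : (ι → α) → ℝ) (c : ι → ℝ)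
    (hc : ∀ i, 0 ≤ c i)
    (hf : ∀ ω ∈ Fintype.piFinset A, ∀ i, ∀ x ∈ A i, |f (Function.update ω i x) - f ω| ≤ c i)
    {t : ℝ} (ht : 0 ≤ t) :
    (((Fintype.piFinset A).filter fun ω => mean (Fintype.piFinset A) f + t ≤ f ω).card : ℝ) ≤
      Real.exp (-(t ^ 2 / (2 * ∑ i, c i ^ 2))) * (Fintype.piFinset A).card := by
  set V : ℝ := ∑ i, c i ^ 2 with hV
  have hV0 : 0 ≤ V := sum_nonneg fun i _ => sq_nonneg _
  rcases hV0.eq_or_lt with h0 | hVp
  · rw [← h0]
    simp only [mul_zero, div_zero, neg_zero, Real.exp_zero, one_mul]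
    exact_mod_cast card_filter_le _ _
  · set s : ℝ := t / V with hs
    have hs0 : 0 ≤ s := div_nonneg ht hV0
    have hm := mcd_mgf A hA c hc s univ f hf (fun ω ω' h => by
      rw [show ω = ω' from funext fun i => h i (mem_univ i)])
    rw [← hV] at hm
    have h1 : (((Fintype.piFinset A).filter fun ω =>
        mean (Fintype.piFinset A) f + t ≤ f ω).card : ℝ) * Real.exp (s * t) ≤
        Real.exp (s ^ 2 * V / 2) * (Fintype.piFinset A).card := by
      refine le_trans ?_ hm
      calc (((Fintype.piFinset A).filter fun ω =>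
            mean (Fintype.piFinset A) f + t ≤ f ω).card : ℝ) * Real.exp (s * t)
          = ∑ ω ∈ (Fintype.piFinset A).filter fun ω =>
              mean (Fintype.piFinset A) f + t ≤ f ω, Real.exp (s * t) := by
            rw [sum_const, nsmul_eq_mul]
        _ ≤ ∑ ω ∈ (Fintype.piFinset A).filter fun ω =>
              mean (Fintype.piFinset A) f + t ≤ f ω,
                Real.exp (s * (f ω - mean (Fintype.piFinset A) f)) := by
            refine sum_le_sum fun ω hω => ?_
            rw [mem_filter] at hω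
            refine Real.exp_le_exp.2 (mul_le_mul_of_nonneg_left ?_ hs0)
            linarith [hω.2]
        _ ≤ _ := sum_le_sum_of_subset_of_nonneg (filter_subset _ _)
            fun _ _ _ => (Real.exp_pos _).le
    have h2 : Real.exp (s ^ 2 * V / 2) = Real.exp (-(t ^ 2 / (2 * V))) * Real.exp (s * t) := by
      rw [← Real.exp_add, hs]
      congr 1
      field_simp
      ring
    rw [h2] at h1
    have h3 : (((Fintype.piFinset A).filter fun ω =>
        mean (Fintype.piFinset A) f + t ≤ f ω).card : ℝ) * Real.exp (s * t) ≤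
        (Real.exp (-(t ^ 2 / (2 * V))) * (Fintype.piFinset A).card) * Real.exp (s * t) := by
      refine h1.trans (le_of_eq ?_)
      ring
    exact le_of_mul_le_mul_right h3 (Real.exp_pos _)

theorem mean_neg {β : Type*} (P : Finset β) (f : β → ℝ) : mean P (fun ω => -f ω) = -mean P f := by
  unfold mean
  rw [sum_neg_distrib, neg_div]

/-- Module MCD: lower tail. -/
theorem mcd_lower (A : ι → Finset α) (hA : ∀ i, (A i).Nonempty) (f : (ι → α) → ℝ) (c : ι → ℝ)
    (hc : ∀ i, 0 ≤ c i)
    (hf : ∀ ω ∈ Fintype.piFinset A, ∀ i, ∀ x ∈ A i, |f (Function.update ω i x) - f ω| ≤ c i)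
    {t : ℝ} (ht : 0 ≤ t) :
    (((Fintype.piFinset A).filter fun ω => f ω ≤ mean (Fintype.piFinset A) f - t).card : ℝ) ≤
      Real.exp (-(t ^ 2 / (2 * ∑ i, c i ^ 2))) * (Fintype.piFinset A).card := by
  have h := mcd_upper A hA (fun ω => -f ω) c hc (fun ω hω i x hx => by
    have h1 := hf ω hω i x hx
    rwa [← neg_sub', abs_neg]) ht
  rw [mean_neg] at h
  refine le_trans (le_of_eq ?_) h
  congr 2
  refine filter_congr fun ω _ => ?_
  constructor <;> intro h <;> linarith

end mcd

end P045
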