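import Vale.Agent.P045R.Plane

/-!
# P045R: gadgets, special lines, planted points

Index of a moved direction / moved line of a gadget: `(s, i) : Bool × Fin 9`.
-/

namespace P045

open Finset
open scoped Classical

/-- A gadget (for a given direction `f`): two hubs and 18 directions. -/
abbrev Gd (q : ℕ) := (Bool → Pt q) × (Bool × Fin 9 → Dir q)

/-- The line of direction `f` of the gadget of direction `f`. -/
def lf {q : ℕ} (f : Dir q) (g : Gd q) : Ln q := thr f (g.1 true)

/-- The moved lines `m_{s,i}` of a gadget. -/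
def ml {q : ℕ} (g : Gd q) (x : Bool × Fin 9) : Ln q := thr (g.2 x) (g.1 x.1)

section
variable {q : ℕ} [NeZero q]

/-- The 19 lines of a gadget. -/
noncomputable def gl (f : Dir q) (g : Gd q) : Finset (Ln q) := insert (lf f g) (univ.image (ml g))

/-- Special lines of a configuration. -/
noncomputable def Rl (c : Dir q → Gd q) : Finset (Ln q) := univ.biUnion fun f => gl f (c f)

/-- Special lines of the gadgets other than `f`. -/
noncomputable def Rx (c : Dir q → Gd q) (f : Dir q) : Finset (Ln q) :=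
  (univ.erase f).biUnion fun g => gl g (c g)

/-- Points on no special line. -/
noncomputable def Wp (c : Dir q → Gd q) : Finset (Pt q) := unc (Rl c)

/-- The possible gadgets of direction `f`. -/
noncomputable def GadSet (q : ℕ) [NeZero q] (f : Dir q) : Finset (Gd q) :=
  univ.filter fun g => g.1 false ∈ pts (lf f g) ∧ g.1 false ≠ g.1 true ∧
    Function.Injective g.2 ∧ ∀ x, g.2 x ≠ f

/-- All configurations (the uniform model). -/
noncomputable def All (q : ℕ) [NeZero q] : Finset (Dir q → Gd q) :=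
  Fintype.piFinset fun f => GadSet q f

theorem mem_GadSet {f : Dir q} {g : Gd q} : g ∈ GadSet q f ↔
    g.1 false ∈ pts (lf f g) ∧ g.1 false ≠ g.1 true ∧ Function.Injective g.2 ∧ ∀ x, g.2 x ≠ f := by
  simp [GadSet]

theorem mem_All {c : Dir q → Gd q} : c ∈ All q ↔ ∀ f, c f ∈ GadSet q f := by
  simp [All]

end

section
variable {q : ℕ} [Fact q.Prime]

/-- The line `L_{f,s,k}` of direction `e_{f,s,k}` through `b_{f,k}`. -/
def Ll (c : Dir q → Gd q) (b : Dir q → Fin 9 → Pt q) (f : Dir q) (s : Bool) (k : Fin 9) : Ln q :=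
  thr ((c f).2 (s, k)) (b f k)

/-- The planted point `P_{f,s,k,i} = L_{f,s,k} ∩ m_{f,s,i}` (used for `i ≠ k`). -/
noncomputable def Pp (c : Dir q → Gd q) (b : Dir q → Fin 9 → Pt q) (f : Dir q) (s : Bool)
    (k i : Fin 9) : Pt q :=
  meet (Ll c b f s k) (ml (c f) (s, i))

/-- The structural conditions on the hubs and moved lines (D1, D3 are in `c ∈ All q`). -/
structure Sep (c : Dir q → Gd q) : Prop where
  mem : c ∈ All q
  /-- D2: hubs of `g` are not on `l_f`. -/
  hub_lf : ∀ f g, g ≠ f → ∀ s, (c g).1 s ∉ pts (lf f (c f))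
  /-- D4: hubs of `g` are not on the moved lines of `f`. -/
  hub_ml : ∀ f g, g ≠ f → ∀ s x, (c g).1 s ∉ pts (ml (c f) x)

/-- Admissible positions for the point `b_{f,k}`: on `l_f`, not a hub of `f`, on no special line of
another gadget, and the points of `m_{f,s,i}`, `i ≠ k`, planted by it are on no special line of another
gadget and on no moved line of the other hub. -/
noncomputable def Valid (c : Dir q → Gd q) (f : Dir q) (k : Fin 9) : Finset (Pt q) :=
  (pts (lf f (c f))).filter fun x => (∀ s, x ≠ (c f).1 s) ∧ x ∉ cov (Rx c f) ∧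
    ∀ s i, i ≠ k → meet (thr ((c f).2 (s, k)) x) (ml (c f) (s, i)) ∉ cov (Rx c f) ∧
      ∀ i', meet (thr ((c f).2 (s, k)) x) (ml (c f) (s, i)) ∉ pts (ml (c f) (!s, i'))

/-- The admissible 9-tuples `b_f`. -/
noncomputable def Bset (c : Dir q → Gd q) (f : Dir q) : Finset (Fin 9 → Pt q) :=
  univ.filter fun β => (∀ k, β k ∈ Valid c f k) ∧ Function.Injective β ∧
    ∀ s k k' i, k ≠ k' → i ≠ k → i ≠ k' →
      meet (thr ((c f).2 (s, k)) (β k)) (ml (c f) (s, i)) ≠
        meet (thr ((c f).2 (s, k')) (β k')) (ml (c f) (s, i))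

/-- The line `t` meets a special line of the gadget `f` through the point `v` in a planted point. -/
def HitA (c : Dir q → Gd q) (b : Dir q → Fin 9 → Pt q) (f : Dir q) (v : Pt q) (t : Ln q) : Prop :=
  (v ∈ pts (lf f (c f)) ∧ ∃ k, b f k ∈ pts t) ∨
    ∃ s i k, i ≠ k ∧ v ∈ pts (ml (c f) (s, i)) ∧ Pp c b f s k i ∈ pts t

/-- The same for the special lines of direction `d`. -/
def HitI (c : Dir q → Gd q) (b : Dir q → Fin 9 → Pt q) (f : Dir q) (d : Dir q) (t : Ln q) : Prop :=
  (f = d ∧ ∃ k, b f k ∈ pts t) ∨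
    ∃ s i k, i ≠ k ∧ (c f).2 (s, i) = d ∧ Pp c b f s k i ∈ pts t

/-- `t` meets the special line `l_f` (`x = none`) or `m_{f,s,i}` (`x = some i`) in a planted point. -/
def HitH (c : Dir q → Gd q) (b : Dir q → Fin 9 → Pt q) (f : Dir q) (s : Bool) (t : Ln q) :
    Option (Fin 9) → Prop
  | none => ∃ k, b f k ∈ pts t
  | some i => ∃ k, i ≠ k ∧ Pp c b f s k i ∈ pts t

/-- D10: the three statements on accidental incidences. -/
structure Few (c : Dir q → Gd q) (b : Dir q → Fin 9 → Pt q) : Prop where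
  h1 : ∀ v, (∀ f s, (c f).1 s ≠ v) → ∀ t, v ∉ pts t →
    (univ.filter fun f => HitA c b f v t).card ≤ 4
  h2 : ∀ (d : Dir q) (t : Ln q), t.1 ≠ d → (univ.filter fun f => HitI c b f d t).card ≤ 3
  h3 : ∀ f s t, (c f).1 s ∉ pts t → (∀ k, t ≠ Ll c b f s k) →
    (univ.filter fun x => HitH c b f s t x).card ≤ 3

/-- D9: every `q` lines covering `W` contain all non special lines of a pencil or of a parallel
class. -/
def Pencil (c : Dir q → Gd q) : Prop :=
  ∀ L : Finset (Ln q), L.card = q → Wp c ⊆ cov L →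
    (∃ v : Pt q, ∀ l, v ∈ pts l → l ∉ Rl c → l ∈ L) ∨
      ∃ d : Dir q, ∀ l : Ln q, l.1 = d → l ∉ Rl c → l ∈ L

/-- Every non special line has at least `a` points in `W`. -/
def Rich (c : Dir q → Gd q) (a : ℝ) : Prop :=
  ∀ l, l ∉ Rl c → a ≤ ((pts l ∩ Wp c).card : ℝ)

end

end P045
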