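import Vale.Agent.P045R.Events
import Vale.Agent.P045R.GadCard

/-!
# P045R: the random configuration (three stages)

Stage A: `S : Dir q → ZMod q` uniform, `l_g = (g, S g)`.
Stage B: given `S`, hubs `H f : Bool → Pt q`, uniform on ordered pairs of different points of `Sim' S f`.
Stage C: given `H`, directions `e f : Bool × Fin 9 → Dir q`, uniform on `EC H f`.
-/

namespace P045

open Finset
open scoped Classical

/-- Average over a finite set. -/
noncomputable def avg {α : Type*} (s : Finset α) (f : α → ℝ) : ℝ := (∑ a ∈ s, f a) / s.card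

/-- Indicator. -/
noncomputable def ind (p : Prop) : ℝ := if p then 1 else 0

theorem avg_mono {α : Type*} (s : Finset α) {f g : α → ℝ} (h : ∀ a ∈ s, f a ≤ g a) :
    avg s f ≤ avg s g := by
  unfold avg
  exact div_le_div_of_nonneg_right (sum_le_sum h) (Nat.cast_nonneg _)

theorem avg_add {α : Type*} (s : Finset α) (f g : α → ℝ) :
    avg s (fun a => f a + g a) = avg s f + avg s g := by
  unfold avg
  rw [sum_add_distrib, add_div]

theorem avg_sum {α κ : Type*} (s : Finset α) (t : Finset κ) (f : κ → α → ℝ) :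
    avg s (fun a => ∑ i ∈ t, f i a) = ∑ i ∈ t, avg s (f i) := by
  unfold avg
  rw [sum_comm, sum_div]

theorem avg_const {α : Type*} {s : Finset α} (hs : s.Nonempty) (c : ℝ) :
    avg s (fun _ => c) = c := by
  unfold avg
  rw [sum_const, nsmul_eq_mul]
  have : (0 : ℝ) < s.card := by exact_mod_cast hs.card_pos
  field_simp

theorem avg_smul {α : Type*} (s : Finset α) (c : ℝ) (f : α → ℝ) :
    avg s (fun a => c * f a) = c * avg s f := by
  unfold avg
  rw [← mul_sum, mul_div_assoc]

theorem avg_nonneg {α : Type*} (s : Finset α) {f : α → ℝ} (h : ∀ a ∈ s, 0 ≤ f a) :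
    0 ≤ avg s f := by
  unfold avg
  exact div_nonneg (sum_nonneg h) (Nat.cast_nonneg _)

theorem avg_le_of_le {α : Type*} {s : Finset α} {f : α → ℝ} {c : ℝ} (hc : 0 ≤ c)
    (h : ∀ a ∈ s, f a ≤ c) : avg s f ≤ c := by
  rcases s.eq_empty_or_nonempty with rfl | hs
  · simpa [avg] using hc
  · exact (avg_mono s h).trans (avg_const hs c).le

theorem ind_nonneg (p : Prop) : 0 ≤ ind p := by
  unfold ind
  split_ifs <;> norm_num

theorem ind_le_one (p : Prop) : ind p ≤ 1 := by
  unfold ind
  split_ifs <;> norm_num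

/-- Bound for the direction densities in stage C. -/
noncomputable def cF : ℝ := Real.exp (-32) / 4

section
variable {q : ℕ} [Fact q.Prime]

/-- Points of the line `k` on no `l_g`, `g ≠` direction of `k`. -/
noncomputable def Sim (S : Dir q → ZMod q) (k : Ln q) : Finset (Pt q) :=
  (pts k).filter fun x => ∀ g, g ≠ k.1 → x ∉ pts (g, S g)

/-- Possible hubs on `l_f`, with fallback. -/
noncomputable def Sim' (S : Dir q → ZMod q) (f : Dir q) : Finset (Pt q) :=
  if (q : ℝ) / 16 ≤ ((Sim S (f, S f)).card : ℝ) then Sim S (f, S f) else pts (f, S f)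

/-- Possible pairs of hubs on `l_f`. -/
noncomputable def HB (S : Dir q → ZMod q) (f : Dir q) : Finset (Bool → Pt q) :=
  univ.filter fun h => (∀ s, h s ∈ Sim' S f) ∧ h false ≠ h true

/-- Directions `d ≠ f` such that the line of direction `d` through `p` contains no hub of a gadget
`g ≠ f`. -/
noncomputable def Free (H : Dir q → Bool → Pt q) (f : Dir q) (p : Pt q) : Finset (Dir q) :=
  univ.filter fun d => d ≠ f ∧ ∀ g, g ≠ f → ∀ s, H g s ∉ pts (thr d p)

/-- The same with fallback. -/
noncomputable def Free' (H : Dir q → Bool → Pt q) (f : Dir q) (s : Bool) : Finset (Dir q) :=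
  if cF * q ≤ ((Free H f (H f s)).card : ℝ) then Free H f (H f s) else univ.erase f

/-- Possible 18-tuples of directions. -/
noncomputable def EC (H : Dir q → Bool → Pt q) (f : Dir q) : Finset (Bool × Fin 9 → Dir q) :=
  univ.filter fun e => Function.Injective e ∧ ∀ x, e x ∈ Free' H f x.1

/-- The configuration. -/
def mk (H : Dir q → Bool → Pt q) (e : Dir q → Bool × Fin 9 → Dir q) : Dir q → Gd q :=
  fun f => (H f, e f)

/-- Stage B. -/
noncomputable def OB (S : Dir q → ZMod q) : Finset (Dir q → Bool → Pt q) :=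
  Fintype.piFinset (HB S)

/-- Stage C. -/
noncomputable def OC (H : Dir q → Bool → Pt q) : Finset (Dir q → Bool × Fin 9 → Dir q) :=
  Fintype.piFinset (EC H)

/-- Expectation. -/
noncomputable def Enu (X : (Dir q → Gd q) → ℝ) : ℝ :=
  avg (univ : Finset (Dir q → ZMod q)) fun S => avg (OB S) fun H => avg (OC H) fun e => X (mk H e)

theorem Enu_mono {X Y : (Dir q → Gd q) → ℝ} (h : ∀ c, X c ≤ Y c) : Enu X ≤ Enu Y := by
  unfold Enu
  exact avg_mono _ fun S _ => avg_mono _ fun H _ => avg_mono _ fun e _ => h _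

theorem Enu_sum {κ : Type*} (t : Finset κ) (X : κ → (Dir q → Gd q) → ℝ) :
    Enu (fun c => ∑ i ∈ t, X i c) = ∑ i ∈ t, Enu (X i) := by
  unfold Enu
  simp only [avg_sum]

theorem Enu_smul (a : ℝ) (X : (Dir q → Gd q) → ℝ) : Enu (fun c => a * X c) = a * Enu X := by
  unfold Enu
  simp only [avg_smul]

theorem Enu_nonneg {X : (Dir q → Gd q) → ℝ} (h : ∀ c, 0 ≤ X c) : 0 ≤ Enu X := by
  unfold Enu
  exact avg_nonneg _ fun S _ => avg_nonneg _ fun H _ => avg_nonneg _ fun e _ => h _

/-- Markov. -/
theorem Enu_ind_le {X : (Dir q → Gd q) → ℝ} (h : ∀ c, 0 ≤ X c) {P : (Dir q → Gd q) → Prop} {t : ℝ}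
    (ht : 0 < t) (hP : ∀ c, P c → t ≤ X c) : Enu (fun c => ind (P c)) ≤ Enu X / t := by
  rw [le_div_iff₀ ht, mul_comm, ← Enu_smul]
  apply Enu_mono
  intro c
  unfold ind
  split_ifs with hc
  · simpa using hP c hc
  · simpa using h c

end

end P045
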