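import Vale.Agent.P045R.Hyper

/-!
# P045R, module NUALL: disjoint copies
-/

namespace P045

open Finset
open scoped Classical

namespace NuAllAux

/-- Every cover has at least `tau H` vertices. -/
theorem tau_le {V : Type} {H : Finset (Finset V)} {X : Finset V} (h : IsCover H X) :
    tau H ≤ X.card := Nat.sInf_le ⟨X, h, rfl⟩

/-- The minimum is attained. -/
theorem exists_cover {V : Type} [Fintype V] {H : Finset (Finset V)} (h : ∀ e ∈ H, e.Nonempty) :
    ∃ X : Finset V, IsCover H X ∧ X.card = tau H := by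
  have hne : {n | ∃ X : Finset V, IsCover H X ∧ X.card = n}.Nonempty := by
    refine ⟨_, univ, ?_, rfl⟩
    intro e he
    obtain ⟨v, hv⟩ := h e he
    exact ⟨v, hv, mem_univ _⟩
  exact Nat.sInf_mem hne

theorem bdd {V : Type} (H : Finset (Finset V)) :
    BddAbove {n | ∃ M : Finset (Finset V), IsMatching H M ∧ M.card = n} := by
  refine ⟨H.card, ?_⟩
  rintro n ⟨M, hM, rfl⟩
  exact card_le_card hM.1

/-- Every matching has at most `nu H` edges. -/
theorem le_nu {V : Type} {H M : Finset (Finset V)} (h : IsMatching H M) : M.card ≤ nu H :=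
  le_csSup (bdd H) ⟨M, h, rfl⟩

/-- The maximum is attained. -/
theorem exists_matching {V : Type} (H : Finset (Finset V)) :
    ∃ M : Finset (Finset V), IsMatching H M ∧ M.card = nu H := by
  have hne : {n | ∃ M : Finset (Finset V), IsMatching H M ∧ M.card = n}.Nonempty :=
    ⟨_, ∅, ⟨empty_subset _, fun e he => absurd he (notMem_empty e)⟩, rfl⟩
  exact Nat.sSup_mem hne (bdd H)

/-- Copy `i` of an edge. -/
noncomputable def cp {V : Type} {n : ℕ} (p : Fin n × Finset V) : Finset (Fin n × V) :=
  p.2.image (Prod.mk p.1)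

theorem mem_cp {V : Type} {n : ℕ} {p : Fin n × Finset V} {x : Fin n × V} :
    x ∈ cp p ↔ x.1 = p.1 ∧ x.2 ∈ p.2 := by
  unfold cp
  rw [mem_image]
  constructor
  · rintro ⟨v, hv, rfl⟩
    exact ⟨rfl, hv⟩
  · rintro ⟨h1, h2⟩
    exact ⟨x.2, h2, Prod.ext h1.symm rfl⟩

theorem cp_inj {V : Type} {n : ℕ} {p p' : Fin n × Finset V} (hp : p.2.Nonempty)
    (h : cp p = cp p') : p = p' := by
  obtain ⟨v, hv⟩ := hp
  have h1 : (p.1, v) ∈ cp p := mem_cp.2 ⟨rfl, hv⟩
  rw [h, mem_cp] at h1
  refine Prod.ext h1.1 ?_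
  ext w
  have h2 := congrArg (fun s => (p.1, w) ∈ s) h
  simp only [mem_cp, true_and, eq_iff_iff] at h2
  rw [h2]
  exact ⟨fun h => h.2, fun h => ⟨h1.1, h⟩⟩

end NuAllAux

open NuAllAux in
/-- The disjoint union of `n` copies of a hypergraph: vertex set `Fin n × V`, edges `{i} × e`.  A cover
is a union of covers of the copies, a matching a union of matchings of the copies. -/
theorem copies {V : Type} [Fintype V] {r : ℕ} (part : V → Fin r) (H : Finset (Finset V))
    (hH : IsPartiteUniform r part H) (hr : 1 ≤ r) (n : ℕ) :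
    ∃ (V' : Type) (_ : Fintype V') (part' : V' → Fin r) (H' : Finset (Finset V')),
      IsPartiteUniform r part' H' ∧ nu H' = n * nu H ∧ tau H' = n * tau H := by
  have hne : ∀ e ∈ H, e.Nonempty := by
    intro e he
    obtain ⟨v, hv, _⟩ := hH e he ⟨0, hr⟩
    exact ⟨v, hv.1⟩
  set H' : Finset (Finset (Fin n × V)) := ((univ : Finset (Fin n)) ×ˢ H).image cp with hH'
  have hmem : ∀ e', e' ∈ H' ↔ ∃ i : Fin n, ∃ e ∈ H, cp (i, e) = e' := by
    intro e'
    rw [hH', mem_image]
    constructor
    · rintro ⟨⟨i, e⟩, hp, rfl⟩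
      exact ⟨i, e, (mem_product.1 hp).2, rfl⟩
    · rintro ⟨i, e, he, rfl⟩
      exact ⟨(i, e), mem_product.2 ⟨mem_univ _, he⟩, rfl⟩
  have hne' : ∀ e' ∈ H', e'.Nonempty := by
    intro e' he'
    obtain ⟨i, e, he, rfl⟩ := (hmem e').1 he'
    obtain ⟨v, hv⟩ := hne e he
    exact ⟨(i, v), mem_cp.2 ⟨rfl, hv⟩⟩
  refine ⟨Fin n × V, inferInstance, fun x => part x.2, H', ?_, ?_, ?_⟩
  · intro e' he' j
    obtain ⟨i, e, he, rfl⟩ := (hmem e').1 he'
    obtain ⟨v, hv, hu⟩ := hH e he j
    refine ⟨(i, v), ⟨mem_cp.2 ⟨rfl, hv.1⟩, hv.2⟩, ?_⟩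
    rintro ⟨i', w⟩ ⟨h1, h2⟩
    rw [mem_cp] at h1
    exact Prod.ext h1.1 (hu w ⟨h1.2, h2⟩)
  · apply le_antisymm
    · obtain ⟨M', hM', hc⟩ := exists_matching H'
      rw [← hc]
      have h1 : M' ⊆ (((univ : Finset (Fin n)) ×ˢ H).filter fun p => cp p ∈ M').image cp := by
        intro e' he'
        obtain ⟨i, e, he, rfl⟩ := (hmem e').1 (hM'.1 he')
        rw [mem_image]
        exact ⟨(i, e), mem_filter.2 ⟨mem_product.2 ⟨mem_univ _, he⟩, he'⟩, rfl⟩
      have h2 : (((univ : Finset (Fin n)) ×ˢ H).filter fun p => cp p ∈ M') =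
          (univ : Finset (Fin n)).biUnion fun i =>
            (H.filter fun e => cp (i, e) ∈ M').image (Prod.mk i) := by
        ext ⟨i, e⟩
        simp only [mem_filter, mem_product, mem_univ, true_and, mem_biUnion, mem_image,
          Prod.mk.injEq]
        constructor
        · intro h
          exact ⟨i, e, h, rfl, rfl⟩
        · rintro ⟨i', e', h, rfl, rfl⟩
          exact h
      calc M'.card ≤ (((univ : Finset (Fin n)) ×ˢ H).filter fun p => cp p ∈ M').card :=
            (card_le_card h1).trans card_image_le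
        _ ≤ ∑ i : Fin n, ((H.filter fun e => cp (i, e) ∈ M').image (Prod.mk i)).card := by
            rw [h2]
            exact card_biUnion_le
        _ ≤ ∑ _i : Fin n, nu H := by
            refine sum_le_sum fun i _ => card_image_le.trans (le_nu ⟨filter_subset _ _, ?_⟩)
            intro e he e2 he2 hne2
            rw [mem_filter] at he he2
            have h3 : cp (i, e) ≠ cp (i, e2) := by
              intro h
              exact hne2 (congrArg Prod.snd (cp_inj (hne e he.1) h))
            have h4 := hM'.2 _ he.2 _ he2.2 h3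
            rw [disjoint_left] at h4 ⊢
            intro v hv hv2
            exact h4 (a := (i, v)) (mem_cp.2 ⟨rfl, hv⟩) (mem_cp.2 ⟨rfl, hv2⟩)
        _ = n * nu H := by rw [sum_const, card_univ, Fintype.card_fin, smul_eq_mul]
    · obtain ⟨M, hM, hc⟩ := exists_matching H
      have h1 : (((univ : Finset (Fin n)) ×ˢ M).image cp).card = n * nu H := by
        rw [card_image_of_injOn, card_product, card_univ, Fintype.card_fin, hc]
        intro p hp p' _ h
        have hp' := (mem_product.1 (mem_coe.1 hp)).2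
        exact cp_inj (hne _ (hM.1 hp')) h
      rw [← h1]
      apply le_nu
      constructor
      · exact image_subset_image (product_subset_product_right hM.1)
      · intro e he e2 he2 hee
        rw [mem_image] at he he2
        obtain ⟨⟨i, f⟩, hf, rfl⟩ := he
        obtain ⟨⟨i2, f2⟩, hf2, rfl⟩ := he2
        rw [mem_product] at hf hf2
        rw [disjoint_left]
        rintro ⟨j, v⟩ h2 h3
        rw [mem_cp] at h2 h3
        have hi : i = i2 := h2.1.symm.trans h3.1
        subst hi
        have hff : f ≠ f2 := by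
          rintro rfl
          exact hee rfl
        have h4 := hM.2 f hf.2 f2 hf2.2 hff
        rw [disjoint_left] at h4
        exact h4 h2.2 h3.2
  · apply le_antisymm
    · obtain ⟨X, hX, hc⟩ := exists_cover hne
      have h1 : ((univ : Finset (Fin n)) ×ˢ X).card = n * tau H := by
        rw [card_product, card_univ, Fintype.card_fin, hc]
      rw [← h1]
      apply tau_le
      intro e' he'
      obtain ⟨i, e, he, rfl⟩ := (hmem e').1 he'
      obtain ⟨v, hv, hvX⟩ := hX e he
      exact ⟨(i, v), mem_cp.2 ⟨rfl, hv⟩, mem_product.2 ⟨mem_univ _, hvX⟩⟩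
    · obtain ⟨X', hX', hc⟩ := exists_cover hne'
      rw [← hc]
      have h2 : X'.card = ∑ i : Fin n, (X'.filter fun x => x.1 = i).card :=
        card_eq_sum_card_fiberwise fun x _ => mem_coe.2 (mem_univ x.1)
      calc n * tau H = ∑ _i : Fin n, tau H := by
            rw [sum_const, card_univ, Fintype.card_fin, smul_eq_mul]
        _ ≤ ∑ i : Fin n, (X'.filter fun x => x.1 = i).card := by
            refine sum_le_sum fun i _ => ?_
            have h3 : IsCover H ((X'.filter fun x => x.1 = i).image Prod.snd) := by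
              intro e he
              obtain ⟨x, hx, hxX⟩ := hX' (cp (i, e)) ((hmem _).2 ⟨i, e, he, rfl⟩)
              rw [mem_cp] at hx
              exact ⟨x.2, hx.2, mem_image.2 ⟨x, mem_filter.2 ⟨hxX, hx.1⟩, rfl⟩⟩
            exact (tau_le h3).trans card_image_le
        _ = X'.card := h2.symm

end P045
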