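import Mathlib

/-!
# P045R, module RICH: an abstract counting lemma (random order exposure)
-/

namespace P045

open Finset
open scoped Classical

/-- The elements outside `J` can be processed in some order for `N` steps, with at most `m` steps
`i` such that `g i` is rich (with respect to the set `J` processed so far). -/
def Path {ι α : Type*} (Rch : Finset ι → (ι → α) → ι → Finset α) (g : ι → α) :
    ℕ → ℕ → Finset ι → Prop
  | 0, _, _ => True
  | N + 1, m, J => ∃ i, i ∉ J ∧ ((g i ∉ Rch J g i ∧ Path Rch g N m (insert i J)) ∨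
      (0 < m ∧ Path Rch g N (m - 1) (insert i J)))

/-- The averaged weight of the orders. -/
noncomputable def richPhi {ι α : Type*} [Fintype ι] (Rch : Finset ι → (ι → α) → ι → Finset α)
    (z : ℝ) (g : ι → α) : ℕ → Finset ι → ℝ
  | 0, _ => 1
  | N + 1, J => (∑ i ∈ Jᶜ, (if g i ∈ Rch J g i then z else 1) *
      richPhi Rch z g N (insert i J)) / (Jᶜ.card : ℝ)

theorem richPhi_nonneg {ι α : Type*} [Fintype ι] (Rch : Finset ι → (ι → α) → ι → Finset α)
    (z : ℝ) (hz : 1 ≤ z) (g : ι → α) (N : ℕ) : ∀ J, 0 ≤ richPhi Rch z g N J := by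
  induction N with
  | zero => intro J; simp [richPhi]
  | succ N ih =>
    intro J
    simp only [richPhi]
    refine div_nonneg (sum_nonneg (fun i _ => mul_nonneg ?_ (ih _))) (Nat.cast_nonneg _)
    split_ifs <;> linarith

theorem rich_card_insert {ι : Type*} [Fintype ι] {J : Finset ι} {i : ι} (hi : i ∈ Jᶜ) :
    (insert i J)ᶜ.card + 1 = Jᶜ.card := by
  rw [compl_insert, card_erase_of_mem hi]
  have : 0 < Jᶜ.card := card_pos.2 ⟨i, hi⟩
  omega

theorem rich_avg_ge {ι : Type*} (s : Finset ι) (hs : 0 < s.card) (F : ι → ℝ) (c : ℝ)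
    (h : ∀ i ∈ s, c ≤ F i) : c ≤ (∑ i ∈ s, F i) / (s.card : ℝ) := by
  have hs' : (0 : ℝ) < s.card := by exact_mod_cast hs
  rw [le_div_iff₀ hs']
  have := card_nsmul_le_sum s F c h
  rw [nsmul_eq_mul] at this
  linarith

theorem one_le_richPhi {ι α : Type*} [Fintype ι] (Rch : Finset ι → (ι → α) → ι → Finset α)
    (z : ℝ) (hz : 1 ≤ z) (g : ι → α) (N : ℕ) : ∀ J, N ≤ Jᶜ.card → 1 ≤ richPhi Rch z g N J := by
  induction N with
  | zero => intro J _; simp [richPhi]
  | succ N ih =>
    intro J hJ
    simp only [richPhi]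
    refine rich_avg_ge _ (by omega) _ _ (fun i hi => ?_)
    have h1 := rich_card_insert hi
    have h2 := ih (insert i J) (by omega)
    have h3 : (1 : ℝ) ≤ if g i ∈ Rch J g i then z else 1 := by split_ifs <;> linarith
    exact one_le_mul_of_one_le_of_one_le h3 h2

theorem pow_le_richPhi {ι α : Type*} [Fintype ι] (Rch : Finset ι → (ι → α) → ι → Finset α)
    (z : ℝ) (hz : 1 ≤ z) (g : ι → α) (N : ℕ) : ∀ m J, N ≤ Jᶜ.card → ¬ Path Rch g N m J →
      z ^ m ≤ richPhi Rch z g N J := by
  induction N with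
  | zero =>
    intro m J _ h
    exact absurd trivial h
  | succ N ih =>
    intro m J hJ h
    simp only [richPhi]
    refine rich_avg_ge _ (by omega) _ _ (fun i hi => ?_)
    have h1 := rich_card_insert hi
    have hiJ : i ∉ J := mem_compl.1 hi
    have hno : ¬ ((g i ∉ Rch J g i ∧ Path Rch g N m (insert i J)) ∨
      (0 < m ∧ Path Rch g N (m - 1) (insert i J))) := fun hh => h ⟨i, hiJ, hh⟩
    have hphi := richPhi_nonneg Rch z hz g N (insert i J)
    by_cases hr : g i ∈ Rch J g i
    · rw [if_pos hr]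
      rcases Nat.eq_zero_or_pos m with hm | hm
      · subst hm
        have h2 := one_le_richPhi Rch z hz g N (insert i J) (by omega)
        rw [pow_zero]
        exact one_le_mul_of_one_le_of_one_le hz h2
      · have h3 : ¬ Path Rch g N (m - 1) (insert i J) := fun hh => hno (Or.inr ⟨hm, hh⟩)
        have h4 := ih (m - 1) (insert i J) (by omega) h3
        have h5 : z ^ m = z * z ^ (m - 1) := by
          rw [← pow_succ']
          congr 1
          omega
        rw [h5]
        exact mul_le_mul_of_nonneg_left h4 (by linarith)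
    · rw [if_neg hr, one_mul]
      have h3 : ¬ Path Rch g N m (insert i J) := fun hh => hno (Or.inl ⟨hr, hh⟩)
      exact ih m (insert i J) (by omega) h3

/-- the configurations which agree with `g₀` on `J` -/
noncomputable def richFix {ι α : Type*} [Fintype ι] (A : ι → Finset α) (J : Finset ι)
    (g₀ : ι → α) : Finset (ι → α) :=
  (Fintype.piFinset A).filter fun g => ∀ j ∈ J, g j = g₀ j

theorem rich_card_fix {ι α : Type*} [Fintype ι] (A : ι → Finset α) (G : ℕ)
    (hA : ∀ i, (A i).card = G) (J : Finset ι) (g₀ : ι → α) :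
    (richFix A J g₀).card ≤ G ^ Jᶜ.card := by
  have hsub : richFix A J g₀ ⊆ Fintype.piFinset (fun j => if j ∈ J then {g₀ j} else A j) := by
    intro g hg
    unfold richFix at hg
    rw [mem_filter, Fintype.mem_piFinset] at hg
    rw [Fintype.mem_piFinset]
    intro j
    by_cases hj : j ∈ J
    · rw [if_pos hj, mem_singleton]
      exact hg.2 j hj
    · rw [if_neg hj]
      exact hg.1 j
  refine (card_le_card hsub).trans (le_of_eq ?_)
  rw [Fintype.card_piFinset]
  have h1 : ∀ j, (if j ∈ J then ({g₀ j} : Finset α) else A j).card = if j ∈ J then 1 else G := by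
    intro j
    split_ifs
    · exact card_singleton _
    · exact hA j
  simp only [h1]
  rw [prod_ite]
  simp only [prod_const_one, one_mul, prod_const]
  congr 1
  congr 1
  ext j
  simp

theorem rich_fiber {ι α : Type*} [Fintype ι] (A : ι → Finset α) (J : Finset ι)
    (g₀ : ι → α) (i : ι) (hi : i ∉ J) (F : (ι → α) → ℝ) :
    ∑ g ∈ richFix A J g₀, F g =
      ∑ a ∈ A i, ∑ g ∈ richFix A (insert i J) (Function.update g₀ i a), F g := by
  rw [← sum_fiberwise_of_maps_to (s := richFix A J g₀) (t := A i) (g := fun g => g i)]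
  · refine sum_congr rfl (fun a _ => ?_)
    refine sum_congr ?_ (fun _ _ => rfl)
    unfold richFix
    ext g
    simp only [mem_filter, mem_insert, forall_eq_or_imp, Function.update_self]
    constructor
    · rintro ⟨⟨h1, h2⟩, h3⟩
      refine ⟨h1, h3, fun j hj => ?_⟩
      rw [Function.update_of_ne (show j ≠ i from fun h => hi (h ▸ hj))]
      exact h2 j hj
    · rintro ⟨h1, h3, h2⟩
      refine ⟨⟨h1, fun j hj => ?_⟩, h3⟩
      have := h2 j hj
      rw [Function.update_of_ne (show j ≠ i from fun h => hi (h ▸ hj))] at this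
      exact this
  · intro g hg
    exact Fintype.mem_piFinset.1 (mem_filter.1 hg).1 i

theorem rich_sum {ι α : Type*} [Fintype ι] (A : ι → Finset α) (G : ℕ)
    (hA : ∀ i, (A i).card = G) (Rch : Finset ι → (ι → α) → ι → Finset α)
    (hdep : ∀ J g g', (∀ j ∈ J, g j = g' j) → Rch J g = Rch J g')
    (ρ r z : ℝ) (hρ0 : 0 ≤ ρ)
    (hρ : ∀ J, ∀ g ∈ Fintype.piFinset A, ∑ i ∈ Jᶜ, (((A i) ∩ (Rch J g i)).card : ℝ) ≤ ρ * G)
    (hr : 0 < r) (hz : 1 ≤ z) (N : ℕ) : ∀ (J : Finset ι) (g₀ : ι → α),
      g₀ ∈ Fintype.piFinset A → (N : ℝ) + r ≤ Jᶜ.card →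
      ∑ g ∈ richFix A J g₀, richPhi Rch z g N J ≤
        (1 + (z - 1) * ρ / r) ^ N * (G : ℝ) ^ Jᶜ.card := by
  have hC : 0 ≤ (z - 1) * ρ / r := by
    have : 0 ≤ z - 1 := by linarith
    positivity
  induction N with
  | zero =>
    intro J g₀ _ _
    simp only [richPhi, sum_const, nsmul_eq_mul, mul_one, pow_zero, one_mul]
    exact_mod_cast rich_card_fix A G hA J g₀
  | succ N ih =>
    intro J g₀ hg₀ hJ
    push_cast at hJ
    have hcard : (0 : ℝ) < Jᶜ.card := by
      have : (0 : ℝ) ≤ N := Nat.cast_nonneg N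
      linarith
    set C := 1 + (z - 1) * ρ / r with hCdef
    have hC1 : 1 ≤ C := by linarith
    have hC0 : 0 ≤ C := by linarith
    have hGn : (0 : ℝ) ≤ G := Nat.cast_nonneg G
    have key : ∀ i ∈ Jᶜ, ∑ g ∈ richFix A J g₀, (if g i ∈ Rch J g i then z else 1) *
        richPhi Rch z g N (insert i J) ≤
        ((G : ℝ) + (z - 1) * ((A i) ∩ (Rch J g₀ i)).card) *
          (C ^ N * (G : ℝ) ^ (Jᶜ.card - 1)) := by
      intro i hi
      have hiJ : i ∉ J := mem_compl.1 hi
      have hci := rich_card_insert hi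
      rw [rich_fiber A J g₀ i hiJ]
      have step : ∀ a ∈ A i, ∑ g ∈ richFix A (insert i J) (Function.update g₀ i a),
          (if g i ∈ Rch J g i then z else 1) * richPhi Rch z g N (insert i J) ≤
          (1 + (z - 1) * (if a ∈ Rch J g₀ i then 1 else 0)) *
            (C ^ N * (G : ℝ) ^ (Jᶜ.card - 1)) := by
        intro a ha
        have hw : ∀ g ∈ richFix A (insert i J) (Function.update g₀ i a),
            (if g i ∈ Rch J g i then z else 1) =
              (1 + (z - 1) * (if a ∈ Rch J g₀ i then 1 else 0)) := by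
          intro g hg
          have hg2 := (mem_filter.1 hg).2
          have h1 : g i = a := by
            have := hg2 i (mem_insert_self i J)
            rwa [Function.update_self] at this
          have h2 : Rch J g = Rch J g₀ := by
            apply hdep
            intro j hj
            have := hg2 j (mem_insert_of_mem hj)
            rwa [Function.update_of_ne (show j ≠ i from fun h => hiJ (h ▸ hj))] at this
          rw [h1, h2]
          split_ifs <;> ring
        have hsum : ∑ g ∈ richFix A (insert i J) (Function.update g₀ i a),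
          (if g i ∈ Rch J g i then z else 1) * richPhi Rch z g N (insert i J) =
          (1 + (z - 1) * (if a ∈ Rch J g₀ i then 1 else 0)) *
            ∑ g ∈ richFix A (insert i J) (Function.update g₀ i a),
              richPhi Rch z g N (insert i J) := by
          rw [mul_sum]
          exact sum_congr rfl (fun g hg => by rw [hw g hg])
        rw [hsum]
        have hw0 : (0 : ℝ) ≤ 1 + (z - 1) * (if a ∈ Rch J g₀ i then 1 else 0) := by
          split_ifs <;> nlinarith
        refine mul_le_mul_of_nonneg_left ?_ hw0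
        have hup : Function.update g₀ i a ∈ Fintype.piFinset A := by
          rw [Fintype.mem_piFinset]
          intro j
          by_cases hj : j = i
          · subst hj
            rw [Function.update_self]
            exact ha
          · rw [Function.update_of_ne hj]
            exact Fintype.mem_piFinset.1 hg₀ j
        have hcc : ((insert i J)ᶜ.card : ℝ) + 1 = Jᶜ.card := by exact_mod_cast hci
        have := ih (insert i J) (Function.update g₀ i a) hup (by linarith)
        have hcc2 : (insert i J)ᶜ.card = Jᶜ.card - 1 := by omega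
        rwa [hcc2] at this
      refine (sum_le_sum step).trans (le_of_eq ?_)
      rw [← sum_mul, sum_add_distrib, ← mul_sum, sum_boole]
      congr 1
      rw [sum_const, nsmul_eq_mul, mul_one, hA i, filter_mem_eq_inter]
    have hswap : ∑ g ∈ richFix A J g₀, richPhi Rch z g (N + 1) J =
        (∑ i ∈ Jᶜ, ∑ g ∈ richFix A J g₀, (if g i ∈ Rch J g i then z else 1) *
        richPhi Rch z g N (insert i J)) / (Jᶜ.card : ℝ) := by
      simp only [richPhi]
      rw [← sum_div, sum_comm]
    rw [hswap, div_le_iff₀ hcard]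
    refine (sum_le_sum key).trans ?_
    rw [← sum_mul, sum_add_distrib, ← mul_sum, sum_const, nsmul_eq_mul]
    have hρJ := hρ J g₀ hg₀
    have hpos : 0 ≤ C ^ N * (G : ℝ) ^ (Jᶜ.card - 1) := by positivity
    have hz0 : 0 ≤ z - 1 := by linarith
    have h1 : (Jᶜ.card : ℝ) * G + (z - 1) * ∑ i ∈ Jᶜ, (((A i) ∩ (Rch J g₀ i)).card : ℝ) ≤
        C * G * Jᶜ.card := by
      have h2 : (z - 1) * ∑ i ∈ Jᶜ, (((A i) ∩ (Rch J g₀ i)).card : ℝ) ≤ (z - 1) * (ρ * G) :=
        mul_le_mul_of_nonneg_left hρJ hz0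
      have h3 : (z - 1) * ρ ≤ (z - 1) * ρ / r * Jᶜ.card := by
        have hrJ : r ≤ Jᶜ.card := by
          have : (0 : ℝ) ≤ N := Nat.cast_nonneg N
          linarith
        rw [div_mul_eq_mul_div, le_div_iff₀ hr]
        exact mul_le_mul_of_nonneg_left hrJ (mul_nonneg hz0 hρ0)
      have h4 : (z - 1) * ρ * G ≤ (z - 1) * ρ / r * Jᶜ.card * G :=
        mul_le_mul_of_nonneg_right h3 hGn
      rw [hCdef]
      nlinarith
    calc ((Jᶜ.card : ℝ) * G + (z - 1) * ∑ i ∈ Jᶜ, (((A i) ∩ (Rch J g₀ i)).card : ℝ)) *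
          (C ^ N * (G : ℝ) ^ (Jᶜ.card - 1))
        ≤ C * G * Jᶜ.card * (C ^ N * (G : ℝ) ^ (Jᶜ.card - 1)) :=
          mul_le_mul_of_nonneg_right h1 hpos
      _ = C ^ (N + 1) * (G : ℝ) ^ Jᶜ.card * Jᶜ.card := by
          have hc1 : Jᶜ.card = (Jᶜ.card - 1) + 1 := by
            have : 0 < Jᶜ.card := by exact_mod_cast hcard
            omega
          have : (G : ℝ) ^ Jᶜ.card = (G : ℝ) ^ (Jᶜ.card - 1) * G := by
            conv_lhs => rw [hc1]
            rw [pow_succ]
          rw [this, pow_succ]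
          ring

/-- Let `Φ_0 = 1`, `Φ_{N+1}(J,g) = (1/|Jᶜ|) ∑_{i ∉ J} z^{[g i rich]} Φ_N(J ∪ {i}, g)`.  If there is no
path then `Φ_N(∅, g) ≥ z^m` (all paths have more than `m` rich steps), and by induction, for `g₀` fixed
on `J`, `∑_{g = g₀ on J} Φ_N(J, g) ≤ (1 + (z-1) ρ / r)^N G^{n - |J|}` if `N + r ≤ n - |J|`. -/
theorem rich_count {ι α : Type*} [Fintype ι] (A : ι → Finset α) (G : ℕ)
    (hA : ∀ i, (A i).card = G) (Rch : Finset ι → (ι → α) → ι → Finset α)
    (hdep : ∀ J g g', (∀ j ∈ J, g j = g' j) → Rch J g = Rch J g')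
    (ρ r z : ℝ) (hρ0 : 0 ≤ ρ)
    (hρ : ∀ J, ∀ g ∈ Fintype.piFinset A, ∑ i ∈ Jᶜ, (((A i) ∩ (Rch J g i)).card : ℝ) ≤ ρ * G)
    (hr : 0 < r) (hz : 1 ≤ z) (N m : ℕ) (hN : (N : ℝ) + r ≤ Fintype.card ι) :
    (((Fintype.piFinset A).filter fun g => ¬ Path Rch g N m ∅).card : ℝ) * z ^ m ≤
      (1 + (z - 1) * ρ / r) ^ N * (G : ℝ) ^ (Fintype.card ι) := by
  have hcard : ((∅ : Finset ι)ᶜ).card = Fintype.card ι := by
    rw [compl_empty, card_univ]
  have hNn : N ≤ Fintype.card ι := by
    have : (N : ℝ) ≤ Fintype.card ι := by linarith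
    exact_mod_cast this
  have h1 : (((Fintype.piFinset A).filter fun g => ¬ Path Rch g N m ∅).card : ℝ) * z ^ m ≤
      ∑ g ∈ Fintype.piFinset A, richPhi Rch z g N ∅ := by
    calc (((Fintype.piFinset A).filter fun g => ¬ Path Rch g N m ∅).card : ℝ) * z ^ m
        ≤ ∑ g ∈ (Fintype.piFinset A).filter (fun g => ¬ Path Rch g N m ∅),
            richPhi Rch z g N ∅ := by
          have := card_nsmul_le_sum ((Fintype.piFinset A).filter (fun g => ¬ Path Rch g N m ∅))
            (fun g => richPhi Rch z g N ∅) (z ^ m) (fun g hg =>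
              pow_le_richPhi Rch z hz g N m ∅ (by rw [hcard]; exact hNn) (mem_filter.1 hg).2)
          rwa [nsmul_eq_mul] at this
      _ ≤ _ := sum_le_sum_of_subset_of_nonneg (filter_subset _ _)
          (fun g _ _ => richPhi_nonneg Rch z hz g N ∅)
  refine h1.trans ?_
  rcases (Fintype.piFinset A).eq_empty_or_nonempty with he | ⟨g₀, hg₀⟩
  · rw [he, sum_empty]
    have : 0 ≤ (z - 1) * ρ / r := by
      have : 0 ≤ z - 1 := by linarith
      positivity
    positivity
  · have h2 := rich_sum A G hA Rch hdep ρ r z hρ0 hρ hr hz N ∅ g₀ hg₀ (by rw [hcard]; exact hN)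
    have h3 : richFix A ∅ g₀ = Fintype.piFinset A := by
      unfold richFix
      simp
    rw [h3, hcard] at h2
    exact h2

end P045
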