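import Vale.Agent.P045R.Plane

/-!
# P045R, module VAR: variance identity and atypical lines
-/

namespace P045

open Finset
open scoped Classical

variable {q : ℕ} [Fact q.Prime]

theorem var_sum1 (U : Finset (Pt q)) :
    ∑ l : Ln q, ((pts l ∩ U).card : ℝ) = ((q : ℝ) + 1) * U.card := by
  have h : ∑ l : Ln q, (pts l ∩ U).card = (q + 1) * U.card := by
    have h1 : ∀ l : Ln q, (pts l ∩ U).card = ∑ v ∈ U, if v ∈ pts l then 1 else 0 := by
      intro l
      rw [← card_filter, inter_comm, filter_mem_eq_inter]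
    simp only [h1]
    rw [sum_comm]
    have h2 : ∀ v ∈ U, ∑ l : Ln q, (if v ∈ pts l then 1 else 0) = q + 1 := by
      intro v _
      rw [← card_filter, card_lines_through]
    rw [sum_congr rfl h2, sum_const, smul_eq_mul, mul_comm]
  exact_mod_cast h

theorem var_sum2 (U : Finset (Pt q)) :
    ∑ l : Ln q, ((pts l ∩ U).card : ℝ) ^ 2 = (q : ℝ) * U.card + (U.card : ℝ) ^ 2 := by
  have h : ∑ l : Ln q, (pts l ∩ U).card ^ 2 = q * U.card + U.card ^ 2 := by
    have h1 : ∀ l : Ln q, (pts l ∩ U).card ^ 2 =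
        ∑ v ∈ U, ∑ w ∈ U, if v ∈ pts l ∧ w ∈ pts l then 1 else 0 := by
      intro l
      have h2 : (pts l ∩ U).card = ∑ v ∈ U, if v ∈ pts l then 1 else 0 := by
        rw [← card_filter, inter_comm, filter_mem_eq_inter]
      rw [sq, h2, sum_mul_sum]
      refine sum_congr rfl fun v _ => sum_congr rfl fun w _ => ?_
      by_cases hv : v ∈ pts l <;> by_cases hw : w ∈ pts l <;> simp [hv, hw]
    simp only [h1]
    rw [sum_comm]
    have h3 : ∀ v ∈ U, ∑ l : Ln q, ∑ w ∈ U, (if v ∈ pts l ∧ w ∈ pts l then 1 else 0) =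
        q + U.card := by
      intro v hv
      rw [sum_comm]
      have h4 : ∀ w ∈ U, ∑ l : Ln q, (if v ∈ pts l ∧ w ∈ pts l then 1 else 0) =
          1 + if w = v then q else 0 := by
        intro w _
        rw [← card_filter]
        by_cases hwv : w = v
        · subst hwv
          simp only [and_self, if_true]
          rw [card_lines_through, add_comm]
        · rw [card_lines_through_two (Ne.symm hwv), if_neg hwv, add_zero]
      rw [sum_congr rfl h4, sum_add_distrib, sum_const, smul_eq_mul, mul_one,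
        sum_ite_eq' U v (fun _ => q), if_pos hv, add_comm]
    rw [sum_congr rfl h3, sum_const, smul_eq_mul]
    ring
  exact_mod_cast h

/-- `∑_l |l ∩ U| = (q+1)|U|`, `∑_l |l ∩ U|² = |U|(q+1) + |U|(|U|-1)`; hence the variance is
`q|U| - |U|²/q`. -/
theorem var_le (U : Finset (Pt q)) :
    ∑ l : Ln q, (((pts l ∩ U).card : ℝ) - (U.card : ℝ) / q) ^ 2 ≤ q * U.card := by
  have hq : (0 : ℝ) < q := by exact_mod_cast (Fact.out : q.Prime).pos
  have h1 : ∀ l : Ln q, (((pts l ∩ U).card : ℝ) - (U.card : ℝ) / q) ^ 2 =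
      ((pts l ∩ U).card : ℝ) ^ 2 - 2 * ((U.card : ℝ) / q) * ((pts l ∩ U).card : ℝ) +
        ((U.card : ℝ) / q) ^ 2 := fun l => by ring
  simp only [h1]
  rw [sum_add_distrib, sum_sub_distrib, ← mul_sum, var_sum1, var_sum2, sum_const, card_univ,
    card_Ln, nsmul_eq_mul]
  push_cast
  have h2 : (q : ℝ) * U.card + (U.card : ℝ) ^ 2 - 2 * ((U.card : ℝ) / q) * (((q : ℝ) + 1) * U.card)
      + ((q : ℝ) + 1) * q * ((U.card : ℝ) / q) ^ 2 = q * U.card - (U.card : ℝ) ^ 2 / q := by
    field_simp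
    ring
  rw [h2]
  have h3 : 0 ≤ (U.card : ℝ) ^ 2 / q := by positivity
  linarith

/-- Lines that meet `U` in an atypical number of points. -/
noncomputable def Atyp (η : ℝ) (U : Finset (Pt q)) : Finset (Ln q) :=
  univ.filter fun l => η * q < |((pts l ∩ U).card : ℝ) - (U.card : ℝ) / q|

theorem mem_Atyp {η : ℝ} {U : Finset (Pt q)} {l : Ln q} :
    l ∈ Atyp η U ↔ η * q < |((pts l ∩ U).card : ℝ) - (U.card : ℝ) / q| := by
  simp [Atyp]

theorem card_Atyp_le {η : ℝ} (hη : 0 < η) (U : Finset (Pt q)) :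
    ((Atyp η U).card : ℝ) ≤ U.card / (q * η ^ 2) := by
  have hq : (0 : ℝ) < q := by exact_mod_cast (Fact.out : q.Prime).pos
  have h1 : ((Atyp η U).card : ℝ) * (η * q) ^ 2 ≤ q * U.card := by
    calc ((Atyp η U).card : ℝ) * (η * q) ^ 2 = ∑ l ∈ Atyp η U, (η * q) ^ 2 := by
          rw [sum_const, nsmul_eq_mul]
      _ ≤ ∑ l ∈ Atyp η U, (((pts l ∩ U).card : ℝ) - (U.card : ℝ) / q) ^ 2 := by
          refine sum_le_sum fun l hl => ?_
          rw [← sq_abs (((pts l ∩ U).card : ℝ) - (U.card : ℝ) / q)]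
          exact pow_le_pow_left₀ (by positivity) (mem_Atyp.1 hl).le 2
      _ ≤ ∑ l : Ln q, (((pts l ∩ U).card : ℝ) - (U.card : ℝ) / q) ^ 2 :=
          sum_le_sum_of_subset_of_nonneg (subset_univ _) fun _ _ _ => sq_nonneg _
      _ ≤ q * U.card := var_le U
  rw [le_div_iff₀ (by positivity)]
  have h2 : ((Atyp η U).card : ℝ) * (q * η ^ 2) * q ≤ U.card * q := by nlinarith
  exact le_of_mul_le_mul_right h2 hq

theorem card_Atyp_le' {η : ℝ} (hη : 0 < η) (U : Finset (Pt q)) :
    ((Atyp η U).card : ℝ) ≤ q / η ^ 2 := by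
  have hq : (0 : ℝ) < q := by exact_mod_cast (Fact.out : q.Prime).pos
  refine (card_Atyp_le hη U).trans ?_
  have h1 : (U.card : ℝ) ≤ (q : ℝ) ^ 2 := by
    have := card_le_univ U
    rw [card_Pt] at this
    exact_mod_cast this
  rw [div_le_div_iff₀ (by positivity) (by positivity)]
  have h2 : 0 ≤ η ^ 2 := by positivity
  nlinarith

end P045
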