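import Vale.Agent.P045R.Events
import Vale.Agent.P045R.GadCard
import Vale.Agent.P045R.RichL
import Vale.Agent.P045R.Var

/-!
# P045R: processing the gadgets one by one, definitions
-/

namespace P045

open Finset
open scoped Classical

section
variable {q : ℕ} [Fact q.Prime]

/-- Part of `unc L` not covered by the small lines of the gadgets in `J`. -/
noncomputable def UJ (L : Finset (Ln q)) (J : Finset (Dir q)) (c : Dir q → Gd q) : Finset (Pt q) :=
  unc L \ cov ((J.biUnion fun j => gl j (c j)).filter (Small L))

/-- Gadgets with a line that covers too much of `UJ`. -/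
noncomputable def Rset (L : Finset (Ln q)) (J : Finset (Dir q)) (c : Dir q → Gd q) (f : Dir q) :
    Finset (Gd q) :=
  (GadSet q f).filter fun g => ∃ k ∈ gl f g,
    ((UJ L J c).card : ℝ) / q + kap * (unc L).card / q < ((pts k ∩ UJ L J c).card : ℝ)

theorem UJ_dep (L : Finset (Ln q)) (J : Finset (Dir q)) (c c' : Dir q → Gd q)
    (h : ∀ j ∈ J, c j = c' j) : UJ L J c = UJ L J c' := by
  have h1 : (J.biUnion fun j => gl j (c j)) = (J.biUnion fun j => gl j (c' j)) := by
    apply Finset.biUnion_congr rfl
    intro j hj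
    rw [h j hj]
  unfold UJ
  rw [h1]

theorem Rset_dep (L : Finset (Ln q)) (J : Finset (Dir q)) (c c' : Dir q → Gd q)
    (h : ∀ j ∈ J, c j = c' j) : Rset L J c = Rset L J c' := by
  funext f
  unfold Rset
  rw [UJ_dep L J c c' h]

end

/-- Number of controlled steps. -/
noncomputable def nSt (q : ℕ) : ℕ := q + 1 - ⌈kap * q⌉₊

/-- Number of allowed rich steps. -/
noncomputable def mSt (q : ℕ) : ℕ := ⌊kap * q⌋₊

end P045
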