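import Vale.Agent.P045R.P1Defs

/-!
# P045R, module P1DET: few rich steps imply many large special lines
-/

namespace P045

open Finset
open scoped Classical

section
variable {q : ℕ} [Fact q.Prime]

theorem pd_card_gl (f : Dir q) (g : Gd q) : (gl f g).card ≤ 19 := by
  unfold gl
  refine (card_insert_le _ _).trans ?_
  have h : (univ.image (ml g)).card ≤ 18 := by
    refine card_image_le.trans ?_
    simp
  omega

theorem pd_mem_UJ {L : Finset (Ln q)} {J : Finset (Dir q)} {c : Dir q → Gd q} {v : Pt q} :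
    v ∈ UJ L J c ↔ v ∈ unc L ∧ ∀ j ∈ J, ∀ k ∈ gl j (c j), Small L k → v ∉ pts k := by
  unfold UJ
  rw [mem_sdiff, mem_cov]
  constructor
  · rintro ⟨h1, h2⟩
    refine ⟨h1, fun j hj k hk hs hv => h2 ⟨k, ?_, hv⟩⟩
    rw [mem_filter, mem_biUnion]
    exact ⟨⟨j, hj, hk⟩, hs⟩
  · rintro ⟨h1, h2⟩
    refine ⟨h1, ?_⟩
    rintro ⟨k, hk, hv⟩
    rw [mem_filter, mem_biUnion] at hk
    obtain ⟨⟨j, hj, hk⟩, hs⟩ := hk
    exact h2 j hj k hk hs hv

theorem pd_UJ_insert (L : Finset (Ln q)) (J : Finset (Dir q)) (c : Dir q → Gd q) (i : Dir q) :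
    UJ L (insert i J) c = UJ L J c \ cov ((gl i (c i)).filter (Small L)) := by
  apply Finset.ext
  intro v
  rw [mem_sdiff, pd_mem_UJ, pd_mem_UJ, mem_cov]
  constructor
  · rintro ⟨h1, h2⟩
    refine ⟨⟨h1, fun j hj => h2 j (mem_insert_of_mem hj)⟩, ?_⟩
    rintro ⟨k, hk, hv⟩
    rw [mem_filter] at hk
    exact h2 i (mem_insert_self i J) k hk.1 hk.2 hv
  · rintro ⟨⟨h1, h2⟩, h3⟩
    refine ⟨h1, fun j hj k hk hs hv => ?_⟩
    rcases mem_insert.mp hj with rfl | hj
    · exact h3 ⟨k, mem_filter.mpr ⟨hk, hs⟩, hv⟩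
    · exact h2 j hj k hk hs hv

theorem pd_UJ_sub (L : Finset (Ln q)) (J : Finset (Dir q)) (c : Dir q → Gd q) :
    UJ L J c ⊆ unc L := sdiff_subset

/-- removing the points of a set of lines -/
theorem pd_sdiff (A : Finset (Pt q)) (S : Finset (Ln q)) {b : ℝ}
    (h : ∀ k ∈ S, ((pts k ∩ A).card : ℝ) ≤ b) :
    (A.card : ℝ) - S.card * b ≤ ((A \ cov S).card : ℝ) := by
  have h1 : A ∩ cov S ⊆ S.biUnion fun k => pts k ∩ A := by
    intro v hv
    rw [mem_inter, mem_cov] at hv
    obtain ⟨hvA, k, hk, hvk⟩ := hv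
    rw [mem_biUnion]
    exact ⟨k, hk, mem_inter.mpr ⟨hvk, hvA⟩⟩
  have h2 : ((A ∩ cov S).card : ℝ) ≤ S.card * b := by
    calc ((A ∩ cov S).card : ℝ) ≤ ((S.biUnion fun k => pts k ∩ A).card : ℝ) := by
          exact_mod_cast card_le_card h1
      _ ≤ ∑ k ∈ S, ((pts k ∩ A).card : ℝ) := by exact_mod_cast card_biUnion_le
      _ ≤ ∑ k ∈ S, b := sum_le_sum h
      _ = S.card * b := by rw [sum_const, nsmul_eq_mul]
  have h3 : ((A \ cov S).card : ℝ) + ((A ∩ cov S).card : ℝ) = A.card := by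
    exact_mod_cast card_sdiff_add_card_inter A (cov S)
  linarith

/-- every step -/
theorem pd_step (L : Finset (Ln q)) (J : Finset (Dir q)) (c : Dir q → Gd q) (i : Dir q) :
    ((UJ L J c).card : ℝ) - 38 * (unc L).card / q ≤ ((UJ L (insert i J) c).card : ℝ) := by
  have hq : (0 : ℝ) < q := by exact_mod_cast (Fact.out : q.Prime).pos
  rw [pd_UJ_insert]
  have hb : ∀ k ∈ (gl i (c i)).filter (Small L),
      ((pts k ∩ UJ L J c).card : ℝ) ≤ 2 * (unc L).card / q := by
    intro k hk
    rw [mem_filter] at hk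
    refine le_trans ?_ hk.2
    exact_mod_cast card_le_card (inter_subset_inter_left (pd_UJ_sub L J c))
  have h1 := pd_sdiff (UJ L J c) _ hb
  have h2 : (((gl i (c i)).filter (Small L)).card : ℝ) ≤ 19 := by
    exact_mod_cast (card_filter_le _ _).trans (pd_card_gl i (c i))
  have h3 : (0 : ℝ) ≤ 2 * (unc L).card / q := by positivity
  have h4 : (((gl i (c i)).filter (Small L)).card : ℝ) * (2 * (unc L).card / q) ≤
      38 * (unc L).card / q := by
    calc (((gl i (c i)).filter (Small L)).card : ℝ) * (2 * (unc L).card / q) ≤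
        19 * (2 * (unc L).card / q) := mul_le_mul_of_nonneg_right h2 h3
      _ = 38 * (unc L).card / q := by ring
  linarith

/-- a step which is not rich -/
theorem pd_step_poor (L : Finset (Ln q)) (J : Finset (Dir q)) (c : Dir q → Gd q)
    (hc : c ∈ All q) (i : Dir q) (hi : c i ∉ Rset L J c i) :
    ((UJ L J c).card : ℝ) - 19 * (((UJ L J c).card : ℝ) / q + kap * (unc L).card / q) ≤
      ((UJ L (insert i J) c).card : ℝ) := by
  have hq : (0 : ℝ) < q := by exact_mod_cast (Fact.out : q.Prime).pos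
  rw [pd_UJ_insert]
  have hb : ∀ k ∈ (gl i (c i)).filter (Small L),
      ((pts k ∩ UJ L J c).card : ℝ) ≤ ((UJ L J c).card : ℝ) / q + kap * (unc L).card / q := by
    intro k hk
    rw [mem_filter] at hk
    by_contra hlt
    apply hi
    unfold Rset
    rw [mem_filter]
    exact ⟨mem_All.mp hc i, k, hk.1, not_le.mp hlt⟩
  have h1 := pd_sdiff (UJ L J c) _ hb
  have h2 : (((gl i (c i)).filter (Small L)).card : ℝ) ≤ 19 := by
    exact_mod_cast (card_filter_le _ _).trans (pd_card_gl i (c i))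
  have h3 : (0 : ℝ) ≤ ((UJ L J c).card : ℝ) / q + kap * (unc L).card / q := by
    exact add_nonneg (div_nonneg (Nat.cast_nonneg _) hq.le)
      (div_nonneg (mul_nonneg kap_pos.le (Nat.cast_nonneg _)) hq.le)
  generalize ((UJ L J c).card : ℝ) / q + kap * (unc L).card / q = w at h1 h3 ⊢
  have h4 := mul_le_mul_of_nonneg_right h2 h3
  linarith

theorem pd_path (L : Finset (Ln q)) (c : Dir q → Gd q) (hc : c ∈ All q) (hq19 : 19 ≤ q) :
    ∀ (T m : ℕ) (J : Finset (Dir q)), Path (Rset L) c T m J →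
      ∃ J' : Finset (Dir q), J'.card = J.card + T ∧
        (1 - 19 / (q : ℝ)) ^ T * ((UJ L J c).card : ℝ) -
          (T * (19 * kap * (unc L).card / q) + m * (38 * (unc L).card / q)) ≤
          ((UJ L J' c).card : ℝ) := by
  have hq : (0 : ℝ) < q := by exact_mod_cast (Fact.out : q.Prime).pos
  have hq' : (19 : ℝ) ≤ q := by exact_mod_cast hq19
  have hkap := kap_pos
  have ha0 : 0 ≤ 1 - 19 / (q : ℝ) := by
    rw [sub_nonneg, div_le_one hq]; exact hq'
  have ha1 : 1 - 19 / (q : ℝ) ≤ 1 := by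
    have : 0 ≤ 19 / (q : ℝ) := by positivity
    linarith
  set a := 1 - 19 / (q : ℝ) with ha
  set e1 := 19 * kap * (unc L).card / (q : ℝ) with he1
  set e2 := 38 * ((unc L).card : ℝ) / (q : ℝ) with he2
  have he1' : 0 ≤ e1 := by positivity
  have he2' : 0 ≤ e2 := by positivity
  intro T
  induction T with
  | zero =>
    intro m J _
    refine ⟨J, rfl, ?_⟩
    simp only [pow_zero, one_mul, Nat.cast_zero, zero_mul, zero_add]
    have : 0 ≤ (m : ℝ) * e2 := by positivity
    linarith
  | succ T ih =>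
    intro m J hP
    obtain ⟨i, hiJ, hP⟩ := hP
    have hcard : (insert i J).card = J.card + 1 := card_insert_of_notMem hiJ
    have haT0 : 0 ≤ a ^ T := pow_nonneg ha0 T
    have haT1 : a ^ T ≤ 1 := pow_le_one₀ ha0 ha1
    set u := ((UJ L J c).card : ℝ) with hu
    set u' := ((UJ L (insert i J) c).card : ℝ) with hu'
    have hu0 : 0 ≤ u := Nat.cast_nonneg _
    rcases hP with ⟨hi, hP⟩ | ⟨hm, hP⟩
    · have hP' : Path (Rset L) c T m (insert i J) := by
          refine cast (congrArg (fun J' => Path (Rset L) c T _ J') ?_) hP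
          ext x
          simp only [mem_insert]
      obtain ⟨J', hJ', hb⟩ := ih m (insert i J) hP'
      refine ⟨J', by omega, ?_⟩
      have h1 := pd_step_poor L J c hc i hi
      have h2 : a * u - e1 ≤ u' := by
        have : a * u - e1 = u - 19 * (u / q + kap * (unc L).card / q) := by
          rw [ha, he1]; ring
        rw [this]; exact h1
      have h3 := mul_le_mul_of_nonneg_left h2 haT0
      have h4 : a ^ T * e1 ≤ e1 := mul_le_of_le_one_left he1' haT1
      have h5 : a ^ (T + 1) * u = a ^ T * (a * u) := by rw [pow_succ]; ring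
      push_cast
      rw [h5]
      nlinarith
    · have hP' : Path (Rset L) c T (m - 1) (insert i J) := by
          refine cast (congrArg (fun J' => Path (Rset L) c T _ J') ?_) hP
          ext x
          simp only [mem_insert]
      obtain ⟨J', hJ', hb⟩ := ih (m - 1) (insert i J) hP'
      refine ⟨J', by omega, ?_⟩
      have h1 := pd_step L J c i
      have h2 : a * u - e2 ≤ u' := by
        have h6 : a * u ≤ u := mul_le_of_le_one_left hu0 ha1
        have h7 : u - e2 ≤ u' := h1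
        linarith
      have h3 := mul_le_mul_of_nonneg_left h2 haT0
      have h4 : a ^ T * e2 ≤ e2 := mul_le_of_le_one_left he2' haT1
      have h5 : a ^ (T + 1) * u = a ^ T * (a * u) := by rw [pow_succ]; ring
      have h8 : ((m - 1 : ℕ) : ℝ) = (m : ℝ) - 1 := by
        rw [Nat.cast_sub hm]; simp
      rw [h8] at hb
      push_cast
      rw [h5]
      nlinarith

theorem pd_rest (L : Finset (Ln q)) (c : Dir q → Gd q) (J D : Finset (Dir q)) :
    ((UJ L J c).card : ℝ) - D.card * (38 * (unc L).card / q) ≤ ((UJ L (J ∪ D) c).card : ℝ) := by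
  have hq : (0 : ℝ) < q := by exact_mod_cast (Fact.out : q.Prime).pos
  induction D using Finset.induction_on with
  | empty => simp
  | insert i D hi ih =>
    rw [union_insert, card_insert_of_notMem hi]
    have h1 := pd_step L (J ∪ D) c i
    push_cast
    linarith

theorem pd_final (L : Finset (Ln q)) (c : Dir q → Gd q) (hL : L.card = q)
    (hU : 4 * (unc L).card ≤ q ^ 2) (hcov : unc L ⊆ cov (Rl c)) :
    ((UJ L univ c).card : ℝ) ≤ (((Rl c).filter (Large L)).card : ℝ) * q := by
  have h1 : UJ L univ c ⊆ ((Rl c).filter (Large L)).biUnion fun k => pts k := by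
    intro v hv
    unfold UJ at hv
    rw [mem_sdiff] at hv
    obtain ⟨hvL, hvS⟩ := hv
    obtain ⟨k, hk, hvk⟩ := mem_cov.mp (hcov hvL)
    rw [mem_biUnion]
    refine ⟨k, ?_, hvk⟩
    rw [mem_filter]
    refine ⟨hk, ?_⟩
    rcases small_or_large hL hU k with hs | hl
    · exfalso
      apply hvS
      rw [mem_cov]
      exact ⟨k, mem_filter.mpr ⟨hk, hs⟩, hvk⟩
    · exact hl
  have h2 := card_le_card h1
  have h3 : (((Rl c).filter (Large L)).biUnion fun k => pts k).card ≤
      ((Rl c).filter (Large L)).card * q := by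
    refine card_biUnion_le.trans ?_
    rw [sum_congr rfl (fun k _ => card_pts k), sum_const, smul_eq_mul]
  exact_mod_cast h2.trans h3

end

theorem pd_exp {q : ℕ} (hq : 399 ≤ q) :
    Real.exp (-20) ≤ (1 - 19 / (q : ℝ)) ^ (q + 1) := by
  have hq' : (399 : ℝ) ≤ q := by exact_mod_cast hq
  have h1 : Real.exp (-(19 / ((q : ℝ) - 19))) ≤ 1 - 19 / (q : ℝ) := by
    have h2 : 1 - 19 / (q : ℝ) = (19 / ((q : ℝ) - 19) + 1)⁻¹ := by
      have h3 : (q : ℝ) - 19 ≠ 0 := by linarith
      have h4 : (q : ℝ) ≠ 0 := by linarith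
      rw [eq_comm, inv_eq_iff_eq_inv, eq_comm, inv_eq_iff_eq_inv, eq_comm]
      have h6 : (q : ℝ) - 19 + 19 = q := by ring
      rw [div_add_one h3, inv_div, add_comm (19 : ℝ), h6, one_sub_div h4]
    rw [h2, Real.exp_neg]
    have h5 : 0 < 19 / ((q : ℝ) - 19) + 1 := by
      have : 0 < (q : ℝ) - 19 := by linarith
      positivity
    exact inv_anti₀ h5 (Real.add_one_le_exp _)
  calc Real.exp (-20) ≤ Real.exp (-(19 / ((q : ℝ) - 19))) ^ (q + 1) := by
        rw [← Real.exp_nat_mul]
        apply Real.exp_le_exp.mpr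
        push_cast
        have h3 : (0 : ℝ) < (q : ℝ) - 19 := by linarith
        have h4 : ((q : ℝ) + 1) * (19 / ((q : ℝ) - 19)) ≤ 20 := by
          rw [mul_div_assoc', div_le_iff₀ h3]
          linarith
        linarith
    _ ≤ (1 - 19 / (q : ℝ)) ^ (q + 1) :=
        pow_le_pow_left₀ (Real.exp_pos _).le h1 _

/-- With `N = |unc L|`, `u = |UJ L J c|`: a step that is not rich gives
`u' ≥ u - 19 (u/q + kap N/q)`, a rich step and every one of the last `⌈kap q⌉` steps gives
`u' ≥ u - 38 N / q`.  Hence at the end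
`u ≥ N (1 - 19/q)^(q+1) - 20 kap N - 38 kap N - 39 kap N ≥ c3 N` (as `kap = e⁻²⁰ / 200`), and the rest
is covered by the large lines of `Rl c` (`small_or_large`), at most `q` points each. -/
theorem p1det : ∃ q₀ : ℕ, ∀ q ≥ q₀, ∀ [Fact q.Prime], ∀ (L : Finset (Ln q)),
    ∀ c ∈ All q, L.card = q → Mid q (unc L).card → unc L ⊆ cov (Rl c) →
    Path (Rset L) c (nSt q) (mSt q) ∅ →
    c3 * (unc L).card / q ≤ (((Rl c).filter (Large L)).card : ℝ) := by
  refine ⟨max 399 ⌈100 / kap⌉₊, ?_⟩
  intro q hq _ L c hc hL hMid hcov hP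
  have hq1 : 399 ≤ q := le_trans (le_max_left _ _) hq
  have hq2 : ⌈100 / kap⌉₊ ≤ q := le_trans (le_max_right _ _) hq
  have hkap := kap_pos
  have hkap1 := kap_le
  have hqk : 100 ≤ kap * q := by
    have h1 : 100 / kap ≤ q := Nat.ceil_le.mp hq2
    rw [div_le_iff₀ hkap] at h1
    linarith
  have hq0 : (0 : ℝ) < q := by exact_mod_cast (Fact.out : q.Prime).pos
  set N : ℝ := ((unc L).card : ℝ) with hN
  have hN0 : 0 ≤ N := Nat.cast_nonneg _
  have hU : 4 * (unc L).card ≤ q ^ 2 := by
    have h1 := hMid.2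
    have h2 := del0_lt
    have h3 : (4 : ℝ) * N ≤ (q : ℝ) ^ 2 := by nlinarith [sq_nonneg (q : ℝ)]
    rw [hN] at h3
    exact_mod_cast h3
  obtain ⟨J', hJ', hb⟩ := pd_path L c hc (by omega) (nSt q) (mSt q) ∅ hP
  have hUJ0 : ((UJ L ∅ c).card : ℝ) = N := by
    have : UJ L ∅ c = unc L := by
      unfold UJ
      ext v
      simp [mem_cov]
    rw [this]
  rw [hUJ0] at hb
  have hr := pd_rest L c J' J'ᶜ
  rw [union_compl] at hr
  have hf := pd_final L c hL hU hcov
  -- cardinality of the complement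
  have hceil : (⌈kap * q⌉₊ : ℝ) ≤ kap * q + 1 := (Nat.ceil_lt_add_one (by positivity)).le
  have hcle : ⌈kap * q⌉₊ ≤ q + 1 := by
    rw [Nat.ceil_le]
    push_cast
    nlinarith
  have hcc : J'ᶜ.card = ⌈kap * q⌉₊ := by
    rw [card_compl, card_Dir, hJ', card_empty, zero_add]
    unfold nSt
    omega
  rw [hcc] at hr
  -- bounds
  have hnSt : (nSt q : ℝ) ≤ q + 1 := by
    have : nSt q ≤ q + 1 := by unfold nSt; omega
    exact_mod_cast this
  have hmSt : (mSt q : ℝ) ≤ kap * q := Nat.floor_le (by positivity)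
  have hpow : Real.exp (-20) ≤ (1 - 19 / (q : ℝ)) ^ (nSt q) := by
    refine (pd_exp hq1).trans ?_
    apply pow_le_pow_of_le_one
    · rw [sub_nonneg, div_le_one hq0]
      have : (399 : ℝ) ≤ q := by exact_mod_cast hq1
      linarith
    · have : 0 ≤ 19 / (q : ℝ) := by positivity
      linarith
    · unfold nSt; omega
  have h38 : 0 ≤ 38 * N / (q : ℝ) := by positivity
  have h19 : 0 ≤ 19 * kap * N / (q : ℝ) := by positivity
  have b1 : (nSt q : ℝ) * (19 * kap * N / q) ≤ 20 * kap * N := by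
    calc (nSt q : ℝ) * (19 * kap * N / q) ≤ ((q : ℝ) + 1) * (19 * kap * N / q) :=
          mul_le_mul_of_nonneg_right hnSt h19
      _ = 19 * kap * N * (((q : ℝ) + 1) / q) := by ring
      _ ≤ 19 * kap * N * (20 / 19) := by
          apply mul_le_mul_of_nonneg_left _ (by positivity)
          rw [div_le_div_iff₀ hq0 (by norm_num)]
          have : (399 : ℝ) ≤ q := by exact_mod_cast hq1
          linarith
      _ = 20 * kap * N := by ring
  have b2 : (mSt q : ℝ) * (38 * N / q) ≤ 38 * kap * N := by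
    calc (mSt q : ℝ) * (38 * N / q) ≤ (kap * q) * (38 * N / q) :=
          mul_le_mul_of_nonneg_right hmSt h38
      _ = 38 * kap * N := by field_simp
  have b3 : (⌈kap * q⌉₊ : ℝ) * (38 * N / q) ≤ 39 * kap * N := by
    calc (⌈kap * q⌉₊ : ℝ) * (38 * N / q) ≤ (kap * q + 1) * (38 * N / q) :=
          mul_le_mul_of_nonneg_right hceil h38
      _ = 38 * kap * N + 38 * N * (1 / q) := by field_simp
      _ ≤ 38 * kap * N + 38 * N * (kap / 100) := by
          have h1 : 1 / (q : ℝ) ≤ kap / 100 := by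
            rw [div_le_div_iff₀ hq0 (by norm_num)]
            linarith
          have h2 : 0 ≤ 38 * N := by positivity
          linarith [mul_le_mul_of_nonneg_left h1 h2]
      _ ≤ 39 * kap * N := by nlinarith [mul_nonneg hkap.le hN0]
  have b4 : Real.exp (-20) * N ≤ (1 - 19 / (q : ℝ)) ^ (nSt q) * N :=
    mul_le_mul_of_nonneg_right hpow hN0
  have hk : kap = Real.exp (-20) / 200 := rfl
  have b5 : c3 * N ≤ Real.exp (-20) / 2 * N := mul_le_mul_of_nonneg_right c3_le hN0
  have b6 : 97 * kap * N = 97 / 200 * (Real.exp (-20) * N) := by rw [hk]; ring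
  have he0 : 0 ≤ Real.exp (-20) * N := by positivity
  rw [div_le_iff₀ hq0]
  linarith

end P045
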