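import Vale.Agent.P045R.Events
import Vale.Agent.P045R.Var

/-!
# P045R, module P2E: a random seed detects the large lines
-/

set_option linter.unusedSectionVars false

namespace P045

open Finset
open scoped Classical

/-! ### Random subsets -/

namespace P2E

section pe

variable {α β : Type*} [DecidableEq α] [DecidableEq β]

/-- The expectation of `f S` for a random subset `S` of `L` of density `p`. -/
noncomputable def pe (p : ℝ) (L : Finset α) (f : Finset α → ℝ) : ℝ :=
  ∑ S ∈ L.powerset, p ^ S.card * (1 - p) ^ (L.card - S.card) * f S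

theorem pe_insert (p : ℝ) {a : α} {L : Finset α} (ha : a ∉ L) (f : Finset α → ℝ) :
    pe p (insert a L) f = (1 - p) * pe p L f + p * pe p L (fun S => f (insert a S)) := by
  unfold pe
  rw [sum_powerset_insert ha, mul_sum, mul_sum]
  congr 1
  · refine sum_congr rfl fun S hS => ?_
    have h1 : S.card ≤ L.card := card_le_card (mem_powerset.1 hS)
    rw [card_insert_of_notMem ha, Nat.succ_sub h1, pow_succ]
    ring
  · refine sum_congr rfl fun S hS => ?_
    have h2 : a ∉ S := fun h => ha (mem_powerset.1 hS h)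
    rw [card_insert_of_notMem ha, card_insert_of_notMem h2, Nat.add_sub_add_right, pow_succ]
    ring

theorem pe_empty (p : ℝ) (f : Finset α → ℝ) : pe p ∅ f = f ∅ := by
  unfold pe
  simp

theorem pe_congr (p : ℝ) {L : Finset α} {f g : Finset α → ℝ} (h : ∀ S ⊆ L, f S = g S) :
    pe p L f = pe p L g := by
  unfold pe
  refine sum_congr rfl fun S hS => ?_
  rw [h S (mem_powerset.1 hS)]

theorem pe_mono {p : ℝ} (h0 : 0 ≤ p) (h1 : p ≤ 1) {L : Finset α} {f g : Finset α → ℝ}
    (h : ∀ S ⊆ L, f S ≤ g S) : pe p L f ≤ pe p L g := by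
  unfold pe
  refine sum_le_sum fun S hS => ?_
  refine mul_le_mul_of_nonneg_left (h S (mem_powerset.1 hS)) ?_
  exact mul_nonneg (pow_nonneg h0 _) (pow_nonneg (by linarith) _)

theorem pe_mul_left (p c : ℝ) (L : Finset α) (f : Finset α → ℝ) :
    pe p L (fun S => c * f S) = c * pe p L f := by
  unfold pe
  rw [mul_sum]
  refine sum_congr rfl fun S _ => ?_
  ring

theorem pe_mul_right (p c : ℝ) (L : Finset α) (f : Finset α → ℝ) :
    pe p L (fun S => f S * c) = pe p L f * c := by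
  unfold pe
  rw [sum_mul]
  refine sum_congr rfl fun S _ => ?_
  ring

theorem pe_sum (p : ℝ) (L : Finset α) (I : Finset β) (f : β → Finset α → ℝ) :
    pe p L (fun S => ∑ i ∈ I, f i S) = ∑ i ∈ I, pe p L (f i) := by
  unfold pe
  rw [sum_comm]
  refine sum_congr rfl fun S _ => ?_
  rw [mul_sum]

theorem pe_exp_card (p c : ℝ) (L : Finset α) :
    pe p L (fun S => c ^ S.card) = (p * c + (1 - p)) ^ L.card := by
  unfold pe
  rw [← Finset.sum_pow_mul_eq_add_pow]
  refine sum_congr rfl fun S _ => ?_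
  rw [mul_pow]
  ring

theorem pe_one (p : ℝ) (L : Finset α) : pe p L (fun _ => 1) = 1 := by
  have h := pe_exp_card p 1 L
  simp only [one_pow, mul_one] at h
  rw [h]
  have h2 : p + (1 - p) = 1 := by ring
  rw [h2, one_pow]

theorem pe_union (p : ℝ) {A B : Finset α} (h : Disjoint A B) (f : Finset α → ℝ) :
    pe p (A ∪ B) f = pe p A (fun S => pe p B (fun T => f (S ∪ T))) := by
  induction A using Finset.induction_on generalizing f with
  | empty =>
    rw [pe_empty, empty_union]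
    refine pe_congr p fun T _ => ?_
    rw [empty_union]
  | insert a A ha ih =>
    rw [disjoint_insert_left] at h
    have h1 : a ∉ A ∪ B := by
      rw [mem_union]
      rintro (h2 | h2)
      · exact ha h2
      · exact h.1 h2
    rw [insert_union, pe_insert p h1, pe_insert p ha, ih h.2, ih h.2]
    congr 2
    refine pe_congr p fun S _ => pe_congr p fun T _ => ?_
    rw [insert_union]

theorem pe_prod (p : ℝ) (V : Finset β) (A : β → Finset α)
    (hA : ∀ v ∈ V, ∀ w ∈ V, v ≠ w → Disjoint (A v) (A w)) (F : β → Finset α → ℝ) :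
    pe p (V.biUnion A) (fun S => ∏ v ∈ V, F v (S ∩ A v)) = ∏ v ∈ V, pe p (A v) (F v) := by
  induction V using Finset.induction_on with
  | empty =>
    rw [biUnion_empty, pe_empty, prod_empty, prod_empty]
  | insert v V hv ih =>
    have hd : ∀ w ∈ V, Disjoint (A v) (A w) := fun w hw =>
      hA v (mem_insert_self _ _) w (mem_insert_of_mem hw) (fun h => hv (h ▸ hw))
    have hD : Disjoint (A v) (V.biUnion A) := by
      rw [disjoint_biUnion_right]
      exact hd
    rw [biUnion_insert, pe_union p hD, prod_insert hv, ← ih (fun w hw w' hw' h =>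
      hA w (mem_insert_of_mem hw) w' (mem_insert_of_mem hw') h), ← pe_mul_right]
    refine pe_congr p fun S hS => ?_
    rw [← pe_mul_left]
    refine pe_congr p fun T hT => ?_
    rw [prod_insert hv]
    congr 1
    · congr 1
      ext x
      rw [mem_inter, mem_union]
      constructor
      · rintro ⟨h | h, h'⟩
        · exact h
        · exact absurd (hT h) (disjoint_left.1 hD h')
      · intro h
        exact ⟨Or.inl h, hS h⟩
    · refine prod_congr rfl fun w hw => ?_
      congr 1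
      ext x
      rw [mem_inter, mem_inter, mem_union]
      constructor
      · rintro ⟨h | h, h'⟩
        · exact absurd h' (disjoint_left.1 (hd w hw) (hS h))
        · exact ⟨h, h'⟩
      · rintro ⟨h, h'⟩
        exact ⟨Or.inr h, h'⟩

theorem pe_indicator (p c : ℝ) (A : Finset α) :
    pe p A (fun T => if T = ∅ then 1 else c) = 1 + (1 - (1 - p) ^ A.card) * (c - 1) := by
  have h1 : pe p A (fun T => if T = ∅ then 1 else c) =
      pe p A (fun _ => c * 1) + pe p A (fun T => if T = ∅ then (1 - c) else 0) := by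
    unfold pe
    rw [← sum_add_distrib]
    refine sum_congr rfl fun S _ => ?_
    dsimp only
    split_ifs <;> ring
  have h2 : pe p A (fun T => if T = ∅ then (1 - c) else 0) = (1 - p) ^ A.card * (1 - c) := by
    unfold pe
    rw [sum_eq_single ∅]
    · simp
    · intro S _ hS
      dsimp only
      rw [if_neg hS, mul_zero]
    · intro h
      exact absurd (empty_mem_powerset A) h
  rw [h1, h2, pe_mul_left, pe_one]
  ring

/-- exponential moments of the number of blocks that are hit -/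
theorem pe_blocks {p : ℝ} (h0 : 0 ≤ p) (h1 : p ≤ 1) {c : ℝ} (hc : 0 ≤ c) (L : Finset α)
    (V : Finset β) (A : β → Finset α) (hA : ∀ v ∈ V, ∀ w ∈ V, v ≠ w → Disjoint (A v) (A w))
    (hL : V.biUnion A ⊆ L) :
    pe p L (fun S => ∏ v ∈ V, (if S ∩ A v = ∅ then (1 : ℝ) else c)) ≤
      Real.exp ((c - 1) * ∑ v ∈ V, (1 - (1 - p) ^ (A v).card)) := by
  have e1 : L = V.biUnion A ∪ (L \ V.biUnion A) := (union_sdiff_of_subset hL).symm
  have e2 : pe p L (fun S => ∏ v ∈ V, (if S ∩ A v = ∅ then (1 : ℝ) else c)) =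
      pe p (V.biUnion A) (fun S => ∏ v ∈ V, (if S ∩ A v = ∅ then (1 : ℝ) else c)) := by
    conv_lhs => rw [e1]
    rw [pe_union p disjoint_sdiff]
    refine pe_congr p fun S _ => ?_
    have e3 : pe p (L \ V.biUnion A)
        (fun T => ∏ v ∈ V, (if (S ∪ T) ∩ A v = ∅ then (1 : ℝ) else c)) =
        pe p (L \ V.biUnion A) (fun _ => (∏ v ∈ V, (if S ∩ A v = ∅ then (1 : ℝ) else c)) * 1) := by
      refine pe_congr p fun T hT => ?_
      rw [mul_one]
      refine prod_congr rfl fun v hv => ?_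
      have e4 : (S ∪ T) ∩ A v = S ∩ A v := by
        ext x
        rw [mem_inter, mem_inter, mem_union]
        constructor
        · rintro ⟨h | h, h'⟩
          · exact ⟨h, h'⟩
          · exact absurd (mem_biUnion.2 ⟨v, hv, h'⟩) (mem_sdiff.1 (hT h)).2
        · rintro ⟨h, h'⟩
          exact ⟨Or.inl h, h'⟩
      rw [e4]
    rw [e3, pe_mul_left, pe_one, mul_one]
  rw [e2, pe_prod p V A hA (fun _ T => if T = ∅ then (1 : ℝ) else c), mul_sum, Real.exp_sum]
  refine prod_le_prod (fun v _ => ?_) (fun v _ => ?_)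
  · rw [pe_indicator]
    have h2 : 0 ≤ (1 - p) ^ (A v).card := pow_nonneg (by linarith) _
    have h3 : (1 - p) ^ (A v).card ≤ 1 := pow_le_one₀ (by linarith) (by linarith)
    nlinarith
  · rw [pe_indicator, mul_comm (c - 1)]
    have := Real.add_one_le_exp ((1 - (1 - p) ^ (A v).card) * (c - 1))
    linarith

/-- union bound -/
theorem pe_exists {p : ℝ} (h0 : 0 ≤ p) (h1 : p ≤ 1) (L : Finset α) (I : Finset β)
    (f : β → Finset α → ℝ) (hf : ∀ i ∈ I, ∀ S ⊆ L, 0 ≤ f i S) (hs : ∑ i ∈ I, pe p L (f i) < 1) :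
    ∃ S ⊆ L, ∀ i ∈ I, f i S < 1 := by
  by_contra hcon
  push Not at hcon
  have h2 : pe p L (fun _ => 1) ≤ pe p L (fun S => ∑ i ∈ I, f i S) := by
    refine pe_mono h0 h1 fun S hS => ?_
    obtain ⟨i, hi, h3⟩ := hcon S hS
    exact h3.trans (single_le_sum (f := fun i => f i S) (fun j hj => hf j hj S hS) hi)
  rw [pe_one, pe_sum] at h2
  linarith

end pe

section real

theorem e_lower {x : ℝ} (hx : 0 ≤ x) : x - x ^ 2 / 2 ≤ 1 - Real.exp (-x) := by
  have h1 := Real.quadratic_le_exp_of_nonneg hx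
  have h2 : Real.exp (-x) * Real.exp x = 1 := by rw [← Real.exp_add]; simp
  have h3 := Real.exp_pos (-x)
  have h4 : Real.exp (-x) * (1 + x + x ^ 2 / 2) ≤ 1 :=
    (mul_le_mul_of_nonneg_left h1 h3.le).trans h2.le
  have h5 : 0 < 1 + x + x ^ 2 / 2 := by positivity
  have h6 : Real.exp (-x) ≤ 1 - x + x ^ 2 / 2 := by
    have h7 : Real.exp (-x) * (1 + x + x ^ 2 / 2) ≤ (1 - x + x ^ 2 / 2) * (1 + x + x ^ 2 / 2) := by
      refine h4.trans ?_
      have : (1 - x + x ^ 2 / 2) * (1 + x + x ^ 2 / 2) = 1 + x ^ 4 / 4 := by ring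
      rw [this]
      have : 0 ≤ x ^ 4 := by positivity
      linarith
    exact le_of_mul_le_mul_right h7 h5
  linarith

theorem prod_three {a b c : ℝ} (ha : 0 ≤ a) (hb : 0 ≤ b) (hc : 0 ≤ c) (hb1 : b ≤ 1)
    (hc1 : c ≤ 1) : 1 - a - b - c ≤ (1 - a) * ((1 - b) * (1 - c)) := by
  have h1 : 0 ≤ b * c := mul_nonneg hb hc
  have h2 : (1 - b) * (1 - c) ≤ 1 := mul_le_one₀ (by linarith) (by linarith) (by linarith)
  have h3 : a * ((1 - b) * (1 - c)) ≤ a * 1 := mul_le_mul_of_nonneg_left h2 ha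
  linarith [(by ring : (1 - b) * (1 - c) = 1 - b - c + b * c),
    (by ring : (1 - a) * ((1 - b) * (1 - c)) = (1 - b) * (1 - c) - a * ((1 - b) * (1 - c)))]

theorem e_upper {x : ℝ} (hx1 : x ≤ 2) : 1 - Real.exp (-x) ≤ x - x ^ 2 / 4 := by
  have h1 := Real.add_one_le_exp (-(x / 2))
  have h2 : Real.exp (-x) = Real.exp (-(x / 2)) ^ 2 := by
    rw [← Real.exp_nat_mul]
    congr 1
    push_cast
    ring
  have h3 : (1 - x / 2) ^ 2 ≤ Real.exp (-(x / 2)) ^ 2 := by
    refine pow_le_pow_left₀ (by linarith) (by linarith) 2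
  rw [h2]
  nlinarith

theorem e_s {s : ℝ} (h0 : 0 ≤ s) (h1 : s ≤ 1) : Real.exp s - 1 ≤ s + s ^ 2 := by
  have h := Real.abs_exp_sub_one_sub_id_le (x := s) (by rw [abs_of_nonneg h0]; exact h1)
  have h2 := le_abs_self (Real.exp s - 1 - s)
  linarith

theorem mu_upper {β : Type*} (V : Finset β) (a : β → ℕ) {lam x M Q : ℝ} (hlam : 0 ≤ lam)
    (hV : (V.card : ℝ) ≤ M) (hQ : ∑ v ∈ V, (a v : ℝ) ≤ Q) (hM : lam * Q = M * x) :
    ∑ v ∈ V, (1 - Real.exp (-lam) ^ a v) ≤ M * (1 - Real.exp (-x)) := by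
  have h1 : ∀ v ∈ V, 1 - Real.exp (-lam) ^ a v ≤
      (1 - Real.exp (-x) * (1 + x)) + Real.exp (-x) * lam * a v := by
    intro v _
    have h2 : Real.exp (-lam) ^ a v = Real.exp (-x) * Real.exp (x - lam * a v) := by
      rw [← Real.exp_nat_mul, ← Real.exp_add]
      congr 1
      ring
    have h3 := Real.add_one_le_exp (x - lam * a v)
    have h4 := mul_le_mul_of_nonneg_left h3 (Real.exp_pos (-x)).le
    rw [h2]
    linarith
  have h5 := sum_le_sum h1
  rw [sum_add_distrib, sum_const, nsmul_eq_mul, ← mul_sum] at h5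
  have h6 : 0 ≤ 1 - Real.exp (-x) * (1 + x) := by
    have h7 := Real.add_one_le_exp x
    have h8 : Real.exp (-x) * Real.exp x = 1 := by rw [← Real.exp_add]; simp
    have h9 := mul_le_mul_of_nonneg_left h7 (Real.exp_pos (-x)).le
    linarith
  have h7 : (V.card : ℝ) * (1 - Real.exp (-x) * (1 + x)) ≤ M * (1 - Real.exp (-x) * (1 + x)) :=
    mul_le_mul_of_nonneg_right hV h6
  have h8 : Real.exp (-x) * lam * ∑ v ∈ V, (a v : ℝ) ≤ Real.exp (-x) * lam * Q :=
    mul_le_mul_of_nonneg_left hQ (mul_nonneg (Real.exp_pos _).le hlam)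
  have h9 : Real.exp (-x) * lam * Q = M * (Real.exp (-x) * x) := by
    rw [mul_assoc, hM]
    ring
  calc _ ≤ _ := h5
    _ ≤ M * (1 - Real.exp (-x) * (1 + x)) + M * (Real.exp (-x) * x) := by linarith
    _ = M * (1 - Real.exp (-x)) := by ring

theorem mu_lower {β : Type*} (V : Finset β) (a : β → ℕ) {lam : ℝ} (hlam : 0 ≤ lam)
    (ha : ∀ v ∈ V, 1 ≤ a v) :
    (V.card : ℝ) * (1 - Real.exp (-lam)) ≤ ∑ v ∈ V, (1 - Real.exp (-lam) ^ a v) := by
  rw [← nsmul_eq_mul, ← sum_const]
  refine sum_le_sum fun v hv => ?_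
  have h1 : Real.exp (-lam) ≤ 1 := Real.exp_le_one_iff.2 (by linarith)
  have h2 := pow_le_of_le_one (Real.exp_pos (-lam)).le h1 (n := a v) (by have := ha v hv; omega)
  linarith

theorem asym {c : ℝ} (hc : 0 < c) :
    ∃ q₀ : ℕ, ∀ q ≥ q₀, 3 * (q : ℝ) ^ 2 * Real.exp (-(c * Real.sqrt q)) < 1 := by
  have h1 := Real.tendsto_pow_mul_exp_neg_atTop_nhds_zero 4
  have h2 : Filter.Tendsto (fun q : ℕ => c * Real.sqrt q) Filter.atTop Filter.atTop :=
    (Real.tendsto_sqrt_atTop.comp tendsto_natCast_atTop_atTop).const_mul_atTop hc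
  have h3 := h1.comp h2
  have h4 := h3.eventually_lt_const (show (0 : ℝ) < c ^ 4 / 3 by positivity)
  obtain ⟨q₀, hq₀⟩ := Filter.eventually_atTop.1 h4
  refine ⟨q₀, fun q hq => ?_⟩
  have h5 := hq₀ q hq
  simp only [Function.comp_apply] at h5
  have h6 : Real.sqrt (q : ℝ) ^ 4 = (q : ℝ) ^ 2 := by
    have : Real.sqrt (q : ℝ) ^ 4 = (Real.sqrt (q : ℝ) ^ 2) ^ 2 := by ring
    rw [this, Real.sq_sqrt (Nat.cast_nonneg q)]
  rw [mul_pow, h6] at h5
  have h7 : c ^ 4 * (3 * (q : ℝ) ^ 2 * Real.exp (-(c * Real.sqrt q))) < c ^ 4 * 1 := by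
    have : c ^ 4 * (3 * (q : ℝ) ^ 2 * Real.exp (-(c * Real.sqrt q))) =
        3 * (c ^ 4 * (q : ℝ) ^ 2 * Real.exp (-(c * Real.sqrt q))) := by ring
    rw [this]
    linarith
  exact lt_of_mul_lt_mul_left h7 (by positivity)

end real

section main

variable {q : ℕ} [Fact q.Prime]

/-- the lines of `L` through `v` -/
noncomputable def blk (L : Finset (Ln q)) (v : Pt q) : Finset (Ln q) :=
  L.filter fun l => v ∈ pts l

theorem mem_blk {L : Finset (Ln q)} {v : Pt q} {l : Ln q} :
    l ∈ blk L v ↔ l ∈ L ∧ v ∈ pts l := by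
  simp [blk]

theorem blk_disj {L : Finset (Ln q)} {k : Ln q} (hk : k ∉ L) :
    ∀ v ∈ pts k ∩ cov L, ∀ w ∈ pts k ∩ cov L, v ≠ w → Disjoint (blk L v) (blk L w) := by
  intro v hv w hw h
  rw [disjoint_left]
  intro l h1 h2
  rw [mem_blk] at h1 h2
  rw [mem_inter] at hv hw
  have hne : l ≠ k := by
    intro e
    rw [e] at h1
    exact hk h1.1
  exact h (eq_of_mem_pts hne h1.2 hv.1 h2.2 hw.1)

theorem blk_sub (L : Finset (Ln q)) (V : Finset (Pt q)) : V.biUnion (blk L) ⊆ L := by
  intro l hl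
  obtain ⟨v, _, h⟩ := mem_biUnion.1 hl
  exact (mem_blk.1 h).1

theorem blk_card_sum {L : Finset (Ln q)} {k : Ln q} (hk : k ∉ L) :
    ∑ v ∈ pts k ∩ cov L, ((blk L v).card : ℝ) ≤ L.card := by
  rw [← Nat.cast_sum, ← card_biUnion (blk_disj hk)]
  exact_mod_cast card_le_card (blk_sub L _)

theorem prod_blk {L : Finset (Ln q)} (k : Ln q) {S : Finset (Ln q)} (hS : S ⊆ L) (c : ℝ) :
    ∏ v ∈ pts k ∩ cov L, (if S ∩ blk L v = ∅ then (1 : ℝ) else c) =
      c ^ (pts k ∩ cov S).card := by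
  rw [prod_ite, prod_const_one, one_mul, prod_const]
  congr 2
  ext v
  rw [mem_filter, mem_inter, mem_inter, mem_cov, mem_cov]
  constructor
  · rintro ⟨⟨h1, _⟩, h2⟩
    obtain ⟨l, hl⟩ := nonempty_iff_ne_empty.2 h2
    rw [mem_inter, mem_blk] at hl
    exact ⟨h1, l, hl.1, hl.2.2⟩
  · rintro ⟨h1, l, hl, h2⟩
    refine ⟨⟨h1, l, hS hl, h2⟩, ?_⟩
    rw [← ne_eq, ← nonempty_iff_ne_empty]
    exact ⟨l, mem_inter.2 ⟨hl, mem_blk.2 ⟨hS hl, h2⟩⟩⟩

theorem card_cov_add (L : Finset (Ln q)) (k : Ln q) :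
    ((pts k ∩ cov L).card : ℝ) + (pts k ∩ unc L).card = q := by
  have h1 := card_sdiff_add_card_inter (pts k) (unc L)
  rw [card_pts] at h1
  have h2 : pts k \ unc L = pts k ∩ cov L := by
    ext v
    rw [mem_sdiff, mem_inter, unc_eq_compl, mem_compl, not_not]
  rw [h2] at h1
  exact_mod_cast h1

theorem small_bad {L : Finset (Ln q)} {k : Ln q} (hk : k ∉ L) {N : ℝ} (h0 : 0 < N)
    (h1 : N ≤ del0 * (q : ℝ) ^ 2) (hs : ((pts k ∩ unc L).card : ℝ) ≤ 2 * N / q) :
    pe (1 - Real.exp (-(c1 * N / (q : ℝ) ^ 2))) L (fun S =>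
      Real.exp (c1 / 32 * ((1 - c1 / 16) * (c1 * N / q))) *
        ∏ v ∈ pts k ∩ cov L, (if S ∩ blk L v = ∅ then (1 : ℝ) else Real.exp (-(c1 / 32)))) ≤
      Real.exp (-(c1 ^ 2 * (c1 * N / q) / 2048)) := by
  have hq : (0 : ℝ) < q := by exact_mod_cast (Fact.out : q.Prime).pos
  have hc := c1_pos
  have hc1 : c1 ≤ 1 := c1_le.trans (by norm_num)
  have hd := del0_le_c1
  set lam : ℝ := c1 * N / (q : ℝ) ^ 2 with hlam
  set m : ℝ := c1 * N / q with hm
  set nu : ℝ := N / (q : ℝ) ^ 2 with hnu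
  have hnu0 : 0 < nu := by positivity
  have hnu1 : nu ≤ c1 / 100 := by
    refine le_trans ?_ hd
    rw [hnu, div_le_iff₀ (by positivity)]
    exact h1
  have hlamnu : lam = c1 * nu := by rw [hlam, hnu]; ring
  have hlam0 : 0 < lam := by positivity
  have hm0 : 0 < m := by positivity
  have hmq : m = q * lam := by
    rw [hm, hlam]
    field_simp
  have he1 : Real.exp (-lam) ≤ 1 := Real.exp_le_one_iff.2 (by linarith)
  have he0 := Real.exp_pos (-lam)
  rw [pe_mul_left]
  have hb := pe_blocks (p := 1 - Real.exp (-lam)) (by linarith) (by linarith)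
    (c := Real.exp (-(c1 / 32))) (Real.exp_pos _).le L (pts k ∩ cov L) (blk L) (blk_disj hk)
    (blk_sub L _)
  refine (mul_le_mul_of_nonneg_left hb (Real.exp_pos _).le).trans ?_
  rw [← Real.exp_add, Real.exp_le_exp, sub_sub_cancel]
  have hmu := mu_lower (pts k ∩ cov L) (fun v => (blk L v).card) hlam0.le (by
    intro v hv
    obtain ⟨l, hl, h2⟩ := mem_cov.1 (mem_inter.1 hv).2
    exact card_pos.2 ⟨l, mem_blk.2 ⟨hl, h2⟩⟩)
  set μ : ℝ := ∑ v ∈ pts k ∩ cov L, (1 - Real.exp (-lam) ^ (blk L v).card) with hμ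
  have hV := card_cov_add L k
  have hV2 : (q : ℝ) * (1 - 2 * nu) ≤ ((pts k ∩ cov L).card : ℝ) := by
    have : (q : ℝ) * (1 - 2 * nu) = q - 2 * N / q := by
      rw [hnu]
      field_simp
    rw [this]
    linarith
  have hl := e_lower hlam0.le
  have hmu2 : m * ((1 - 2 * nu) * (1 - lam / 2)) ≤ μ := by
    refine le_trans ?_ hmu
    have e1 : m * ((1 - 2 * nu) * (1 - lam / 2)) =
        (q * (1 - 2 * nu)) * (lam - lam ^ 2 / 2) := by
      rw [hmq]
      ring
    rw [e1]
    refine mul_le_mul hV2 hl ?_ (Nat.cast_nonneg _)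
    have : lam ≤ 1 := by rw [hlamnu]; nlinarith
    nlinarith
  have hs2 := e_lower (x := c1 / 32) (by positivity)
  have hs3 : 0 ≤ c1 / 32 - (c1 / 32) ^ 2 / 2 := by nlinarith
  have hlamle : lam ≤ nu := by rw [hlamnu]; nlinarith
  have hprod : 0 ≤ (1 - 2 * nu) * (1 - lam / 2) := by
    apply mul_nonneg <;> linarith
  have hmP : 0 ≤ m * ((1 - 2 * nu) * (1 - lam / 2)) := mul_nonneg hm0.le hprod
  have hkey : (c1 / 32 - (c1 / 32) ^ 2 / 2) * (m * ((1 - 2 * nu) * (1 - lam / 2))) ≤
      (1 - Real.exp (-(c1 / 32))) * μ :=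
    mul_le_mul hs2 hmu2 hmP (by linarith)
  have hP := prod_three (a := c1 / 64) (b := 2 * nu) (c := lam / 2) (by linarith) (by linarith)
    (by linarith) (by linarith) (by linarith)
  have hfin : (1 - c1 / 16) - (1 - c1 / 64) * ((1 - 2 * nu) * (1 - lam / 2)) ≤ -(c1 / 64) := by
    linarith
  have hfin2 := mul_le_mul_of_nonneg_left hfin (show 0 ≤ c1 / 32 * m by positivity)
  have e2 : (c1 / 32 - (c1 / 32) ^ 2 / 2) * (m * ((1 - 2 * nu) * (1 - lam / 2))) =
      c1 / 32 * m * ((1 - c1 / 64) * ((1 - 2 * nu) * (1 - lam / 2))) := by ring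
  rw [e2] at hkey
  have e3 : c1 / 32 * m * -(c1 / 64) = -(c1 ^ 2 * m / 2048) := by ring
  rw [e3] at hfin2
  linarith

theorem large_bad {L : Finset (Ln q)} (hL : L.card = q) {k : Ln q} (hk : k ∉ L) {N : ℝ}
    (h0 : 0 < N) (h1 : (q : ℝ) - 2 * N / q ≤ ((pts k ∩ unc L).card : ℝ)) :
    pe (1 - Real.exp (-(c1 * N / (q : ℝ) ^ 2))) L (fun S =>
      Real.exp (-(c1 / 32 * ((1 - c1 / 16) * (c1 * N / q)))) *
        ∏ v ∈ pts k ∩ cov L, (if S ∩ blk L v = ∅ then (1 : ℝ) else Real.exp (c1 / 32))) ≤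
      Real.exp (-(c1 ^ 2 * (c1 * N / q) / 2048)) := by
  have hq : (0 : ℝ) < q := by exact_mod_cast (Fact.out : q.Prime).pos
  have hc := c1_pos
  have hc1 : c1 ≤ 1 := c1_le.trans (by norm_num)
  set lam : ℝ := c1 * N / (q : ℝ) ^ 2 with hlam
  set m : ℝ := c1 * N / q with hm
  have hlam0 : 0 < lam := by positivity
  have hm0 : 0 < m := by positivity
  have he1 : Real.exp (-lam) ≤ 1 := Real.exp_le_one_iff.2 (by linarith)
  have he0 := Real.exp_pos (-lam)
  rw [pe_mul_left]
  have hb := pe_blocks (p := 1 - Real.exp (-lam)) (by linarith) (by linarith)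
    (c := Real.exp (c1 / 32)) (Real.exp_pos _).le L (pts k ∩ cov L) (blk L) (blk_disj hk)
    (blk_sub L _)
  refine (mul_le_mul_of_nonneg_left hb (Real.exp_pos _).le).trans ?_
  rw [← Real.exp_add, Real.exp_le_exp, sub_sub_cancel]
  have hV := card_cov_add L k
  have hmu := mu_upper (pts k ∩ cov L) (fun v => (blk L v).card) (lam := lam) (x := c1 / 2)
    (M := 2 * N / q) (Q := q) hlam0.le (by linarith) (by
      have := blk_card_sum hk
      rw [hL] at this
      exact this) (by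
      rw [hlam]
      field_simp)
  set μ : ℝ := ∑ v ∈ pts k ∩ cov L, (1 - Real.exp (-lam) ^ (blk L v).card) with hμ
  have hu := e_upper (x := c1 / 2) (by linarith)
  have hmu2 : μ ≤ m * (1 - c1 / 8) := by
    refine hmu.trans ?_
    have h3 := mul_le_mul_of_nonneg_left hu (show 0 ≤ 2 * N / q by positivity)
    refine h3.trans (le_of_eq ?_)
    rw [hm]
    ring
  have hs := e_s (s := c1 / 32) (by positivity) (by linarith)
  have hs0 : 0 ≤ Real.exp (c1 / 32) - 1 := by
    have := Real.add_one_le_exp (c1 / 32)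
    linarith
  have h4 : (Real.exp (c1 / 32) - 1) * μ ≤ (c1 / 32 + (c1 / 32) ^ 2) * (m * (1 - c1 / 8)) := by
    have h5 : 0 ≤ m * (1 - c1 / 8) := mul_nonneg hm0.le (by linarith)
    calc (Real.exp (c1 / 32) - 1) * μ ≤ (Real.exp (c1 / 32) - 1) * (m * (1 - c1 / 8)) :=
          mul_le_mul_of_nonneg_left hmu2 hs0
      _ ≤ _ := mul_le_mul_of_nonneg_right hs h5
  have h5 : (1 + c1 / 32) * (1 - c1 / 8) - (1 - c1 / 16) ≤ -(c1 / 64) := by nlinarith
  have h6 := mul_le_mul_of_nonneg_left h5 (show 0 ≤ c1 / 32 * m by positivity)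
  have e2 : (c1 / 32 + (c1 / 32) ^ 2) * (m * (1 - c1 / 8)) =
      c1 / 32 * m * ((1 + c1 / 32) * (1 - c1 / 8)) := by ring
  rw [e2] at h4
  have e3 : c1 / 32 * m * -(c1 / 64) = -(c1 ^ 2 * m / 2048) := by ring
  rw [e3] at h6
  linarith

theorem size_bad {L : Finset (Ln q)} (hL : L.card = q) {N : ℝ} (h0 : 0 < N) :
    pe (1 - Real.exp (-(c1 * N / (q : ℝ) ^ 2))) L (fun S =>
      Real.exp (-(2 * (c1 / 32) * (c1 * N / q))) * Real.exp (c1 / 32) ^ S.card) ≤
      Real.exp (-(c1 ^ 2 * (c1 * N / q) / 2048)) := by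
  have hq : (0 : ℝ) < q := by exact_mod_cast (Fact.out : q.Prime).pos
  have hc := c1_pos
  have hc1 : c1 ≤ 1 := c1_le.trans (by norm_num)
  set lam : ℝ := c1 * N / (q : ℝ) ^ 2 with hlam
  set m : ℝ := c1 * N / q with hm
  have hlam0 : 0 < lam := by positivity
  have hm0 : 0 < m := by positivity
  have hmq : m = q * lam := by
    rw [hm, hlam]
    field_simp
  have he1 : Real.exp (-lam) ≤ 1 := Real.exp_le_one_iff.2 (by linarith)
  have he0 := Real.exp_pos (-lam)
  rw [pe_mul_left, pe_exp_card, hL]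
  have hs := e_s (s := c1 / 32) (by positivity) (by linarith)
  have hs0 : 0 ≤ Real.exp (c1 / 32) - 1 := by
    have := Real.add_one_le_exp (c1 / 32)
    linarith
  have hp : 1 - Real.exp (-lam) ≤ lam := by
    have := Real.add_one_le_exp (-lam)
    linarith
  have h1 : (1 - Real.exp (-lam)) * Real.exp (c1 / 32) + (1 - (1 - Real.exp (-lam))) ≤
      Real.exp (lam * (c1 / 32 + (c1 / 32) ^ 2)) := by
    have h2 : (1 - Real.exp (-lam)) * (Real.exp (c1 / 32) - 1) ≤
        lam * (c1 / 32 + (c1 / 32) ^ 2) :=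
      mul_le_mul hp hs hs0 hlam0.le
    have h3 := Real.add_one_le_exp (lam * (c1 / 32 + (c1 / 32) ^ 2))
    linarith
  have h2 : 0 ≤ (1 - Real.exp (-lam)) * Real.exp (c1 / 32) + (1 - (1 - Real.exp (-lam))) := by
    have : 0 ≤ (1 - Real.exp (-lam)) * Real.exp (c1 / 32) :=
      mul_nonneg (by linarith) (Real.exp_pos _).le
    linarith
  have h3 := pow_le_pow_left₀ h2 h1 q
  refine (mul_le_mul_of_nonneg_left h3 (Real.exp_pos _).le).trans ?_
  rw [← Real.exp_nat_mul, ← Real.exp_add, Real.exp_le_exp, ← mul_assoc, ← hmq]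
  have h5 : -(2 : ℝ) + (1 + c1 / 32) ≤ -(c1 / 64) := by linarith
  have h6 := mul_le_mul_of_nonneg_left h5 (show 0 ≤ c1 / 32 * m by positivity)
  have e3 : c1 / 32 * m * -(c1 / 64) = -(c1 ^ 2 * m / 2048) := by ring
  rw [e3] at h6
  refine le_trans (le_of_eq ?_) h6
  ring

theorem card_large_le {L : Finset (Ln q)} {N : ℝ} (hN : N = (unc L).card)
    (h1 : N ≤ del0 * (q : ℝ) ^ 2) : ((univ.filter (Large L)).card : ℝ) ≤ q := by
  have hq : (0 : ℝ) < q := by exact_mod_cast (Fact.out : q.Prime).pos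
  have hd := del0_lt
  have hd0 := del0_pos
  have hN1 : N / q ≤ del0 * q := by
    rw [div_le_iff₀ hq]
    linarith [h1, (by ring : del0 * (q : ℝ) * q = del0 * (q : ℝ) ^ 2)]
  have h2 : ((univ.filter (Large L)).card : ℝ) * (q / 2) ^ 2 ≤ q * N := by
    calc ((univ.filter (Large L)).card : ℝ) * (q / 2) ^ 2
        = ∑ l ∈ univ.filter (Large L), ((q : ℝ) / 2) ^ 2 := by
          rw [sum_const, nsmul_eq_mul]
      _ ≤ ∑ l ∈ univ.filter (Large L),
            (((pts l ∩ unc L).card : ℝ) - ((unc L).card : ℝ) / q) ^ 2 := by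
          refine sum_le_sum fun l hl => ?_
          have h3 : (q : ℝ) - 2 * (unc L).card / q ≤ (pts l ∩ unc L).card :=
            (mem_filter.1 hl).2
          rw [← hN] at h3 ⊢
          refine pow_le_pow_left₀ (by positivity) ?_ 2
          have h4 : 2 * N / q = 2 * (N / q) := by ring
          rw [h4] at h3
          nlinarith
      _ ≤ ∑ l : Ln q, (((pts l ∩ unc L).card : ℝ) - ((unc L).card : ℝ) / q) ^ 2 :=
          sum_le_sum_of_subset_of_nonneg (subset_univ _) fun _ _ _ => sq_nonneg _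
      _ ≤ q * N := by rw [hN]; exact var_le (unc L)
  have h3 : (q : ℝ) * N ≤ q * (q / 2) ^ 2 := by
    refine mul_le_mul_of_nonneg_left ?_ hq.le
    have : (q / 2 : ℝ) ^ 2 = 1 / 4 * (q : ℝ) ^ 2 := by ring
    rw [this]
    refine h1.trans (mul_le_mul_of_nonneg_right ?_ (by positivity))
    linarith
  exact le_of_mul_le_mul_right (h2.trans h3) (by positivity)

end main

end P2E

open P2E

/-- Module P2E.  Random `S ⊆ L` of density `p = 1 - exp(-c1 N / q²)`, `N = |unc L|`.
`|S| ≤ 2 c1 N / q` whp (Chernoff, mean `≤ c1 N/q`, `c1 N/q ≥ c1 √q / 4`).  A line `k ∉ L` which is not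
large is small: `L` covers `≥ q - 2N/q` points of `k`, each is hit with probability `≥ p`
independently (the sets of lines of `L` through the points of `k` are disjoint), so `k ∉ Ronce N S`
whp (union bound over `q² + q` lines); a large line `k` has at most `2N/q` covered points, mean
`≤ (2N/q)(1 - exp(-c1/2)) ≤ (1 - c1/8) c1 N / q` by convexity, so `k ∈ Ronce` whp. -/
theorem p2e : ∃ q₀ : ℕ, ∀ q ≥ q₀, ∀ [Fact q.Prime], ∀ L : Finset (Ln q), L.card = q →
    Mid q (unc L).card → ∀ X : Finset (Ln q), (∀ k ∈ X, Large L k) →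
    ∃ S ⊆ L, (S.card : ℝ) ≤ 2 * c1 * (unc L).card / q ∧
      ((Ronce (unc L).card S).card : ℝ) ≤ 4 * q ∧
      (X.card : ℝ) ≤ 2 * ((X ∩ Ronce (unc L).card S).card : ℝ) := by
  have hc := c1_pos
  have hc1 : c1 ≤ 1 := c1_le.trans (by norm_num)
  obtain ⟨q₀, hq₀⟩ := asym (c := c1 ^ 3 / 8192) (by positivity)
  refine ⟨q₀, fun q hqq inst L hL hMid X hX => ?_⟩
  have hq : (0 : ℝ) < q := by exact_mod_cast (Fact.out : q.Prime).pos
  have hq1 : (1 : ℝ) ≤ q := by exact_mod_cast (Fact.out : q.Prime).one_lt.le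
  have hasym := hq₀ q hqq
  obtain ⟨hM1, hM2⟩ := hMid
  set N : ℝ := ((unc L).card : ℝ) with hN
  have hsq : (q : ℝ) ^ (3 / 2 : ℝ) = q * Real.sqrt q := by
    rw [Real.sqrt_eq_rpow, show (3 / 2 : ℝ) = 1 + 1 / 2 by norm_num, Real.rpow_add hq,
      Real.rpow_one]
  rw [hsq] at hM1
  have hN0 : 0 < N := by
    have : 0 ≤ (q : ℝ) * Real.sqrt q / 4 := by positivity
    linarith
  set m : ℝ := c1 * N / q with hm
  have hm0 : 0 < m := by positivity
  have hm1 : c1 * Real.sqrt q / 4 ≤ m := by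
    rw [hm, le_div_iff₀ hq]
    have := mul_le_mul_of_nonneg_left hM1.le hc.le
    linarith
  set θ : ℝ := (1 - c1 / 16) * m with hθ
  set p : ℝ := 1 - Real.exp (-(c1 * N / (q : ℝ) ^ 2)) with hp
  have hlam0 : 0 < c1 * N / (q : ℝ) ^ 2 := by positivity
  have he1 : Real.exp (-(c1 * N / (q : ℝ) ^ 2)) ≤ 1 := Real.exp_le_one_iff.2 (by linarith)
  have he0 := Real.exp_pos (-(c1 * N / (q : ℝ) ^ 2))
  -- the bad events
  let f : Option (Ln q) → Finset (Ln q) → ℝ := fun i S =>
    match i with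
    | none => Real.exp (-(2 * (c1 / 32) * m)) * Real.exp (c1 / 32) ^ S.card
    | some k => if k ∈ L then 0 else if Large L k then
        Real.exp (-(c1 / 32 * θ)) *
          ∏ v ∈ pts k ∩ cov L, (if S ∩ blk L v = ∅ then (1 : ℝ) else Real.exp (c1 / 32))
        else Real.exp (c1 / 32 * θ) *
          ∏ v ∈ pts k ∩ cov L, (if S ∩ blk L v = ∅ then (1 : ℝ) else Real.exp (-(c1 / 32)))
  have hdel : ∀ i, pe p L (f i) ≤ Real.exp (-(c1 ^ 2 * m / 2048)) := by
    intro i
    match i with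
    | none => exact size_bad hL hN0
    | some k =>
      by_cases hk : k ∈ L
      · have h1 : pe p L (f (some k)) = pe p L (fun _ => 0 * 1) := by
          refine pe_congr p fun S _ => ?_
          show (if k ∈ L then (0 : ℝ) else _) = 0 * 1
          rw [if_pos hk, zero_mul]
        rw [h1, pe_mul_left, zero_mul]
        exact (Real.exp_pos _).le
      · by_cases hl : Large L k
        · have h1 : f (some k) = fun S => Real.exp (-(c1 / 32 * θ)) *
              ∏ v ∈ pts k ∩ cov L, (if S ∩ blk L v = ∅ then (1 : ℝ) else Real.exp (c1 / 32)) := by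
            funext S
            show (if k ∈ L then (0 : ℝ) else if Large L k then _ else _) = _
            rw [if_neg hk, if_pos hl]
          rw [h1]
          exact large_bad hL hk hN0 hl
        · have h1 : f (some k) = fun S => Real.exp (c1 / 32 * θ) *
              ∏ v ∈ pts k ∩ cov L, (if S ∩ blk L v = ∅ then (1 : ℝ) else
                Real.exp (-(c1 / 32))) := by
            funext S
            show (if k ∈ L then (0 : ℝ) else if Large L k then _ else _) = _
            rw [if_neg hk, if_neg hl]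
          rw [h1]
          have h4 : 4 * (unc L).card ≤ q ^ 2 := by
            have h5 : 4 * N ≤ (q : ℝ) ^ 2 := by
              have := del0_lt
              nlinarith [sq_nonneg (q : ℝ)]
            rw [hN] at h5
            exact_mod_cast h5
          exact small_bad hk hN0 hM2 ((small_or_large hL h4 k).resolve_right hl)
  have hsum : ∑ i ∈ (univ : Finset (Option (Ln q))), pe p L (f i) < 1 := by
    have h1 : ∑ i ∈ (univ : Finset (Option (Ln q))), pe p L (f i) ≤
        ((q + 1) * q + 1 : ℕ) * Real.exp (-(c1 ^ 2 * m / 2048)) := by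
      refine (sum_le_sum fun i _ => hdel i).trans (le_of_eq ?_)
      rw [sum_const, nsmul_eq_mul, card_univ, Fintype.card_option, card_Ln]
    have h2 : Real.exp (-(c1 ^ 2 * m / 2048)) ≤ Real.exp (-(c1 ^ 3 / 8192 * Real.sqrt q)) := by
      rw [Real.exp_le_exp, neg_le_neg_iff]
      have := mul_le_mul_of_nonneg_left hm1 (show 0 ≤ c1 ^ 2 / 2048 by positivity)
      linarith [(by ring : c1 ^ 2 / 2048 * (c1 * Real.sqrt q / 4) =
        c1 ^ 3 / 8192 * Real.sqrt q), (by ring : c1 ^ 2 / 2048 * m = c1 ^ 2 * m / 2048)]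
    have h3 : (((q + 1) * q + 1 : ℕ) : ℝ) ≤ 3 * (q : ℝ) ^ 2 := by
      push_cast
      nlinarith
    calc _ ≤ _ := h1
      _ ≤ 3 * (q : ℝ) ^ 2 * Real.exp (-(c1 ^ 3 / 8192 * Real.sqrt q)) :=
          mul_le_mul h3 h2 (Real.exp_pos _).le (by positivity)
      _ < 1 := hasym
  have hpos : ∀ (c : ℝ) (S : Finset (Ln q)) (k : Ln q), 0 ≤ c →
      0 ≤ ∏ v ∈ pts k ∩ cov L, (if S ∩ blk L v = ∅ then (1 : ℝ) else c) := by
    intro c S k hc
    refine prod_nonneg fun v _ => ?_
    split_ifs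
    · exact zero_le_one
    · exact hc
  obtain ⟨S, hS, hgood⟩ := pe_exists (p := p) (by rw [hp]; linarith) (by rw [hp]; linarith) L
    univ f (by
      intro i _ S _
      match i with
      | none => exact mul_nonneg (Real.exp_pos _).le (pow_nonneg (Real.exp_pos _).le _)
      | some k =>
        show 0 ≤ (if k ∈ L then (0 : ℝ) else if Large L k then _ else _)
        split_ifs
        · exact le_rfl
        · exact mul_nonneg (Real.exp_pos _).le (hpos _ S k (Real.exp_pos _).le)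
        · exact mul_nonneg (Real.exp_pos _).le (hpos _ S k (Real.exp_pos _).le)) hsum
  -- large lines outside `L` are in `Ronce`
  have hA : ∀ k, k ∉ L → Large L k → k ∈ Ronce (unc L).card S := by
    intro k hk hl
    by_contra hcon
    have h1 : θ < ((pts k ∩ cov S).card : ℝ) := by
      unfold Ronce at hcon
      rw [mem_filter] at hcon
      push Not at hcon
      exact hcon (mem_univ _)
    have h2 := hgood (some k) (mem_univ _)
    have h3 : f (some k) S = Real.exp (-(c1 / 32 * θ)) *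
        ∏ v ∈ pts k ∩ cov L, (if S ∩ blk L v = ∅ then (1 : ℝ) else Real.exp (c1 / 32)) := by
      show (if k ∈ L then (0 : ℝ) else if Large L k then _ else _) = _
      rw [if_neg hk, if_pos hl]
    rw [h3, prod_blk k hS, ← Real.exp_nat_mul, ← Real.exp_add] at h2
    have h4 : (1 : ℝ) ≤ Real.exp (-(c1 / 32 * θ) + ((pts k ∩ cov S).card : ℝ) * (c1 / 32)) := by
      apply Real.one_le_exp
      nlinarith
    linarith
  -- lines in `Ronce` outside `L` are large
  have hB : ∀ k, k ∉ L → k ∈ Ronce (unc L).card S → Large L k := by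
    intro k hk hr
    by_contra hl
    have h1 : ((pts k ∩ cov S).card : ℝ) ≤ θ := by
      unfold Ronce at hr
      rw [mem_filter] at hr
      exact hr.2
    have h2 := hgood (some k) (mem_univ _)
    have h3 : f (some k) S = Real.exp (c1 / 32 * θ) *
        ∏ v ∈ pts k ∩ cov L, (if S ∩ blk L v = ∅ then (1 : ℝ) else Real.exp (-(c1 / 32))) := by
      show (if k ∈ L then (0 : ℝ) else if Large L k then _ else _) = _
      rw [if_neg hk, if_neg hl]
    rw [h3, prod_blk k hS, ← Real.exp_nat_mul, ← Real.exp_add] at h2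
    have h4 : (1 : ℝ) ≤ Real.exp (c1 / 32 * θ + ((pts k ∩ cov S).card : ℝ) * -(c1 / 32)) := by
      apply Real.one_le_exp
      nlinarith
    linarith
  refine ⟨S, hS, ?_, ?_, ?_⟩
  · have h2 : Real.exp (-(2 * (c1 / 32) * m)) * Real.exp (c1 / 32) ^ S.card < 1 :=
      hgood none (mem_univ _)
    rw [← Real.exp_nat_mul, ← Real.exp_add, Real.exp_lt_one_iff] at h2
    have h3 : 2 * c1 * N / q = 2 * m := by rw [hm]; ring
    rw [h3]
    have h4 : c1 / 32 * (S.card : ℝ) < c1 / 32 * (2 * m) := by linarith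
    exact (lt_of_mul_lt_mul_left h4 (by positivity)).le
  · have h1 : Ronce (unc L).card S ⊆ L ∪ univ.filter (Large L) := by
      intro k hk
      rw [mem_union, mem_filter]
      by_cases hkL : k ∈ L
      · exact Or.inl hkL
      · exact Or.inr ⟨mem_univ _, hB k hkL hk⟩
    have h2 : ((Ronce (unc L).card S).card : ℝ) ≤ L.card + (univ.filter (Large L)).card := by
      exact_mod_cast (card_le_card h1).trans (card_union_le _ _)
    have h3 := card_large_le hN hM2
    rw [hL] at h2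
    linarith
  · have h1 : X ∩ Ronce (unc L).card S = X := by
      rw [inter_eq_left]
      intro k hk
      refine hA k (fun hkL => ?_) (hX k hk)
      have h2 : pts k ∩ unc L = ∅ := by
        ext v
        simp only [mem_inter, mem_unc, notMem_empty, iff_false, not_and, not_forall]
        intro hv
        exact ⟨k, hkL, fun h => h hv⟩
      have h3 : (q : ℝ) - 2 * (unc L).card / q ≤ (pts k ∩ unc L).card := hX k hk
      rw [h2, card_empty, Nat.cast_zero, ← hN] at h3
      have h4 : 2 * N / q = 2 * (N / q) := by ring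
      have hN1 : N / q ≤ del0 * q := by
        rw [div_le_iff₀ hq]
        linarith [hM2, (by ring : del0 * (q : ℝ) * q = del0 * (q : ℝ) ^ 2)]
      have := del0_lt
      rw [h4] at h3
      nlinarith
    rw [h1]
    have : (0 : ℝ) ≤ X.card := Nat.cast_nonneg _
    linarith

end P045
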