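import Mathlib

/-!
# P045, the affine plane over `ZMod q`: points, directions, lines
-/

namespace P045

open Finset
open scoped Classical

/-- Points of the affine plane. -/
abbrev Pt (q : ℕ) := ZMod q × ZMod q

/-- Directions: `some m` is the slope `m`, `none` is vertical. -/
abbrev Dir (q : ℕ) := Option (ZMod q)

/-- Lines: a direction and an intercept. -/
abbrev Ln (q : ℕ) := Dir q × ZMod q

/-- Intercept of the line of direction `d` through `v`. -/
def ic {q : ℕ} (d : Dir q) (v : Pt q) : ZMod q :=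
  match d with
  | none => v.1
  | some m => v.2 - m * v.1

/-- The line of direction `d` through `v`. -/
def thr {q : ℕ} (d : Dir q) (v : Pt q) : Ln q := (d, ic d v)

section
variable {q : ℕ} [NeZero q]

/-- The points of a line. -/
noncomputable def pts (l : Ln q) : Finset (Pt q) := univ.filter fun v => ic l.1 v = l.2

theorem mem_pts {l : Ln q} {v : Pt q} : v ∈ pts l ↔ ic l.1 v = l.2 := by
  simp [pts]

theorem mem_pts_iff_thr {l : Ln q} {v : Pt q} : v ∈ pts l ↔ l = thr l.1 v := by
  rw [mem_pts]
  constructor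
  · intro h
    exact Prod.ext rfl h.symm
  · intro h
    exact (congrArg Prod.snd h).symm

theorem mem_pts_thr (d : Dir q) (v : Pt q) : v ∈ pts (thr d v) := by
  rw [mem_pts]; rfl

/-- The points covered by a set of lines. -/
noncomputable def cov (L : Finset (Ln q)) : Finset (Pt q) :=
  univ.filter fun v => ∃ l ∈ L, v ∈ pts l

theorem mem_cov {L : Finset (Ln q)} {v : Pt q} : v ∈ cov L ↔ ∃ l ∈ L, v ∈ pts l := by
  simp [cov]

/-- The points not covered by a set of lines. -/
noncomputable def unc (L : Finset (Ln q)) : Finset (Pt q) :=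
  univ.filter fun v => ∀ l ∈ L, v ∉ pts l

theorem mem_unc {L : Finset (Ln q)} {v : Pt q} : v ∈ unc L ↔ ∀ l ∈ L, v ∉ pts l := by
  simp [unc]

/-- Number of lines of `L` through `v`. -/
noncomputable def mlt (L : Finset (Ln q)) (v : Pt q) : ℕ := (L.filter fun l => v ∈ pts l).card

theorem cov_mono {L L' : Finset (Ln q)} (h : L ⊆ L') : cov L ⊆ cov L' := by
  intro v hv
  rw [mem_cov] at hv ⊢
  obtain ⟨l, hl, hv⟩ := hv
  exact ⟨l, h hl, hv⟩

theorem unc_anti {L L' : Finset (Ln q)} (h : L ⊆ L') : unc L' ⊆ unc L := by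
  intro v hv
  rw [mem_unc] at hv ⊢
  exact fun l hl => hv l (h hl)

theorem cov_union (L L' : Finset (Ln q)) : cov (L ∪ L') = cov L ∪ cov L' := by
  ext v
  simp only [mem_cov, mem_union]
  constructor
  · rintro ⟨l, h | h, hv⟩
    · exact Or.inl ⟨l, h, hv⟩
    · exact Or.inr ⟨l, h, hv⟩
  · rintro (⟨l, h, hv⟩ | ⟨l, h, hv⟩)
    · exact ⟨l, Or.inl h, hv⟩
    · exact ⟨l, Or.inr h, hv⟩

theorem unc_union (L L' : Finset (Ln q)) : unc (L ∪ L') = unc L \ cov L' := by
  ext v
  simp only [mem_unc, mem_union, mem_sdiff, mem_cov, not_exists, not_and]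
  constructor
  · intro h
    exact ⟨fun l hl => h l (Or.inl hl), fun l hl => h l (Or.inr hl)⟩
  · rintro ⟨h1, h2⟩ l (hl | hl)
    · exact h1 l hl
    · exact h2 l hl

theorem unc_eq_compl (L : Finset (Ln q)) : unc L = (cov L)ᶜ := by
  ext v
  simp only [mem_unc, mem_compl, mem_cov, not_exists, not_and]

theorem card_unc_add_card_cov (L : Finset (Ln q)) : (unc L).card + (cov L).card = q ^ 2 := by
  rw [unc_eq_compl, card_compl, Nat.sub_add_cancel (card_le_univ _)]
  simp [Fintype.card_prod, ZMod.card, sq]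

theorem mlt_pos {L : Finset (Ln q)} {v : Pt q} : 0 < mlt L v ↔ v ∈ cov L := by
  unfold mlt
  rw [card_pos, mem_cov]
  constructor
  · rintro ⟨l, hl⟩
    rw [mem_filter] at hl
    exact ⟨l, hl⟩
  · rintro ⟨l, hl⟩
    exact ⟨l, mem_filter.mpr hl⟩

theorem mlt_eq_zero {L : Finset (Ln q)} {v : Pt q} : mlt L v = 0 ↔ v ∈ unc L := by
  rw [unc_eq_compl, mem_compl, ← mlt_pos]
  omega

end

section
variable {q : ℕ} [Fact q.Prime]

theorem card_Pt : Fintype.card (Pt q) = q ^ 2 := by
  simp [Fintype.card_prod, ZMod.card, sq]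

theorem card_Dir : Fintype.card (Dir q) = q + 1 := by
  simp [ZMod.card]

theorem card_Ln : Fintype.card (Ln q) = (q + 1) * q := by
  simp [Fintype.card_prod, ZMod.card]

/-- Two intercepts of different directions determine the point. -/
theorem ic_bij {d d' : Dir q} (h : d ≠ d') :
    Function.Bijective fun v : Pt q => (ic d v, ic d' v) := by
  rw [Fintype.bijective_iff_injective_and_card]
  refine ⟨?_, by simp⟩
  intro v w hvw
  simp only [Prod.mk.injEq] at hvw
  obtain ⟨h1, h2⟩ := hvw
  match d, d' with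
  | none, none => exact absurd rfl h
  | none, some m =>
    simp only [ic] at h1 h2
    refine Prod.ext h1 ?_
    rw [h1] at h2
    exact sub_left_injective h2
  | some m, none =>
    simp only [ic] at h1 h2
    refine Prod.ext h2 ?_
    rw [h2] at h1
    exact sub_left_injective h1
  | some m, some m' =>
    simp only [ic] at h1 h2
    have hm : m - m' ≠ 0 := sub_ne_zero.mpr fun h' => h (by rw [h'])
    have h3 : (m - m') * v.1 = (m - m') * w.1 := by linear_combination h2 - h1
    have h4 : v.1 = w.1 := mul_left_cancel₀ hm h3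
    refine Prod.ext h4 ?_
    rw [h4] at h1
    exact sub_left_injective h1

/-- Intersection point of two lines of different directions. -/
noncomputable def meet (l k : Ln q) : Pt q :=
  if h : l.1 ≠ k.1 then (Equiv.ofBijective _ (ic_bij h)).symm (l.2, k.2) else 0

theorem meet_spec {l k : Ln q} (h : l.1 ≠ k.1) : meet l k ∈ pts l ∧ meet l k ∈ pts k := by
  have h1 : (ic l.1 (meet l k), ic k.1 (meet l k)) = (l.2, k.2) := by
    unfold meet
    rw [dif_pos h]
    exact (Equiv.ofBijective _ (ic_bij h)).apply_symm_apply (l.2, k.2)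
  rw [mem_pts, mem_pts]
  exact ⟨congrArg Prod.fst h1, congrArg Prod.snd h1⟩

theorem eq_meet {l k : Ln q} (h : l.1 ≠ k.1) {v : Pt q} (h1 : v ∈ pts l) (h2 : v ∈ pts k) :
    v = meet l k := by
  have h3 := meet_spec h
  rw [mem_pts] at h1 h2
  rw [mem_pts, mem_pts] at h3
  apply (ic_bij h).1
  simp only [Prod.mk.injEq]
  exact ⟨by rw [h1, h3.1], by rw [h2, h3.2]⟩

/-- Two different lines have at most one common point. -/
theorem eq_of_mem_pts {l k : Ln q} (h : l ≠ k) {v w : Pt q} (h1 : v ∈ pts l) (h2 : v ∈ pts k)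
    (h3 : w ∈ pts l) (h4 : w ∈ pts k) : v = w := by
  by_cases hd : l.1 = k.1
  · exfalso
    apply h
    rw [mem_pts] at h1 h2
    refine Prod.ext hd ?_
    rw [← h1, ← h2, hd]
  · rw [eq_meet hd h1 h2, eq_meet hd h3 h4]

/-- Parallel different lines are disjoint. -/
theorem not_mem_of_parallel {l k : Ln q} (h : l ≠ k) (hd : l.1 = k.1) {v : Pt q}
    (h1 : v ∈ pts l) : v ∉ pts k := by
  intro h2
  apply h
  rw [mem_pts] at h1 h2
  refine Prod.ext hd ?_
  rw [← h1, ← h2, hd]

theorem card_pts (l : Ln q) : (pts l).card = q := by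
  obtain ⟨d, c⟩ := l
  obtain ⟨d', hd'⟩ : ∃ d' : Dir q, d ≠ d' := by
    match d with
    | none => exact ⟨some 0, by simp⟩
    | some m => exact ⟨none, by simp⟩
  have h : (pts (d, c)).card = (univ : Finset (ZMod q)).card := by
    apply card_bij (fun v _ => ic d' v)
    · intro v _
      exact mem_univ _
    · intro v hv w hw hvw
      rw [mem_pts] at hv hw
      apply (ic_bij hd').1
      simp only [Prod.mk.injEq]
      exact ⟨hv.trans hw.symm, hvw⟩
    · intro b _
      obtain ⟨v, hv⟩ := (ic_bij hd').2 (c, b)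
      simp only [Prod.mk.injEq] at hv
      exact ⟨v, by rw [mem_pts]; exact hv.1, hv.2⟩
  rw [h, card_univ, ZMod.card]

/-- Two different points lie on exactly one common line. -/
theorem exists_unique_line {v w : Pt q} (h : v ≠ w) : ∃! l : Ln q, v ∈ pts l ∧ w ∈ pts l := by
  have hex : ∃ d : Dir q, ic d v = ic d w := by
    by_cases h1 : v.1 = w.1
    · exact ⟨none, h1⟩
    · refine ⟨some ((v.2 - w.2) / (v.1 - w.1)), ?_⟩
      have h2 : v.1 - w.1 ≠ 0 := sub_ne_zero.mpr h1
      simp only [ic]
      field_simp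
      ring
  obtain ⟨d, hd⟩ := hex
  refine ⟨(d, ic d v), ⟨?_, ?_⟩, ?_⟩
  · rw [mem_pts]
  · rw [mem_pts]; exact hd.symm
  · intro k hk
    by_contra hne
    exact h (eq_of_mem_pts hne hk.1 (by rw [mem_pts]) hk.2 (by rw [mem_pts]; exact hd.symm))

/-- The number of lines through two different points is one. -/
theorem card_lines_through_two {v w : Pt q} (h : v ≠ w) :
    (univ.filter fun l : Ln q => v ∈ pts l ∧ w ∈ pts l).card = 1 := by
  obtain ⟨l, hl, hu⟩ := exists_unique_line h
  rw [card_eq_one]
  refine ⟨l, ?_⟩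
  ext k
  simp only [mem_filter, mem_univ, true_and, mem_singleton]
  exact ⟨fun hk => hu k hk, fun hk => hk ▸ hl⟩

/-- The lines through a point: one for every direction. -/
theorem card_lines_through (v : Pt q) : (univ.filter fun l : Ln q => v ∈ pts l).card = q + 1 := by
  have h : (univ.filter fun l : Ln q => v ∈ pts l) = univ.image fun d : Dir q => thr d v := by
    ext l
    simp only [mem_filter, mem_univ, true_and, mem_image]
    rw [mem_pts_iff_thr]
    constructor
    · intro h
      exact ⟨l.1, h.symm⟩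
    · rintro ⟨d, rfl⟩
      rfl
  rw [h, card_image_of_injective, card_univ, card_Dir]
  intro d d' hdd
  exact congrArg Prod.fst hdd

theorem sum_mlt (L : Finset (Ln q)) : ∑ v : Pt q, mlt L v = L.card * q := by
  unfold mlt
  simp only [card_filter]
  rw [sum_comm]
  have : ∀ l ∈ L, ∑ v : Pt q, (if v ∈ pts l then 1 else 0) = q := by
    intro l _
    rw [← card_filter, filter_mem_eq_inter, univ_inter, card_pts]
  rw [sum_congr rfl this, sum_const, smul_eq_mul]

end

end P045
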