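import Vale.Agent.P045R.StDefs

/-!
# P045R, module SEPM: structural conditions
-/

namespace P045

open Finset
open scoped Classical

variable {q : ℕ} [Fact q.Prime]

/-- Module SEPM. -/
theorem sep_mk {S : Dir q → ZMod q} {H : Dir q → Bool → Pt q} {e : Dir q → Bool × Fin 9 → Dir q}
    (hS : GA1 S) (hH : H ∈ OB S) (hB : GB S H) (he : e ∈ OC H) : Sep (mk H e) := by
  have hH' : ∀ f, (∀ s, H f s ∈ Sim S (f, S f)) ∧ H f false ≠ H f true := by
    intro f
    have h1 := Fintype.mem_piFinset.mp hH f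
    unfold HB at h1
    rw [mem_filter] at h1
    refine ⟨fun s => ?_, h1.2.2⟩
    have h2 := h1.2.1 s
    unfold Sim' at h2
    rwa [if_pos (hS (f, S f))] at h2
  have hmem : ∀ f s, H f s ∈ pts (f, S f) := by
    intro f s
    have h := (hH' f).1 s
    unfold Sim at h
    rw [mem_filter] at h
    exact h.1
  have hnot : ∀ f s g, g ≠ f → H f s ∉ pts (g, S g) := by
    intro f s g hg
    have h := (hH' f).1 s
    unfold Sim at h
    rw [mem_filter] at h
    exact h.2 g hg
  have hlf : ∀ f, lf f (mk H e f) = (f, S f) := by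
    intro f
    unfold lf mk
    exact (mem_pts_iff_thr.mp (hmem f true)).symm
  have he' : ∀ f, Function.Injective (e f) ∧ ∀ x, e f x ≠ f ∧
      ∀ g, g ≠ f → ∀ s, H g s ∉ pts (thr (e f x) (H f x.1)) := by
    intro f
    have h1 := Fintype.mem_piFinset.mp he f
    unfold EC at h1
    rw [mem_filter] at h1
    refine ⟨h1.2.1, fun x => ?_⟩
    have h2 := h1.2.2 x
    unfold Free' at h2
    rw [if_pos (hB f (H f x.1) ((hH' f).1 x.1))] at h2
    unfold Free at h2
    rw [mem_filter] at h2
    exact h2.2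
  refine ⟨?_, ?_, ?_⟩
  · rw [mem_All]
    intro f
    rw [mem_GadSet]
    refine ⟨?_, (hH' f).2, (he' f).1, fun x => ((he' f).2 x).1⟩
    rw [hlf]
    exact hmem f false
  · intro f g hg s
    rw [hlf]
    exact hnot g s f (Ne.symm hg)
  · intro f g hg s x
    exact ((he' f).2 x).2 g hg s

end P045
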