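import Vale.Agent.P045R.Mcd

/-!
# P045R, module SURV: survival lemma
-/

namespace P045

open Finset
open scoped Classical

/-- The survivors. -/
noncomputable def survSet {ι α X : Type} (B : Finset X) (K : ι → α → Finset X) (w : ι → α) :
    Finset X :=
  B.filter fun x => ∀ i, x ∉ K i (w i)

theorem surv_pow (τ : ℝ) (hτ : 0 < τ) : ∃ q₀ : ℕ, ∀ q ≥ q₀, τ ≤ q ∧
    Real.exp (-τ) / 2 ≤ (1 - τ / q) ^ (q + 1) := by
  have h1 : Filter.Tendsto (fun x : ℕ => (1 + (-τ) / (x : ℝ)) ^ x) Filter.atTop
      (nhds (Real.exp (-τ))) := Real.tendsto_one_add_div_pow_exp (-τ)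
  have h2 : Filter.Tendsto (fun x : ℕ => (1 + (-τ) / (x : ℝ))) Filter.atTop (nhds (1 + 0)) :=
    tendsto_const_nhds.add (tendsto_const_div_atTop_nhds_zero_nat (-τ))
  have h3 := h1.mul h2
  have hlt : Real.exp (-τ) / 2 < Real.exp (-τ) * (1 + 0) := by
    have := Real.exp_pos (-τ)
    linarith
  have h4 := h3.eventually (lt_mem_nhds hlt)
  obtain ⟨q₁, hq₁⟩ := Filter.eventually_atTop.1 h4
  refine ⟨max q₁ ⌈τ⌉₊, fun q hq => ⟨?_, ?_⟩⟩
  · exact (Nat.le_ceil τ).trans (by exact_mod_cast (le_max_right _ _).trans hq)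
  · have h5 := hq₁ q ((le_max_left _ _).trans hq)
    have e : (1 - τ / q) ^ (q + 1) = (1 + (-τ) / (q : ℝ)) ^ q * (1 + (-τ) / (q : ℝ)) := by
      rw [← pow_succ, neg_div, ← sub_eq_add_neg]
    rw [e]
    exact h5.le

theorem surv_diff {ι α X : Type} (A : ι → Finset α) (B : Finset X)
    (K : ι → α → Finset X) (κ : ℝ) (hK : ∀ i, ∀ a ∈ A i, ((B ∩ K i a).card : ℝ) ≤ κ)
    (w w' : ι → α) (i : ι) (hw : w i ∈ A i) (hoff : ∀ j, j ≠ i → w' j = w j) :
    ((survSet B K w').card : ℝ) - (survSet B K w).card ≤ κ := by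
  have hsub : survSet B K w' ⊆ survSet B K w ∪ (B ∩ K i (w i)) := by
    intro x hx
    unfold survSet at hx ⊢
    rw [mem_filter] at hx
    rw [mem_union, mem_filter, mem_inter]
    by_cases h : x ∈ K i (w i)
    · exact Or.inr ⟨hx.1, h⟩
    · left
      refine ⟨hx.1, fun j => ?_⟩
      by_cases hj : j = i
      · rw [hj]; exact h
      · rw [← hoff j hj]; exact hx.2 j
  have h1 := card_le_card hsub
  have h2 := card_union_le (survSet B K w) (B ∩ K i (w i))
  have h3 : ((survSet B K w').card : ℝ) ≤ (survSet B K w).card + (B ∩ K i (w i)).card := by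
    exact_mod_cast h1.trans h2
  have h4 := hK i (w i) hw
  linarith

theorem surv_mean {ι α X : Type} [Fintype ι] (A : ι → Finset α) (hA : ∀ i, (A i).Nonempty)
    (B : Finset X) (K : ι → α → Finset X) (p : ℝ) (hp : p ≤ 1) (hp0 : 0 ≤ p)
    (hK : ∀ i, ∀ x ∈ B, (((A i).filter fun a => x ∈ K i a).card : ℝ) ≤ p * (A i).card) :
    (1 - p) ^ (Fintype.card ι) * B.card ≤
      mean (Fintype.piFinset A) (fun w => ((survSet B K w).card : ℝ)) := by
  have hP : (0 : ℝ) < ((Fintype.piFinset A).card : ℝ) := by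
    have : (Fintype.piFinset A).Nonempty := Fintype.piFinset_nonempty.2 hA
    exact_mod_cast this.card_pos
  unfold mean
  rw [le_div_iff₀ hP]
  have e1 : ∑ w ∈ Fintype.piFinset A, ((survSet B K w).card : ℝ) =
      ∑ x ∈ B, (((Fintype.piFinset A).filter fun w => ∀ i, x ∉ K i (w i)).card : ℝ) := by
    simp only [survSet, card_filter, Nat.cast_sum]
    rw [sum_comm]
    refine sum_congr rfl (fun y _ => sum_congr rfl (fun x _ => ?_))
    split_ifs <;> rfl
  rw [e1]
  have key : ∀ x ∈ B, (1 - p) ^ (Fintype.card ι) * (Fintype.piFinset A).card ≤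
      (((Fintype.piFinset A).filter fun w => ∀ i, x ∉ K i (w i)).card : ℝ) := by
    intro x hx
    have e2 : (Fintype.piFinset A).filter (fun w => ∀ i, x ∉ K i (w i)) =
        Fintype.piFinset (fun i => (A i).filter fun a => x ∉ K i a) := by
      ext w
      simp only [mem_filter, Fintype.mem_piFinset]
      constructor
      · rintro ⟨h1, h2⟩ i
        exact ⟨h1 i, h2 i⟩
      · intro h
        exact ⟨fun i => (h i).1, fun i => (h i).2⟩
    rw [e2, Fintype.card_piFinset, Fintype.card_piFinset]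
    push_cast
    have e3 : (1 - p) ^ (Fintype.card ι) * ∏ i, ((A i).card : ℝ) =
        ∏ i, ((1 - p) * ((A i).card : ℝ)) := by
      rw [prod_mul_distrib, prod_const, card_univ]
    rw [e3]
    refine prod_le_prod (fun i _ => ?_) (fun i _ => ?_)
    · have : 0 ≤ 1 - p := by linarith
      positivity
    · have h1 := hK i x hx
      have h2 : (((A i).filter fun a => x ∈ K i a).card : ℝ) +
          ((A i).filter fun a => x ∉ K i a).card = (A i).card := by
        exact_mod_cast card_filter_add_card_filter_not (s := A i) (fun a => x ∈ K i a)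
      linarith
  have h3 := card_nsmul_le_sum B _ _ key
  rw [nsmul_eq_mul] at h3
  linarith

/-- Targets `B`; the value `a` of coordinate `i` kills the targets in `K i a`; at most `κ` targets are
killed by one coordinate, every target is killed by coordinate `i` with probability at most `τ/q`.  The
mean number of survivors is at least `|B| (1 - τ/q)^(q+1) ≥ |B| e^{-τ} / 2`, and it changes by at most
`κ` if one coordinate is changed: `mcd_lower` with `t = |B| e^{-τ} / 4`. -/
theorem surv (τ κ β : ℝ) (hτ : 0 < τ) (hκ : 0 < κ) (hβ : 0 < β) :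
    ∃ c' > 0, ∃ q₀ : ℕ, ∀ q ≥ q₀, ∀ {ι α X : Type} [Fintype ι], Fintype.card ι ≤ q + 1 →
      ∀ (A : ι → Finset α), (∀ i, (A i).Nonempty) → ∀ (B : Finset X) (K : ι → α → Finset X),
      β * q ≤ B.card → (∀ i, ∀ a ∈ A i, ((B ∩ K i a).card : ℝ) ≤ κ) →
      (∀ i, ∀ x ∈ B, (((A i).filter fun a => x ∈ K i a).card : ℝ) ≤ τ / q * (A i).card) →
      (((Fintype.piFinset A).filter fun w =>
        ((B.filter fun x => ∀ i, x ∉ K i (w i)).card : ℝ) < Real.exp (-τ) / 4 * B.card).card : ℝ) ≤
        Real.exp (-(c' * q)) * (Fintype.piFinset A).card := by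
  obtain ⟨q₁, hq₁⟩ := surv_pow τ hτ
  have he : 0 < Real.exp (-τ) := Real.exp_pos _
  refine ⟨(β * Real.exp (-τ)) ^ 2 / (64 * κ ^ 2), by positivity, max q₁ 1, ?_⟩
  intro q hq ι α X _ hι A hA B K hB hK1 hK2
  have hq1 : 1 ≤ q := (le_max_right _ _).trans hq
  have hq1' : (1 : ℝ) ≤ q := by exact_mod_cast hq1
  have hq0 : (0 : ℝ) < q := by linarith
  obtain ⟨hτq, hpow⟩ := hq₁ q ((le_max_left _ _).trans hq)
  have hp1 : τ / q ≤ 1 := by rw [div_le_one hq0]; exact hτq
  have hp0 : 0 ≤ τ / q := by positivity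
  have hBc : (0 : ℝ) ≤ B.card := Nat.cast_nonneg _
  have hmean := surv_mean A hA B K (τ / q) hp1 hp0 hK2
  have hmean2 : Real.exp (-τ) / 2 * B.card ≤
      mean (Fintype.piFinset A) (fun w => ((survSet B K w).card : ℝ)) := by
    refine le_trans ?_ hmean
    refine mul_le_mul_of_nonneg_right ?_ hBc
    exact hpow.trans (pow_le_pow_of_le_one (by linarith) (by linarith) hι)
  have ht : 0 ≤ Real.exp (-τ) / 4 * B.card := by positivity
  have hm := mcd_lower A hA (fun w => ((survSet B K w).card : ℝ)) (fun _ => κ)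
    (fun _ => hκ.le) (by
      intro ω hω i x hx
      rw [abs_le]
      constructor
      · have h1 := surv_diff A B K κ hK1 (Function.update ω i x) ω i
          (by rw [Function.update_self]; exact hx)
          (fun j hj => by rw [Function.update_of_ne hj])
        linarith
      · exact surv_diff A B K κ hK1 ω (Function.update ω i x) i
          (Fintype.mem_piFinset.1 hω i) (fun j hj => by rw [Function.update_of_ne hj])) ht
  rcases Nat.eq_zero_or_pos (Fintype.card ι) with h0 | hpos
  · have hempty : (Fintype.piFinset A).filter (fun w =>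
        ((B.filter fun x => ∀ i, x ∉ K i (w i)).card : ℝ) < Real.exp (-τ) / 4 * B.card) = ∅ := by
      rw [filter_eq_empty_iff]
      intro w _
      have : IsEmpty ι := Fintype.card_eq_zero_iff.1 h0
      have e : (B.filter fun x => ∀ i, x ∉ K i (w i)) = B := by
        rw [filter_eq_self]
        intro x _ i
        exact (IsEmpty.false i).elim
      rw [e, not_lt]
      have h1 : Real.exp (-τ) ≤ 1 := by
        rw [← Real.exp_zero]
        exact Real.exp_le_exp.2 (by linarith)
      nlinarith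
    rw [hempty, card_empty, Nat.cast_zero]
    positivity
  · have hsub : (Fintype.piFinset A).filter (fun w =>
        ((B.filter fun x => ∀ i, x ∉ K i (w i)).card : ℝ) < Real.exp (-τ) / 4 * B.card) ⊆
        (Fintype.piFinset A).filter (fun ω => ((survSet B K ω).card : ℝ) ≤
          mean (Fintype.piFinset A) (fun w => ((survSet B K w).card : ℝ)) -
            Real.exp (-τ) / 4 * B.card) := by
      intro w hw
      rw [mem_filter] at hw ⊢
      refine ⟨hw.1, ?_⟩
      have h1 : ((survSet B K w).card : ℝ) < Real.exp (-τ) / 4 * B.card := by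
        have h2 := hw.2
        unfold survSet
        convert h2
      linarith
    refine (Nat.cast_le.2 (card_le_card hsub)).trans (hm.trans ?_)
    refine mul_le_mul_of_nonneg_right ?_ (Nat.cast_nonneg _)
    apply Real.exp_le_exp.2
    rw [neg_le_neg_iff]
    have hs : ∑ _i : ι, κ ^ 2 = Fintype.card ι * κ ^ 2 := by
      rw [sum_const, nsmul_eq_mul, card_univ]
    rw [hs]
    have hι' : (Fintype.card ι : ℝ) ≤ 2 * q := by
      have : (Fintype.card ι : ℝ) ≤ q + 1 := by exact_mod_cast hι
      linarith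
    have hιp : (0 : ℝ) < Fintype.card ι := by exact_mod_cast hpos
    rw [le_div_iff₀ (by positivity)]
    have hBq : (β * q) ^ 2 ≤ (B.card : ℝ) ^ 2 := pow_le_pow_left₀ (by positivity) hB 2
    calc (β * Real.exp (-τ)) ^ 2 / (64 * κ ^ 2) * q * (2 * (Fintype.card ι * κ ^ 2))
        ≤ (β * Real.exp (-τ)) ^ 2 / (64 * κ ^ 2) * q * (2 * (2 * q * κ ^ 2)) := by
          gcongr
      _ = Real.exp (-τ) ^ 2 / 16 * (β * q) ^ 2 := by
          field_simp
          ring
      _ ≤ Real.exp (-τ) ^ 2 / 16 * (B.card : ℝ) ^ 2 := by gcongr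
      _ = (Real.exp (-τ) / 4 * B.card) ^ 2 := by ring

end P045
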