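import Vale.Agent.P045R.Marg
import Vale.Agent.P045R.Surv

/-!
# P045R: good events of the three stages
-/

namespace P045

open Finset
open scoped Classical

section
variable {q : ℕ} [Fact q.Prime]

/-- Stage A, first event: many points of every line are on no `l_g`. -/
def GA1 (S : Dir q → ZMod q) : Prop := ∀ k : Ln q, (q : ℝ) / 16 ≤ ((Sim S k).card : ℝ)

/-- The points `x` of `l_f` (for a gadget `γ` of direction `f`) such that `x` and the points planted by
`x` on the moved lines are on no `l_g`, `g ≠ f` (the `l_g` that are moved lines of `γ` are ignored). -/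
noncomputable def VA (S : Dir q → ZMod q) (f : Dir q) (γ : Gd q) (k : Fin 9) : Finset (Pt q) :=
  (pts (lf f γ)).filter fun x => ∀ g, g ≠ f → (∀ y, ml γ y ≠ (g, S g)) →
    x ∉ pts (g, S g) ∧ ∀ s i, i ≠ k → meet (thr (γ.2 (s, k)) x) (ml γ (s, i)) ∉ pts (g, S g)

/-- Stage A, second event. -/
def GA2 (S : Dir q → ZMod q) : Prop :=
  ∀ f, ∀ γ ∈ GadSet q f, ∀ k, Real.exp (-17) / 4 * q ≤ ((VA S f γ k).card : ℝ)

/-- Stage B event. -/
def GB (S : Dir q → ZMod q) (H : Dir q → Bool → Pt q) : Prop :=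
  ∀ f, ∀ p ∈ Sim S (f, S f), cF * q ≤ ((Free H f p).card : ℝ)

end

end P045
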