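import Vale.Agent.P045R.Mcd

/-!
# P045R, module SURV: survival lemma

`B` a finite set of targets; coordinate `i` with value `x` kills the targets `t` with `K i x t`. Every
value kills at most `D` targets, every target is killed by at most a proportion `θ` of the values of a
coordinate. Then at least half of the expected number `|B| exp (-2 θ n)` of targets survive, except
for a proportion `exp (-(|B| exp (-2 θ n))² / (8 n D²))` of `ω`.
-/

namespace P045

open Finset
open scoped Classical

section surv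

variable {ι α β : Type*} [Fintype ι]

/-- The surviving targets. -/
noncomputable def survSet (B : Finset β) (K : ι → α → β → Prop) (ω : ι → α) : Finset β :=
  B.filter fun t => ∀ i, ¬ K i (ω i) t

theorem mem_survSet {B : Finset β} {K : ι → α → β → Prop} {ω : ι → α} {t : β} :
    t ∈ survSet B K ω ↔ t ∈ B ∧ ∀ i, ¬ K i (ω i) t := by
  simp [survSet]

theorem surv_mean (A : ι → Finset α) (hA : ∀ i, (A i).Nonempty) (B : Finset β)
    (K : ι → α → β → Prop) {θ : ℝ} (hθ0 : 0 ≤ θ) (hθ : θ ≤ 1 / 2)
    (hK : ∀ i, ∀ t ∈ B, (((A i).filter fun x => K i x t).card : ℝ) ≤ θ * (A i).card) :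
    (B.card : ℝ) * Real.exp (-(2 * θ * Fintype.card ι)) ≤
      mean (Fintype.piFinset A) fun ω => ((survSet B K ω).card : ℝ) := by
  have hP : (Fintype.piFinset A).Nonempty := by
    rw [Fintype.piFinset_nonempty]
    exact hA
  have hPc : (0 : ℝ) < ((Fintype.piFinset A).card : ℝ) := by exact_mod_cast hP.card_pos
  unfold mean
  rw [le_div_iff₀ hPc]
  have h1 : ∑ ω ∈ Fintype.piFinset A, ((survSet B K ω).card : ℝ) =
      ∑ t ∈ B, (((Fintype.piFinset A).filter fun ω => ∀ i, ¬ K i (ω i) t).card : ℝ) := by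
    unfold survSet
    simp only [card_filter]
    push_cast
    rw [sum_comm]
  rw [h1]
  have h2 : ∀ t ∈ B, Real.exp (-(2 * θ * Fintype.card ι)) * (Fintype.piFinset A).card ≤
      (((Fintype.piFinset A).filter fun ω => ∀ i, ¬ K i (ω i) t).card : ℝ) := by
    intro t ht
    have h3 : (Fintype.piFinset A).filter (fun ω => ∀ i, ¬ K i (ω i) t) =
        Fintype.piFinset fun i => (A i).filter fun x => ¬ K i x t := by
      ext ω
      simp only [mem_filter, Fintype.mem_piFinset, forall_and]
    rw [h3, Fintype.card_piFinset, Fintype.card_piFinset]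
    push_cast
    have h4 : Real.exp (-(2 * θ * Fintype.card ι)) = ∏ _i : ι, Real.exp (-(2 * θ)) := by
      rw [prod_const, card_univ, ← Real.exp_nat_mul]
      congr 1
      ring
    rw [h4, ← prod_mul_distrib]
    refine prod_le_prod (fun i _ => by positivity) fun i _ => ?_
    have h5 : (((A i).filter fun x => ¬ K i x t).card : ℝ) =
        (A i).card - (((A i).filter fun x => K i x t).card : ℝ) := by
      have := card_filter_add_card_filter_not (s := A i) (fun x => K i x t)
      rw [eq_sub_iff_add_eq, add_comm]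
      exact_mod_cast this
    rw [h5]
    have h6 : Real.exp (-(2 * θ)) ≤ 1 - θ := by
      -- `exp(2θ) (1 - θ) ≥ 1`
      have h7 : 1 / (1 - θ) ≤ Real.exp (2 * θ) := by
        have h8 : 1 / (1 - θ) ≤ 1 + 2 * θ := by
          rw [div_le_iff₀ (by linarith)]
          nlinarith
        refine h8.trans ?_
        have := Real.add_one_le_exp (2 * θ)
        linarith
      rw [Real.exp_neg]
      rw [inv_le_comm₀ (Real.exp_pos _) (by linarith), ← one_div]
      exact h7
    have h9 := hK i t ht
    have h10 : (0 : ℝ) ≤ ((A i).card : ℝ) := Nat.cast_nonneg _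
    nlinarith
  calc (B.card : ℝ) * Real.exp (-(2 * θ * Fintype.card ι)) * (Fintype.piFinset A).card
      = ∑ t ∈ B, Real.exp (-(2 * θ * Fintype.card ι)) * ((Fintype.piFinset A).card : ℝ) := by
        rw [sum_const, nsmul_eq_mul]
        ring
    _ ≤ _ := sum_le_sum h2

theorem surv_lip (A : ι → Finset α) (B : Finset β) (K : ι → α → β → Prop) {D : ℝ}
    (hD : ∀ i, ∀ x ∈ A i, ((B.filter fun t => K i x t).card : ℝ) ≤ D) {ω : ι → α}
    (hω : ω ∈ Fintype.piFinset A) (i : ι) {x : α} (hx : x ∈ A i) :
    |((survSet B K (Function.update ω i x)).card : ℝ) - ((survSet B K ω).card : ℝ)| ≤ D := by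
  have key : ∀ (ω' : ι → α) (y : α), y ∈ A i →
      ((survSet B K ω').card : ℝ) ≤ (survSet B K (Function.update ω' i y)).card + D := by
    intro ω' y hy
    have h1 : survSet B K ω' ⊆ survSet B K (Function.update ω' i y) ∪ B.filter fun t => K i y t := by
      intro t ht
      rw [mem_survSet] at ht
      rw [mem_union, mem_survSet, mem_filter]
      by_cases hk : K i y t
      · exact Or.inr ⟨ht.1, hk⟩
      · left
        refine ⟨ht.1, fun j => ?_⟩
        by_cases hj : j = i
        · subst hj
          rwa [Function.update_self]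
        · rw [Function.update_of_ne hj]
          exact ht.2 j
    have h2 := (card_le_card h1).trans (card_union_le _ _)
    have h3 : ((survSet B K ω').card : ℝ) ≤ (survSet B K (Function.update ω' i y)).card +
        ((B.filter fun t => K i y t).card : ℝ) := by exact_mod_cast h2
    have h4 := hD i y hy
    linarith
  rw [abs_le]
  have h1 := key ω x hx
  have h2 := key (Function.update ω i x) (ω i) (Fintype.mem_piFinset.1 hω i)
  rw [Function.update_idem, Function.update_eq_self] at h2
  constructor <;> linarith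

/-- Module SURV. -/
theorem survive (A : ι → Finset α) (hA : ∀ i, (A i).Nonempty) (B : Finset β)
    (K : ι → α → β → Prop) {D θ : ℝ} (hD0 : 0 ≤ D)
    (hD : ∀ i, ∀ x ∈ A i, ((B.filter fun t => K i x t).card : ℝ) ≤ D)
    (hθ0 : 0 ≤ θ) (hθ : θ ≤ 1 / 2)
    (hK : ∀ i, ∀ t ∈ B, (((A i).filter fun x => K i x t).card : ℝ) ≤ θ * (A i).card) :
    (((Fintype.piFinset A).filter fun ω =>
      ((survSet B K ω).card : ℝ) ≤ B.card * Real.exp (-(2 * θ * Fintype.card ι)) / 2).card : ℝ) ≤
      Real.exp (-((B.card * Real.exp (-(2 * θ * Fintype.card ι))) ^ 2 /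
        (8 * (Fintype.card ι * D ^ 2)))) * (Fintype.piFinset A).card := by
  set M : ℝ := B.card * Real.exp (-(2 * θ * Fintype.card ι)) with hM
  have hM0 : 0 ≤ M := by positivity
  have hmean := surv_mean A hA B K hθ0 hθ hK
  rw [← hM] at hmean
  have h := mcd_lower A hA (fun ω => ((survSet B K ω).card : ℝ)) (fun _ => D) (fun _ => hD0)
    (fun ω hω i x hx => surv_lip A B K hD hω i hx) (t := M / 2) (by positivity)
  refine (le_trans (Nat.cast_le.2 (card_le_card ?_)) h).trans (le_of_eq ?_)
  · intro ω hω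
    rw [mem_filter] at hω ⊢
    exact ⟨hω.1, by linarith [hω.2]⟩
  · congr 3
    rw [sum_const, card_univ, nsmul_eq_mul]
    ring

/-- Module SURV, in the form with killed sets. -/
theorem survX (A : ι → Finset α) (hA : ∀ i, (A i).Nonempty) (B : Finset β)
    (K : ι → α → Finset β) (D p : ℝ) (hD : 0 < D) (hp0 : 0 ≤ p) (hp : p ≤ 1 / 2)
    (hK : ∀ i, ∀ x ∈ A i, ((K i x ∩ B).card : ℝ) ≤ D)
    (hP : ∀ i, ∀ b ∈ B, (((A i).filter (fun x => b ∈ K i x)).card : ℝ) ≤ p * (A i).card) :
    (((Fintype.piFinset A).filter fun w =>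
      ((B.filter fun b => ∀ i, b ∉ K i (w i)).card : ℝ) <
        Real.exp (-(2 * p * Fintype.card ι)) / 2 * B.card).card : ℝ) ≤
      Real.exp (-((Real.exp (-(2 * p * Fintype.card ι)) / 2 * B.card) ^ 2 /
        (2 * (Fintype.card ι * D ^ 2)))) * (Fintype.piFinset A).card := by
  obtain ⟨K', hK'⟩ : ∃ K' : ι → α → β → Prop, ∀ i x t, K' i x t ↔ t ∈ K i x :=
    ⟨fun i x t => t ∈ K i x, fun _ _ _ => Iff.rfl⟩
  have hD' : ∀ i, ∀ x ∈ A i, ((B.filter fun t => K' i x t).card : ℝ) ≤ D := by
    intro i x hx
    refine le_trans (Nat.cast_le.2 (card_le_card ?_)) (hK i x hx)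
    intro t ht
    rw [mem_filter, hK'] at ht
    rw [mem_inter]
    exact ⟨ht.2, ht.1⟩
  have hP' : ∀ i, ∀ t ∈ B, (((A i).filter fun x => K' i x t).card : ℝ) ≤ p * (A i).card := by
    intro i t ht
    refine le_trans (Nat.cast_le.2 (card_le_card ?_)) (hP i t ht)
    intro x hx
    rw [mem_filter, hK'] at hx
    rw [mem_filter]
    exact hx
  have h := survive A hA B K' hD.le hD' hp0 hp hP'
  refine (le_trans (Nat.cast_le.2 (card_le_card ?_)) h).trans (le_of_eq ?_)
  · intro ω hω
    rw [mem_filter] at hω ⊢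
    refine ⟨hω.1, ?_⟩
    have h2 := hω.2.le
    have h3 : ((survSet B K' ω).card : ℝ) ≤
        ((B.filter fun b => ∀ i, b ∉ K i (ω i)).card : ℝ) := by
      refine Nat.cast_le.2 (card_le_card ?_)
      intro t ht
      rw [mem_survSet] at ht
      rw [mem_filter]
      exact ⟨ht.1, fun i => by rw [← hK']; exact ht.2 i⟩
    have e : (B.card : ℝ) * Real.exp (-(2 * p * Fintype.card ι)) / 2 =
        Real.exp (-(2 * p * Fintype.card ι)) / 2 * B.card := by ring
    rw [e]
    exact h3.trans h2
  · congr 3
    ring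

end surv

end P045
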