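import Vale.Agent.P045R.Nu

/-!
# P045R, module TOOLS: averages of products, elementary symmetric functions
-/

namespace P045

open Finset
open scoped Classical

theorem avg_pi_prod {ι α : Type*} [Fintype ι] (A : ι → Finset α) (hA : ∀ i, (A i).Nonempty)
    (M : Finset ι) (F : ι → α → ℝ) :
    avg (Fintype.piFinset A) (fun w => ∏ i ∈ M, F i (w i)) = ∏ i ∈ M, avg (A i) (F i) := by
  have h1 : ∀ w : ι → α, ∏ i ∈ M, F i (w i) = ∏ i, (if i ∈ M then F i (w i) else 1) := by
    intro w
    rw [Finset.prod_ite_mem, Finset.univ_inter]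
  have h2 : ∏ i ∈ M, avg (A i) (F i) = ∏ i, (if i ∈ M then avg (A i) (F i) else 1) := by
    rw [Finset.prod_ite_mem, Finset.univ_inter]
  rw [h2]
  unfold avg
  simp only [h1]
  have h3 : ∑ w ∈ Fintype.piFinset A, ∏ i, (if i ∈ M then F i (w i) else 1) =
      ∏ i, ∑ a ∈ A i, (if i ∈ M then F i a else 1) :=
    (Finset.prod_univ_sum A (fun i a => if i ∈ M then F i a else 1)).symm
  rw [h3, Fintype.card_piFinset, Nat.cast_prod, ← Finset.prod_div_distrib]
  apply Finset.prod_congr rfl
  intro i _
  by_cases hi : i ∈ M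
  · simp only [hi, if_true]
  · have h0 : ((A i).card : ℝ) ≠ 0 := by
      have := (hA i).card_pos
      positivity
    simp only [hi, if_false, sum_const, nsmul_eq_mul, mul_one]
    exact div_self h0

private theorem tools_bern (S x : ℝ) (hS : 0 ≤ S) (hx : 0 ≤ x) (n : ℕ) :
    S ^ (n + 1) + (n + 1 : ℕ) * (x * S ^ n) ≤ (S + x) ^ (n + 1) := by
  induction n with
  | zero => simp
  | succ n ih =>
    have h1 : (S + x) ^ (n + 1 + 1) = (S + x) * (S + x) ^ (n + 1) := by ring
    rw [h1]
    have h2 := mul_le_mul_of_nonneg_left ih (add_nonneg hS hx)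
    refine le_trans ?_ h2
    have h3 : 0 ≤ ((n : ℝ) + 1) * (x * x) * S ^ n := by positivity
    push_cast
    ring_nf
    ring_nf at h3
    linarith

private theorem tools_esym {ι : Type*} (x : ι → ℝ) (hx : ∀ i, 0 ≤ x i) (s : Finset ι) :
    ∀ m : ℕ, ∑ M ∈ s.powersetCard m, ∏ i ∈ M, x i ≤ (∑ i ∈ s, x i) ^ m / m.factorial := by
  induction s using Finset.induction_on with
  | empty =>
    intro m
    cases m with
    | zero => simp
    | succ m => simp [Finset.powersetCard_eq_empty.2 (show (∅ : Finset ι).card < m + 1 by simp)]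
  | insert a s ha ih =>
    intro m
    cases m with
    | zero => simp
    | succ m =>
      have hS : 0 ≤ ∑ i ∈ s, x i := sum_nonneg fun i _ => hx i
      rw [Finset.powersetCard_succ_insert ha, Finset.sum_union, Finset.sum_image,
        Finset.sum_insert ha]
      · have e1 : ∑ M ∈ s.powersetCard m, ∏ i ∈ insert a M, x i =
            x a * ∑ M ∈ s.powersetCard m, ∏ i ∈ M, x i := by
          rw [mul_sum]
          apply sum_congr rfl
          intro M hM
          have hM' := (mem_powersetCard.1 hM).1
          rw [prod_insert (fun h => ha (hM' h))]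
        rw [e1]
        have i1 := ih (m + 1)
        have i2 := mul_le_mul_of_nonneg_left (ih m) (hx a)
        have i3 := tools_bern (∑ i ∈ s, x i) (x a) hS (hx a) m
        generalize (∑ i ∈ s, x i) = S at *
        have hf : (0 : ℝ) < (m + 1).factorial := by positivity
        have hm : (0 : ℝ) < m.factorial := by positivity
        have e2 : ((m + 1).factorial : ℝ) = (m + 1 : ℕ) * m.factorial := by
          rw [Nat.factorial_succ]; push_cast; ring
        have e3 : x a * (S ^ m / m.factorial) =
            ((m + 1 : ℕ) * (x a * S ^ m)) / (m + 1).factorial := by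
          rw [e2]
          have : ((m + 1 : ℕ) : ℝ) ≠ 0 := by positivity
          field_simp
        calc _ ≤ S ^ (m + 1) / (m + 1).factorial + x a * (S ^ m / m.factorial) := add_le_add i1 i2
          _ = (S ^ (m + 1) + (m + 1 : ℕ) * (x a * S ^ m)) / (m + 1).factorial := by
            rw [e3, add_div]
          _ ≤ (x a + S) ^ (m + 1) / (m + 1).factorial := by
            rw [add_comm (x a) S]
            exact div_le_div_of_nonneg_right i3 hf.le
      · intro M hM M' hM' h
        have h1 := (mem_powersetCard.1 (Finset.mem_coe.1 hM)).1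
        have h2 := (mem_powersetCard.1 (Finset.mem_coe.1 hM')).1
        have e1 : (insert a M).erase a = M := erase_insert (fun h => ha (h1 h))
        have e2 : (insert a M').erase a = M' := erase_insert (fun h => ha (h2 h))
        rw [← e1, ← e2]
        exact congrArg (fun t => Finset.erase t a) h
      · rw [Finset.disjoint_left]
        intro M hM hM'
        obtain ⟨M', _, rfl⟩ := mem_image.1 hM'
        exact ha ((mem_powersetCard.1 hM).1 (mem_insert_self a M'))

theorem esym_le {ι : Type*} [Fintype ι] (x : ι → ℝ) (hx : ∀ i, 0 ≤ x i) (m : ℕ) :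
    ∑ M ∈ (univ : Finset ι).powersetCard m, ∏ i ∈ M, x i ≤ (∑ i, x i) ^ m / m.factorial :=
  tools_esym x hx univ m

theorem choose_card_eq {ι : Type*} [Fintype ι] (P : ι → Prop) (m : ℕ) :
    ((((univ : Finset ι).filter P).card.choose m : ℕ) : ℝ) =
      ∑ M ∈ (univ : Finset ι).powersetCard m, ∏ i ∈ M, ind (P i) := by
  have h1 : ∀ M : Finset ι, ∏ i ∈ M, ind (P i) = if M ⊆ (univ : Finset ι).filter P then 1 else 0 := by
    intro M
    by_cases h : M ⊆ (univ : Finset ι).filter P
    · rw [if_pos h]
      apply Finset.prod_eq_one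
      intro i hi
      have := (mem_filter.1 (h hi)).2
      simp [ind, this]
    · rw [if_neg h]
      obtain ⟨i, hi, hi'⟩ := Finset.not_subset.1 h
      apply Finset.prod_eq_zero hi
      have : ¬ P i := fun h => hi' (mem_filter.2 ⟨mem_univ _, h⟩)
      simp [ind, this]
  simp only [h1]
  rw [Finset.sum_ite, sum_const_zero, add_zero, sum_const, nsmul_eq_mul, mul_one,
    ← Finset.card_powersetCard]
  congr 2
  ext M
  simp only [mem_powersetCard, mem_filter, subset_univ, true_and]
  tauto

/-- `C^m / m! ≤ (e C / m)^m`. -/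
theorem pow_div_factorial_le {C : ℝ} (hC : 0 ≤ C) {m : ℕ} (hm : 0 < m) :
    C ^ m / m.factorial ≤ (Real.exp 1 * C / m) ^ m := by
  have hm' : (0 : ℝ) < m := by exact_mod_cast hm
  have h1 := Real.pow_div_factorial_le_exp (m : ℝ) hm'.le m
  have h2 : Real.exp (m : ℝ) = Real.exp 1 ^ m := by
    rw [← Real.exp_nat_mul, mul_one]
  rw [h2] at h1
  have h3 : (Real.exp 1 * C / m) ^ m = (C ^ m / (m : ℝ) ^ m) * Real.exp 1 ^ m := by
    rw [div_pow, mul_pow]
    ring
  rw [h3]
  have h4 : C ^ m / m.factorial = (C ^ m / (m : ℝ) ^ m) * ((m : ℝ) ^ m / m.factorial) := by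
    have : (m : ℝ) ^ m ≠ 0 := by positivity
    field_simp
  rw [h4]
  exact mul_le_mul_of_nonneg_left h1 (by positivity)

end P045
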